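import Vale.Agent.P028.TStm

namespace Vale.Agent.P028.T

open Real Finset MeasureTheory Filter Metric

theorem an_log {z : ℝ} (hz : 1 ≤ z) {n : ℕ} (hn : 0 < n) : z * log z * Lz z n ≤ log n := by
  unfold Lz
  rw [mul_sum]
  have hp : ∀ p ∈ n.primeFactors, (p : ℝ) ≠ 0 := fun p hp =>
    Nat.cast_ne_zero.2 (Nat.prime_of_mem_primeFactors hp).ne_zero
  calc _ ≤ ∑ p ∈ n.primeFactors.filter (fun p : ℕ => z < (p : ℝ)), log p :=
        sum_le_sum fun p hp => by
          have h := (mem_filter.1 hp).2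
          have h0 : (0 : ℝ) < p := by linarith
          calc z * log z * (p : ℝ)⁻¹ = z / p * log z := by ring
            _ ≤ 1 * log p := mul_le_mul ((div_le_one h0).2 h.le) (log_le_log (by linarith) h.le)
              (log_nonneg hz) zero_le_one
            _ = _ := one_mul _
    _ ≤ ∑ p ∈ n.primeFactors, log p :=
        sum_le_sum_of_subset_of_nonneg (filter_subset _ _) fun p _ _ => log_natCast_nonneg p
    _ = log (∏ p ∈ n.primeFactors, (p : ℝ)) := (log_prod hp).symm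
    _ ≤ log n := log_le_log (prod_pos fun p h => (Nat.cast_nonneg p).lt_of_ne' (hp p h))
        (by rw [← Nat.cast_prod]; exact Nat.cast_le.2 (Nat.le_of_dvd hn (Nat.prod_primeFactors_dvd n)))

theorem an_sav {C z κ t : ℝ} {ψ : ℕ → ℝ} {S : Finset ℕ} {E : Finset (ℕ × ℕ)} {N α β i j : ℕ}
    (hC : 0 ≤ C) (ht : 0 ≤ t) (hS : Blk0 ψ S) (hE : E ⊆ S ×ˢ S)
    (h : ∀ (F : Finset (ℕ × ℕ)) (α β i j : ℕ), F ⊆ S ×ˢ S → 0 < α → 0 < β → StrF F N α β i j →
      (∀ e ∈ F, ψ e.1 * cf e.2 e.1 ≤ t ∧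
        (κ ≤ Lz z (cf e.1 (α * N)) ∨ κ ≤ Lz z (cf (α * N) e.1))) →
      mV ψ (F.image Prod.fst) ≤ C * (t / β * 2 ^ i / 2 ^ j))
    (hα : 0 < α) (hβ : 0 < β) (hL : Lz z (α * β) < κ)
    (hD : ∀ e ∈ E, Dd ψ e.1 e.2 ≤ t ∧ 5 * κ ≤ Lz z (cf e.1 e.2 * cf e.2 e.1)) :
    Sav ψ E t t C N α β i j := by
  intro F hF hs
  have hF' := hF.trans hE
  set F1 := F.filter fun e => κ ≤ Lz z (cf e.1 (α * N)) ∨ κ ≤ Lz z (cf (α * N) e.1)
  set F2 := F.filter fun e => κ ≤ Lz z (cf e.2 (β * N)) ∨ κ ≤ Lz z (cf (β * N) e.2)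
  have s1 : F1 ⊆ F := filter_subset _ _
  have s2 : F2 ⊆ F := filter_subset _ _
  have hu : F ⊆ F1 ∪ F2 := fun e he => by
    by_contra hn
    simp only [F1, F2, mem_union, mem_filter, he, true_and, not_or, not_le] at hn
    have a := (hD e (hF he)).2
    rw [(hs e he).1.1, (hs e he).1.2, show ∀ a b a' b' : ℕ, α * a * b' * (β * a' * b) =
      α * β * (a * b) * (a' * b') from fun _ _ _ _ => by ring] at a
    have b1 := Lz_mul z (α * β * (cf e.1 (α * N) * cf (α * N) e.1))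
      (cf e.2 (β * N) * cf (β * N) e.2)
    have b2 := Lz_mul z (α * β) (cf e.1 (α * N) * cf (α * N) e.1)
    have b3 := Lz_mul z (cf e.1 (α * N)) (cf (α * N) e.1)
    have b4 := Lz_mul z (cf e.2 (β * N)) (cf (β * N) e.2)
    linarith [hn.1.1, hn.1.2, hn.2.1, hn.2.2]
  have a1 := h F1 α β i j (s1.trans hF') hα hβ (fun e he => hs e (s1 he)) fun e he =>
    ⟨(le_max_left _ _).trans (hD e (hF (s1 he))).1, (mem_filter.1 he).2⟩
  have a2 := h (F2.image Prod.swap) β α j i (swap_sub (s2.trans hF')) hβ hα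
    (StrF.swap fun e he => hs e (s2 he)) fun e he => by
      obtain ⟨x, hx, rfl⟩ := mem_image.1 he
      exact ⟨(le_max_right _ _).trans (hD x (hF (s2 hx))).1, (mem_filter.1 hx).2⟩
  rw [fst_swap] at a2
  have c1 := (hS.mE_le_mul (s1.trans hF')).trans (mul_le_mul a1
    (hS.mV_mono (snd_sub hF') (image_subset_image s1)) (hS.mV_nonneg (snd_sub (s1.trans hF')))
    (by positivity))
  have c2 := (hS.mE_le_mul (s2.trans hF')).trans (mul_le_mul
    (hS.mV_mono (fst_sub hF') (image_subset_image s2)) a2 (hS.mV_nonneg (snd_sub (s2.trans hF')))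
    (hS.mV_nonneg (fst_sub hF')))
  linarith [hS.mE_union (s1.trans hF') (s2.trans hF') hu]

theorem an_pf (hMA : S_MA) (hSav1 : S_Sav1) (hAn1 : S_An1) : S_An := by
  intro Λ hΛ
  obtain ⟨C, hC, hMA⟩ := hMA
  obtain ⟨C1, hC1, hA⟩ := hAn1 (5 * Λ) (by positivity)
  refine ⟨C * (C1 + 2), exp (200 * Λ), by positivity, fun z K t ψ S E hz hK ht hS hE hD => ?_⟩
  have hz1 : 1 ≤ z := (one_le_exp (by positivity)).trans hz
  have hl : 200 * Λ ≤ log z := (le_log_iff_exp_le (by linarith)).2 hz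
  have hD' : ∀ e ∈ E, ψ e.1 * cf e.2 e.1 ≤ t ∧ ψ e.2 * cf e.1 e.2 ≤ t := fun e he =>
    max_le_iff.1 (hD e he).1
  set X := exp (-(Λ * z * K)) with hX
  have hX0 : 0 < X := exp_pos _
  refine (hMA ψ S E t t ((C1 + 2) * t ^ 2 * X) hS hE ht ht (by positivity) hD'
    fun N α β hN hα hβ => ?_).trans (le_of_eq (by ring))
  have a1 : (1 : ℝ) ≤ α := by exact_mod_cast hα
  have b1 : (1 : ℝ) ≤ β := by exact_mod_cast hβ
  have y1 : (1 : ℝ) ≤ α * β := one_le_mul_of_one_le_of_one_le a1 b1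
  obtain ⟨d0, hd⟩ := pow_unbounded_of_one_lt
    (((α : ℝ) * β) ^ (97 / 100 : ℝ) * (t / β + t / α) / (t ^ 2 * X)) (one_lt_two (α := ℝ))
  rw [div_lt_iff₀ (by positivity), mul_comm ((2 : ℝ) ^ d0), ← div_lt_iff₀ (by positivity)] at hd
  have e : ∀ η : ℝ, ((α : ℝ) * β) ^ (97 / 100 : ℝ) *
      (η * (t / β * (t / α)) + (t / β + t / α) / 2 ^ d0) =
      η * ((α : ℝ) * β) ^ (-(3 / 100) : ℝ) * t ^ 2 +
        ((α : ℝ) * β) ^ (97 / 100 : ℝ) * (t / β + t / α) / 2 ^ d0 := fun η => by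
    have : ((α : ℝ) * β) ^ (97 / 100 : ℝ) = ((α : ℝ) * β) ^ (-(3 / 100) : ℝ) * (α * β) := by
      rw [← rpow_add_one (by positivity)]; norm_num
    rw [this]
    field_simp
  have t2 : 0 < t ^ 2 * X := by positivity
  by_cases hL : K / 5 ≤ Lz z (α * β)
  · refine ⟨1, d0, zero_le_one, fun i j _ => hSav1 ψ S E t t N α β i j hS hE hN hα hβ ht.le ht.le hD',
      ?_⟩
    have h1 := an_log hz1 (Nat.mul_pos hα hβ)
    have h2 : z * (200 * Λ) * (K / 5) ≤ z * log z * Lz z (α * β) :=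
      mul_le_mul (by gcongr) hL (by positivity) (mul_nonneg (by linarith) (log_nonneg hz1))
    have h3 : ((α : ℝ) * β) ^ (-(3 / 100) : ℝ) ≤ X := by
      rw [rpow_def_of_pos (by linarith), hX, exp_le_exp]
      push_cast at h1
      have : 0 ≤ Λ * z * K := by positivity
      linarith
    have h4 := mul_le_mul_of_nonneg_right h3 (sq_nonneg t)
    rw [e]
    nlinarith [mul_pos hC1 t2]
  · refine ⟨C1 * X, d0, by positivity, fun i j _ => an_sav (κ := K / 5) (z := z) (by positivity)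
      ht.le hS hE (fun F α β i j hF hα hβ hs h => ?_) hα hβ (not_le.1 hL)
      fun e he => ⟨(hD e he).1, by linarith [(hD e he).2]⟩, ?_⟩
    · have := hA z (K / 5) t ψ S F N α β i j hz1 ht.le hS hF hN hα hβ hs h
      rwa [show 5 * Λ * z * (K / 5) = Λ * z * K by ring] at this
    · have h3 : ((α : ℝ) * β) ^ (-(3 / 100) : ℝ) ≤ 1 :=
        rpow_le_one_of_one_le_of_nonpos y1 (by norm_num)
      have h4 := mul_le_mul_of_nonneg_right h3 (mul_pos hC1 t2).le
      rw [e]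
      nlinarith

end Vale.Agent.P028.T
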