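import Vale.Agent.P028.TStm

namespace Vale.Agent.P028.T

open Real Finset MeasureTheory Filter Metric

theorem an1_pf (hML : S_ML) (hRk1 : S_Rk1) (hRk2 : S_Rk2) : S_An1 := by
  classical
  intro Λ hΛ
  obtain ⟨C1, h1, k1⟩ := hRk1 Λ hΛ
  obtain ⟨C2, h2, k2⟩ := hRk2 Λ hΛ
  refine ⟨C1 + C2, by positivity, fun z κ t ψ S F N α β i j hz ht hS hF hN hα hβ hs hb => ?_⟩
  have hM := Nat.mul_pos hα hN
  have hβ' : (0 : ℝ) < β := by exact_mod_cast hβ
  have key := hML.2 ψ (F.image Prod.fst) (α * N) (t / (β * 2 ^ j))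
    (fun b => C1 * exp (-(Λ * z * κ)) * 2 ^ i + if κ ≤ Lz z b then 2 ^ i else 0) hM (by positivity)
    (fun q hq => ?_) fun b _ => ?_
  · refine key.trans ?_
    simp only [mul_add, sum_add_distrib, mul_ite, mul_zero, ← sum_filter, ← sum_mul, hML.1 _ hM]
    have := mul_le_mul_of_nonneg_left (mul_le_mul_of_nonneg_right (k2 z κ _ hz hM)
      (by positivity : (0 : ℝ) ≤ 2 ^ i)) (by positivity : 0 ≤ t / (β * 2 ^ j))
    refine (add_le_add_right this _).trans (le_of_eq ?_)
    field_simp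
  · obtain ⟨e, he, rfl⟩ := mem_image.1 hq
    have a := hS.1 _ (mem_product.1 (hF he)).1
    refine ⟨a.1, a.2.1.le, ?_⟩
    have b := (hb e he).1
    have d : ((2 : ℝ) ^ j) ≤ cf e.2 (β * N) := by exact_mod_cast (hs e he).2.2.1
    rw [(hs e he).1.2] at b
    push_cast at b
    rw [le_div_iff₀ (by positivity)]
    refine le_trans ?_ b
    have := a.2.1.le
    calc _ = ψ e.1 * (β * 2 ^ j * cf (α * N) e.1) := by ring
      _ ≤ _ := by gcongr
  · have c0 : 0 ≤ C1 * exp (-(Λ * z * κ)) * 2 ^ i := by positivity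
    split_ifs with hk
    · have := card_fibre hM ((F.image Prod.fst).filter fun q => cf (α * N) q = b)
        (Finset.Ico (2 ^ i) (2 ^ (i + 1))) b fun q hq => by
          obtain ⟨e, he, rfl⟩ := mem_image.1 (mem_filter.1 hq).1
          exact ⟨(mem_filter.1 hq).2, Finset.mem_Ico.2 (hs e he).2.1⟩
      rw [Nat.card_Ico, pow_succ, mul_two, Nat.add_sub_cancel] at this
      exact le_add_of_nonneg_of_le c0 (by exact_mod_cast this)
    · rw [add_zero]
      refine le_trans (Nat.cast_le.2 (card_fibre hM _ _ b fun q hq => ?_)) (k1 z κ i hz)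
      obtain ⟨e, he, rfl⟩ := mem_image.1 (mem_filter.1 hq).1
      have e1 := (mem_filter.1 hq).2
      exact ⟨e1, mem_filter.2 ⟨Finset.mem_Ico.2 (hs e he).2.1,
        (hb e he).2.resolve_right (e1 ▸ hk)⟩⟩

end Vale.Agent.P028.T
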