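import Vale.Agent.P028.TStm

namespace Vale.Agent.P028.T

open Real Finset MeasureTheory Filter Metric

theorem an2_root {x C t l z K : ℝ} (hx : 0 ≤ x) (hC : 0 < C) (ht : 0 < t) (hl : t ≤ exp l)
    (l0 : 0 ≤ l) (hz : 1 + l / 4 ≤ z) (hK : 1 ≤ K)
    (h : x ^ (21 / 10 : ℝ) ≤ C * t ^ 2 * exp (-(100 * z * K))) :
    x ≤ (C + 1) * exp (-(10 * l + 9 * K)) := by
  refine (rpow_le_rpow_iff hx (by positivity) (by norm_num : (0 : ℝ) < 21 / 10)).1 (h.trans ?_)
  rw [mul_rpow (by positivity) (exp_pos _).le, ← exp_mul, mul_assoc]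
  refine mul_le_mul ((le_add_of_nonneg_right zero_le_one).trans
    (self_le_rpow_of_one_le (by linarith) (by norm_num))) ?_ (by positivity) (by positivity)
  refine (mul_le_mul_of_nonneg_right (pow_le_pow_left₀ ht.le hl 2) (exp_pos _).le).trans ?_
  rw [← exp_nat_mul, ← exp_add]
  refine exp_le_exp.2 ?_
  push_cast
  nlinarith [mul_le_mul_of_nonneg_right hz (by linarith : 0 ≤ K), mul_nonneg l0 (sub_nonneg.2 hK)]

theorem an2_pf (hAn : S_An) : S_An2 := by
  obtain ⟨C, z1, hC, h⟩ := hAn 100 (by norm_num)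
  refine ⟨max z1 (2 ^ 100), le_max_right _ _, 2 * (C + 1), by positivity,
    fun t ψ S E ht hB hE he => ?_⟩
  have T1 := one_le_TT ht
  have T0 : 0 < TT t := by linarith
  have z0 := (le_max_left _ _).trans (le_zz (max z1 (2 ^ 100)) ht)
  have z2 : 1 + log (TT t) / 4 ≤ zz (max z1 (2 ^ 100)) t :=
    add_le_add_left ((one_le_pow₀ one_le_two).trans (le_max_right _ _)) _
  generalize zz (max z1 (2 ^ 100)) t = z at he z0 z2 ⊢
  obtain ⟨n, hn⟩ : ∃ n, ∀ e ∈ E, ⌊Lz z (cf e.1 e.2 * cf e.2 e.1)⌋₊ ∈ range n :=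
    ⟨_, fun e he => mem_range.2 (Nat.lt_succ_of_le
      (le_sup (f := fun e : ℕ × ℕ => ⌊Lz z (cf e.1 e.2 * cf e.2 e.1)⌋₊) he))⟩
  rw [← sum_fiberwise_of_maps_to hn]
  refine (sum_le_sum (g := fun K => (C + 1) / TT t ^ 10 * (1 / 2) ^ K) fun K _ => ?_).trans ?_
  · rcases K.eq_zero_or_pos with rfl | hK
    · rw [filter_false_of_mem fun e a => (Nat.floor_pos.2 (he e a).2).ne', sum_empty]
      positivity
    have K1 : (1 : ℝ) ≤ K := by exact_mod_cast hK
    have hF := (filter_subset (fun e => ⌊Lz z (cf e.1 e.2 * cf e.2 e.1)⌋₊ = K) E).trans hE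
    have h1 := an2_root (hB.mE_nonneg hF) hC ht ((le_max_left _ _).trans_eq (exp_log T0).symm)
      (log_nonneg T1) z2 K1 (h z K t ψ S _ z0 K.cast_nonneg ht hB hF fun e a =>
        ⟨(he e (mem_filter.1 a).1).1, (mem_filter.1 a).2 ▸ Nat.floor_le (Lz_nonneg _ _)⟩)
    refine le_trans (sum_le_sum (g := fun e => mu ψ e.1 * mu ψ e.2 * exp (8 * K)) fun e a => ?_) ?_
    · refine mul_le_mul_of_nonneg_left (exp_le_exp.2 ?_) (hB.mE_pos (hF a)).le
      have := Nat.lt_floor_add_one (Lz z (cf e.1 e.2 * cf e.2 e.1))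
      rw [(mem_filter.1 a).2] at this
      linarith
    rw [← sum_mul]
    refine (mul_le_mul_of_nonneg_right h1 (exp_pos _).le).trans ?_
    have e1 : exp (-(10 * log (TT t) + 9 * K)) * exp (8 * K) = (TT t ^ 10)⁻¹ * exp (-1) ^ K := by
      rw [← exp_log (pow_pos T0 10), log_pow, ← exp_neg, ← exp_nat_mul, ← exp_add, ← exp_add]
      congr 1
      push_cast
      ring
    rw [mul_assoc, e1, ← mul_assoc, div_eq_mul_inv (C + 1)]
    refine mul_le_mul_of_nonneg_left (pow_le_pow_left₀ (exp_pos _).le ?_ K) (by positivity)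
    rw [exp_neg, one_div]
    exact inv_anti₀ two_pos (by linarith [add_one_le_exp (1 : ℝ)])
  · rw [← mul_sum, mul_div_assoc, mul_comm (2 : ℝ)]
    exact mul_le_mul_of_nonneg_left (sum_geometric_two_le n) (by positivity)

end Vale.Agent.P028.T
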