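import Vale.Agent.P028.TStm

namespace Vale.Agent.P028.T

open Real Finset MeasureTheory Filter Metric

theorem bl_int {α : Type} (s : Finset α) (g : α → ℤ) {L : ℝ} (hL : 0 ≤ L) (hi : Set.InjOn g s)
    (h : ∀ a ∈ s, ∀ b ∈ s, (g a : ℝ) - g b ≤ L) : (s.card : ℝ) ≤ L + 1 := by
  rcases s.eq_empty_or_nonempty with rfl | hs
  · rw [card_empty, Nat.cast_zero]; linarith
  obtain ⟨b, hb, hm⟩ := s.exists_min_image g hs
  have h1 : s.card ≤ (Finset.Icc (g b) (g b + ⌊L⌋)).card :=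
    card_le_card_of_injOn g (fun a ha => by
      have : g a - g b ≤ ⌊L⌋ := Int.le_floor.2 (by push_cast; exact h a ha b hb)
      exact mem_coe.2 (Finset.mem_Icc.2 ⟨hm a ha, by omega⟩)) hi
  have h2 := Int.floor_nonneg.2 hL
  rw [Int.card_Icc] at h1
  have h3 : (s.card : ℤ) ≤ ⌊L⌋ + 1 := by omega
  have h4 : (s.card : ℝ) ≤ ⌊L⌋ + 1 := by exact_mod_cast h3
  linarith [Int.floor_le L]

theorem bl_fib {α β : Type} [DecidableEq β] (s : Finset α) (f : α → β) {L : ℝ}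
    (h : ∀ b, ((s.filter fun a => f a = b).card : ℝ) ≤ L) :
    (s.card : ℝ) ≤ (s.image f).card * L := by
  rw [card_eq_sum_card_image f s, Nat.cast_sum, ← nsmul_eq_mul]
  exact sum_le_card_nsmul _ _ _ fun b _ => h b

theorem bl_res {ε δ y : ℝ} {A0 k : ℕ} (hε : 0 < ε) (hδ : δ ≠ 0) (hk : 0 < k) (T : Finset ℕ)
    (m : ℕ → ℤ) (s : ℕ) (h : ∀ a ∈ T, a % k = s ∧ A0 ≤ a ∧ a < 2 * A0 ∧
      |y + (a / k : ℕ) * δ - m a| ≤ ε) :
    (T.card : ℝ) ≤ (A0 / k * |δ| + 2 * ε + 1) * (2 * ε / |δ| + 1) := by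
  have d0 := abs_pos.2 hδ
  have k0 : (0 : ℝ) < k := by exact_mod_cast hk
  refine (bl_fib T m fun b => bl_int _ (fun a => (a / k : ℕ)) (L := 2 * ε / |δ|) (by positivity)
    (fun a ha a' ha' e => ?_) fun a ha a' ha' => ?_).trans (mul_le_mul_of_nonneg_right
      (bl_int _ id (by positivity) (Set.injOn_id _) fun x hx x' hx' => ?_) (by positivity))
  · have e : a / k = a' / k := Int.natCast_inj.1 e
    rw [← Nat.div_add_mod a k, e, (h a (mem_filter.1 ha).1).1, ← (h a' (mem_filter.1 ha').1).1,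
      Nat.div_add_mod]
  · obtain ⟨h1, e1⟩ := mem_filter.1 ha
    obtain ⟨h2, e2⟩ := mem_filter.1 ha'
    have a1 := abs_le.1 (h a h1).2.2.2
    have a2 := abs_le.1 (h a' h2).2.2.2
    rw [e1] at a1
    rw [e2] at a2
    rw [le_div_iff₀ d0, Int.cast_natCast, Int.cast_natCast]
    refine (mul_le_mul_of_nonneg_right (le_abs_self _) d0.le).trans ?_
    rw [← abs_mul, abs_le]
    constructor <;> linarith [a1.1, a1.2, a2.1, a2.2]
  · obtain ⟨a, h1, rfl⟩ := mem_image.1 hx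
    obtain ⟨a', h2, rfl⟩ := mem_image.1 hx'
    obtain ⟨b1, b2, b3, b4⟩ := h a h1
    obtain ⟨c1, c2, c3, c4⟩ := h a' h2
    have e1 := Nat.div_add_mod a k
    have e2 := Nat.div_add_mod a' k
    have e3 : |((a / k : ℕ) : ℝ) - (a' / k : ℕ)| ≤ A0 / k := by
      have u1 : k * (a / k) ≤ k * (a' / k) + A0 := by omega
      have u2 : k * (a' / k) ≤ k * (a / k) + A0 := by omega
      have v1 : (k : ℝ) * (a / k : ℕ) ≤ k * (a' / k : ℕ) + A0 := by exact_mod_cast u1
      have v2 : (k : ℝ) * (a' / k : ℕ) ≤ k * (a / k : ℕ) + A0 := by exact_mod_cast u2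
      rw [le_div_iff₀ k0, ← abs_of_pos k0, ← abs_mul, abs_le]
      constructor <;> linarith
    have e4 := (le_abs_self _).trans ((abs_mul _ δ).trans_le (mul_le_mul_of_nonneg_right e3 d0.le))
    simp only [id]
    linarith [(abs_le.1 b4).1, (abs_le.1 c4).2]

theorem bl_pf : S_BL := by
  intro ξ ε H A0 hε hH hA
  obtain ⟨k, hk, k1, k2⟩ := Real.exists_nat_abs_mul_sub_round_le ξ (Nat.floor_pos.2 hH)
  have H0 : 0 < H := by linarith
  have k3 : (k : ℝ) ≤ H := (Nat.cast_le.2 k1).trans (Nat.floor_le H0.le)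
  have A1 : (0 : ℝ) < A0 := by exact_mod_cast hA
  have k0 : (0 : ℝ) < k := by exact_mod_cast hk
  generalize round (k * ξ) = c at k2
  by_cases h : |k * ξ - c| ≤ ε * H ^ 2 / A0
  · exact Or.inr ⟨k, hk, k3, c, h⟩
  refine Or.inl fun ρ T hT => ?_
  have p1 : 0 ≤ A0 / H := by positivity
  rw [mul_div_assoc]
  by_cases he : 1 / 2 ≤ ε
  · have : T.card ≤ (Finset.Ico A0 (2 * A0)).card :=
      card_le_card fun a ha => Finset.mem_Ico.2 ⟨(hT a ha).1, (hT a ha).2.1⟩
    rw [Nat.card_Ico, show 2 * A0 - A0 = A0 by omega] at this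
    have : (T.card : ℝ) ≤ A0 := by exact_mod_cast this
    nlinarith
  obtain ⟨δ, hδ⟩ : ∃ δ, δ = k * ξ - c := ⟨_, rfl⟩
  rw [← hδ] at h k2
  have d0 : 0 < |δ| := lt_trans (by positivity) (not_le.1 h)
  have d1 : |δ| ≤ 1 / H := k2.trans (one_div_le_one_div_of_le H0 (Nat.lt_floor_add_one H).le)
  choose! h1 h2 n hn using hT
  have h3 := bl_fib T (· % k) fun s => bl_res (A0 := A0) (y := s * ξ - ρ) hε (abs_pos.1 d0) hk
    (T.filter fun a => a % k = s) (fun a => n a - (a / k : ℕ) * c) s fun a ha => by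
      obtain ⟨u1, u2⟩ := mem_filter.1 ha
      refine ⟨u2, h1 a u1, h2 a u1, le_of_eq_of_le (congrArg _ ?_) (hn a u1)⟩
      have e : (a : ℝ) = k * (a / k : ℕ) + s := by
        rw [← u2]; exact_mod_cast (Nat.div_add_mod a k).symm
      rw [Int.cast_sub, Int.cast_mul, Int.cast_natCast, hδ]
      linear_combination -ξ * e
  have h4 : ((T.image (· % k)).card : ℝ) ≤ k := by
    have : (T.image (· % k)).card ≤ (range k).card :=
      card_le_card (image_subset_iff.2 fun a _ => mem_range.2 (Nat.mod_lt a hk))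
    rw [card_range] at this
    exact_mod_cast this
  have h5 : k * ((A0 / k * |δ| + 2) * (2 * ε / |δ| + 1)) =
      2 * ε * A0 + A0 * |δ| + 4 * (k * (ε / |δ|)) + 2 * k := by field_simp; ring
  have h6 : A0 * |δ| ≤ A0 / H := by
    rw [div_eq_mul_one_div]; exact mul_le_mul_of_nonneg_left d1 A1.le
  have h7 : k * (ε / |δ|) ≤ A0 / H := by
    have := (div_lt_iff₀ A1).1 (not_le.1 h)
    refine (mul_le_mul_of_nonneg_right k3 (by positivity)).trans ?_
    rw [← mul_div_assoc, div_le_div_iff₀ d0 H0]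
    nlinarith
  refine h3.trans ((mul_le_mul h4 (mul_le_mul_of_nonneg_right (show _ ≤ A0 / k * |δ| + 2 by
    linarith) (by positivity)) (by positivity) k0.le).trans ?_)
  rw [h5]
  linarith

end Vale.Agent.P028.T
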