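import Vale.Agent.P028.TStm

namespace Vale.Agent.P028.T

open Real Finset MeasureTheory Filter Metric

theorem crt_range (f : ℤ → ℝ) (lo : ℤ) (n : ℕ) :
    ∑ a ∈ Finset.Ico lo (lo + n), f a = ∑ c ∈ range n, f (lo + c) := by
  rw [Int.Ico_eq_finset_map, sum_map, add_sub_cancel_left, Int.toNat_natCast]
  rfl

theorem crt_shift {f : ℤ → ℝ} {n : ℕ} (h : ∀ a, f (a + n) = f a) (lo : ℤ) :
    ∑ c ∈ range n, f (lo + c) = ∑ c ∈ range n, f (0 + c) := by
  have k : ∀ lo : ℤ, ∑ c ∈ range n, f (lo + 1 + c) = ∑ c ∈ range n, f (lo + c) := fun lo => by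
    have h1 := sum_range_succ (fun c : ℕ => f (lo + c)) n
    rw [sum_range_succ', h, Nat.cast_zero, add_zero, add_left_inj] at h1
    rw [← h1]
    refine sum_congr rfl fun c _ => ?_
    rw [Nat.cast_add, Nat.cast_one, add_right_comm, add_assoc]
  induction lo using Int.induction_on with
  | zero => rfl
  | succ i ih => rw [k, ih]
  | pred i ih => rw [← k, sub_add_cancel, ih]

theorem crt_zmod (p : ℕ) [NeZero p] (F : ZMod p → ℝ) : ∑ c ∈ range p, F c = ∑ z, F z :=
  sum_nbij' (fun c => (c : ZMod p)) (fun z => z.val) (fun _ _ => mem_univ _)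
    (fun z _ => mem_range.2 (ZMod.val_lt z)) (fun _ hc => ZMod.val_cast_of_lt (mem_range.1 hc))
    (fun z _ => ZMod.natCast_zmod_val z) fun _ _ => rfl

theorem crt_perm {p m : ℕ} (hp : p.Prime) (hm : ¬ p ∣ m) {h : ℤ → ℝ} (hh : ∀ a, h (a + p) = h a)
    (a : ℤ) : ∑ y ∈ range p, h (a + m * (y : ℕ)) = ∑ c ∈ range p, h c := by
  have := Fact.mk hp
  have k : ∀ x : ℤ, h x = h ((x : ZMod p).val : ℕ) := fun x => by
    rw [ZMod.val_intCast, Int.emod_def, mul_comm]
    exact (Function.Periodic.sub_int_mul_eq (f := h) (c := (p : ℤ)) hh (x / p)).symm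
  have hm' : (m : ZMod p) ≠ 0 := fun h0 => hm ((ZMod.natCast_eq_zero_iff m p).1 h0)
  have e1 : ∑ y ∈ range p, h (a + m * (y : ℕ)) =
      ∑ z : ZMod p, h (((a : ZMod p) + m * z).val : ℕ) := by
    rw [← crt_zmod p fun z => h (((a : ZMod p) + m * z).val : ℕ)]
    refine sum_congr rfl fun y _ => ?_
    rw [k]
    push_cast
    rfl
  have e2 : ∑ c ∈ range p, h c = ∑ z : ZMod p, h (z.val : ℕ) := by
    rw [← crt_zmod p fun z => h (z.val : ℕ)]
    exact sum_congr rfl fun c hc => by rw [ZMod.val_cast_of_lt (mem_range.1 hc)]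
  rw [e1, e2]
  exact Equiv.sum_comp ((Equiv.mulLeft₀ (m : ZMod p) hm').trans (Equiv.addLeft (a : ZMod p)))
    fun z : ZMod p => h (z.val : ℕ)

theorem crt_mul {h : ℤ → ℝ} {p n : ℕ} (hh : ∀ a, h (a + p) = h a) (hd : p ∣ n) (y : ℕ) (a : ℤ) :
    h (a + n * y) = h a := by
  obtain ⟨s, rfl⟩ := hd
  have := Function.Periodic.nat_mul (f := h) (c := (p : ℤ)) hh (s * y) a
  rw [← this]
  push_cast
  ring_nf

theorem crt_step {g h : ℤ → ℝ} {p m n : ℕ} (hp : p.Prime) (hm : ¬ p ∣ m)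
    (hh : ∀ a, h (a + p) = h a) (hg : ∀ (y : ℕ) a, g (a + m * y) = g a)
    (hn : ∀ a, h (a + n) * g (a + n) = h a * g a) (lo : ℤ) :
    ∑ c ∈ range n, h (lo + c) * g (lo + c) =
      (∑ c ∈ range n, g (lo + c)) * ((∑ c ∈ range p, h c) / p) := by
  have hp0 : (p : ℝ) ≠ 0 := Nat.cast_ne_zero.2 hp.ne_zero
  have k : ∀ y : ℕ, ∑ c ∈ range n, h (lo + c) * g (lo + c) =
      ∑ c ∈ range n, h (lo + c + m * y) * g (lo + c) := fun y => by
    rw [crt_shift (f := fun a => h a * g a) hn lo,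
      ← crt_shift (f := fun a => h a * g a) hn (lo + m * y)]
    exact sum_congr rfl fun c _ => by rw [add_right_comm, hg]
  have h1 : ∑ _y ∈ range p, ∑ c ∈ range n, h (lo + c) * g (lo + c) =
      (∑ c ∈ range n, g (lo + c)) * ∑ c ∈ range p, h c := by
    rw [sum_congr rfl fun y _ => k y, sum_comm, sum_mul]
    exact sum_congr rfl fun c _ => by rw [← sum_mul, crt_perm hp hm hh, mul_comm]
  rw [sum_const, card_range, nsmul_eq_mul] at h1
  rw [← mul_div_assoc, eq_div_iff hp0, mul_comm, h1]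

theorem crt_pf : S_CRT := by
  intro P h lo n hP hn hh
  have hn' : ∀ p ∈ P, ∀ a : ℤ, h p (a + n) = h p a := fun p hp a => by
    rcases hn p hp with h1 | h1
    · simpa using crt_mul (hh p hp) h1 1 a
    · rw [h1, h1 a]
  clear hn
  rw [crt_range]
  induction P using Finset.induction_on with
  | empty => simp
  | insert p P hp ih =>
    have hs : ∀ q ∈ P, q ∈ insert p P := fun q hq => mem_insert_of_mem hq
    have hpp := hP p (mem_insert_self _ _)
    simp only [prod_insert hp]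
    rw [crt_step (g := fun a => ∏ q ∈ P, h q a) (m := ∏ q ∈ P, q) hpp ?_
      (hh p (mem_insert_self _ _)) ?_ ?_ lo,
      ih (fun q hq => hP q (hs q hq)) (fun q hq => hh q (hs q hq)) fun q hq => hn' q (hs q hq)]
    · ring
    · intro hd
      obtain ⟨q, hq, h1⟩ := (Prime.dvd_finsetProd_iff hpp.prime _).1 hd
      exact hp ((Nat.prime_dvd_prime_iff_eq hpp (hP q (hs q hq))).1 h1 ▸ hq)
    · exact fun y a => prod_congr rfl fun q hq =>
        crt_mul (hh q (hs q hq)) (dvd_prod_of_mem (fun q : ℕ => q) hq) y a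
    · intro a
      rw [hn' p (mem_insert_self _ _), prod_congr rfl fun q hq => hn' q (hs q hq) a]

end Vale.Agent.P028.T
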