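import Vale.Agent.P028.TStm

namespace Vale.Agent.P028.T

open Real Finset MeasureTheory Filter Metric

theorem cnt_om {q n : ℕ} (hn : n ≠ 0) (h : q ∣ n) (B : ℕ) :
    om q B = ∏ p ∈ n.primeFactors, if p ∣ q ∧ p ∣ B then 1 - (p : ℝ)⁻¹ else 1 := by
  have hq : q ≠ 0 := ne_zero_of_dvd_ne_zero hn h
  rw [om, ← prod_filter]
  congr 1
  ext p
  simp only [mem_filter, Nat.mem_primeFactors]
  exact ⟨fun k => ⟨⟨k.1.1, k.1.2.1.trans h, hn⟩, k.1.2.1, k.2⟩, fun k => ⟨⟨k.1.1, k.2.1, hq⟩, k.2.2⟩⟩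

theorem cnt_tot {q n : ℕ} (hn : n ≠ 0) (h : q ∣ n) :
    (Nat.totient q : ℝ) / q = ∏ p ∈ n.primeFactors, if p ∣ q then 1 - (p : ℝ)⁻¹ else 1 := by
  have hq : q ≠ 0 := ne_zero_of_dvd_ne_zero hn h
  have e := cnt_om hn h 0
  simp only [om, dvd_zero, and_true, filter_true] at e
  have k := congrArg ((↑) : ℚ → ℝ) (Nat.totient_eq_mul_prod_factors q)
  push_cast at k
  rw [← e, k, mul_div_cancel_left₀ _ (by exact_mod_cast hq)]

theorem cnt_cop {p q : ℕ} {x : ℤ} (hp : p.Prime) (h : IsCoprime x (q : ℤ)) :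
    ¬(p ∣ q ∧ (p : ℤ) ∣ x) := fun k =>
  (Nat.prime_iff_prime_int.1 hp).not_isUnit
    (h.isUnit_of_dvd' k.2 (Int.natCast_dvd_natCast.2 k.1))

theorem cnt_key (hCRT : S_CRT) (hCnt1 : S_Cnt1) (A A' k lo a0 a0' : ℤ) (B B' g u v : ℕ)
    (T : Finset (ℤ × ℤ)) (hg : 0 < g) (hu : 0 < u) (hv : 0 < v) (huv : Nat.Coprime u v)
    (hA : IsCoprime A (B : ℤ)) (hA' : IsCoprime A' (B' : ℤ)) (h0 : v * a0 - u * a0' = k)
    (hT : ∀ x ∈ T, lo ≤ x.1 ∧ x.1 < lo + 6 * (g * u : ℕ) ∧ v * x.1 - u * x.2 = k ∧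
      IsCoprime (x.1 * B + A) ((g * u : ℕ) : ℤ) ∧ IsCoprime (x.2 * B' + A') ((g * v : ℕ) : ℤ)) :
    om (g * u) B * om (g * v) B' * T.card ≤
      6 * g * ((Nat.totient (g * u) : ℝ) / (g * u : ℕ) * ((Nat.totient (g * v) : ℝ) / (g * v : ℕ))) *
        ∏ p ∈ (g * u * (g * v)).primeFactors, chi A A' B B' u v k p := by
  have hu' : (0 : ℤ) < u := by exact_mod_cast hu
  have hn : g * u * (g * v) ≠ 0 := by positivity
  set P := (g * u * (g * v)).primeFactors with hP
  let h : ℕ → ℤ → ℝ := fun p c => if ¬(p ∣ g * u ∧ (p : ℤ) ∣ (a0 + u * c) * B + A) ∧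
    ¬(p ∣ g * v ∧ (p : ℤ) ∣ (a0' + v * c) * B' + A') then 1 else 0
  have hc : ∀ x ∈ T, x.1 = a0 + u * ((x.1 - a0) / u) ∧ x.2 = a0' + v * ((x.1 - a0) / u) := by
    intro x hx
    have e := (hT x hx).2.2.1
    have d : (u : ℤ) ∣ x.1 - a0 := (Nat.isCoprime_iff_coprime.2 huv).dvd_of_dvd_mul_left
      ⟨x.2 - a0', by linear_combination e - h0⟩
    have e1 := Int.mul_ediv_cancel' d
    exact ⟨by linarith, mul_left_cancel₀ hu'.ne' (by linear_combination h0 - e - v * e1)⟩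
  have h1 : (T.card : ℝ) ≤ ∑ c ∈ Ico (-((a0 - lo) / u)) (-((a0 - lo) / u) + (6 * g : ℕ)),
      ∏ p ∈ P, h p c := by
    calc (T.card : ℝ) = ∑ x ∈ T, ∏ p ∈ P, h p ((x.1 - a0) / u) := by
          rw [card_eq_sum_ones, Nat.cast_sum]
          refine sum_congr rfl fun x hx => (Nat.cast_one.trans (prod_eq_one fun p hp => ?_).symm)
          have hp := Nat.prime_of_mem_primeFactors hp
          refine if_pos ?_
          rw [← (hc x hx).1, ← (hc x hx).2]
          exact ⟨cnt_cop hp (hT x hx).2.2.2.1, cnt_cop hp (hT x hx).2.2.2.2⟩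
      _ = ∑ c ∈ T.image fun x => (x.1 - a0) / u, ∏ p ∈ P, h p c :=
          (sum_image (f := fun c => ∏ p ∈ P, h p c) fun x hx y hy e => Prod.ext
            (by rw [(hc x hx).1, (hc y hy).1]; exact congrArg (a0 + u * ·) e)
            (by rw [(hc x hx).2, (hc y hy).2]; exact congrArg (a0' + v * ·) e)).symm
      _ ≤ _ := by
          refine sum_le_sum_of_subset_of_nonneg (image_subset_iff.2 fun x hx => ?_)
            fun c _ _ => prod_nonneg fun p _ => by simp only [h]; split_ifs <;> norm_num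
          obtain ⟨k1, k2, -⟩ := hT x hx
          have k3 := (hc x hx).1
          generalize (x.1 - a0) / u = c at k3 ⊢
          have k4 := Int.le_ediv_of_mul_le (a := -c) (b := a0 - lo) hu' (by linarith)
          have k5 := Int.ediv_lt_of_lt_mul (a := a0 - lo) (b := 6 * g - c) hu'
            (by push_cast at k2; linarith)
          rw [mem_Ico]
          push_cast
          constructor <;> linarith
  have cg : ∀ (p : ℕ) (w : ℕ) (a b C : ℤ) (c c' : ℤ), (p : ℤ) ∣ w * (c - c') →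
      ((p : ℤ) ∣ (a + w * c) * b + C ↔ (p : ℤ) ∣ (a + w * c') * b + C) := fun p w a b C c c' d =>
    (dvd_iff_dvd_of_dvd_sub (by
      rw [show (a + w * c) * b + C - ((a + w * c') * b + C) = w * (c - c') * b by ring]
      exact d.mul_right _))
  rw [hCRT P h _ _ (fun p hp => Nat.prime_of_mem_primeFactors hp) (fun p hp => ?_)
    fun p _ a => by simp only [h, cg p _ _ _ _ (a + p) a (by simp)]] at h1
  · refine (mul_le_mul_of_nonneg_left h1 (mul_nonneg (om_bd _ _).1 (om_bd _ _).1)).trans ?_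
    rw [cnt_om hn (Dvd.intro _ rfl), cnt_om hn (Dvd.intro_left _ rfl), cnt_tot hn (Dvd.intro _ rfl),
      cnt_tot hn (Dvd.intro_left _ rfl), mul_left_comm, mul_assoc (6 * (g : ℝ)), ← hP,
      ← prod_mul_distrib, ← prod_mul_distrib, ← prod_mul_distrib, ← prod_mul_distrib]
    push_cast
    refine mul_le_mul_of_nonneg_left (prod_le_prod (fun p hp => ?_) fun p hp => ?_) (by positivity)
    · have : (p : ℝ)⁻¹ ≤ 1 := inv_le_one_of_one_le₀
        (by exact_mod_cast (Nat.prime_of_mem_primeFactors hp).one_le)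
      refine mul_nonneg (mul_nonneg ?_ ?_) (div_nonneg (sum_nonneg fun c _ => ?_) (by positivity))
      all_goals
        try simp only [h]
        split_ifs <;> linarith
    · simp only [h, sum_boole]
      exact hCnt1 A A' k a0 a0' B B' g u v p (Nat.prime_of_mem_primeFactors hp) huv hA hA' h0
        (Nat.dvd_of_mem_primeFactors hp)
  · have pp := Nat.prime_of_mem_primeFactors hp
    by_cases d : p ∣ g
    · exact Or.inl (d.mul_left 6)
    refine Or.inr fun a => ?_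
    have nd : ¬(p ∣ u ∧ p ∣ v) := fun k => pp.one_lt.ne' (Nat.eq_one_of_dvd_coprimes huv k.1 k.2)
    by_cases d1 : p ∣ u
    · have : ¬p ∣ v := fun k => nd ⟨d1, k⟩
      simp only [h, pp.dvd_mul, d, this, or_self, false_and,
        cg p u _ _ _ a 0 ((Int.natCast_dvd_natCast.2 d1).mul_right _)]
    by_cases d2 : p ∣ v
    · simp only [h, pp.dvd_mul, d, d1, or_self, false_and,
        cg p v _ _ _ a 0 ((Int.natCast_dvd_natCast.2 d2).mul_right _)]
    · simp only [h, pp.dvd_mul, d, d1, d2, or_self, false_and]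

theorem cnt_pf (hCRT : S_CRT) (hCnt1 : S_Cnt1) (hDead : S_Dead) : S_Cnt := by
  intro A A' k lo B B' q r T hq hr hA hA' hT
  rcases T.eq_empty_or_nonempty with rfl | ⟨x, hx⟩
  · have := (hDead A A' k B B' q r hq hr).1
    rw [card_empty, Nat.cast_zero, mul_zero]
    positivity
  have e1 : q.gcd r * cf q r = q := (mul_comm _ _).trans (cf_mul q r)
  have e2 : q.gcd r * cf r q = r := (mul_comm _ _).trans (cf_mul' q r)
  have := cnt_key hCRT hCnt1 A A' k lo x.1 x.2 B B' (q.gcd r) (cf q r) (cf r q) T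
    (Nat.gcd_pos_of_pos_left r hq) (cf_pos hq r) (cf_pos hr q) (cf_coprime hq r) hA hA'
    (hT x hx).2.2.1 (by rwa [e1, e2])
  rwa [e1, e2] at this

end Vale.Agent.P028.T
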