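import Vale.Agent.P028.TStm

namespace Vale.Agent.P028.T

open Real Finset MeasureTheory Filter Metric

theorem cnt1_root {p : ℕ} (hp : p.Prime) {s : ℤ} (hs : ¬(p : ℤ) ∣ s) (x : ℤ) :
    ∃ c ∈ range p, (p : ℤ) ∣ x + s * c := by
  have := Fact.mk hp
  have h : (s : ZMod p) ≠ 0 := fun e => hs ((ZMod.intCast_zmod_eq_zero_iff_dvd s p).1 e)
  refine ⟨(-(x : ZMod p) / s).val, mem_range.2 (ZMod.val_lt _),
    (ZMod.intCast_zmod_eq_zero_iff_dvd _ p).1 ?_⟩
  push_cast
  rw [ZMod.natCast_zmod_val, mul_div_cancel₀ _ h, add_neg_cancel]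

theorem cnt1_card {p : ℕ} (R : ℕ → Prop) [DecidablePred R] {T : Finset ℕ} (hT : T ⊆ range p)
    (h : ∀ c ∈ T, ¬R c) : (((range p).filter R).card : ℝ) + T.card ≤ p := by
  have a : ((range p).filter R).card ≤ (range p \ T).card :=
    card_le_card fun c hc => mem_sdiff.2 ⟨(mem_filter.1 hc).1, fun k => h c k (mem_filter.1 hc).2⟩
  have b := card_sdiff_add_card_eq_card hT
  rw [card_range] at b
  exact_mod_cast (by omega : ((range p).filter R).card + T.card ≤ p)

theorem cnt1_part {y b pv : Prop} [Decidable y] [Decidable b] {δ n : ℝ} (h0 : 0 ≤ δ) (f0 : n ≤ 1)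
    (f1 : y → ¬pv → ¬b → n ≤ δ) (h : ¬(pv ∧ ¬b)) :
    (if y ∧ b then δ else 1) * n ≤ if y then δ else 1 := by
  by_cases k : y
  · by_cases k' : b
    · rw [if_pos ⟨k, k'⟩, if_pos k]
      exact mul_le_of_le_one_right h0 f0
    · rw [if_neg fun e => k' e.2, if_pos k, one_mul]
      exact f1 k (fun e => h ⟨e, k'⟩) k'
  · rw [if_neg fun e => k e.1, if_neg k, one_mul]
    exact f0

theorem cnt1_fin {x y b b' pu pv d1 d2 w nn : Prop} [Decidable x] [Decidable y] [Decidable b]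
    [Decidable b'] [Decidable pu] [Decidable pv] [Decidable d1] [Decidable d2] [Decidable w]
    [Decidable nn] {δ κ n : ℝ} (h0 : 0 ≤ δ) (hκ : δ * κ = 1) (h1 : 1 ≤ κ) (f0 : n ≤ 1)
    (hx : pu → x) (hy : pv → y) (huv : ¬(pu ∧ pv)) (hw : w → pu ∨ pv ∨ b ∨ b')
    (f1 : x → ¬pu → ¬b → n ≤ δ) (f1' : y → ¬pv → ¬b' → n ≤ δ)
    (f2 : x → y → ¬w → ¬nn → n ≤ δ * δ) (f3 : pu → d1 → n = 0) (f3' : pv → d2 → n = 0) :
    (if x ∧ b then δ else 1) * (if y ∧ b' then δ else 1) * n ≤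
      (if x then δ else 1) * (if y then δ else 1) *
        (if pu ∧ ¬b then (if d1 then 0 else κ) else if pv ∧ ¬b' then (if d2 then 0 else κ)
          else if ¬w ∧ nn then κ else 1) := by
  have rq := cnt1_part h0 f0 f1
  have rp := cnt1_part h0 f0 f1'
  by_cases c1 : pu ∧ ¬b
  · rw [if_pos c1, if_neg fun e => c1.2 e.2, if_pos (hx c1.1), one_mul]
    by_cases e : d1
    · rw [if_pos e, f3 c1.1 e, mul_zero, mul_zero]
    · rw [if_neg e, mul_right_comm, hκ, one_mul]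
      exact rp fun k => huv ⟨c1.1, k.1⟩
  rw [if_neg c1]
  by_cases c2 : pv ∧ ¬b'
  · rw [if_pos c2, if_neg fun e : y ∧ b' => c2.2 e.2, if_pos (hy c2.1), mul_one]
    by_cases e : d2
    · rw [if_pos e, f3' c2.1 e, mul_zero, mul_zero]
    · rw [if_neg e, mul_assoc, hκ, mul_one]
      exact rq c1
  rw [if_neg c2]
  have ax : 0 ≤ if x then δ else 1 := by split_ifs <;> linarith
  have ay : 0 ≤ if y then δ else 1 := by split_ifs <;> linarith
  have ac : 1 ≤ if ¬w ∧ nn then κ else 1 := by split_ifs <;> linarith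
  have al := le_mul_of_one_le_right (mul_nonneg ax ay) ac
  by_cases c3 : x ∧ ¬b
  · by_cases c4 : y ∧ ¬b'
    · have k : ¬w := fun e => (hw e).elim (fun t => c1 ⟨t, c3.2⟩) fun e =>
        e.elim (fun t => c2 ⟨t, c4.2⟩) fun e => e.elim c3.2 c4.2
      rw [if_neg fun e => c3.2 e.2, if_neg fun e => c4.2 e.2, if_pos c3.1, if_pos c4.1, one_mul,
        one_mul]
      by_cases e : nn
      · rw [if_pos ⟨k, e⟩, mul_assoc, hκ, mul_one]
        exact f1 c3.1 (fun e => c1 ⟨e, c3.2⟩) c3.2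
      · rw [if_neg fun t => e t.2, mul_one]
        exact f2 c3.1 c4.1 k e
    · rw [if_congr (and_iff_left_of_imp fun t => by_contra fun s => c4 ⟨t, s⟩) rfl rfl, mul_right_comm]
      exact (mul_le_mul_of_nonneg_right (rq c1) ay).trans al
  · rw [if_congr (and_iff_left_of_imp fun t => by_contra fun s => c3 ⟨t, s⟩) rfl rfl, mul_assoc]
    exact (mul_le_mul_of_nonneg_left (rp c2) ax).trans al

theorem cnt1_pf : S_Cnt1 := by
  intro A A' k a0 a0' B B' g u v p hp huv _ _ hk _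
  have hp' : Prime (p : ℤ) := Nat.prime_iff_prime_int.1 hp
  have p2 : (2 : ℝ) ≤ p := by exact_mod_cast hp.two_le
  have p0 : (0 : ℝ) < p := by linarith
  have hi : (p : ℝ) * (p : ℝ)⁻¹ = 1 := mul_inv_cancel₀ p0.ne'
  have i0 : 0 < (p : ℝ)⁻¹ := inv_pos.2 p0
  have nd : ¬(p ∣ u ∧ p ∣ v) := fun h => hp.one_lt.ne' (Nat.eq_one_of_dvd_coprimes huv h.1 h.2)
  have rt : ∀ (a C : ℤ) (s D : ℕ), ¬p ∣ s → ¬p ∣ D →
      ∃ c ∈ range p, (p : ℤ) ∣ (a + s * c) * D + C := fun a C s D h1 h2 => by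
    obtain ⟨c, hc, h⟩ := cnt1_root hp (s := s * D)
      (fun e => (hp.dvd_mul.1 (by exact_mod_cast e)).elim h1 h2) (a * D + C)
    exact ⟨c, hc, by rwa [show (a + s * c) * D + C = a * D + C + s * D * c by ring]⟩
  have cd := fun T => cnt1_card (p := p) (T := T) fun c : ℕ =>
    ¬(p ∣ g * u ∧ (p : ℤ) ∣ (a0 + u * c) * B + A) ∧ ¬(p ∣ g * v ∧ (p : ℤ) ∣ (a0' + v * c) * B' + A')
  have one : ∀ N : ℝ, N + ((1 : ℕ) : ℝ) ≤ p → N / p ≤ 1 - (p : ℝ)⁻¹ := fun N h => by
    rw [div_le_iff₀ p0]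
    push_cast at h
    linarith
  have zero : ∀ N : ℕ, (N : ℝ) + (p : ℝ) ≤ p → (N : ℝ) / p = 0 := fun N h => by
    rw [le_antisymm (by linarith : (N : ℝ) ≤ 0) (Nat.cast_nonneg N), zero_div]
  unfold chi
  refine cnt1_fin (by nlinarith) ?_ ?_ ?_ (fun h => h.mul_left g) (fun h => h.mul_left g) nd
    (fun h => ?_) (fun h1 h2 h3 => ?_) (fun h1 h2 h3 => ?_) (fun h1 h2 h3 h4 => ?_)
    (fun h1 h2 => ?_) fun h1 h2 => ?_
  · have : (p : ℝ) - 1 ≠ 0 := by linarith
    field_simp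
  · rw [le_div_iff₀ (by linarith)]
    linarith
  · have := cd ∅ (empty_subset _) (by simp)
    rw [div_le_one p0]
    simpa using this
  · simp only [hp.dvd_mul] at h
    tauto
  · obtain ⟨c, hc, h⟩ := rt a0 A u B h2 h3
    exact one _ (cd {c} (by simpa using hc) (by
      intro d hd e
      rw [mem_singleton.1 hd] at e
      exact e.1 ⟨h1, h⟩))
  · obtain ⟨c, hc, h⟩ := rt a0' A' v B' h2 h3
    exact one _ (cd {c} (by simpa using hc) (by
      intro d hd e
      rw [mem_singleton.1 hd] at e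
      exact e.2 ⟨h1, h⟩))
  · simp only [hp.dvd_mul, not_or] at h3
    obtain ⟨c, hc, h⟩ := rt a0 A u B h3.1.1.1 h3.1.2
    obtain ⟨c', hc', h'⟩ := rt a0' A' v B' h3.1.1.2 h3.2
    have ne : c ≠ c' := fun e => h4 (by
      subst e
      have := (h.mul_left (B' * v)).sub (h'.mul_left (B * u))
      rwa [show (B' * v : ℤ) * ((a0 + u * c) * B + A) - B * u * ((a0' + v * c) * B' + A') =
        nu A A' B B' u v k by unfold nu; rw [← hk]; ring] at this)
    have := cd {c, c'} (insert_subset hc (singleton_subset_iff.2 hc')) (by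
      intro d hd e
      rcases mem_insert.1 hd with rfl | hd
      · exact e.1 ⟨h1, h⟩
      · rw [mem_singleton.1 hd] at e
        exact e.2 ⟨h2, h'⟩)
    rw [card_pair ne] at this
    rw [div_le_iff₀ p0]
    push_cast at this
    nlinarith
  · have := cd (range p) Subset.rfl fun c _ e => e.1 ⟨h1.mul_left g, by
      have a := h2.add ((Int.natCast_dvd_natCast.2 h1).mul_right (B * a0' + v * c * B))
      rw [show B * k + A * v + u * (B * a0' + v * c * B) = (v : ℤ) * ((a0 + u * c) * B + A) by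
        rw [← hk]; ring] at a
      exact (hp'.dvd_or_dvd a).resolve_left fun t => nd ⟨h1, Int.natCast_dvd_natCast.1 t⟩⟩
    rw [card_range] at this
    exact zero _ this
  · have := cd (range p) Subset.rfl fun c _ e => e.2 ⟨h1.mul_left g, by
      have a := ((Int.natCast_dvd_natCast.2 h1).mul_right (B' * a0 + u * c * B')).sub h2
      rw [show v * (B' * a0 + u * c * B') - (B' * k - A' * u) =
        (u : ℤ) * ((a0' + v * c) * B' + A') by rw [← hk]; ring] at a
      exact (hp'.dvd_or_dvd a).resolve_left fun t => nd ⟨Int.natCast_dvd_natCast.1 t, h1⟩⟩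
    rw [card_range] at this
    exact zero _ this

end Vale.Agent.P028.T
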