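import Vale.Agent.P028.TStm

namespace Vale.Agent.P028.T

open Real Finset MeasureTheory Filter Metric

theorem deg_sq (d : ℕ) : (d + 1) ^ 2 ≤ 4 * 2 ^ d := by
  induction d with
  | zero => norm_num
  | succ d ih =>
    have := Nat.lt_two_pow_self (n := d)
    rw [pow_succ 2 d]
    nlinarith

theorem deg_lev {d : ℕ} {H : ℝ} (h : (2 : ℝ) ^ d < 2 * H) : d < ⌊6 * √H⌋₊ := by
  have a : ((d : ℝ) + 1) ^ 2 ≤ 4 * 2 ^ d := by exact_mod_cast deg_sq d
  have p : (0 : ℝ) < 2 ^ d := by positivity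
  have s := sq_sqrt (show 0 ≤ H by linarith)
  refine Nat.lt_of_succ_le (Nat.le_floor ?_)
  push_cast
  refine abs_le_of_sq_le_sq' ?_ (by positivity) |>.2
  nlinarith

theorem deg_pf (hML : S_ML) : S_Deg := by
  intro ψ V M c0 t H n0 hM hc ht hH hn hV hcard
  have H0 : 0 < H := by linarith
  have h := hML.2 ψ V M (t / c0) (fun _ => 6 * √H * n0) hM (by positivity)
    (fun q hq => ⟨(hV q hq).1, (hV q hq).2.1.le, by
      rw [le_div_iff₀ hc]; linarith [(hV q hq).2.2.2.2]⟩) fun b _ => ?_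
  · rw [← sum_mul, hML.1 M hM] at h
    linarith
  rcases (V.filter fun q => cf M q = b).eq_empty_or_nonempty with e | ne
  · rw [e, card_empty, Nat.cast_zero]
    positivity
  obtain ⟨q0, h0, hm⟩ := exists_min_image _ (lv ψ) ne
  obtain ⟨h0, b0⟩ := mem_filter.1 h0
  have hmap : ∀ q ∈ V.filter fun q => cf M q = b,
      lv ψ q ∈ Ico (lv ψ q0) (lv ψ q0 + ⌊6 * √H⌋₊) := by
    intro q hq
    have le := hm q hq
    obtain ⟨hq, bq⟩ := mem_filter.1 hq
    obtain ⟨-, p1, p2, p3, -⟩ := hV q hq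
    obtain ⟨-, r1, r2, -, r4⟩ := hV q0 h0
    rw [bq, div_le_iff₀ H0] at p3
    rw [b0] at r4
    have x0 : 0 < c0 * b := by
      by_contra hx
      nlinarith [mul_nonneg (mul_pos p1 H0).le (neg_nonneg.2 (not_lt.1 hx))]
    have k1 : ψ q0 ≤ ψ q * H := le_of_mul_le_mul_right (by nlinarith) x0
    have k2 := (lv_spec p1 p2).1
    have k3 := (lv_spec r1 r2).2
    rw [le_div_iff₀ p1] at k2
    rw [div_lt_iff₀ r1] at k3
    obtain ⟨d, hd⟩ := Nat.exists_eq_add_of_le le
    rw [hd, pow_add] at k2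
    have p4 : (0 : ℝ) < 2 ^ lv ψ q0 := by positivity
    have k4 : (2 : ℝ) ^ d < 2 * H := by
      refine lt_of_mul_lt_mul_left (a := 2 ^ lv ψ q0 * ψ q) ?_ (by positivity)
      nlinarith [mul_le_mul_of_nonneg_left k1 p4.le]
    have := deg_lev k4
    rw [mem_Ico]
    omega
  rw [card_eq_sum_card_fiberwise hmap]
  push_cast
  refine (sum_le_card_nsmul _ _ n0 fun l _ => ?_).trans ?_
  · rw [filter_filter]
    exact le_of_eq_of_le (by simp only [and_comm]) (hcard l b)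
  · rw [Nat.card_Ico, Nat.add_sub_cancel_left, nsmul_eq_mul]
    exact mul_le_mul_of_nonneg_right (Nat.floor_le (by positivity)) hn

end Vale.Agent.P028.T
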