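import Vale.Agent.P028.TStm

namespace Vale.Agent.P028.T

open Real Finset MeasureTheory Filter Metric

theorem exa_side {γ t H : ℝ} {A c : ℤ} {B X k k' a A0 : ℕ} (ht : 0 < t) (hk : 1 ≤ k)
    (hk' : (k' : ℝ) ≤ H) (hB : B ≤ k * k') (h1 : c * B = A * (k * X))
    (hz : |k * X * γ - c| ≤ 2 * t * H ^ 2 / A0) (hA : 0 < A0) (ha : a < 2 * A0) :
    |γ * B - A| * (X * a : ℕ) ≤ 4 * t * H ^ 3 := by
  have k0 : (0 : ℝ) < k := by exact_mod_cast hk
  have A1 : (0 : ℝ) < A0 := by exact_mod_cast hA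
  have a1 : (a : ℝ) ≤ 2 * A0 := by exact_mod_cast ha.le
  have B1 : (B : ℝ) ≤ k * k' := by exact_mod_cast hB
  have h2 : (c : ℝ) * B = A * (k * X) := by exact_mod_cast h1
  have w0 : 0 ≤ 2 * t * H ^ 2 / A0 := by positivity
  have H0 : 0 ≤ H := (Nat.cast_nonneg _).trans hk'
  have e : (k : ℝ) * (X * (γ * B - A)) = B * (k * X * γ - c) := by linear_combination h2
  have e2 := congrArg abs e
  rw [abs_mul, abs_mul, abs_mul, Nat.abs_cast, Nat.abs_cast, Nat.abs_cast] at e2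
  have e3 : (X : ℝ) * |γ * B - A| ≤ H * (2 * t * H ^ 2 / A0) := by
    refine le_of_mul_le_mul_left ?_ k0
    rw [e2, ← mul_assoc]
    exact mul_le_mul (B1.trans (mul_le_mul_of_nonneg_left hk' k0.le)) hz (abs_nonneg _)
      (by positivity)
  calc |γ * B - A| * (X * a : ℕ) = X * |γ * B - A| * a := by push_cast; ring
    _ ≤ H * (2 * t * H ^ 2 / A0) * (2 * A0) := mul_le_mul e3 a1 (Nat.cast_nonneg _) (by positivity)
    _ = 4 * t * H ^ 3 := by field_simp; ring

theorem exa_cross {γ ζ ζ' : ℝ} {c c' : ℤ} {n n' : ℕ} (h : |n * γ - c| ≤ ζ) (h' : |n' * γ - c'| ≤ ζ')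
    (hs : n * ζ' + n' * ζ < 1) : c * n' = c' * n := by
  have e : ((c * n' - c' * n : ℤ) : ℝ) = n * (n' * γ - c') - n' * (n * γ - c) := by push_cast; ring
  have h3 : |((c * n' - c' * n : ℤ) : ℝ)| < 1 := by
    rw [e]
    refine (abs_sub _ _).trans_lt (lt_of_le_of_lt ?_ hs)
    rw [abs_mul, abs_mul, Nat.abs_cast, Nat.abs_cast]
    gcongr
  have h4 : |c * n' - c' * n| < 1 := by exact_mod_cast h3
  have := Int.abs_lt_one_iff.1 h4
  omega

theorem exa_pf : S_Exa := by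
  intro γ t H R R' A A' c c' m B B' X X' a a' A0 A0' k k' e ht hB hB' hR hR' cA cA' hA hA' hX hX'
    cX hA0 hA0' ha ha' hk hkH hk' hkH' z z' s s' s2 hm ce hd he
  have h1 : c * B = A * (k * X) := UL (k := k * X) hR hA (by push_cast; exact z)
    (by push_cast; rwa [abs_of_nonneg (by positivity)])
  have h2 : c' * B' = A' * (k' * X') := UL (k := k' * X') hR' hA' (by push_cast; exact z')
    (by push_cast; rwa [abs_of_nonneg (by positivity)])
  have h3 := exa_cross (n := k * X) (n' := k' * X') (by push_cast; exact z) (by push_cast; exact z')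
    (lt_of_eq_of_lt (by push_cast; ring) s2)
  push_cast at h3
  have h4 : A * B' = A' * B := mul_right_cancel₀
    (show ((k : ℤ) * X * (k' * X')) ≠ 0 by positivity)
    (by linear_combination (-(B' : ℤ) * (k' * X')) * h1 + (B * (k * X) : ℤ) * h2 + (B * B' : ℤ) * h3)
  obtain rfl : B = B' := Nat.dvd_antisymm
    (Int.natCast_dvd_natCast.1 (cA.symm.dvd_of_dvd_mul_left ⟨A', by rw [h4, mul_comm]⟩))
    (Int.natCast_dvd_natCast.1 (cA'.symm.dvd_of_dvd_mul_left ⟨A, by rw [← h4, mul_comm]⟩))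
  obtain rfl : A = A' := mul_right_cancel₀ (show (B : ℤ) ≠ 0 by positivity) h4
  have d1 : B ∣ k * X := Int.natCast_dvd_natCast.1
    (cA.symm.dvd_of_dvd_mul_left ⟨c, by push_cast; rw [← h1, mul_comm]⟩)
  have d2 : B ∣ k' * X' := Int.natCast_dvd_natCast.1
    (cA.symm.dvd_of_dvd_mul_left ⟨c', by push_cast; rw [← h2, mul_comm]⟩)
  have d3 : B ∣ k * k' := by
    have := Nat.dvd_gcd (show B ∣ k * k' * X from mul_right_comm k X k' ▸ d1.mul_right k')
      (show B ∣ k * k' * X' from mul_assoc k k' X' ▸ d2.mul_left k)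
    rwa [Nat.gcd_mul_left, cX, mul_one] at this
  have d4 : B ≤ k * k' := Nat.le_of_dvd (Nat.mul_pos hk hk') d3
  have b1 := exa_side ht hk hkH' d4 h1 z hA0' ha'
  have b2 := exa_side ht hk' hkH (mul_comm k k' ▸ d4) h2 z' hA0 ha
  have b3 : (B : ℝ) ≤ H ^ 2 := by
    rw [sq]
    exact le_trans (by exact_mod_cast d4)
      (mul_le_mul hkH hkH' (Nat.cast_nonneg _) ((Nat.cast_nonneg _).trans hkH))
  refine ⟨rfl, Int.eq_zero_of_abs_lt_dvd (m := e) ?_ ?_⟩
  · refine (Nat.isCoprime_iff_coprime.2 (Nat.Coprime.coprime_mul_right_right ce)).dvd_of_dvd_mul_left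
      (hd.trans (dvd_of_eq ?_))
    unfold nu
    ring
  · generalize X * a' = v at *
    generalize X' * a = u at *
    have e1 : ((m * B + A * ((v : ℤ) - u) : ℤ) : ℝ) =
        B * (m + γ * (v - u)) - ((γ * B - A) * v - (γ * B - A) * u) := by push_cast; ring
    have e2 : |((m * B + A * ((v : ℤ) - u) : ℤ) : ℝ)| < e := by
      rw [e1]
      refine ((abs_sub _ _).trans (add_le_add_right (abs_sub _ _) _)).trans_lt ?_
      rw [abs_mul, abs_mul, abs_mul, Nat.abs_cast, Nat.abs_cast, Nat.abs_cast]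
      linarith [mul_le_mul b3 hm (abs_nonneg _) (sq_nonneg H)]
    exact_mod_cast e2

end Vale.Agent.P028.T
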