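import Vale.Agent.P028.TStm

namespace Vale.Agent.P028.T

open Real Finset MeasureTheory Filter Metric

theorem exp1_one_le {p : ℕ} (hp : p.Prime) : (1 : ℝ) ≤ p / (p - 1) := by
  have : (2 : ℝ) ≤ p := by exact_mod_cast hp.two_le
  rw [le_div_iff₀ (by linarith)]
  linarith

theorem exp1_chi (A A' k : ℤ) (B B' u v : ℕ) {p : ℕ} (hp : p.Prime) :
    0 ≤ chi A A' B B' u v k p ∧ chi A A' B B' u v k p ≤ p / (p - 1) := by
  have := exp1_one_le hp
  unfold chi
  split_ifs <;> constructor <;> linarith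

theorem exp1_big {p : ℝ} (hp : 2 ^ 100 ≤ p) : p / (p - 1) ≤ 1 + p ^ (-(99 / 100) : ℝ) := by
  have h2 : (2 : ℝ) ≤ p := le_trans (by norm_num) hp
  have h0 : 0 < p := by linarith
  have h3 : (2 : ℝ) ≤ p ^ (1 / 100 : ℝ) := by
    have := rpow_le_rpow (by positivity) hp (show (0 : ℝ) ≤ 1 / 100 by norm_num)
    rwa [← rpow_natCast, ← rpow_mul (by norm_num), show ((100 : ℕ) : ℝ) * (1 / 100) = 1 by norm_num,
      rpow_one] at this
  have h4 : p ^ (-(99 / 100) : ℝ) * p = p ^ (1 / 100 : ℝ) := by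
    rw [← rpow_add_one h0.ne']
    norm_num
  have h5 : 0 < p ^ (-(99 / 100) : ℝ) := by positivity
  rw [div_le_iff₀ (by linarith)]
  nlinarith

theorem exp1_sum (T E : Finset ℕ) (hT : ∀ p ∈ T, p.Prime) (hE : ∀ D ⊆ T, ∏ p ∈ D, p ∈ E) :
    ∏ p ∈ T, (1 + (p : ℝ) ^ (-(99 / 100) : ℝ)) ≤ ∑ e ∈ E, (e : ℝ) ^ (-(99 / 100) : ℝ) := by
  have hi : Set.InjOn (fun D : Finset ℕ => ∏ p ∈ D, p) T.powerset := fun D hD D' hD' e => by
    have a := Nat.primeFactors_prod fun p hp => hT p (mem_powerset.1 hD hp)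
    have b := Nat.primeFactors_prod fun p hp => hT p (mem_powerset.1 hD' hp)
    rw [← a, ← b]
    exact congrArg Nat.primeFactors e
  calc _ = ∑ D ∈ T.powerset, ((∏ p ∈ D, p : ℕ) : ℝ) ^ (-(99 / 100) : ℝ) := by
        rw [prod_one_add]
        refine sum_congr rfl fun D _ => ?_
        rw [Nat.cast_prod, Real.finsetProd_rpow _ _ fun p _ => Nat.cast_nonneg p]
    _ = ∑ e ∈ T.powerset.image fun D => ∏ p ∈ D, p, (e : ℝ) ^ (-(99 / 100) : ℝ) :=
        (sum_image (f := fun e : ℕ => (e : ℝ) ^ (-(99 / 100) : ℝ)) hi).symm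
    _ ≤ _ := sum_le_sum_of_subset_of_nonneg
        (image_subset_iff.2 fun D hD => hE D (mem_powerset.1 hD)) fun _ _ _ => by positivity

theorem exp1_mem {T : Finset ℕ} {g M : ℕ} {z : ℝ} {n : ℤ} (hg : g ≠ 0)
    (hT : ∀ p ∈ T, p.Prime ∧ p ∣ g ∧ z < p ∧ ¬p ∣ M ∧ (p : ℤ) ∣ n) :
    ∏ p ∈ T, p ∈ (Er g z M).filter fun e : ℕ => (e : ℤ) ∣ n := by
  have a := Nat.primeFactors_prod fun p hp => (hT p hp).1
  refine mem_filter.2 ⟨mem_filter.2 ⟨Nat.mem_divisors.2 ⟨?_, hg⟩, ?_, ?_, ?_⟩, ?_⟩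
  · exact prod_primes_dvd _ (fun p hp => (hT p hp).1.prime) fun p hp => (hT p hp).2.1
  · refine squarefree_prod_of_pairwise_isCoprime (fun p hp p' hp' h => ?_)
      fun p hp => (hT p hp).1.squarefree
    exact Nat.coprime_iff_isRelPrime.1 ((Nat.coprime_primes (hT p hp).1 (hT p' hp').1).2 h)
  · rw [a]
    exact fun p hp => (hT p hp).2.2.1
  · exact Nat.Coprime.prod_left fun p hp => (Nat.Prime.coprime_iff_not_dvd (hT p hp).1).2
      (hT p hp).2.2.2.1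
  · exact Int.natCast_dvd.2 (prod_primes_dvd _ (fun p hp => (hT p hp).1.prime)
      fun p hp => Int.natCast_dvd.1 (hT p hp).2.2.2.2)

theorem exp1_pf : S_Exp1 := by
  intro z A A' k B B' q r hz hq hr
  have hu := cf_pos hq r
  have hv := cf_pos hr q
  have hqr : q * r = cf q r * cf r q * (q.gcd r * q.gcd r) := by
    conv_lhs => rw [← cf_mul q r, ← cf_mul' q r]
    rw [cf_mul, cf_mul', mul_mul_mul_comm, cf_mul, cf_mul']
  have hP : ∀ {c : ℕ → Prop} [DecidablePred c] {p : ℕ}, p ∈ (q * r).primeFactors.filter c →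
      p.Prime := fun hp => Nat.prime_of_mem_primeFactors (mem_filter.1 hp).1
  have h0 : ∀ {p : ℕ}, p.Prime → 0 ≤ chi A A' B B' (cf q r) (cf r q) k p :=
    fun hp => (exp1_chi _ _ _ _ _ _ _ hp).1
  rw [FF, ← prod_filter_mul_prod_filter_not _ (fun p : ℕ => (p : ℝ) ≤ z), mul_assoc]
  refine mul_le_mul_of_nonneg_left ?_ (prod_nonneg fun p hp => h0 (hP hp))
  rw [← prod_filter_mul_prod_filter_not _ (fun p : ℕ => p ∣ cf q r * cf r q), filter_filter,
    filter_filter]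
  have e1 : (q * r).primeFactors.filter (fun p : ℕ => ¬(p : ℝ) ≤ z ∧ p ∣ cf q r * cf r q) =
      (cf q r * cf r q).primeFactors.filter fun p : ℕ => z < (p : ℝ) := by
    ext p
    simp only [mem_filter, Nat.mem_primeFactors, not_le]
    exact ⟨fun h => ⟨⟨h.1.1, h.2.2, by positivity⟩, h.2.1⟩, fun h =>
      ⟨⟨h.1.1, h.1.2.1.trans (mul_dvd_mul (cf_dvd q r) (cf_dvd r q)), by positivity⟩, h.2, h.1.2.1⟩⟩
  have hP' : ∀ p ∈ (cf q r * cf r q).primeFactors.filter fun p : ℕ => z < (p : ℝ), p.Prime :=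
    fun p hp => Nat.prime_of_mem_primeFactors (mem_filter.1 hp).1
  refine mul_le_mul ?_ ?_ (prod_nonneg fun p hp => h0 (hP hp))
    (prod_nonneg fun p hp => zero_le_one.trans (exp1_one_le (hP' p hp)))
  · rw [e1]
    exact prod_le_prod (fun p hp => h0 (hP' p hp)) fun p hp => (exp1_chi _ _ _ _ _ _ _ (hP' p hp)).2
  · refine le_trans ?_ (exp1_sum (((q * r).primeFactors.filter
      fun p : ℕ => ¬(p : ℝ) ≤ z ∧ ¬p ∣ cf q r * cf r q).filter
      fun p : ℕ => ¬p ∣ B * B' ∧ (p : ℤ) ∣ nu A A' B B' (cf q r) (cf r q) k) _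
      (fun p hp => hP (mem_filter.1 hp).1) fun D hD => exp1_mem
        (Nat.gcd_pos_of_pos_left r hq).ne' fun p hp => ?_)
    · rw [prod_filter (p := fun p : ℕ => ¬p ∣ B * B' ∧ (p : ℤ) ∣ nu A A' B B' (cf q r) (cf r q) k)]
      refine prod_le_prod (fun p hp => h0 (hP hp)) fun p hp => ?_
      obtain ⟨-, a1, a2⟩ := mem_filter.1 hp
      have b1 : ¬p ∣ cf q r := fun h => a2 (h.mul_right _)
      have b2 : ¬p ∣ cf r q := fun h => a2 (h.mul_left _)
      have b3 := exp1_big (hz.trans (not_le.1 a1).le)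
      have b4 : (0 : ℝ) ≤ (p : ℝ) ^ (-(99 / 100) : ℝ) := by positivity
      rw [chi, if_neg fun h => b1 h.1, if_neg fun h => b2 h.1]
      by_cases c : ¬p ∣ cf q r * cf r q * B * B' ∧ (p : ℤ) ∣ nu A A' B B' (cf q r) (cf r q) k
      · rw [if_pos c, if_pos ⟨fun h => c.1 (mul_assoc _ B B' ▸ h.mul_left _), c.2⟩]
        exact b3
      · rw [if_neg c]
        split_ifs <;> linarith
    · obtain ⟨a0, a3, a4⟩ := mem_filter.1 (hD hp)
      obtain ⟨a5, a1, a2⟩ := mem_filter.1 a0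
      have pp := Nat.prime_of_mem_primeFactors a5
      have a6 := Nat.dvd_of_mem_primeFactors a5
      rw [hqr] at a6
      exact ⟨pp, ((Nat.Prime.dvd_mul pp).1 (((Nat.Prime.dvd_mul pp).1 a6).resolve_left a2)).elim
        id id, not_le.1 a1, a3, a4⟩

end Vale.Agent.P028.T
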