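import Vale.Agent.P028.TStm

namespace Vale.Agent.P028.T

open Real Finset MeasureTheory Filter Metric

theorem exp2_f {p : ℕ} (hp : p.Prime) : 1 ≤ (p : ℝ) / (p - 1) ∧ (p : ℝ) / (p - 1) ≤ 2 ∧
    (p : ℝ) / (p - 1) ≤ exp (2 * (p : ℝ)⁻¹) := by
  have h : (2 : ℝ) ≤ p := by exact_mod_cast hp.two_le
  have h1 : (0 : ℝ) < p - 1 := by linarith
  refine ⟨by rw [le_div_iff₀ h1]; linarith, by rw [div_le_iff₀ h1]; linarith,
    le_trans ?_ (add_one_le_exp _)⟩
  have h2 : (p : ℝ) * (p : ℝ)⁻¹ = 1 := mul_inv_cancel₀ (by linarith)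
  have h3 : 2 * (p : ℝ)⁻¹ ≤ 1 := by
    rw [← div_eq_mul_inv, div_le_one (by linarith)]
    exact h
  rw [div_le_iff₀ h1]
  nlinarith

theorem exp2_chi (A A' : ℤ) (B B' u v : ℕ) (k : ℤ) {p : ℕ} (hp : p.Prime) :
    0 ≤ chi A A' B B' u v k p ∧ chi A A' B B' u v k p ≤ p / (p - 1) := by
  have h := (exp2_f hp).1
  unfold chi
  split_ifs <;> constructor <;> linarith

theorem exp2_prod (P : Finset ℕ) : ∀ z : ℝ, 1 ≤ z → (∀ p ∈ P, p.Prime ∧ (p = 2 ∨ (p : ℝ) ≤ z)) →
    (∏ p ∈ P, (p : ℝ) / (p - 1)) ^ 2 ≤ 4 * z := by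
  induction P using Finset.induction_on_max with
  | empty => intro z hz _; rw [prod_empty]; linarith
  | insert a s hs ih =>
    intro z hz h
    obtain ⟨ha, ha'⟩ := h a (mem_insert_self _ _)
    have hp : ∀ p ∈ s, p.Prime := fun p hp => (h p (mem_insert_of_mem hp)).1
    rw [prod_insert fun k => lt_irrefl _ (hs a k)]
    rcases ha.eq_two_or_odd with rfl | ho
    · rw [eq_empty_of_forall_notMem fun p k => absurd (hs p k) (not_lt.2 (hp p k).two_le),
        prod_empty]
      norm_num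
      exact hz
    have h3 : 3 ≤ a := by have := ha.two_le; omega
    have h3' : (3 : ℝ) ≤ a := by exact_mod_cast h3
    have i := ih (a - 2) (by linarith) fun p k => ⟨hp p k, (hp p k).eq_two_or_odd.imp_right
      fun o => by
        have : p + 2 ≤ a := by have := hs p k; omega
        rw [le_sub_iff_add_le]
        exact_mod_cast this⟩
    have e : ((a : ℝ) / (a - 1)) ^ 2 * (a - 2) ≤ a := by
      rw [div_pow, div_mul_eq_mul_div, div_le_iff₀ (pow_pos (by linarith) 2)]
      nlinarith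
    have az : (a : ℝ) ≤ z := ha'.resolve_left (by omega)
    rw [mul_pow]
    calc _ ≤ ((a : ℝ) / (a - 1)) ^ 2 * (4 * (a - 2)) := mul_le_mul_of_nonneg_left i (sq_nonneg _)
      _ ≤ 4 * z := by linarith

theorem exp2_tau {n : ℕ} (hn : 0 < n) : 2 ^ n.primeFactors.card ≤ n.divisors.card := by
  rw [Nat.card_divisors hn.ne', ← prod_const]
  refine prod_le_prod' fun p hp => Nat.succ_le_succ ?_
  exact (Nat.prime_of_mem_primeFactors hp).factorization_pos_of_dvd hn.ne'
    (Nat.dvd_of_mem_primeFactors hp)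

theorem exp2_pf : S_Exp2 := by
  intro z A A' k B B' q r hz hq hr
  have pr : ∀ {n p : ℕ} {P : ℕ → Prop} [DecidablePred P], p ∈ n.primeFactors.filter P → p.Prime :=
    fun h => Nat.prime_of_mem_primeFactors (mem_filter.1 h).1
  have g0 : 0 ≤ GG z A A' B B' q r k := prod_nonneg fun p hp => (exp2_chi _ _ _ _ _ _ _ (pr hp)).1
  have p0 : 0 ≤ PP z (cf q r * cf r q) := prod_nonneg fun p hp =>
    zero_le_one.trans (exp2_f (pr hp)).1
  refine ⟨g0, ?_, p0, ?_, ?_⟩
  · refine (prod_le_prod (fun p hp => (exp2_chi _ _ _ _ _ _ _ (pr hp)).1) fun p hp =>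
      (exp2_chi _ _ _ _ _ _ _ (pr hp)).2).trans (le_of_sq_le_sq ?_ (by positivity))
    rw [mul_pow, sq_sqrt (by linarith), show (2 : ℝ) ^ 2 = 4 by norm_num]
    exact exp2_prod _ z hz fun p hp => ⟨pr hp, Or.inr (mem_filter.1 hp).2⟩
  · rw [Lz, mul_sum, exp_sum]
    exact prod_le_prod (fun p hp => zero_le_one.trans (exp2_f (pr hp)).1)
      fun p hp => (exp2_f (pr hp)).2.2
  · have g2 : GG z A A' B B' q r k ≤
        2 ^ ((q * r).primeFactors.filter fun p : ℕ => (p : ℝ) ≤ z).card := by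
      rw [← prod_const]
      exact prod_le_prod (fun p hp => (exp2_chi _ _ _ _ _ _ _ (pr hp)).1) fun p hp =>
        (exp2_chi _ _ _ _ _ _ _ (pr hp)).2.trans (exp2_f (pr hp)).2.1
    have p2 : PP z (cf q r * cf r q) ≤
        2 ^ ((cf q r * cf r q).primeFactors.filter fun p : ℕ => z < (p : ℝ)).card := by
      rw [← prod_const]
      exact prod_le_prod (fun p hp => zero_le_one.trans (exp2_f (pr hp)).1)
        fun p hp => (exp2_f (pr hp)).2.1
    have c1 : ((cf q r * cf r q).primeFactors.filter fun p : ℕ => z < (p : ℝ)).card ≤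
        ((q * r).primeFactors.filter fun p : ℕ => ¬ (p : ℝ) ≤ z).card :=
      card_le_card fun p hp => mem_filter.2 ⟨Nat.primeFactors_mono
        (mul_dvd_mul (cf_dvd q r) (cf_dvd r q)) (by positivity) (mem_filter.1 hp).1,
        not_le.2 (mem_filter.1 hp).2⟩
    have c2 := card_filter_add_card_filter_not (s := (q * r).primeFactors)
      fun p : ℕ => (p : ℝ) ≤ z
    have c3 : (q * r).primeFactors.card ≤ q.primeFactors.card + r.primeFactors.card := by
      rw [Nat.primeFactors_mul hq.ne' hr.ne']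
      exact card_union_le _ _
    refine (mul_le_mul g2 p2 p0 (by positivity)).trans ?_
    rw [← pow_add]
    refine (pow_le_pow_right₀ one_le_two (show _ ≤ q.primeFactors.card + r.primeFactors.card by
      omega)).trans ?_
    rw [pow_add]
    exact_mod_cast Nat.mul_le_mul (exp2_tau hq) (exp2_tau hr)

end Vale.Agent.P028.T
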