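import Vale.Agent.P028.TStm

namespace Vale.Agent.P028.T

open Real Finset MeasureTheory Filter Metric

/-- truncated power -/
noncomputable def fcr_v (l K t : ℝ) : ℝ := if t ≤ K then t ^ l else 0

theorem fcr_v_nn (l K : ℝ) {t : ℝ} (ht : 0 ≤ t) : 0 ≤ fcr_v l K t := by
  unfold fcr_v
  split_ifs <;> positivity

theorem fcr_v_one {K t : ℝ} (h : t ≤ K) : fcr_v 1 K t = t := by rw [fcr_v, if_pos h, rpow_one]

/-- lacunary families -/
def fcr_Lac (g : ℕ → ℝ) : Prop := (∀ i, 0 < g i) ∧ ∀ i j, i ≠ j → g i ≤ g j → g i ≤ g j * (1 / 2)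

theorem fcr_lac_of {g : ℕ → ℝ} (h0 : ∀ i, 0 < g i)
    (h : ∀ i j, i < j → g i ≤ g j * (1 / 2) ∨ g j ≤ g i * (1 / 2)) : fcr_Lac g :=
  ⟨h0, fun i j e k => by
    have := h0 i
    rcases lt_or_gt_of_ne e with e | e
    · rcases h i j e with a | a <;> linarith
    · rcases h j i e with a | a <;> linarith⟩

theorem fcr_two {i j : ℕ} (h : i < j) : (2 : ℝ) ^ i * 2 ≤ 2 ^ j := by
  rw [← pow_succ]
  exact pow_le_pow_right₀ one_le_two h

theorem fcr_lac1 {c : ℝ} (hc : 0 < c) (i : ℕ) : fcr_Lac fun j => c * (2 ^ j / 2 ^ i) :=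
  fcr_lac_of (fun _ => by positivity) fun a b h => Or.inl (by
    rw [mul_assoc, div_mul_eq_mul_div]
    gcongr
    linarith [fcr_two h])

theorem fcr_lac2 {c : ℝ} (hc : 0 < c) (i : ℕ) : fcr_Lac fun j => c * (2 ^ i / 2 ^ j) :=
  fcr_lac_of (fun _ => by positivity) fun a b h => Or.inr (by
    rw [mul_assoc, mul_one_div, div_div]
    gcongr
    exact fcr_two h)

theorem fcr_r {l : ℝ} (hl : 0 < l) : 0 < 1 - (1 / 2 : ℝ) ^ l :=
  sub_pos.2 (rpow_lt_one (by norm_num) (by norm_num) hl)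

theorem fcr_geo0 {g : ℕ → ℝ} (hg : fcr_Lac g) {l : ℝ} (hl : 0 < l) (J : Finset ℕ) :
    ∀ K : ℝ, 0 ≤ K → (∀ j ∈ J, g j ≤ K) → ∑ j ∈ J, g j ^ l ≤ K ^ l / (1 - (1 / 2) ^ l) := by
  have hr := fcr_r hl
  induction J using Finset.induction_on_max_value g with
  | empty => intro K hK _; rw [sum_empty]; positivity
  | insert a s ha hs ih =>
    intro K hK h
    have h1 := h a (mem_insert_self _ _)
    have h2 := ih (K * (1 / 2)) (by positivity) fun j hj =>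
      (hg.2 j a (fun e => ha (e ▸ hj)) (hs j hj)).trans (by linarith)
    have h3 := rpow_le_rpow (hg.1 a).le h1 hl.le
    rw [mul_rpow hK (by norm_num), le_div_iff₀ hr] at h2
    rw [sum_insert ha, le_div_iff₀ hr]
    nlinarith

theorem fcr_geo {g : ℕ → ℝ} (hg : fcr_Lac g) {l K : ℝ} (hl : 0 < l) (hK : 0 ≤ K) (J : Finset ℕ) :
    ∑ j ∈ J, fcr_v l K (g j) ≤ K ^ l / (1 - (1 / 2) ^ l) := by
  unfold fcr_v
  rw [← sum_filter]
  exact fcr_geo0 hg hl _ K hK fun j hj => (mem_filter.1 hj).2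

theorem fcr_geo1 {K : ℝ} (hK : 0 ≤ K) (J : Finset ℕ) (i : ℕ) :
    ∑ j ∈ J, fcr_v 1 K (2 ^ j / 2 ^ i) ≤ 2 * K := by
  have h := fcr_geo (fcr_lac1 one_pos i) one_pos hK J
  simp only [one_mul, rpow_one] at h
  exact h.trans_eq (by ring)

/-- the majorant -/
noncomputable def fcr_A (δ M P R η T κ u u' : ℝ) : ℝ :=
  M * (fcr_v (1 / 42) δ (P * u) + fcr_v (1 / 42) δ (R * u')) + η * T * fcr_v 1 (P / δ) u' +
    T * fcr_v 1 κ u'

theorem fcr_row {δ M P R η T κ : ℝ} (hδ : 0 < δ)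
    (h : δ ^ (1 / 42 : ℝ) / (1 - (1 / 2) ^ (1 / 42 : ℝ)) ≤ 1 / 8) (hM : 0 ≤ M) (hP : 0 < P)
    (hR : 0 < R) (hη : 0 ≤ η) (hT : 0 ≤ T) (hκ : 0 ≤ κ) (I : Finset ℕ) (i : ℕ) :
    ∑ j ∈ I, fcr_A δ M P R η T κ (2 ^ i / 2 ^ j) (2 ^ j / 2 ^ i) ≤
      M * (1 / 8 + 1 / 8) + η * T * (2 * (P / δ)) + T * (2 * κ) := by
  simp only [fcr_A, sum_add_distrib, ← mul_sum]
  gcongr
  · exact (fcr_geo (fcr_lac2 hP i) (by norm_num) hδ.le I).trans h
  · exact (fcr_geo (fcr_lac1 hR i) (by norm_num) hδ.le I).trans h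
  · exact fcr_geo1 (by positivity) I i
  · exact fcr_geo1 hκ I i

theorem fcr_far {α β s t p : ℝ} (h0 : 0 ≤ α) (h1 : 0 ≤ β) (hs : α ≤ s) (ht : β ≤ t)
    (hp : α * β ≤ p) : (α * β) ^ (11 / 21 : ℝ) ≤ (s + t) / 2 * p ^ (1 / 42 : ℝ) := by
  have h2 := mul_nonneg h0 h1
  rw [show (11 / 21 : ℝ) = 1 / 2 + 1 / 42 by norm_num, rpow_add' h2 (by norm_num), ← sqrt_eq_rpow]
  refine mul_le_mul (sqrt_le_iff.2 ⟨by linarith, ?_⟩) (rpow_le_rpow h2 hp (by norm_num))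
    (by positivity) (by linarith)
  nlinarith [sq_nonneg (s - t), mul_le_mul hs ht h1 (h0.trans hs)]

theorem fcr_pt {δ X Y M T1 T2 η κ x y a b m u u' : ℝ} (hδ : 0 < δ) (hX : 0 < X) (hY : 0 < Y)
    (hM : 0 < M) (h1 : 0 < T1) (h2 : 0 < T2) (hη : 0 ≤ η) (hx : x ≤ X) (hy : y ≤ Y) (hu : 0 < u)
    (hu' : 0 < u') (e : u * u' = 1) (ha : 0 ≤ a ∧ a ≤ x ∧ a ≤ T1 * u)
    (hb : 0 ≤ b ∧ b ≤ y ∧ b ≤ T2 * u')
    (hm : m ≤ a * b ∧ m ≤ M * (a / X * (b / Y)) ^ (11 / 21 : ℝ))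
    (hd : m ≤ η * (a * (T2 * u') + b * (T1 * u)) ∨ u' ≤ κ ∨ u ≤ κ) :
    m ≤ x * fcr_A δ (M / X / 2) (T1 / X) (T2 / Y) η T2 κ u u' +
      y * fcr_A δ (M / Y / 2) (T2 / Y) (T1 / X) η T1 κ u' u := by
  obtain ⟨a0, a1, a2⟩ := ha
  obtain ⟨b0, b1, b2⟩ := hb
  have x0 := a0.trans a1
  have y0 := b0.trans b1
  have w1 := fcr_v_nn (1 / 42) δ (show 0 ≤ T1 / X * u by positivity)
  have w2 := fcr_v_nn (1 / 42) δ (show 0 ≤ T2 / Y * u' by positivity)
  have n1 : 0 ≤ x * (η * T2 * fcr_v 1 (T1 / X / δ) u') := by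
    have := fcr_v_nn 1 (T1 / X / δ) hu'.le; positivity
  have n2 : 0 ≤ y * (η * T1 * fcr_v 1 (T2 / Y / δ) u) := by
    have := fcr_v_nn 1 (T2 / Y / δ) hu.le; positivity
  have n3 : 0 ≤ x * (T2 * fcr_v 1 κ u') := by have := fcr_v_nn 1 κ hu'.le; positivity
  have n4 : 0 ≤ y * (T1 * fcr_v 1 κ u) := by have := fcr_v_nn 1 κ hu.le; positivity
  have c0 : 0 ≤ M * ((x / X + y / Y) / 2) := by positivity
  have n5 := mul_nonneg c0 w1
  have n6 := mul_nonneg c0 w2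
  have E : x * fcr_A δ (M / X / 2) (T1 / X) (T2 / Y) η T2 κ u u' +
      y * fcr_A δ (M / Y / 2) (T2 / Y) (T1 / X) η T1 κ u' u =
      M * ((x / X + y / Y) / 2) * fcr_v (1 / 42) δ (T1 / X * u) +
      M * ((x / X + y / Y) / 2) * fcr_v (1 / 42) δ (T2 / Y * u') +
      x * (η * T2 * fcr_v 1 (T1 / X / δ) u') + y * (η * T1 * fcr_v 1 (T2 / Y / δ) u) +
      x * (T2 * fcr_v 1 κ u') + y * (T1 * fcr_v 1 κ u) := by
    unfold fcr_A
    ring
  have α0 : 0 ≤ a / X := by positivity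
  have β0 : 0 ≤ b / Y := by positivity
  have far : ∀ p, a / X * (b / Y) ≤ p → m ≤ M * ((x / X + y / Y) / 2) * p ^ (1 / 42 : ℝ) :=
    fun p hp => hm.2.trans (by
      rw [mul_assoc]
      exact mul_le_mul_of_nonneg_left (fcr_far α0 β0 (by gcongr) (by gcongr) hp) hM.le)
  rw [E]
  by_cases k1 : T1 / X * u ≤ δ
  · have := far (T1 / X * u) ((mul_le_of_le_one_right α0 ((div_le_one hY).2 (b1.trans hy))).trans
      (by rw [div_mul_eq_mul_div]; gcongr))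
    rw [fcr_v, if_pos k1]
    linarith
  by_cases k2 : T2 / Y * u' ≤ δ
  · have := far (T2 / Y * u') ((mul_le_of_le_one_left β0 ((div_le_one hX).2 (a1.trans hx))).trans
      (by rw [div_mul_eq_mul_div]; gcongr))
    rw [fcr_v.eq_1 _ _ (T2 / Y * u'), if_pos k2]
    linarith
  rcases hd with hd | hd | hd
  · have f1 : u' ≤ T1 / X / δ := by
      rw [le_div_iff₀ hδ]
      have := mul_le_mul_of_nonneg_right (not_le.1 k1).le hu'.le
      rwa [mul_assoc, e, mul_one, mul_comm] at this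
    have f2 : u ≤ T2 / Y / δ := by
      rw [le_div_iff₀ hδ]
      have := mul_le_mul_of_nonneg_right (not_le.1 k2).le hu.le
      rwa [mul_assoc, mul_comm u', e, mul_one, mul_comm] at this
    have : η * (a * (T2 * u') + b * (T1 * u)) ≤ η * (x * (T2 * u') + y * (T1 * u)) := by gcongr
    rw [fcr_v_one f1, fcr_v_one f2]
    linarith
  · have := mul_le_mul a1 b2 b0 x0
    rw [fcr_v_one hd]
    linarith [hm.1]
  · have := mul_le_mul a2 b1 b0 (by positivity)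
    rw [fcr_v_one hd]
    linarith [hm.1]

theorem fcr_dist {i j d : ℕ} (h : j + d < i) : (2 : ℝ) ^ j / 2 ^ i ≤ 1 / (2 ^ d * 2) := by
  rw [div_le_div_iff₀ (by positivity) (by positivity), one_mul, ← mul_assoc, ← pow_add]
  exact fcr_two h

theorem fcr_pf : S_FCr := by
  have hr := fcr_r (l := 1 / 42) (by norm_num)
  obtain ⟨δ, hδ, h⟩ : ∃ δ : ℝ, 0 < δ ∧
      δ ^ (1 / 42 : ℝ) / (1 - (1 / 2) ^ (1 / 42 : ℝ)) ≤ 1 / 8 := by
    refine ⟨((1 - (1 / 2) ^ (1 / 42 : ℝ)) / 8) ^ (42 : ℝ), by positivity, ?_⟩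
    rw [← rpow_mul (by positivity), show (42 : ℝ) * (1 / 42) = 1 by norm_num, rpow_one,
      div_le_iff₀ hr]
    linarith
  refine ⟨16 / δ + 4, by positivity,
    fun I x y a b m X Y M T1 T2 η d0 hX hX1 hY hY1 hM h1 h2 hη hx hy hs ha hb hm hd => ?_⟩
  have x0 : ∀ i, 0 ≤ x i := fun i => (ha i 0).1.trans (ha i 0).2.1
  have y0 : ∀ j, 0 ≤ y j := fun j => (hb 0 j).1.trans (hb 0 j).2.1
  simp only [mul_div_assoc] at ha hb hd
  have κ0 : (0 : ℝ) ≤ 1 / (2 ^ d0 * 2) := by positivity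
  have k1 := sum_le_sum fun i (hi : i ∈ I) => sum_le_sum fun j (hj : j ∈ I) =>
    fcr_pt (κ := 1 / (2 ^ d0 * 2)) hδ hX hY hM h1 h2 hη
      ((single_le_sum (fun i _ => x0 i) hi).trans hx) ((single_le_sum (fun j _ => y0 j) hj).trans hy)
      (by positivity) (by positivity) (by field_simp) (ha i j) (hb i j) (hm i j) (by
        by_cases e : Nat.dist i j ≤ d0
        · exact Or.inl (hd i j e)
        · have : j + d0 < i ∨ i + d0 < j := by unfold Nat.dist at e; omega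
          exact Or.inr (this.imp fcr_dist fcr_dist))
  simp only [sum_add_distrib] at k1
  rw [sum_comm (f := fun i j => y j * _)] at k1
  simp only [← mul_sum] at k1
  have r1 := sum_le_sum fun i (_ : i ∈ I) => mul_le_mul_of_nonneg_left
    (fcr_row (M := M / X / 2) (P := T1 / X) (R := T2 / Y) hδ h (by positivity) (by positivity)
      (by positivity) hη h2.le κ0 I i) (x0 i)
  have r2 := sum_le_sum fun j (_ : j ∈ I) => mul_le_mul_of_nonneg_left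
    (fcr_row (M := M / Y / 2) (P := T2 / Y) (R := T1 / X) hδ h (by positivity) (by positivity)
      (by positivity) hη h1.le κ0 I j) (y0 j)
  rw [← sum_mul] at r1 r2
  have s1 := r1.trans (mul_le_mul_of_nonneg_right hx (by positivity))
  have s2 := r2.trans (mul_le_mul_of_nonneg_right hy (by positivity))
  have e : ∀ Z T T' : ℝ, 0 < Z → Z ≤ 1 → 0 < T' →
      Z * (M / Z / 2 * (1 / 8 + 1 / 8) + η * T' * (2 * (T / Z / δ)) + T' * (2 * (1 / (2 ^ d0 * 2))))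
        ≤ M / 8 + 2 * (η * (T * T') / δ) + T' / 2 ^ d0 := fun Z T T' z0 z1 t0 => by
    have q := mul_le_of_le_one_left (show 0 ≤ T' / 2 ^ d0 by positivity) z1
    refine le_of_eq_of_le ?_ (add_le_add_right q _)
    field_simp
    ring
  have e1 := e X T1 T2 hX hX1 h2
  have e2 := e Y T2 T1 hY hY1 h1
  have p1 : 0 ≤ η * (T1 * T2) := by positivity
  have p2 : 0 ≤ 16 / δ * ((T1 + T2) / 2 ^ d0) := by positivity
  rw [mul_comm T2 T1] at e2
  have q : (16 / δ + 4) * (η * (T1 * T2) + (T1 + T2) / 2 ^ d0) = 16 * (η * (T1 * T2) / δ) +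
      16 / δ * ((T1 + T2) / 2 ^ d0) + 4 * (η * (T1 * T2)) + 4 * (T1 / 2 ^ d0 + T2 / 2 ^ d0) := by
    ring
  linarith

end Vale.Agent.P028.T
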