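import Vale.Agent.P028.TStm

namespace Vale.Agent.P028.T

open Real Finset MeasureTheory Filter Metric

theorem full_pf : S_Full := by
  intro E m ω C hE hC hlow h
  have main : ∀ (Q : ℕ) (c : ℝ), volume ((⋂ q ≥ Q, (E q)ᶜ) ∩ Set.Icc c (c + 1)) = 0 := by
    intro Q c
    set K := (⋂ q ≥ Q, (E q)ᶜ) ∩ Set.Icc c (c + 1)
    have hcl : IsClosed K := (isClosed_biInter fun q _ => (hE q).isClosed_compl).inter isClosed_Icc
    have hb : Bornology.IsBounded K := (isBounded_Icc c (c + 1)).subset Set.inter_subset_right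
    by_contra h0
    have hκ : 0 < volume.real K := ENNReal.toReal_pos h0 hb.measure_lt_top.ne
    have t := (ENNReal.tendsto_toReal hb.measure_lt_top.ne).comp
      (tendsto_measure_thickening_of_isClosed (μ := volume)
        ⟨1, one_pos, hb.thickening.measure_lt_top.ne⟩ hcl)
    obtain ⟨η, h1, h2, h3⟩ := ((t.eventually (gt_mem_nhds (show volume.real K <
      volume.real K + volume.real K ^ 2 / (4 * C) by
        linarith [(by positivity : 0 < volume.real K ^ 2 / (4 * C))]))).and
      (Ioc_mem_nhdsGT (one_pos (α := ℝ)))).exists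
    obtain ⟨Q', hQ'⟩ := hlow η h2
    obtain ⟨S, hS, hm, hT⟩ := h (max Q Q')
    have hKt : K ⊆ thickening η K := self_subset_thickening h2 K
    have hG : volume.real (thickening η K \ K) < volume.real K ^ 2 / (4 * C) := by
      rw [measureReal_sdiff hKt hcl.measurableSet hb.thickening.measure_lt_top.ne]
      have h1 : volume.real (thickening η K) < _ := h1
      linarith
    have sub : thickening η K \ K ⊆ Set.Icc (c - 1) (c + 2) := fun x hx => by
      obtain ⟨y, hy, hd⟩ := mem_thickening_iff.1 hx.1
      rw [Real.dist_eq, abs_lt] at hd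
      constructor <;> linarith [hy.2.1, hy.2.2, hd.1, hd.2]
    have a := X.cs S ω E _ _ (show 0 < 2 * C / volume.real K by positivity)
      (fun q => (hE q).measurableSet)
      (isOpen_thickening.measurableSet.diff hcl.measurableSet) measurableSet_Icc sub
      measure_Icc_lt_top.ne
    have b : (∑ q ∈ S, m q) * volume.real K ≤
        ∑ q ∈ S, ω q * volume.real (E q ∩ (thickening η K \ K)) := by
      rw [sum_mul]
      refine sum_le_sum fun q hq => ?_
      have e : E q ∩ (thickening η K \ K) = E q ∩ thickening η K :=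
        Set.ext fun x => ⟨fun h => ⟨h.1, h.2.1⟩, fun h => ⟨h.1, h.2, fun hk =>
          Set.mem_iInter₂.1 hk.1 q (le_of_max_le_left (hS q hq)) h.1⟩⟩
      rw [e]
      exact hQ' q (le_of_max_le_right (hS q hq)) c K Set.inter_subset_right
    have c0 := mul_le_mul_of_nonneg_right hm hκ.le
    have c1 := mul_le_mul_of_nonneg_left (hT c)
      (show 0 ≤ 1 / (2 * (2 * C / volume.real K)) by positivity)
    have c2 := mul_lt_mul_of_pos_left hG (show 0 < 2 * C / volume.real K / 2 by positivity)
    have e1 : 1 / (2 * (2 * C / volume.real K)) * C = volume.real K / 4 := by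
      field_simp
      norm_num
    have e2 : 2 * C / volume.real K / 2 * (volume.real K ^ 2 / (4 * C)) = volume.real K / 4 := by
      field_simp
    linarith
  refine measure_mono_null (t := ⋃ Q : ℕ, ⋃ n : ℤ,
    (⋂ q ≥ Q, (E q)ᶜ) ∩ Set.Icc (n : ℝ) (n + 1)) (fun x hx => ?_)
    (measure_iUnion_null fun Q => measure_iUnion_null fun n => main Q n)
  obtain ⟨Q, hQ⟩ := eventually_atTop.1 (not_frequently.1 hx)
  exact Set.mem_iUnion₂.2 ⟨Q, ⌊x⌋, Set.mem_iInter₂.2 hQ, Int.floor_le x, (Int.lt_floor_add_one x).le⟩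

end Vale.Agent.P028.T
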