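import Vale.Agent.P028.TStm

namespace Vale.Agent.P028.T

open Real Finset MeasureTheory Filter Metric

theorem gw_rho {p : ℕ} (hp : 2 ≤ p) : (p : ℝ) ^ (-(97 / 210) : ℝ) ≤ 3 / 4 := by
  have h1 : (2 : ℝ) ≤ p := by exact_mod_cast hp
  have h2 : (p : ℝ) ^ (-(97 / 210) : ℝ) ≤ (2 : ℝ) ^ (-(97 / 210) : ℝ) :=
    rpow_le_rpow_of_nonpos two_pos h1 (by norm_num)
  have h3 : (2 : ℝ) ^ (-(97 / 210) : ℝ) ≤ (2 : ℝ) ^ (-(5 / 12) : ℝ) :=
    rpow_le_rpow_of_exponent_le one_le_two (by norm_num)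
  have h4 : ((2 : ℝ) ^ (-(5 / 12) : ℝ)) ^ 12 = 1 / 32 := by
    rw [← rpow_natCast, ← rpow_mul two_pos.le,
      show (-(5 / 12) : ℝ) * ((12 : ℕ) : ℝ) = -((5 : ℕ) : ℝ) by norm_num, rpow_neg two_pos.le,
      rpow_natCast]
    norm_num
  refine h2.trans (h3.trans ?_)
  refine le_of_pow_le_pow_left₀ (n := 12) (by norm_num) (by norm_num) ?_
  rw [h4]
  norm_num

theorem gw_p0 (C : ℝ) {ρ0 : ℝ} (h0 : 0 < ρ0) : ∃ p0 : ℕ,
    (∀ p : ℕ, p0 < p → (p : ℝ) ^ (-(97 / 210) : ℝ) ≤ ρ0) ∧ ∀ T : Finset ℕ, (∀ p ∈ T, p0 < p) →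
      ∑ p ∈ T, C * ((p : ℝ) ^ (-(97 / 210) : ℝ)) ^ (11 / 5 : ℝ) ≤ 1 / 2 := by
  have h1 : Summable fun p : ℕ => C * ((p : ℝ) ^ (-(97 / 210) : ℝ)) ^ (11 / 5 : ℝ) := by
    refine Summable.mul_left C ?_
    have h2 : Summable fun p : ℕ => (p : ℝ) ^ (-(97 / 210) * (11 / 5) : ℝ) :=
      summable_nat_rpow.2 (by norm_num)
    exact h2.congr fun p => rpow_mul (Nat.cast_nonneg p) _ _
  obtain ⟨s, hs⟩ := h1.vanishing (Iic_mem_nhds (show (0 : ℝ) < 1 / 2 by norm_num))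
  have h3 : Tendsto (fun p : ℕ => (p : ℝ) ^ (-(97 / 210) : ℝ)) atTop (nhds 0) :=
    (tendsto_rpow_neg_atTop (by norm_num)).comp tendsto_natCast_atTop_atTop
  obtain ⟨a, ha⟩ := eventually_atTop.1 (h3.eventually (Iic_mem_nhds h0))
  refine ⟨max a (s.sup id), fun p hp => ha p ((le_max_left _ _).trans hp.le), fun T hT => ?_⟩
  refine hs T (disjoint_left.2 fun p hp hps => ?_)
  have h4 : p ≤ s.sup id := le_sup (f := id) hps
  exact absurd (hT p hp) (not_lt.2 (h4.trans (le_max_right _ _)))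

theorem gw_union {ψ : ℕ → ℝ} {E : Finset (ℕ × ℕ)} (h : ∀ e ∈ E, 0 ≤ mu ψ e.1 * mu ψ e.2)
    (U : Finset ℕ) (d : ℕ → ℕ × ℕ → ℕ) :
    mE ψ E ≤ mE ψ (E.filter fun e => ∀ p ∈ U, d p e ≤ 1) +
      ∑ p ∈ U, mE ψ (E.filter fun e => 2 ≤ d p e) := by
  unfold mE
  simp only [sum_filter]
  rw [sum_comm, ← sum_add_distrib]
  refine sum_le_sum fun e he => ?_
  have h1 : ∀ p ∈ U, 0 ≤ if 2 ≤ d p e then mu ψ e.1 * mu ψ e.2 else 0 := fun p _ => by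
    by_cases k : 2 ≤ d p e
    · rw [if_pos k]; exact h e he
    · rw [if_neg k]
  by_cases k : ∀ p ∈ U, d p e ≤ 1
  · rw [if_pos k]
    exact le_add_of_nonneg_right (sum_nonneg h1)
  · rw [if_neg k, zero_add]
    obtain ⟨p, hp, hd⟩ : ∃ p ∈ U, 2 ≤ d p e := by
      by_contra hc
      exact k fun p hp => by
        by_contra h2
        exact hc ⟨p, hp, by omega⟩
    refine le_trans (le_of_eq ?_) (single_le_sum h1 hp)
    rw [if_pos hd]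

theorem gw_pf (hGW1 : S_GW1) (hGW2 : S_GW2) (hStrL : S_StrL) : S_GW := by
  obtain ⟨C, ρ0, hC, hρ0, h2⟩ := hGW2
  obtain ⟨p0, hp0, hsum⟩ := gw_p0 C hρ0
  refine ⟨128 ^ (p0 + 1), by positivity, fun ψ S E hS hE hne => ?_⟩
  obtain ⟨V, W, Fx, E1, f, g, hV, hW, hE1, hVW, hne1, hreg, hFx, hp, hm⟩ :=
    hGW1 p0 ψ S E hS hE hne
  have hk : ∀ p : ℕ, ∃ k : ℕ, p.Prime → p ∉ Fx → p0 < p ∧
      mE ψ (E1.filter fun e => 2 ≤ Nat.dist (e.1.factorization p) k +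
        Nat.dist (e.2.factorization p) k) ≤
        C * ((p : ℝ) ^ (-(97 / 210) : ℝ)) ^ (11 / 5 : ℝ) * mE ψ E1 := by
    intro p
    by_cases hpp : p.Prime ∧ p ∉ Fx
    · have hpos : (0 : ℝ) < p := by exact_mod_cast hpp.1.pos
      have hc : (if p ≤ p0 then 1 / 8 else 1 : ℝ) ≤ 1 := by
        by_cases k : p ≤ p0
        · rw [if_pos k]; norm_num
        · rw [if_neg k]
      obtain ⟨a, b⟩ := h2 ψ S V W E1 (fun q => q.factorization p)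
        (if p ≤ p0 then 1 / 8 else 1) ((p : ℝ) ^ (-(97 / 210) : ℝ)) hS hV hW hVW hne1
        (rpow_pos_of_pos hpos _) (gw_rho hpp.1.two_le) hc (hp p hpp.1 hpp.2)
      have hlt : p0 < p := by
        by_contra k
        rw [if_pos (not_lt.1 k)] at a
        exact lt_irrefl _ a
      obtain ⟨k, hk⟩ := b (hp0 p hlt)
      exact ⟨k, fun _ _ => ⟨hlt, hk⟩⟩
    · exact ⟨0, fun a b => absurd ⟨a, b⟩ hpp⟩
  choose k hk using hk
  obtain ⟨U, hU⟩ : ∃ U : Finset ℕ, U = S.biUnion Nat.primeFactors \ Fx := ⟨_, rfl⟩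
  have hU1 : ∀ p ∈ U, p.Prime ∧ p ∉ Fx := fun p hp => by
    rw [hU] at hp
    obtain ⟨a, b⟩ := mem_sdiff.1 hp
    obtain ⟨q, _, hq⟩ := mem_biUnion.1 a
    exact ⟨Nat.prime_of_mem_primeFactors hq, b⟩
  have hU2 : ∀ q ∈ S, q.primeFactors ⊆ U ∪ Fx := fun q hq p hp => by
    rw [hU, sdiff_union_self_eq_union]
    exact mem_union_left _ (mem_biUnion.2 ⟨q, hq, hp⟩)
  obtain ⟨N, α, β, hN, hα, hβ, hαβ, hstr⟩ := hStrL U Fx f g k (fun p hp => (hU1 p hp).1)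
    (fun p hp => (hFx p hp).1) (disjoint_left.2 fun p hp => (hU1 p hp).2)
  have hE1S : E1 ⊆ S ×ˢ S := hE1.trans hE
  refine ⟨V, W, E1, E1.filter fun e => ∀ p ∈ U, Nat.dist (e.1.factorization p) (k p) +
    Nat.dist (e.2.factorization p) (k p) ≤ 1, N, α, β, hV, hW, hE1, hVW, filter_subset _ _, hne1,
    hN, hα, hβ, hreg, ?_, fun e he => ?_, ?_⟩
  · have a := gw_union (ψ := ψ) (E := E1) (fun e he => (hS.mE_pos (hE1S he)).le) U
      fun p e => Nat.dist (e.1.factorization p) (k p) + Nat.dist (e.2.factorization p) (k p)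
    have b := sum_le_sum fun p (hp : p ∈ U) => (hk p (hU1 p hp).1 (hU1 p hp).2).2
    rw [← sum_mul] at b
    have c := mul_le_mul_of_nonneg_right
      (hsum U fun p hp => (hk p (hU1 p hp).1 (hU1 p hp).2).1) (hS.mE_nonneg hE1S)
    linarith
  · obtain ⟨a, b⟩ := mem_filter.1 he
    obtain ⟨a1, a2⟩ := mem_product.1 (hVW a)
    exact hstr e.1 e.2 (hS.1 _ (hV a1)).1 (hS.1 _ (hW a2)).1 (hU2 _ (hV a1)) (hU2 _ (hW a2))
      (fun p hp => ⟨(hFx p hp).2.1 _ a1, (hFx p hp).2.2 _ a2⟩) b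
  · have e : (α : ℝ) * β = ∏ p ∈ Fx, (p : ℝ) ^ Nat.dist (f p) (g p) := by exact_mod_cast hαβ
    rw [e]
    exact hm

end Vale.Agent.P028.T
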