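import Vale.Agent.P028.TStm

namespace Vale.Agent.P028.T

open Real Finset MeasureTheory Filter Metric

def gw1_E (E : Finset (ℕ × ℕ)) (V W : Finset ℕ) : Finset (ℕ × ℕ) :=
  E.filter fun e => e.1 ∈ V ∧ e.2 ∈ W

noncomputable def gw1_f (V : Finset ℕ) (p : ℕ) : ℕ := V.sup fun q => q.factorization p

noncomputable def gw1_F (U V W : Finset ℕ) : Finset ℕ := U.filter fun p =>
  (∀ q ∈ V, q.factorization p = gw1_f V p) ∧ ∀ r ∈ W, r.factorization p = gw1_f W p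

noncomputable def gw1_t (p0 : ℕ) (V W : Finset ℕ) (p : ℕ) : ℝ :=
  (if p ≤ p0 then 8 else 1) * ((p : ℝ) ^ (97 / 210 : ℝ)) ^ Nat.dist (gw1_f V p) (gw1_f W p)

noncomputable def gw1_om (p0 : ℕ) (U V W : Finset ℕ) : ℝ := ∏ p ∈ gw1_F U V W, gw1_t p0 V W p

theorem gw1_sup {V : Finset ℕ} {p i : ℕ} (hV : V.Nonempty) (h : ∀ q ∈ V, q.factorization p = i) :
    gw1_f V p = i := (sup_congr rfl h).trans (sup_const hV i)

theorem gw1_one (p0 : ℕ) (V W : Finset ℕ) {p : ℕ} (hp : p.Prime) : 1 ≤ gw1_t p0 V W p :=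
  one_le_mul_of_one_le_of_one_le (by split_ifs <;> norm_num)
    (one_le_pow₀ (one_le_rpow (by exact_mod_cast hp.one_le) (by norm_num)))

theorem gw1_sub (p0 : ℕ) {U T : Finset ℕ} (hU : ∀ p ∈ U, p.Prime) (V W : Finset ℕ)
    (hT : T ⊆ gw1_F U V W) : ∏ p ∈ T, gw1_t p0 V W p ≤ gw1_om p0 U V W :=
  prod_le_prod_of_subset_of_one_le hT
    (fun p hp => zero_le_one.trans (gw1_one p0 V W (hU p (mem_filter.1 (hT hp)).1)))
    fun p hp _ => gw1_one p0 V W (hU p (mem_filter.1 hp).1)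

theorem gw1_mono (p0 : ℕ) (U : Finset ℕ) {V W V' W' : Finset ℕ} (h1 : V' ⊆ V) (h2 : W' ⊆ W)
    (n1 : V'.Nonempty) (n2 : W'.Nonempty) : gw1_F U V W ⊆ gw1_F U V' W' ∧
      gw1_om p0 U V W = ∏ p ∈ gw1_F U V W, gw1_t p0 V' W' p := by
  have k : ∀ p ∈ gw1_F U V W, gw1_f V' p = gw1_f V p ∧ gw1_f W' p = gw1_f W p := fun p hp =>
    ⟨gw1_sup n1 fun q hq => (mem_filter.1 hp).2.1 q (h1 hq),
      gw1_sup n2 fun q hq => (mem_filter.1 hp).2.2 q (h2 hq)⟩
  refine ⟨fun p hp => mem_filter.2 ⟨(mem_filter.1 hp).1, fun q hq => ?_, fun q hq => ?_⟩,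
    prod_congr rfl fun p hp => ?_⟩
  · rw [(k p hp).1, (mem_filter.1 hp).2.1 q (h1 hq)]
  · rw [(k p hp).2, (mem_filter.1 hp).2.2 q (h2 hq)]
  · rw [gw1_t, gw1_t, (k p hp).1, (k p hp).2]

theorem gw1_key {m m' a b a' b' o o' k s : ℝ} (hm : 0 ≤ m') (ha : 0 < a) (hb : 0 < b)
    (ha' : 0 < a') (hb' : 0 < b') (ho : 0 < o) (hk : 0 < k) (h1 : o * k ≤ o')
    (h2 : m' / (a' * b') ^ s * o' ≤ m / (a * b) ^ s * o) :
    m' ≤ k⁻¹ * m * (a' / a * (b' / b)) ^ s := by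
  have A : 0 < (a * b) ^ s := by positivity
  have A' : 0 < (a' * b') ^ s := by positivity
  have h3 := (mul_le_mul_of_nonneg_left h1 (div_nonneg hm A'.le)).trans h2
  rw [mul_comm o k, ← mul_assoc] at h3
  have h4 := mul_le_mul_of_nonneg_right (le_of_mul_le_mul_right h3 ho)
    (mul_pos (inv_pos.2 hk) A').le
  rw [div_mul_div_comm, div_rpow (by positivity) (by positivity)]
  refine le_trans (le_of_eq ?_) (h4.trans_eq ?_)
  · field_simp
  · ring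

theorem gw1_om_le (p0 : ℕ) (U V W : Finset ℕ) : gw1_om p0 U V W ≤ 8 ^ (p0 + 1) *
    (∏ p ∈ gw1_F U V W, (p : ℝ) ^ Nat.dist (gw1_f V p) (gw1_f W p)) ^ (97 / 210 : ℝ) := by
  rw [gw1_om, ← finsetProd_rpow _ _ fun p _ => by positivity]
  simp only [gw1_t, prod_mul_distrib, rpow_pow_comm (Nat.cast_nonneg _)]
  refine mul_le_mul_of_nonneg_right ?_ (prod_nonneg fun p _ => by positivity)
  rw [prod_ite, prod_const, prod_const_one, mul_one]
  refine pow_le_pow_right₀ (by norm_num) ((card_le_card fun p hp => ?_).trans_eq (card_range _))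
  exact mem_range.2 (Nat.lt_succ_of_le (mem_filter.1 hp).2)

theorem gw1_fin {x m o P : ℝ} {n : ℕ} (hx : 0 ≤ x) (hm : 0 < m) (hP : 0 ≤ P)
    (h : x ≤ m ^ (10 / 21 : ℝ) * o) (ho : o ≤ 8 ^ n * P ^ (97 / 210 : ℝ)) :
    x ^ (21 / 10 : ℝ) ≤ 128 ^ n * m * P ^ (97 / 100 : ℝ) := by
  have k6 : ((8 : ℝ) ^ n) ^ (21 / 10 : ℝ) ≤ 128 ^ n := by
    rw [← rpow_pow_comm (by norm_num)]
    refine pow_le_pow_left₀ (by positivity) ((rpow_le_rpow_of_exponent_le (by norm_num)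
      (by norm_num : (21 / 10 : ℝ) ≤ 7 / 3)).trans_eq ?_) _
    rw [show (8 : ℝ) = 2 ^ (3 : ℝ) by norm_num, ← rpow_mul (by norm_num)]
    norm_num
  refine (rpow_le_rpow hx (h.trans (mul_le_mul_of_nonneg_left ho (by positivity)))
    (by norm_num)).trans ?_
  rw [mul_rpow (by positivity) (by positivity), mul_rpow (by positivity) (by positivity),
    ← rpow_mul hm.le, ← rpow_mul hP, show (10 / 21 * (21 / 10) : ℝ) = 1 by norm_num, rpow_one,
    show (97 / 210 * (21 / 10) : ℝ) = 97 / 100 by norm_num, ← mul_assoc, mul_comm m]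
  gcongr

theorem gw1_nn {E : Finset (ℕ × ℕ)} {V W : Finset ℕ} (h : (gw1_E E V W).Nonempty) :
    V.Nonempty ∧ W.Nonempty :=
  let ⟨_, he⟩ := h
  ⟨⟨_, (mem_filter.1 he).2.1⟩, ⟨_, (mem_filter.1 he).2.2⟩⟩

theorem gw1_pos {ψ : ℕ → ℝ} {S V : Finset ℕ} (hS : Blk0 ψ S) (h1 : V ⊆ S) (h2 : V.Nonempty) :
    0 < mV ψ V := sum_pos (fun _ hq => hS.mu_pos (h1 hq)) h2

theorem gw1_max (p0 : ℕ) {ψ : ℕ → ℝ} {S U : Finset ℕ} {E : Finset (ℕ × ℕ)} (hS : Blk0 ψ S)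
    (hE : E ⊆ S ×ˢ S) (hne : E.Nonempty) (hU : ∀ p ∈ U, p.Prime) : ∃ V ⊆ S, ∃ W ⊆ S,
    (gw1_E E V W).Nonempty ∧ (∀ V' ⊆ V, ∀ W' ⊆ W, ∀ F ⊆ gw1_E E V' W', F.Nonempty → ∀ k : ℝ,
      0 < k → gw1_om p0 U V W * k ≤ gw1_om p0 U V' W' → mE ψ F ≤ k⁻¹ * mE ψ (gw1_E E V W) *
        (mV ψ V' / mV ψ V * (mV ψ W' / mV ψ W)) ^ (11 / 21 : ℝ)) ∧
    mE ψ E ≤ mE ψ (gw1_E E V W) ^ (10 / 21 : ℝ) * gw1_om p0 U V W := by
  have eS : gw1_E E S S = E := filter_true_of_mem fun e he => mem_product.1 (hE he)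
  have sub : ∀ V W, gw1_E E V W ⊆ S ×ˢ S := fun V W => (filter_subset _ _).trans hE
  have om1 : ∀ V W, 1 ≤ gw1_om p0 U V W := fun V W => gw1_sub p0 hU V W (empty_subset _)
  have mem : ∀ V ⊆ S, ∀ W ⊆ S, (gw1_E E V W).Nonempty → (V, W) ∈
      (S.powerset ×ˢ S.powerset).filter fun x => (gw1_E E x.1 x.2).Nonempty :=
    fun V h1 W h2 h3 => mem_filter.2 ⟨mem_product.2 ⟨mem_powerset.2 h1, mem_powerset.2 h2⟩, h3⟩
  have nS : (gw1_E E S S).Nonempty := by rwa [eS]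
  obtain ⟨V, hV, W, hW, h1, hmax⟩ : ∃ V ⊆ S, ∃ W ⊆ S, (gw1_E E V W).Nonempty ∧
      ∀ V' ⊆ S, ∀ W' ⊆ S, (gw1_E E V' W').Nonempty →
      mE ψ (gw1_E E V' W') / (mV ψ V' * mV ψ W') ^ (11 / 21 : ℝ) * gw1_om p0 U V' W' ≤
        mE ψ (gw1_E E V W) / (mV ψ V * mV ψ W) ^ (11 / 21 : ℝ) * gw1_om p0 U V W := by
    obtain ⟨x, hx, hmax⟩ := exists_max_image _ (fun x : Finset ℕ × Finset ℕ =>
      mE ψ (gw1_E E x.1 x.2) / (mV ψ x.1 * mV ψ x.2) ^ (11 / 21 : ℝ) * gw1_om p0 U x.1 x.2)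
      ⟨_, mem S Subset.rfl S Subset.rfl nS⟩
    obtain ⟨hx, h1⟩ := mem_filter.1 hx
    exact ⟨x.1, mem_powerset.1 (mem_product.1 hx).1, x.2, mem_powerset.1 (mem_product.1 hx).2, h1,
      fun V' a W' b c => hmax (V', W') (mem V' a W' b c)⟩
  have m0 : 0 < mE ψ (gw1_E E V W) := sum_pos (fun e he => hS.mE_pos (sub V W he)) h1
  refine ⟨V, hV, W, hW, h1, fun V' a W' b F c d k e f => (hS.mE_mono (sub _ _) c).trans
    (gw1_key (hS.mE_nonneg (sub _ _)) (gw1_pos hS hV (gw1_nn h1).1) (gw1_pos hS hW (gw1_nn h1).2)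
      (gw1_pos hS (a.trans hV) (gw1_nn (d.mono c)).1)
      (gw1_pos hS (b.trans hW) (gw1_nn (d.mono c)).2) (zero_lt_one.trans_le (om1 V W)) e f
      (hmax _ (a.trans hV) _ (b.trans hW) (d.mono c))), ?_⟩
  have pS := gw1_pos hS Subset.rfl (gw1_nn nS).1
  have e0 := hS.mE_nonneg hE
  have k1 : mE ψ E ≤ mE ψ E / (mV ψ S * mV ψ S) ^ (11 / 21 : ℝ) * gw1_om p0 U S S :=
    (le_div_self e0 (by positivity) (rpow_le_one (by positivity)
      (mul_le_one₀ hS.2 pS.le hS.2) (by norm_num))).trans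
      (le_mul_of_one_le_right (by positivity) (om1 S S))
  have k2 := hmax S Subset.rfl S Subset.rfl nS
  rw [eS] at k2
  have k3 : mE ψ (gw1_E E V W) ≤ mV ψ V * mV ψ W := (hS.mE_mono (product_subset_product hV hW)
    fun e he => mem_product.2 (mem_filter.1 he).2).trans_eq (mE_prod ψ V W)
  refine (k1.trans k2).trans (mul_le_mul_of_nonneg_right ?_ (zero_le_one.trans (om1 V W)))
  refine (div_le_div_of_nonneg_left m0.le (by positivity)
    (rpow_le_rpow m0.le k3 (by norm_num))).trans_eq ?_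
  rw [show (10 / 21 : ℝ) = 1 - 11 / 21 by norm_num, rpow_sub m0, rpow_one]

theorem gw1_pf : S_GW1 := by
  intro p0 ψ S E hS hE hne
  obtain ⟨U, hU, hU'⟩ : ∃ U : Finset ℕ, (∀ p ∈ U, p.Prime) ∧ ∀ p : ℕ, p.Prime → p ∉ U →
      ¬ p ≤ p0 ∧ ∀ q ∈ S, q.factorization p = 0 := by
    refine ⟨(range (p0 + 1)).filter Nat.Prime ∪ S.biUnion Nat.primeFactors, fun p hp => ?_,
      fun p hp h => ⟨fun k => h (mem_union_left _
        (mem_filter.2 ⟨mem_range.2 (Nat.lt_succ_of_le k), hp⟩)), fun q hq => ?_⟩⟩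
    · rcases mem_union.1 hp with h | h
      · exact (mem_filter.1 h).2
      · obtain ⟨q, -, h⟩ := mem_biUnion.1 h
        exact Nat.prime_of_mem_primeFactors h
    · exact Finsupp.notMem_support_iff.1 fun k =>
        h (mem_union_right _ (mem_biUnion.2 ⟨q, hq, k⟩))
  obtain ⟨V, hV, W, hW, h1, key, fin⟩ := gw1_max p0 hS hE hne hU
  have sub : gw1_E E V W ⊆ S ×ˢ S := (filter_subset _ _).trans hE
  have pV := gw1_pos hS hV (gw1_nn h1).1
  have pW := gw1_pos hS hW (gw1_nn h1).2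
  have m0 : 0 < mE ψ (gw1_E E V W) := sum_pos (fun e he => hS.mE_pos (sub he)) h1
  have key1 : ∀ V' ⊆ V, ∀ W' ⊆ W, ∀ F ⊆ gw1_E E V' W', mE ψ F ≤ mE ψ (gw1_E E V W) *
      (mV ψ V' / mV ψ V * (mV ψ W' / mV ψ W)) ^ (11 / 21 : ℝ) := fun V' a W' b F c => by
    rcases F.eq_empty_or_nonempty with rfl | d
    · have := hS.mV_nonneg (a.trans hV)
      have := hS.mV_nonneg (b.trans hW)
      exact sum_empty.trans_le (by positivity)
    obtain ⟨k1, k2⟩ := gw1_mono p0 U a b (gw1_nn (d.mono c)).1 (gw1_nn (d.mono c)).2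
    have k := key V' a W' b F c d 1 one_pos (by rw [mul_one, k2]; exact gw1_sub p0 hU _ _ k1)
    rwa [inv_one, one_mul] at k
  refine ⟨V, W, gw1_F U V W, gw1_E E V W, gw1_f V, gw1_f W, hV, hW, filter_subset _ _,
    fun e he => mem_product.2 (mem_filter.1 he).2, h1,
    fun F hF => key1 _ (image_subset_iff.2 fun e he => (mem_filter.1 (hF he)).2.1) _
      (image_subset_iff.2 fun e he => (mem_filter.1 (hF he)).2.2) F fun e he =>
        mem_filter.2 ⟨(mem_filter.1 (hF he)).1, mem_image_of_mem _ he, mem_image_of_mem _ he⟩,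
    fun p hp => ⟨hU p (mem_filter.1 hp).1, (mem_filter.1 hp).2⟩, fun p hp hF i j => ?_,
    gw1_fin (hS.mE_nonneg hE) m0 (prod_nonneg fun p _ => by positivity) fin (gw1_om_le p0 U V W)⟩
  have a : V.filter (fun q => q.factorization p = i) ⊆ V := filter_subset _ _
  have b : W.filter (fun q => q.factorization p = j) ⊆ W := filter_subset _ _
  have c : ((gw1_E E V W).filter fun e => e.1.factorization p = i ∧ e.2.factorization p = j) ⊆
      gw1_E E (V.filter fun q => q.factorization p = i)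
        (W.filter fun q => q.factorization p = j) := fun e he => by
    simp only [gw1_E, mem_filter] at he ⊢
    tauto
  rcases ((gw1_E E V W).filter fun e => e.1.factorization p = i ∧
    e.2.factorization p = j).eq_empty_or_nonempty with d | d
  · have := hS.mV_nonneg (a.trans hV)
    have := hS.mV_nonneg (b.trans hW)
    rw [d]
    exact sum_empty.trans_le (by positivity)
  by_cases hpU : p ∈ U
  · obtain ⟨n1, n2⟩ := gw1_nn (d.mono c)
    obtain ⟨k1, k2⟩ := gw1_mono p0 U a b n1 n2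
    have f1 := gw1_sup n1 fun q hq => (mem_filter.1 hq).2
    have f2 := gw1_sup n2 fun q hq => (mem_filter.1 hq).2
    refine (key _ a _ b _ c d _ (zero_lt_one.trans_le (gw1_one p0 _ _ hp)) (by
      rw [k2, mul_comm, ← prod_insert hF]
      exact gw1_sub p0 hU _ _ (insert_subset (mem_filter.2 ⟨hpU,
        fun q hq => (mem_filter.1 hq).2.trans f1.symm,
        fun q hq => (mem_filter.1 hq).2.trans f2.symm⟩) k1))).trans_eq ?_
    rw [gw1_t, f1, f2, rpow_neg (Nat.cast_nonneg _), inv_pow, mul_inv]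
    split_ifs <;> ring
  · obtain ⟨u1, u2⟩ := hU' p hp hpU
    obtain ⟨e, he⟩ := d
    have he' := mem_product.1 (sub (mem_filter.1 he).1)
    have i0 : i = 0 := (mem_filter.1 he).2.1.symm.trans (u2 _ he'.1)
    have j0 : j = 0 := (mem_filter.1 he).2.2.symm.trans (u2 _ he'.2)
    rw [if_neg u1, one_mul, show Nat.dist i j = 0 by rw [i0, j0]; rfl, pow_zero, mul_one]
    exact key1 _ a _ b _ c

end Vale.Agent.P028.T
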