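import Vale.Agent.P028.TStm

namespace Vale.Agent.P028.T

open Real Finset MeasureTheory Filter Metric

theorem gw2_V (ψ : ℕ → ℝ) {V : Finset ℕ} {v : ℕ → ℕ} {n : ℕ} (h : ∀ q ∈ V, v q < n) :
    ∑ i ∈ range n, mV ψ (V.filter fun q => v q = i) = mV ψ V :=
  sum_fiberwise_of_maps_to (fun q hq => mem_range.2 (h q hq)) _

theorem gw2_E (ψ : ℕ → ℝ) {E : Finset (ℕ × ℕ)} {v : ℕ → ℕ} {n : ℕ}
    (h : ∀ e ∈ E, v e.1 < n ∧ v e.2 < n) :
    ∑ i ∈ range n, ∑ j ∈ range n, mE ψ (E.filter fun e => v e.1 = i ∧ v e.2 = j) = mE ψ E := by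
  rw [← sum_product', mE, ← sum_fiberwise_of_maps_to (t := range n ×ˢ range n)
    (g := fun e : ℕ × ℕ => (v e.1, v e.2))
    fun e he => mem_product.2 ⟨mem_range.2 (h e he).1, mem_range.2 (h e he).2⟩]
  exact sum_congr rfl fun z _ => sum_congr (filter_congr fun e _ => by rw [Prod.ext_iff]) fun _ _ => rfl

theorem gw2_pf (hSch : S_Sch) (hLoc : S_Loc) : S_GW2 := by
  obtain ⟨C, ρ0, hC, hρ0, hL⟩ := hLoc
  refine ⟨C, ρ0, hC, hρ0, fun ψ S V W E v c ρ hS hV hW hE hne h0 h1 hc h => ?_⟩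
  have hES : E ⊆ S ×ˢ S := hE.trans (product_subset_product hV hW)
  obtain ⟨n, hn⟩ : ∃ n, ∀ q ∈ S, v q < n :=
    ⟨S.sup v + 1, fun q hq => Nat.lt_succ_of_le (le_sup (f := v) hq)⟩
  have hn' : ∀ e ∈ E, v e.1 < n ∧ v e.2 < n := fun e he =>
    ⟨hn _ (mem_product.1 (hES he)).1, hn _ (mem_product.1 (hES he)).2⟩
  obtain ⟨e0, he0⟩ := hne
  have hX : 0 < mV ψ V := sum_pos (fun _ hq => hS.mu_pos (hV hq)) ⟨_, (mem_product.1 (hE he0)).1⟩
  have hY : 0 < mV ψ W := sum_pos (fun _ hq => hS.mu_pos (hW hq)) ⟨_, (mem_product.1 (hE he0)).2⟩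
  have hM : 0 < mE ψ E := sum_pos (fun _ he => hS.mE_pos (hES he)) ⟨_, he0⟩
  set x : ℕ → ℝ := fun i => mV ψ (V.filter fun q => v q = i) / mV ψ V with hx
  set y : ℕ → ℝ := fun i => mV ψ (W.filter fun q => v q = i) / mV ψ W with hy
  set m : ℕ → ℕ → ℝ := fun i j => mE ψ (E.filter fun e => v e.1 = i ∧ v e.2 = j) / mE ψ E with hm
  have x0 : ∀ i, 0 ≤ x i := fun i => div_nonneg (hS.mV_nonneg ((filter_subset _ _).trans hV)) hX.le
  have y0 : ∀ i, 0 ≤ y i := fun i => div_nonneg (hS.mV_nonneg ((filter_subset _ _).trans hW)) hY.le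
  have x1 : ∀ i, x i ≤ 1 := fun i => (div_le_one hX).2 (hS.mV_mono hV (filter_subset _ _))
  have y1 : ∀ i, y i ≤ 1 := fun i => (div_le_one hY).2 (hS.mV_mono hW (filter_subset _ _))
  have sx : ∑ i ∈ range n, x i = 1 := by
    rw [← sum_div, gw2_V ψ fun q hq => hn q (hV hq), div_self hX.ne']
  have sy : ∑ i ∈ range n, y i = 1 := by
    rw [← sum_div, gw2_V ψ fun q hq => hn q (hW hq), div_self hY.ne']
  have sm : ∑ i ∈ range n, ∑ j ∈ range n, m i j = 1 := by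
    simp only [hm, ← sum_div]
    rw [gw2_E ψ hn', div_self hM.ne']
  have hb : ∀ c' : ℝ, c ≤ c' → ∀ i j,
      m i j ≤ c' * ((x i * y j) ^ (11 / 21 : ℝ) * ρ ^ Nat.dist i j) := fun c' hc' i j => by
    have := rpow_nonneg (mul_nonneg (x0 i) (y0 j)) (11 / 21 : ℝ)
    refine le_trans ?_ (mul_le_mul_of_nonneg_right hc' (by positivity))
    rw [hm, div_le_iff₀ hM]
    exact (h i j).trans_eq (by simp only [hx, hy]; ring)
  refine ⟨lt_of_not_ge fun hc8 => ?_, fun hρ => ?_⟩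
  · obtain ⟨s1, s2⟩ := hSch ρ (range n) (range n) x y h0.le (by linarith) x0 y0
    rw [sx, sy, mul_one, sqrt_one] at s1 s2
    have s3 : ∑ i ∈ range n, ∑ j ∈ range n, m i j ≤ ∑ i ∈ range n, ∑ j ∈ range n, 1 / 8 *
        ((if i = j then 0 else √(x i * y j) * ρ ^ Nat.dist i j) +
          if i = j then √(x i * y j) else 0) := by
      refine sum_le_sum fun i _ => sum_le_sum fun j _ => (hb _ hc8 i j).trans
        (mul_le_mul_of_nonneg_left ?_ (by norm_num))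
      have k : (x i * y j) ^ (11 / 21 : ℝ) ≤ √(x i * y j) := by
        rw [sqrt_eq_rpow]
        exact rpow_le_rpow_of_exponent_ge' (mul_nonneg (x0 i) (y0 j))
          (mul_le_one₀ (x1 i) (y0 j) (y1 j)) (by norm_num) (by norm_num)
      split_ifs with hij
      · subst hij; simpa using k
      · rw [add_zero]; gcongr
    simp only [← mul_sum, sum_add_distrib] at s3
    have s4 : 2 * ρ / (1 - ρ) ≤ 6 := by rw [div_le_iff₀ (by linarith)]; linarith
    linarith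
  · obtain ⟨k, hk⟩ := hL ρ (range n) x y m h0 hρ x0 y0 sx.le sy.le sm fun i j => by
      simpa using hb 1 hc i j
    refine ⟨k, ?_⟩
    rw [← div_le_iff₀ hM, ← gw2_E ψ fun e he => hn' e (mem_filter.1 he).1, sum_div]
    refine le_of_eq_of_le (sum_congr rfl fun i _ => ?_) hk
    rw [sum_div]
    refine sum_congr rfl fun j _ => ?_
    rw [filter_filter]
    split_ifs with hij
    · rw [filter_congr fun e _ => and_iff_right_of_imp fun k => by rw [k.1, k.2]; exact hij]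
    · rw [filter_false_of_mem fun e _ k => hij (by rw [← k.2.1, ← k.2.2]; exact k.1), mE, sum_empty,
        zero_div]

end Vale.Agent.P028.T
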