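import Vale.Agent.P028.TStm

namespace Vale.Agent.P028.T

open Real Finset MeasureTheory Filter Metric

theorem hd1_pf : S_HD1 := by
  intro ψ S E τ κ n0 hS hE hτ hκ hn hψ hT
  rcases S.eq_empty_or_nonempty with rfl | ⟨q0, hq0⟩
  · rw [Finset.empty_product, subset_empty] at hE
    rw [hE, sum_empty]
    positivity
  have τ0 : 0 ≤ τ := (Nat.cast_nonneg _).trans (hτ q0 hq0)
  have h1 : ∀ r ∈ S, ((E.filter fun x => x.2 = r).card : ℝ) ≤ τ * n0 := by
    intro r hr
    have r0 := (hS.1 r hr).1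
    rw [card_eq_sum_card_fiberwise (f := fun x => cf r x.1) (t := r.divisors) fun x _ =>
      mem_coe.2 (Nat.mem_divisors.2 ⟨cf_dvd r x.1, r0.ne'⟩), Nat.cast_sum]
    refine (sum_le_card_nsmul _ _ n0 fun v _ => ?_).trans ?_
    · rw [← card_image_of_injOn (f := fun x => cf x.1 r) fun x hx y hy e => ?_]
      · refine hT r v _ fun u hu => ?_
        obtain ⟨x, hx, rfl⟩ := mem_image.1 hu
        obtain ⟨h2, h3⟩ := mem_filter.1 hx
        obtain ⟨h4, rfl⟩ := mem_filter.1 h2
        exact ⟨x.1, h4, rfl, h3⟩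
      · obtain ⟨h2, h3⟩ := mem_filter.1 hx
        obtain ⟨k2, k3⟩ := mem_filter.1 hy
        have e : cf x.1 r = cf y.1 r := e
        refine Prod.ext ?_ ((mem_filter.1 h2).2.trans (mem_filter.1 k2).2.symm)
        rw [eq_cf r0 x.1, eq_cf r0 y.1, h3, k3, e]
    · rw [nsmul_eq_mul]
      exact mul_le_mul_of_nonneg_right (hτ r hr) hn
  rw [← sum_fiberwise_of_maps_to (g := Prod.snd) fun x hx => (mem_product.1 (hE hx)).2]
  calc ∑ r ∈ S, ∑ x ∈ E.filter fun x => x.2 = r, ψ x.1 * ψ x.2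
      ≤ ∑ r ∈ S, τ ^ 2 * κ * n0 * mu ψ r := by
        refine sum_le_sum fun r hr => ?_
        obtain ⟨r0, p0, -⟩ := hS.1 r hr
        refine (sum_le_card_nsmul _ _ (κ * (τ * mu ψ r)) fun x hx => ?_).trans ?_
        · obtain ⟨h2, h3⟩ := mem_filter.1 hx
          rw [h3]
          exact mul_le_mul (hψ x h2) ((psi_le r0 p0.le).trans
            (mul_le_mul_of_nonneg_right (hτ r hr) (mu_nonneg p0.le))) p0.le hκ
        · have := mu_nonneg p0.le
          rw [nsmul_eq_mul]
          exact (mul_le_mul_of_nonneg_right (h1 r hr) (by positivity)).trans_eq (by ring)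
    _ ≤ τ ^ 2 * κ * n0 := by
        rw [← mul_sum]
        exact mul_le_of_le_one_right (by positivity) hS.2

end Vale.Agent.P028.T
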