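import Vale.Agent.P028.TStm

namespace Vale.Agent.P028.T

open Real Finset MeasureTheory Filter Metric

theorem hd2_ul {γ t G ζ W : ℝ} {A : ℕ → ℤ} {B : ℕ → ℕ} {ψ : ℕ → ℝ} {q : ℕ} (hc : Ctr γ A B)
    (hG : 4 ≤ G) (ht : t * G ^ 16 = 1) (h0 : 0 < ψ q) (h1 : ψ q ≤ t) (h1' : ψ q ≤ 1 / 2)
    (h2 : t / G ^ 2 ≤ ψ q * (2 * W * G)) (hW : G ^ 4 ≤ W) {c k : ℤ} (hk : |k * γ - c| ≤ ζ)
    (hζ : ζ * W ≤ 2 * t * G ^ 4) (hk' : |(k : ℝ)| ≤ 2 * G ^ 5) :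
    c * B (lv ψ q) = A (lv ψ q) * k := by
  obtain ⟨a1, a2⟩ := lv_spec h0 (by linarith)
  obtain ⟨-, b1, -, b2⟩ := hc (lv ψ q)
  have G0 : 0 < G := by linarith
  have W0 : 0 < W := lt_of_lt_of_le (by positivity) hW
  have R0 : 0 < √(2 ^ lv ψ q) := by positivity
  have R2 : √(2 ^ lv ψ q) ^ 2 = 2 ^ lv ψ q := sq_sqrt (by positivity)
  rw [← R2] at a1 a2
  generalize √(2 ^ lv ψ q) = R at *
  have c1 : G ^ 8 ≤ 2 * R := by
    refine (sq_le_sq₀ (by positivity) (by positivity)).1 ?_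
    have : G ^ 16 ≤ 1 / ψ q := by
      rw [le_div_iff₀ h0, ← ht, mul_comm]
      gcongr
    nlinarith
  have c2 : R ≤ G ^ 8 * W := by
    refine (sq_le_sq₀ (by positivity) (by positivity)).1 (a1.trans ?_)
    rw [div_le_iff₀ (by positivity)] at h2 ⊢
    have e : 2 * G ^ 3 ≤ W := le_trans (by nlinarith [pow_pos G0 3]) hW
    calc 1 = t * G ^ 16 := ht.symm
      _ ≤ ψ q * (2 * W * G) * G ^ 2 * G ^ 16 := by gcongr
      _ = G ^ 16 * W * (2 * G ^ 3) * ψ q := by ring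
      _ ≤ G ^ 16 * W * W * ψ q := by gcongr
      _ = _ := by ring
  have c3 : (4 : ℝ) ^ 3 ≤ G ^ 3 := by gcongr
  have c4 : (4 : ℝ) ^ 4 ≤ G ^ 4 := by gcongr
  have c5 : |(k : ℝ)| / R ≤ 1 / 4 := by
    rw [div_le_iff₀ R0]
    nlinarith [pow_pos G0 5]
  have c6 : R * ζ * G ^ 4 ≤ 2 := by
    have z : 0 ≤ ζ := (abs_nonneg _).trans hk
    calc R * ζ * G ^ 4 ≤ G ^ 8 * W * ζ * G ^ 4 := by gcongr
      _ = ζ * W * G ^ 12 := by ring
      _ ≤ 2 * t * G ^ 4 * G ^ 12 := by gcongr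
      _ = 2 := by linear_combination 2 * ht
  exact UL b1 b2 hk (by nlinarith)

theorem hd2_pf : S_HD2 := by
  refine ⟨4, by norm_num, ?_⟩
  rintro γ t G A B ψ q r U hc hG ht hq hr p1 p2 p3 p4 ⟨hne, hD, -, m, hm, -, hE⟩ l1 l2 hU hu hv
  have G0 : 0 < G := by linarith
  have U0 : (0 : ℝ) < U := by exact_mod_cast hU
  have u1 : (1 : ℝ) ≤ cf q r := by exact_mod_cast cf_pos hq r
  have v1 : (1 : ℝ) ≤ cf r q := by exact_mod_cast cf_pos hr q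
  have hu' : (cf q r : ℝ) ≤ 2 * U * G := by
    have : (cf q r : ℝ) ≤ 2 * U := by exact_mod_cast hu.le
    nlinarith
  have hh : |(cf r q : ℝ) - cf q r| ≤ 2 * U * G := abs_le.2 ⟨by linarith, by linarith⟩
  have t1 : ψ q ≤ t := (le_mul_of_one_le_right p1.le v1).trans ((le_max_left _ _).trans hD)
  have t2 : ψ r ≤ t := (le_mul_of_one_le_right p3.le u1).trans ((le_max_right _ _).trans hD)
  have t0 : 0 < t := p1.trans_le t1
  have key : ∀ (W ζ : ℝ) (c k : ℤ), U ≤ W → G ^ 4 ≤ W → |k * γ - c| ≤ ζ → ζ * W ≤ 2 * t * G ^ 4 →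
      |(k : ℝ)| ≤ 2 * G ^ 5 → k ≠ 0 → c * B (lv ψ q) = A (lv ψ q) * k ∧
        A (lv ψ q) * B (lv ψ r) = A (lv ψ r) * B (lv ψ q) := fun W ζ c k a1 a2 a3 a4 a5 a6 => by
    have b1 := hd2_ul hc hG ht p1 t1 p2 (l1.trans (by gcongr; exact hv.trans (by gcongr)))
      a2 a3 a4 a5
    have b2 := hd2_ul hc hG ht p3 t2 p4 (l2.trans (by gcongr; exact hu'.trans (by gcongr)))
      a2 a3 a4 a5
    exact ⟨b1, mul_right_cancel₀ a6 (by
      linear_combination (B (lv ψ q) : ℤ) * b2 - (B (lv ψ r) : ℤ) * b1)⟩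
  have hW : G ^ 4 ≤ U := by
    by_contra! h
    obtain ⟨a1, a2⟩ := key (G ^ 4) (2 * t) (-m) ((cf r q : ℤ) - cf q r) h.le le_rfl
      (by push_cast; rwa [sub_neg_eq_add, add_comm, mul_comm]) le_rfl
      (by push_cast; nlinarith) (sub_ne_zero.2 (by exact_mod_cast (ne_cf hq hne).symm))
    exact hE ⟨a2, by linear_combination -a1⟩
  refine ⟨hW, fun ⟨k, k1, k2, c, k3⟩ => ?_⟩
  have k0 : (0 : ℝ) < k := by exact_mod_cast k1
  have g3 : (4 : ℝ) ^ 3 ≤ G ^ 3 := by gcongr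
  have g11 : (4 : ℝ) ^ 11 ≤ G ^ 11 := by gcongr
  have g25 : G ^ 2 ≤ G ^ 5 := by nlinarith [pow_pos G0 2]
  obtain ⟨a1, a2⟩ := key U _ c k le_rfl hW k3 (le_of_eq (by field_simp))
    (by rw [Int.cast_natCast, Nat.abs_cast]; nlinarith [pow_pos G0 5]) (by omega)
  obtain ⟨-, -, b1, -⟩ := hc (lv ψ q)
  generalize A (lv ψ q) = a at *
  generalize B (lv ψ q) = b at *
  have b2 : (b : ℝ) ≤ k := by
    exact_mod_cast Int.le_of_dvd (b := k) (by omega)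
      (b1.symm.dvd_of_dvd_mul_left ⟨c, by rw [← a1, mul_comm]⟩)
  have b3 : |γ * b - a| ≤ 2 * t * (G ^ 2) ^ 2 / U := by
    have e : (c : ℝ) * b = a * k := by exact_mod_cast a1
    refine le_of_mul_le_mul_left ?_ k0
    rw [← Nat.abs_cast k, ← abs_mul, show k * (γ * b - a) = b * (k * γ - c) by linear_combination e,
      abs_mul, Nat.abs_cast, Nat.abs_cast]
    gcongr
  refine hE ⟨a2, Int.abs_lt_one_iff.1 (Int.cast_lt (R := ℝ).1 ?_)⟩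
  push_cast
  rw [show (m : ℝ) * b + a * (cf r q - cf q r) = b * (m + γ * (cf r q - cf q r)) -
    (γ * b - a) * (cf r q - cf q r) by ring]
  refine (abs_sub _ _).trans_lt ?_
  rw [abs_mul, abs_mul, Nat.abs_cast]
  calc _ ≤ G ^ 5 * (2 * t) + 2 * t * (G ^ 2) ^ 2 / U * (2 * U * G) := by
        gcongr
        linarith
    _ = 6 * (t * G ^ 5) := by field_simp; ring
    _ < 1 := by nlinarith [mul_pos t0 (pow_pos G0 5)]

end Vale.Agent.P028.T
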