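import Vale.Agent.P028.TStm

namespace Vale.Agent.P028.T

open Real Finset MeasureTheory Filter Metric

theorem high_triv {ψ : ℕ → ℝ} {S : Finset ℕ} {E : Finset (ℕ × ℕ)} {τ : ℝ} (h : Blk0 ψ S)
    (hE : E ⊆ S ×ˢ S) (h0 : 0 ≤ τ) (hτ : ∀ q ∈ S, (q.divisors.card : ℝ) ≤ τ) :
    ∑ x ∈ E, ψ x.1 * ψ x.2 ≤ τ ^ 2 := by
  have a : ∑ x ∈ E, ψ x.1 * ψ x.2 ≤ ∑ x ∈ S ×ˢ S, ψ x.1 * ψ x.2 :=
    sum_le_sum_of_subset_of_nonneg hE fun x hx _ =>
      (mul_pos (h.1 _ (mem_product.1 hx).1).2.1 (h.1 _ (mem_product.1 hx).2).2.1).le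
  have b : ∑ q ∈ S, ψ q ≤ τ := by
    have c : ∑ q ∈ S, ψ q ≤ ∑ q ∈ S, τ * mu ψ q := sum_le_sum fun q hq =>
      (psi_le (h.1 q hq).1 (h.1 q hq).2.1.le).trans
        (mul_le_mul_of_nonneg_right (hτ q hq) (h.mu_pos hq).le)
    rw [← mul_sum] at c
    exact c.trans (mul_le_of_le_one_right h0 h.2)
  rw [sum_product, ← sum_mul_sum, ← sq] at a
  exact a.trans (pow_le_pow_left₀ (sum_nonneg fun q hq => (h.1 q hq).2.1.le) b 2)

theorem high_n {w : ℝ} (hw : 1 ≤ w) : ∃ n : ℕ, (n : ℝ) ≤ 140001 * w ∧ 2 * w ^ 70000 < 2 ^ n := by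
  refine ⟨⌈w⌉₊ * 70000 + 1, ?_, ?_⟩
  · push_cast
    linarith [Nat.ceil_lt_add_one (zero_le_one.trans hw)]
  · have a : w < 2 ^ ⌈w⌉₊ := (Nat.le_ceil w).trans_lt (by exact_mod_cast Nat.lt_two_pow_self)
    have b := pow_lt_pow_left₀ a (zero_le_one.trans hw) (n := 70000) (by norm_num)
    rw [pow_succ (2 : ℝ), pow_mul, mul_comm]
    exact mul_lt_mul_of_pos_right b two_pos

theorem high_pow {t : ℝ} (ht : 0 < t) (h1 : t ≤ 1) :
    ((2 / t) ^ (1 / 100 : ℝ)) ^ 4 / t ^ (-(1 / 16) : ℝ) ≤ 2 * TT t ^ (-(1 / 50) : ℝ) := by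
  have e : TT t = t⁻¹ := max_eq_right (h1.trans ((one_le_inv₀ ht).2 h1))
  have a : (2 : ℝ) ^ (1 / 25 : ℝ) ≤ 2 := by
    simpa using rpow_le_rpow_of_exponent_le (x := 2) one_le_two (show (1 / 25 : ℝ) ≤ 1 by norm_num)
  have b : t ^ (-(1 / 25) - -(1 / 16) : ℝ) ≤ t ^ (1 / 50 : ℝ) :=
    rpow_le_rpow_of_exponent_ge ht h1 (by norm_num)
  rw [e, inv_rpow ht.le, ← rpow_neg ht.le, neg_neg, ← rpow_natCast, ← rpow_mul (by positivity),
    show (1 / 100 : ℝ) * (4 : ℕ) = 1 / 25 by norm_num, div_rpow zero_le_two ht.le,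
    div_eq_mul_inv _ (t ^ (1 / 25 : ℝ)), ← rpow_neg ht.le, mul_div_assoc, ← rpow_sub ht]
  exact mul_le_mul a b (by positivity) zero_le_two

theorem high_pf (hHighA : S_HighA) (_hTau : S_Tau) : S_High := by
  intro θ hθ
  obtain ⟨C, G0, hC, hG0, hA⟩ := hHighA
  obtain ⟨D, hD, hT⟩ : ∃ D : ℝ, 0 < D ∧ D = 1 := ⟨1, one_pos, rfl⟩
  obtain ⟨a, ha⟩ : ∃ a, a = G0 ^ 16 := ⟨_, rfl⟩
  have ha1 : 1 ≤ a := ha ▸ one_le_pow₀ hG0
  refine ⟨2 * (C * 140001 ^ 2 * D ^ 2) + 4 * D ^ 2 * a ^ 3, by positivity,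
    fun γ t A B ψ S E hc hb hE ht ht2 hx => ?_⟩
  have hy : 1 ≤ 2 / t := (one_le_div ht).2 ht2
  have hTT := one_le_TT ht
  have hp : 0 < TT t ^ (-(1 / 50) : ℝ) := by positivity
  have hw4 := fun h1 => high_pow ht h1
  obtain ⟨w, hw⟩ : ∃ w, w = (2 / t) ^ (1 / 100 : ℝ) := ⟨_, rfl⟩
  rw [← hw] at hw4
  have hw1 : 1 ≤ w := hw ▸ one_le_rpow hy (by norm_num)
  have hwy : w ^ 100 = 2 / t := by
    rw [hw, ← rpow_natCast, ← rpow_mul (by positivity)]; norm_num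
  have hS : Blk0 ψ (S.filter fun q => 1 / ψ q ≤ (2 / t) ^ 700) := hb.1.sub (filter_subset _ _)
  have hE' : E ⊆ (S.filter fun q => 1 / ψ q ≤ (2 / t) ^ 700) ×ˢ
      (S.filter fun q => 1 / ψ q ≤ (2 / t) ^ 700) := fun x h =>
    mem_product.2 ⟨mem_filter.2 ⟨(mem_product.1 (hE h)).1, (le_max_left _ _).trans (hx x h).2⟩,
      mem_filter.2 ⟨(mem_product.1 (hE h)).2, (le_max_right _ _).trans (hx x h).2⟩⟩
  have hτ : ∀ q ∈ S.filter fun q => 1 / ψ q ≤ (2 / t) ^ 700, (q.divisors.card : ℝ) ≤ D * w := by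
    intro q hq
    obtain ⟨q1, q2⟩ := mem_filter.1 hq
    obtain ⟨q3, q4, -⟩ := hb.1.1 q q1
    have a2 := tau_le (c := 70000) (by norm_num) (by linarith) q3 q4 (hb.2 q q1) q2 (one_le_pow₀ hy)
    rw [← rpow_natCast, ← rpow_mul (by positivity),
      show ((700 : ℕ) : ℝ) * (1 / 70000) = 1 / 100 by norm_num, ← hw] at a2
    rwa [hT, one_mul]
  have hG : t * (t ^ (-(1 / 16) : ℝ)) ^ 16 = 1 := by
    rw [← rpow_natCast, ← rpow_mul ht.le, show (-(1 / 16) : ℝ) * (16 : ℕ) = -1 by norm_num,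
      rpow_neg_one, mul_inv_cancel₀ ht.ne']
  have hG' : 0 < t ^ (-(1 / 16) : ℝ) := by positivity
  obtain ⟨G, hGe⟩ : ∃ G, G = t ^ (-(1 / 16) : ℝ) := ⟨_, rfl⟩
  rw [← hGe] at hG hG' hw4
  rcases le_total G0 G with h | h
  · have h1 : t ≤ 1 := by
      rw [← hG]
      exact le_mul_of_one_le_right ht.le (one_le_pow₀ (hG0.trans h))
    obtain ⟨n, n1, n2⟩ := high_n hw1
    have hn : ∀ (q u : ℕ), 0 < ψ q → 1 / ψ q ≤ (2 / t) ^ 700 → ψ q * u ≤ t → u < 2 ^ n := by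
      intro q u u1 u2 u3
      have b1 : (u : ℝ) ≤ t * (1 / ψ q) := by
        rw [mul_one_div, le_div_iff₀ u1]; linarith
      have b2 : t * (1 / ψ q) ≤ 2 * (2 / t) ^ 700 := mul_le_mul ht2 u2 (by positivity) zero_le_two
      rw [← hwy, ← pow_mul] at b2
      have b3 : (u : ℝ) < 2 ^ n := (b1.trans b2).trans_lt n2
      exact_mod_cast b3
    have k := hA γ t G (D * w) A B ψ _ E n hc hS hE' h hG hτ fun x hx' => by
      obtain ⟨m1, m2⟩ := mem_product.1 (hE' hx')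
      exact ⟨(hx x hx').1,
        hn x.2 _ (hS.1 _ m2).2.1 (mem_filter.1 m2).2 ((le_max_right _ _).trans (hx x hx').1.2.1),
        hn x.1 _ (hS.1 _ m1).2.1 (mem_filter.1 m1).2 ((le_max_left _ _).trans (hx x hx').1.2.1)⟩
    calc ∑ x ∈ E, ψ x.1 * ψ x.2 ≤ C * n ^ 2 * (D * w) ^ 2 * t / G := k
      _ ≤ C * (140001 * w) ^ 2 * (D * w) ^ 2 * t / G := by gcongr
      _ = C * 140001 ^ 2 * D ^ 2 * t * (w ^ 4 / G) := by ring
      _ ≤ C * 140001 ^ 2 * D ^ 2 * t * (2 * TT t ^ (-(1 / 50) : ℝ)) :=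
        mul_le_mul_of_nonneg_left (hw4 h1) (by positivity)
      _ = 2 * (C * 140001 ^ 2 * D ^ 2) * t * TT t ^ (-(1 / 50) : ℝ) := by ring
      _ ≤ _ := by gcongr; exact le_add_of_nonneg_right (by positivity)
  · have b1 : 1 ≤ t * a := by
      rw [← hG, ha]
      exact mul_le_mul_of_nonneg_left (pow_le_pow_left₀ hG'.le h 16) ht.le
    have b2 : t⁻¹ ≤ a := by rw [inv_le_iff_one_le_mul₀' ht]; exact b1
    have b3 : TT t ≤ 2 * a := max_le (by linarith) (by linarith)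
    have b4 : (2 * a)⁻¹ ≤ TT t ^ (-(1 / 50) : ℝ) := by
      refine (inv_anti₀ (by linarith) b3).trans ?_
      rw [← rpow_neg_one]
      exact rpow_le_rpow_of_exponent_le hTT (by norm_num)
    have b5 : w ^ 2 ≤ 2 * a := by
      refine (pow_le_pow_right₀ hw1 (by norm_num : 2 ≤ 100)).trans ?_
      rw [hwy, div_eq_mul_inv]
      linarith
    have b6 : a⁻¹ ≤ t := by rw [inv_le_iff_one_le_mul₀ (by linarith)]; exact b1
    calc ∑ x ∈ E, ψ x.1 * ψ x.2 ≤ (D * w) ^ 2 := high_triv hS hE' (by positivity) hτ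
      _ = D ^ 2 * w ^ 2 := by ring
      _ ≤ D ^ 2 * (2 * a) := by gcongr
      _ = 4 * D ^ 2 * a ^ 3 * a⁻¹ * (2 * a)⁻¹ := by field_simp; ring
      _ ≤ 4 * D ^ 2 * a ^ 3 * t * TT t ^ (-(1 / 50) : ℝ) := by gcongr
      _ ≤ _ := by gcongr; exact le_add_of_nonneg_left (by positivity)

end Vale.Agent.P028.T
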