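import Vale.Agent.P028.TStm

namespace Vale.Agent.P028.T

open Real Finset MeasureTheory Filter Metric

theorem higha_pf (hHighD : S_HighD) : S_HighA := by
  obtain ⟨C, G0, hC, hG0, h⟩ := hHighD
  refine ⟨C, G0, hC, hG0, fun γ t G τ A B ψ S E n hc hb hE hG ht hτ hx => ?_⟩
  have hp : ∀ x ∈ E, 0 < cf x.1 x.2 ∧ 0 < cf x.2 x.1 := fun x k =>
    ⟨cf_pos (hb.1 _ (mem_product.1 (hE k)).1).1 _, cf_pos (hb.1 _ (mem_product.1 (hE k)).2).1 _⟩
  rw [← sum_fiberwise_of_maps_to (t := range n ×ˢ range n)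
    (g := fun x => (Nat.log 2 (cf x.1 x.2), Nat.log 2 (cf x.2 x.1))) fun x k => mem_product.2
      ⟨mem_range.2 (Nat.log_lt_of_lt_pow (hp x k).1.ne' (hx x k).2.1),
        mem_range.2 (Nat.log_lt_of_lt_pow (hp x k).2.ne' (hx x k).2.2)⟩]
  refine (sum_le_card_nsmul _ _ (C * τ ^ 2 * t / G) fun ij _ => ?_).trans (le_of_eq ?_)
  · set F := E.filter fun x => (Nat.log 2 (cf x.1 x.2), Nat.log 2 (cf x.2 x.1)) = ij
    have hF : F ⊆ S ×ˢ S := (filter_subset _ _).trans hE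
    have hd : ∀ x ∈ F, BadE γ A B ψ t 1 x.1 x.2 ∧ Dy ij.1 (cf x.1 x.2) ∧ Dy ij.2 (cf x.2 x.1) := by
      intro x k
      obtain ⟨k1, rfl⟩ := mem_filter.1 k
      exact ⟨(hx x k1).1, ⟨Nat.pow_log_le_self 2 (hp x k1).1.ne', Nat.lt_pow_succ_log_self one_lt_two _⟩,
        Nat.pow_log_le_self 2 (hp x k1).2.ne', Nat.lt_pow_succ_log_self one_lt_two _⟩
    rcases le_total ij.1 ij.2 with k | k
    · exact h γ t G τ A B ψ S F _ _ hc hb hF hG ht hτ k hd
    · have := h γ t G τ A B ψ S (F.image Prod.swap) _ _ hc hb (swap_sub hF) hG ht hτ k fun x hx => by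
        obtain ⟨y, hy, rfl⟩ := mem_image.1 hx
        exact ⟨(hd y hy).1.swap hc, (hd y hy).2.2, (hd y hy).2.1⟩
      rw [sum_image fun a _ b _ e => Prod.swap_injective e] at this
      exact (sum_congr rfl fun e _ => mul_comm _ _).trans_le this
  · rw [card_product, card_range, nsmul_eq_mul]
    push_cast
    ring

end Vale.Agent.P028.T
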