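import Vale.Agent.P028.TStm

namespace Vale.Agent.P028.T

open Real Finset MeasureTheory Filter Metric

theorem highd_card {i : ℕ} {T : Finset ℕ} (h : ∀ u ∈ T, Dy i u) : (T.card : ℝ) ≤ 2 ^ i := by
  have h1 := card_le_card (show T ⊆ Finset.Ico (2 ^ i) (2 ^ (i + 1)) from
    fun u hu => Finset.mem_Ico.2 (h u hu))
  rw [Nat.card_Ico, pow_succ] at h1
  exact_mod_cast h1.trans (by omega)

theorem highd_dy {i a : ℕ} (h : Dy i a) : (2 : ℝ) ^ i ≤ a ∧ (a : ℝ) < 2 * 2 ^ i := by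
  obtain ⟨h1, h2⟩ := h
  rw [pow_succ'] at h2
  exact ⟨by exact_mod_cast h1, by exact_mod_cast h2⟩

theorem highd_pf (hHD1 : S_HD1) (hHD2 : S_HD2) (hBL : S_BL) : S_HighD := by
  classical
  obtain ⟨G0, g0, H2⟩ := hHD2
  refine ⟨13, G0, by norm_num, g0, fun γ t G τ A B ψ S E i j hc hS hE hG ht hτ hij h => ?_⟩
  have G1 : 1 ≤ G := g0.trans hG
  have Gp : 0 < G := by linarith
  have t0 : 0 < t := (pos_iff_pos_of_mul_pos (ht ▸ one_pos)).2 (pow_pos Gp 16)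
  have pU : (0 : ℝ) < 2 ^ i := by positivity
  have pV : (0 : ℝ) < 2 ^ j := by positivity
  have UV : (2 : ℝ) ^ i ≤ 2 ^ j := pow_le_pow_right₀ one_le_two hij
  have p1 : ∀ x ∈ E, 0 < x.1 ∧ 0 < ψ x.1 ∧ ψ x.1 ≤ 1 / 2 := fun x hx =>
    hS.1 _ (mem_product.1 (hE hx)).1
  have p2 : ∀ x ∈ E, 0 < x.2 ∧ 0 < ψ x.2 ∧ ψ x.2 ≤ 1 / 2 := fun x hx =>
    hS.1 _ (mem_product.1 (hE hx)).2
  have L : ∀ F ⊆ E, ∀ s n0 : ℝ, 0 ≤ s → 0 ≤ n0 → (∀ x ∈ F, ψ x.1 * cf x.2 x.1 ≤ s) →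
      (∀ r v : ℕ, ∀ T : Finset ℕ, (∀ u ∈ T, ∃ q, (q, r) ∈ F ∧ cf q r = u ∧ cf r q = v) →
        (T.card : ℝ) ≤ n0) → ∑ x ∈ F, ψ x.1 * ψ x.2 ≤ τ ^ 2 * (s / 2 ^ j) * n0 :=
    fun F hF s n0 s0 n1 h1 h2 => hHD1 ψ S F τ _ n0 hS (hF.trans hE) hτ (by positivity) n1
      (fun x hx => (le_div_iff₀ pV).2 ((mul_le_mul_of_nonneg_left (highd_dy (h x (hF hx)).2.2).1
        (p1 x (hF hx)).2.1.le).trans (h1 x hx))) h2
  have L0 : ∀ F ⊆ E, ∀ r v : ℕ, ∀ T : Finset ℕ,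
      (∀ u ∈ T, ∃ q, (q, r) ∈ F ∧ cf q r = u ∧ cf r q = v) → (T.card : ℝ) ≤ 2 ^ i :=
    fun F hF r v T hT => highd_card fun u hu => by
      obtain ⟨q, a, rfl, -⟩ := hT u hu
      exact (h _ (hF a)).2.1
  have hd : ∀ x ∈ E, ψ x.1 * cf x.2 x.1 ≤ t := fun x hx => (le_max_left _ _).trans (h x hx).1.2.1
  have k0 : 0 ≤ τ ^ 2 * t / G := by positivity
  have fin : ∀ c a : ℝ, a * G ≤ c → τ ^ 2 * t * a ≤ c * (τ ^ 2 * t / G) := fun c a ha => by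
    rw [show c * (τ ^ 2 * t / G) = τ ^ 2 * t * (c / G) by ring]
    exact mul_le_mul_of_nonneg_left ((le_div_iff₀ Gp).2 ha) (by positivity)
  rw [show 13 * τ ^ 2 * t / G = 13 * (τ ^ 2 * t / G) by ring]
  rcases le_total (2 ^ i * G) (2 ^ j) with hV | hV
  · have a := L E Subset.rfl t _ t0.le pU.le hd (L0 E Subset.rfl)
    have b := fin 1 (2 ^ i / 2 ^ j) (by rw [div_mul_eq_mul_div, div_le_one pV]; exact hV)
    rw [show τ ^ 2 * (t / 2 ^ j) * 2 ^ i = τ ^ 2 * t * (2 ^ i / 2 ^ j) by ring] at a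
    linarith
  have G2 : G ≤ G ^ 2 := le_self_pow₀ G1 two_ne_zero
  have s0 : 0 ≤ t / G ^ 2 := by positivity
  rw [← sum_filter_add_sum_filter_not E fun x => ψ x.1 * cf x.2 x.1 ≤ t / G ^ 2,
    ← sum_filter_add_sum_filter_not (E.filter fun x => ¬ψ x.1 * cf x.2 x.1 ≤ t / G ^ 2)
      fun x => ψ x.2 * cf x.1 x.2 ≤ t / G ^ 2]
  have a1 := L _ (filter_subset (fun x => ψ x.1 * cf x.2 x.1 ≤ t / G ^ 2) E) _ _ s0 pU.le
    (fun x hx => (mem_filter.1 hx).2) (L0 _ (filter_subset _ E))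
  have b1 := fin 1 (2 ^ i / (2 ^ j * G ^ 2)) (by
    rw [div_mul_eq_mul_div, div_le_one (by positivity)]
    exact mul_le_mul UV G2 Gp.le pV.le)
  rw [show τ ^ 2 * (t / G ^ 2 / 2 ^ j) * 2 ^ i = τ ^ 2 * t * (2 ^ i / (2 ^ j * G ^ 2)) by
    field_simp] at a1
  obtain ⟨F, hF⟩ : ∃ F, F = (E.filter fun x => ¬ψ x.1 * cf x.2 x.1 ≤ t / G ^ 2).filter
    fun x => ψ x.2 * cf x.1 x.2 ≤ t / G ^ 2 := ⟨_, rfl⟩
  have mF : ∀ x ∈ F, x ∈ E ∧ ψ x.2 * cf x.1 x.2 ≤ t / G ^ 2 := fun x hx => by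
    rw [hF, mem_filter, mem_filter] at hx
    exact ⟨hx.1.1, hx.2⟩
  have a2 := hHD1 ψ S (F.image Prod.swap) τ (t / G ^ 2 / 2 ^ i) (2 ^ j) hS
    (swap_sub fun x hx => hE (mF x hx).1) hτ (by positivity) pV.le (fun y hy => by
      obtain ⟨x, hx, rfl⟩ := mem_image.1 hy
      exact (le_div_iff₀ pU).2 ((mul_le_mul_of_nonneg_left (highd_dy (h x (mF x hx).1).2.1).1
        (p2 x (mF x hx).1).2.1.le).trans (mF x hx).2))
    fun r v T hT => highd_card fun u hu => by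
      obtain ⟨q, a, rfl, -⟩ := hT u hu
      obtain ⟨x, hx, e⟩ := mem_image.1 a
      obtain ⟨rfl, rfl⟩ := Prod.ext_iff.1 e
      exact (h _ (mF x hx).1).2.2
  rw [sum_image fun a _ b _ e => Prod.swap_injective e,
    show τ ^ 2 * (t / G ^ 2 / 2 ^ i) * 2 ^ j = τ ^ 2 * t * (2 ^ j / (2 ^ i * G ^ 2)) by
      field_simp] at a2
  have b2 := fin 1 (2 ^ j / (2 ^ i * G ^ 2)) (by
    rw [div_mul_eq_mul_div, div_le_one (by positivity), pow_two, ← mul_assoc]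
    exact mul_le_mul_of_nonneg_right hV Gp.le)
  have c2 : ∑ x ∈ F, ψ x.1 * ψ x.2 = ∑ x ∈ F, ψ x.swap.1 * ψ x.swap.2 :=
    sum_congr rfl fun x _ => mul_comm _ _
  rw [← hF, c2]
  obtain ⟨F3, hF3⟩ : ∃ F3, F3 = (E.filter fun x => ¬ψ x.1 * cf x.2 x.1 ≤ t / G ^ 2).filter
    fun x => ¬ψ x.2 * cf x.1 x.2 ≤ t / G ^ 2 := ⟨_, rfl⟩
  have m3 : ∀ x ∈ F3, x ∈ E ∧ t / G ^ 2 ≤ ψ x.1 * cf x.2 x.1 ∧ t / G ^ 2 ≤ ψ x.2 * cf x.1 x.2 :=
    fun x hx => by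
      rw [hF3, mem_filter, mem_filter, not_le, not_le] at hx
      exact ⟨hx.1.1, hx.1.2.le, hx.2.le⟩
  rw [← hF3]
  suffices a3 : ∑ x ∈ F3, ψ x.1 * ψ x.2 ≤ 11 * (τ ^ 2 * t / G) by linarith
  rcases F3.eq_empty_or_nonempty with e | ⟨x, hx⟩
  · rw [e, sum_empty]; positivity
  obtain ⟨x1, x2, x3⟩ := m3 x hx
  obtain ⟨d1, d2⟩ := H2 γ t G A B ψ x.1 x.2 (2 ^ i) hc hG ht (p1 x x1).1 (p2 x x1).1 (p1 x x1).2.1
    (p1 x x1).2.2 (p2 x x1).2.1 (p2 x x1).2.2 (h x x1).1 x2 x3 (by positivity)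
    (by rw [← pow_succ']; exact (h x x1).2.1.2)
    (by push_cast; linarith [(highd_dy (h x x1).2.2).2])
  have d3 := (hBL γ (2 * t) (G ^ 2) (2 ^ i) (by positivity) (G1.trans G2)
    (by positivity)).resolve_right d2
  push_cast at d1 d3
  have a3 := L F3 (fun x hx => (m3 x hx).1) t (11 * (2 ^ i / G ^ 2)) t0.le (by positivity)
    (fun x hx => hd x (m3 x hx).1) fun r v T hT => (d3 (γ * v) T fun u hu => by
      obtain ⟨q, a, rfl, rfl⟩ := hT u hu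
      obtain ⟨⟨-, -, -, k, hk, -⟩, c, -⟩ := h _ (m3 _ a).1
      refine ⟨c.1, by rw [← pow_succ']; exact c.2, k, ?_⟩
      rw [← abs_neg] at hk
      exact (congrArg _ (by ring)).trans_le hk).trans (by
      have e1 : t ≤ 1 / G ^ 2 := by
        rw [le_div_iff₀ (by positivity), ← ht]
        exact mul_le_mul_of_nonneg_left (pow_le_pow_right₀ G1 (by norm_num)) t0.le
      have e2 : G ^ 2 ≤ 2 ^ i / G ^ 2 := by
        rw [le_div_iff₀ (by positivity), ← pow_add]; exact d1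
      have e3 := mul_le_mul_of_nonneg_right e1 pU.le
      rw [div_mul_eq_mul_div, one_mul] at e3
      rw [mul_div_assoc]
      linarith)
  have b3 := fin 11 (11 * (2 ^ i / (2 ^ j * G ^ 2))) (by
    rw [mul_assoc, div_mul_eq_mul_div]
    exact mul_le_of_le_one_right (by norm_num) ((div_le_one (by positivity)).2
      (mul_le_mul UV G2 Gp.le pV.le)))
  rw [show τ ^ 2 * (t / 2 ^ j) * (11 * (2 ^ i / G ^ 2)) =
    τ ^ 2 * t * (11 * (2 ^ i / (2 ^ j * G ^ 2))) by field_simp] at a3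
  linarith

end Vale.Agent.P028.T
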