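import Vale.Agent.P028.TStm

namespace Vale.Agent.P028.T

open Real Finset MeasureTheory Filter Metric

theorem img_fst (hML : S_ML) (ψ : ℕ → ℝ) (S : Finset ℕ) (F : Finset (ℕ × ℕ)) (t1 : ℝ)
    (N α β i j : ℕ) (hS : Blk0 ψ S) (hF : F ⊆ S ×ˢ S) (hN : 0 < N) (hα : 0 < α) (hβ : 0 < β)
    (ht : 0 ≤ t1) (hs : StrF F N α β i j) (h : ∀ e ∈ F, ψ e.1 * cf e.2 e.1 ≤ t1) :
    mV ψ (F.image Prod.fst) ≤ t1 / β * 2 ^ i / 2 ^ j := by
  have hM : 0 < α * N := Nat.mul_pos hα hN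
  have hb : (0 : ℝ) < β := by exact_mod_cast hβ
  have key := hML.2 ψ (F.image Prod.fst) (α * N) (t1 / (β * 2 ^ j)) (fun _ => 2 ^ i) hM
    (by positivity) (fun q hq => ?_) (fun b _ => ?_)
  · rw [← sum_mul, hML.1 _ hM] at key
    refine key.trans (le_of_eq ?_)
    field_simp
  · have h0 := hS.1 q (fst_sub hF hq)
    refine ⟨h0.1, h0.2.1.le, ?_⟩
    obtain ⟨e, he, rfl⟩ := mem_image.1 hq
    have h1 := h e he
    rw [(hs e he).1.2] at h1
    have h2 : (2 : ℝ) ^ j ≤ cf e.2 (β * N) := by exact_mod_cast (hs e he).2.2.1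
    push_cast at h1
    rw [le_div_iff₀ (by positivity)]
    refine le_trans ?_ h1
    have h3 : 0 ≤ ψ e.1 * cf (α * N) e.1 * β := by have := h0.2.1; positivity
    nlinarith [mul_le_mul_of_nonneg_left h2 h3]
  · have h1 := card_fibre hM ((F.image Prod.fst).filter fun q => cf (α * N) q = b)
      (Finset.Ico (2 ^ i) (2 ^ (i + 1))) b fun q hq => by
        obtain ⟨e, he, rfl⟩ := mem_image.1 (mem_filter.1 hq).1
        exact ⟨(mem_filter.1 hq).2, Finset.mem_Ico.2 (hs e he).2.1⟩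
    rw [Nat.card_Ico, pow_succ, show 2 ^ i * 2 - 2 ^ i = 2 ^ i by omega] at h1
    exact_mod_cast h1

theorem img_pf (hML : S_ML) : S_Img := by
  intro ψ S F t1 t2 N α β i j hS hF hN hα hβ h1 h2 hs h
  refine ⟨img_fst hML ψ S F t1 N α β i j hS hF hN hα hβ h1 hs fun e he => (h e he).1, ?_⟩
  rw [← fst_swap]
  refine img_fst hML ψ S _ t2 N β α j i hS (swap_sub hF) hN hβ hα h2 hs.swap fun e he => ?_
  obtain ⟨x, hx, rfl⟩ := mem_image.1 he
  exact (h x hx).2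

theorem sav1_pf (hImg : S_Img) : S_Sav1 := by
  intro ψ S E t1 t2 N α β i j hS hE hN hα hβ h1 h2 h F hF hs
  have hF' := hF.trans hE
  have a := (hImg ψ S F t1 t2 N α β i j hS hF' hN hα hβ h1 h2 hs fun e he => h e (hF he)).2
  have b := mul_le_mul_of_nonneg_left a (hS.mV_nonneg (fst_sub hF'))
  have c : 0 ≤ mV ψ (F.image Prod.snd) * (t1 / β * 2 ^ i / 2 ^ j) :=
    mul_nonneg (hS.mV_nonneg (snd_sub hF')) (by positivity)
  linarith [hS.mE_le_mul hF']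

theorem plain_pf (hMA : S_MA) (hSav1 : S_Sav1) : S_Plain := by
  obtain ⟨C, hC, h⟩ := hMA
  refine ⟨2 * C, by positivity, fun ψ S E t1 t2 hS hE h1 h2 ht => ?_⟩
  refine (h ψ S E t1 t2 (2 * (t1 * t2)) hS hE h1 h2 (by positivity) ht
    fun N α β hN hα hβ => ?_).trans (le_of_eq (by ring))
  have ha : (1 : ℝ) ≤ α := by exact_mod_cast hα
  have hb : (1 : ℝ) ≤ β := by exact_mod_cast hβ
  obtain ⟨d, hd⟩ := pow_unbounded_of_one_lt ((α : ℝ) * β * (t1 / β + t2 / α) / (t1 * t2))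
    (one_lt_two (α := ℝ))
  refine ⟨1, d, zero_le_one, fun i j _ =>
    hSav1 ψ S E t1 t2 N α β i j hS hE hN hα hβ h1.le h2.le ht, ?_⟩
  have h3 : ((α : ℝ) * β) ^ (97 / 100 : ℝ) ≤ α * β :=
    rpow_le_self_of_one_le (one_le_mul_of_one_le_of_one_le ha hb) (by norm_num)
  refine (mul_le_mul_of_nonneg_right h3 (by positivity)).trans ?_
  have h4 : (α : ℝ) * β * (1 * (t1 / β * (t2 / α))) = t1 * t2 := by field_simp
  have h5 : (α : ℝ) * β * ((t1 / β + t2 / α) / 2 ^ d) ≤ t1 * t2 := by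
    rw [div_lt_iff₀ (by positivity)] at hd
    rw [← mul_div_assoc, div_le_iff₀ (by positivity)]
    linarith
  rw [mul_add, h4]
  linarith

end Vale.Agent.P028.T
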