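import Vale.Agent.P028.TStm

namespace Vale.Agent.P028.T

open Real Finset MeasureTheory Filter Metric

theorem leg_root {p : ℕ} (hp : p.Prime) {s : ℤ} (hs : ¬(p : ℤ) ∣ s) (x : ℤ) (α β : ℝ) :
    ∑ c ∈ range p, (if (p : ℤ) ∣ s * (c : ℕ) + x then α else β) = p * β + (α - β) := by
  have := Fact.mk hp
  have h0 : (s : ZMod p) ≠ 0 := fun h => hs ((ZMod.intCast_zmod_eq_zero_iff_dvd s p).1 h)
  have e : ∀ c ∈ range p, (if (p : ℤ) ∣ s * (c : ℕ) + x then α else β) =
      β + if c = (-x / s : ZMod p).val then α - β else 0 := fun c hc => by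
    have : (p : ℤ) ∣ s * (c : ℕ) + x ↔ c = (-x / s : ZMod p).val := by
      rw [← ZMod.intCast_zmod_eq_zero_iff_dvd]
      push_cast
      refine ⟨fun h => ?_, fun h => ?_⟩
      · rw [← ZMod.val_cast_of_lt (mem_range.1 hc), ← ZMod.val_cast_of_lt (mem_range.1 hc)]
        rw [ZMod.natCast_zmod_val]
        congr 1
        rw [eq_div_iff h0]
        linear_combination h
      · rw [h, ZMod.natCast_zmod_val]
        field_simp
        ring
    rw [if_congr this rfl rfl]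
    split_ifs <;> ring
  rw [sum_congr rfl e, sum_add_distrib, sum_ite_eq', if_pos (mem_range.2 (ZMod.val_lt _))]
  simp

theorem leg_nn (A A' : ℤ) (B B' u v : ℕ) (k : ℤ) {p : ℕ} (hp : p.Prime) :
    0 ≤ chi A A' B B' u v k p := by
  have : (0 : ℝ) ≤ p - 1 := sub_nonneg.2 (by exact_mod_cast hp.one_le)
  unfold chi
  split_ifs <;> positivity

theorem leg_per (A A' : ℤ) (B B' u v : ℕ) (k : ℤ) (p : ℕ) :
    chi A A' B B' u v (k + p) p = chi A A' B B' u v k p := by
  have e : ∀ a b c : ℤ, a = b + p * c → ((p : ℤ) ∣ a ↔ (p : ℤ) ∣ b) := fun a b c h => by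
    rw [h, dvd_add_left (dvd_mul_right _ _)]
  unfold chi
  rw [if_congr (e (B * (k + p) + A * v) (B * k + A * v) B (by ring)) rfl rfl,
    if_congr (e (B' * (k + p) - A' * u) (B' * k - A' * u) B' (by ring)) rfl rfl,
    if_congr (and_congr_right' (e (nu A A' B B' u v (k + p)) (nu A A' B B' u v k) (B * B')
      (by unfold nu; ring))) rfl rfl]

theorem leg_mean (A A' : ℤ) (B B' u v : ℕ) {p : ℕ} (hp : p.Prime) :
    (∑ c ∈ range p, chi A A' B B' u v (c : ℕ) p) / p ≤ 1 + 1 / ((p : ℝ) * (p - 1)) := by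
  have h1 : (0 : ℝ) < p - 1 := sub_pos.2 (by exact_mod_cast hp.one_lt)
  have h0 : (0 : ℝ) < p := by linarith
  have h2 : 0 < 1 / ((p : ℝ) - 1) := by positivity
  have e1 : (p : ℝ) * (p / (p - 1)) + (0 - p / (p - 1)) = p := by field_simp; ring
  rw [div_le_iff₀ h0, show (1 + 1 / ((p : ℝ) * (p - 1))) * p = p + 1 / (p - 1) by field_simp]
  unfold chi
  by_cases c1 : p ∣ u ∧ ¬p ∣ B
  · simp only [if_pos c1]
    rw [leg_root hp (by exact_mod_cast c1.2)]
    linarith
  by_cases c2 : p ∣ v ∧ ¬p ∣ B'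
  · simp only [if_neg c1, if_pos c2, sub_eq_add_neg (_ * _ : ℤ)]
    rw [leg_root hp (by exact_mod_cast c2.2)]
    linarith
  simp only [if_neg c1, if_neg c2]
  by_cases c3 : p ∣ u * v * B * B'
  · simp [c3, h1.le]
  · simp only [c3, not_false_eq_true, true_and, nu, add_sub_assoc]
    rw [leg_root hp (by
      exact_mod_cast fun h : p ∣ B * B' => c3 (by rw [mul_assoc]; exact h.mul_left _))]
    exact le_of_eq (by field_simp; ring)

theorem leg_prod (P : Finset ℕ) : ∏ p ∈ P, (1 + 1 / ((p : ℝ) * (p - 1))) ≤ 3 := by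
  have h0 : ∀ n : ℕ, 0 ≤ 1 / ((n : ℝ) * (n - 1)) := fun n => by
    rcases n with _ | n
    · simp
    · push_cast
      rw [add_sub_cancel_right]
      positivity
  have h1 : ∀ m : ℕ, ∑ n ∈ range (m + 2), 1 / ((n : ℝ) * (n - 1)) = 1 - 1 / (m + 1) := fun m => by
    induction m with
    | zero => simp [sum_range_succ]
    | succ m ih =>
      rw [show m + 1 + 2 = m + 2 + 1 from rfl, sum_range_succ, ih]
      push_cast
      rw [show (m : ℝ) + 2 - 1 = m + 1 by ring]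
      field_simp
      ring
  have h2 : ∑ n ∈ P, 1 / ((n : ℝ) * (n - 1)) ≤ 1 :=
    (sum_le_sum_of_subset_of_nonneg (t := range (P.sup id + 2))
      (fun n hn => mem_range.2 (by have : n ≤ P.sup id := le_sup (f := id) hn; omega))
      fun n _ _ => h0 n).trans ((h1 _).le.trans (sub_le_self _ (by positivity)))
  calc _ ≤ ∏ p ∈ P, exp (1 / ((p : ℝ) * (p - 1))) :=
        prod_le_prod (fun p _ => by linarith [h0 p]) fun p _ => by
          rw [add_comm]; exact add_one_le_exp _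
    _ ≤ exp 1 := by rw [← exp_sum]; exact exp_le_exp.2 h2
    _ ≤ 3 := by linarith [exp_one_lt_d9]

theorem leg_pf (hCRT : S_CRT) : S_Leg := by
  intro z A A' lo hi B B' q r hz _ _
  unfold GG
  set P := (q * r).primeFactors.filter fun p : ℕ => (p : ℝ) ≤ z
  have hP : ∀ p ∈ P, p.Prime := fun p hp => Nat.prime_of_mem_primeFactors (mem_filter.1 hp).1
  have n0 : 0 < primorial ⌊z⌋₊ := primorial_pos _
  have n1 : (primorial ⌊z⌋₊ : ℝ) ≤ 4 ^ z := by
    calc (primorial ⌊z⌋₊ : ℝ) ≤ 4 ^ (⌊z⌋₊ : ℝ) := by exact_mod_cast primorial_le_four_pow _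
      _ ≤ 4 ^ z := rpow_le_rpow_of_exponent_le (by norm_num) (Nat.floor_le hz)
  obtain ⟨n, d, l1, l2⟩ : ∃ n : ℕ, primorial ⌊z⌋₊ ∣ n ∧ (Finset.Icc lo hi).card ≤ n ∧
      n ≤ (Finset.Icc lo hi).card + primorial ⌊z⌋₊ :=
    ⟨primorial ⌊z⌋₊ * ((Finset.Icc lo hi).card / primorial ⌊z⌋₊ + 1), dvd_mul_right _ _,
      (Nat.lt_mul_div_succ _ n0).le, by
        rw [mul_add, mul_one]; exact Nat.add_le_add_right (Nat.mul_div_le _ _) _⟩
  have e := hCRT P (fun p k => chi A A' B B' (cf q r) (cf r q) k p) lo n hP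
    (fun p hp => .inl (Dvd.dvd.trans (dvd_prod_of_mem _ (mem_filter.2
      ⟨mem_range.2 (Nat.lt_succ_of_le (Nat.le_floor (mem_filter.1 hp).2)), hP p hp⟩)) d))
    fun p _ a => leg_per _ _ _ _ _ _ _ _
  have l3 : (n : ℝ) ≤ (Finset.Icc lo hi).card + 4 ^ z :=
    le_trans (by exact_mod_cast l2) (add_le_add le_rfl n1)
  refine (sum_le_sum_of_subset_of_nonneg (t := Finset.Ico lo (lo + n)) (fun k hk => ?_)
    fun k _ _ => prod_nonneg fun p hp => leg_nn _ _ _ _ _ _ _ (hP p hp)).trans (e.le.trans ?_)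
  · rw [Int.card_Icc] at l1
    rw [Finset.mem_Icc] at hk
    rw [Finset.mem_Ico]
    omega
  · rw [mul_comm]
    exact mul_le_mul ((prod_le_prod (fun p hp => div_nonneg (sum_nonneg fun _ _ =>
      leg_nn _ _ _ _ _ _ _ (hP p hp)) (Nat.cast_nonneg _)) fun p hp =>
        leg_mean _ _ _ _ _ _ (hP p hp)).trans (leg_prod P)) l3 (Nat.cast_nonneg _) (by norm_num)

end Vale.Agent.P028.T
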