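import Vale.Agent.P028.TStm

namespace Vale.Agent.P028.T

open Real Finset MeasureTheory Filter Metric

theorem leva_pf : S_LevA := by
  intro z0 hz
  obtain ⟨-, C, hC, h⟩ := hz
  have hs := sqrt_nonneg C
  refine ⟨exp 2 + √C, by positivity, fun t ψ S E ht hS hE hD => ?_⟩
  have hT : 0 < TT t := one_pos.trans_le (one_le_TT ht)
  set L : ℕ × ℕ → ℝ := fun x => Lz (zz z0 t) (cf x.1 x.2 * cf x.2 x.1) with hL
  have hw : ∀ x ∈ E, 0 ≤ mu ψ x.1 * mu ψ x.2 := fun x hx => (hS.mE_pos (hE hx)).le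
  have h0 := hS.mE_nonneg hE
  have k1 : ∑ x ∈ E.filter (fun x => ¬ 1 ≤ L x), mu ψ x.1 * mu ψ x.2 * exp (2 * L x) ≤
      exp 2 * mE ψ E := by
    refine le_trans ?_ (mul_le_mul_of_nonneg_left (hS.mE_mono hE (filter_subset (fun x => ¬ 1 ≤ L x) E))
      (exp_pos 2).le)
    rw [mE, mul_sum]
    refine sum_le_sum fun x hx => ?_
    obtain ⟨a1, a2⟩ := mem_filter.1 hx
    rw [mul_comm (exp 2)]
    exact mul_le_mul_of_nonneg_left (exp_le_exp.2 (by linarith [not_le.1 a2])) (hw x a1)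
  have k2 := h t ψ S (E.filter fun x => 1 ≤ L x) ht hS ((filter_subset _ _).trans hE)
    fun x hx => ⟨hD x (mem_filter.1 hx).1, (mem_filter.1 hx).2⟩
  have k3 := sum_sq_le_sum_mul_sum_of_sq_le_mul (E.filter fun x => 1 ≤ L x)
    (r := fun x => mu ψ x.1 * mu ψ x.2 * exp (2 * L x)) (f := fun x => mu ψ x.1 * mu ψ x.2)
    (g := fun x => mu ψ x.1 * mu ψ x.2 * exp (4 * L x)) (fun x hx => hw x (mem_filter.1 hx).1)
    (fun x hx => mul_nonneg (hw x (mem_filter.1 hx).1) (exp_pos _).le) fun x _ => by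
      rw [show 4 * L x = 2 * L x + 2 * L x by ring, exp_add]
      exact le_of_eq (by ring)
  have k4 : ∑ x ∈ E.filter (fun x => 1 ≤ L x), mu ψ x.1 * mu ψ x.2 * exp (2 * L x) ≤
      √C * (√(mE ψ E) / TT t ^ 5) := by
    refine (abs_le_of_sq_le_sq' (k3.trans ?_) (by positivity)).2
    calc _ ≤ mE ψ E * (C / TT t ^ 10) :=
          mul_le_mul (hS.mE_mono hE (filter_subset _ E)) k2 (sum_nonneg fun x hx =>
            mul_nonneg (hw x (mem_filter.1 hx).1) (exp_pos _).le) h0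
      _ = _ := by
          rw [mul_pow, div_pow, sq_sqrt hC.le, sq_sqrt h0]
          ring
  rw [← sum_filter_add_sum_filter_not E fun x => 1 ≤ L x]
  have k5 : 0 ≤ exp 2 * (√(mE ψ E) / TT t ^ 5) := by positivity
  have k6 := mul_nonneg hs h0
  linarith

end Vale.Agent.P028.T
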