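import Vale.Agent.P028.TStm

namespace Vale.Agent.P028.T

open Real Finset MeasureTheory Filter Metric

theorem levb_pow {R D t e : ℝ} (hR : 1 ≤ R) (hD : 0 < D) (ht : D ≤ t) (h1 : 1 ≤ D ^ 700 * R)
    (he0 : 0 ≤ e) (he : e ≤ R ^ (8 / 700 : ℝ)) : (e / t) ^ 72 ≤ R := by
  have hR0 : 0 ≤ R := zero_le_one.trans hR
  obtain ⟨s, hs⟩ : ∃ s, s = R ^ (1 / 700 : ℝ) := ⟨_, rfl⟩
  have hs1 : 1 ≤ s := hs ▸ one_le_rpow hR (by norm_num)
  have a : s ^ 700 = R := by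
    rw [hs, ← rpow_natCast, ← rpow_mul hR0]; norm_num
  have b : s ^ 8 = R ^ (8 / 700 : ℝ) := by
    rw [hs, ← rpow_natCast, ← rpow_mul hR0]; norm_num
  rw [← a, ← mul_pow] at h1
  have c : 1 ≤ D * s := (one_le_pow_iff_of_nonneg (by positivity) (by norm_num)).1 h1
  have ht0 : 0 < t := hD.trans_le ht
  have d : e / t ≤ s ^ 9 := by
    rw [div_le_iff₀ ht0]
    have d1 : 1 ≤ t * s := c.trans (mul_le_mul_of_nonneg_right ht (by positivity))
    have d2 := mul_le_mul_of_nonneg_left d1 (by positivity : 0 ≤ s ^ 8)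
    rw [← b] at he
    calc e ≤ s ^ 8 * 1 := by rwa [mul_one]
      _ ≤ s ^ 8 * (t * s) := d2
      _ = s ^ 9 * t := by ring
  calc (e / t) ^ 72 ≤ (s ^ 9) ^ 72 := pow_le_pow_left₀ (by positivity) d _
    _ = s ^ 648 := by rw [← pow_mul]
    _ ≤ s ^ 700 := pow_le_pow_right₀ hs1 (by norm_num)
    _ = R := a

theorem levb_zz {z0 t : ℝ} (hz : 0 ≤ z0) (ht : 0 < t) :
    zz z0 t * TT t ^ (-(1 / 84) : ℝ) ≤ (z0 + 600) * TT t ^ (-(1 / 100) : ℝ) := by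
  have h1 := one_le_TT ht
  have h0 : 0 < TT t := one_pos.trans_le h1
  have a := log_le_rpow_div h0.le (by norm_num : (0 : ℝ) < 1 / 525)
  have b : 1 ≤ TT t ^ (1 / 525 : ℝ) := one_le_rpow h1 (by norm_num)
  have c : zz z0 t ≤ (z0 + 600) * TT t ^ (1 / 525 : ℝ) := by
    unfold zz
    nlinarith [mul_le_mul_of_nonneg_left b hz]
  refine (mul_le_mul_of_nonneg_right c (by positivity)).trans (le_of_eq ?_)
  rw [mul_assoc, ← rpow_add h0]
  norm_num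

open Classical in
theorem levb_swap {X : Type} (E : Finset X) (w : X → ℝ) (m : X → ℕ) (P : X → ℕ → Prop)
    (f : ℕ → ℝ) : ∑ x ∈ E, w x * ∑ e ∈ (Finset.Icc 1 (m x)).filter (fun e => P x e), f e =
      ∑ e ∈ Finset.Icc 1 (E.sup m), f e * ∑ x ∈ E.filter (fun x => e ≤ m x ∧ P x e), w x := by
  simp only [mul_sum]
  refine (sum_comm' fun x e => ?_).trans (sum_congr rfl fun e _ => sum_congr rfl fun x _ =>
    mul_comm _ _)
  simp only [mem_filter, Finset.mem_Icc]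
  exact ⟨fun h => ⟨⟨h.1, h.2.1.2, h.2.2⟩, h.2.1.1, h.2.1.2.trans (le_sup (f := m) h.1)⟩,
    fun h => ⟨h.1.1, ⟨h.2.1, h.1.2.1⟩, h.1.2.2⟩⟩

theorem levb_pf (hLevB1 : S_LevB1) (hTail : S_Tail) : S_LevB := by
  classical
  intro θ z0 hθ hz
  obtain ⟨C1, hC1, h1⟩ := hLevB1 θ z0 hθ hz
  obtain ⟨C2, hC2, h2⟩ := hTail.2.2
  have hz0 : 0 ≤ z0 := le_trans (by positivity) hz.1
  refine ⟨C1 * C2 * (z0 + 600), by positivity, fun γ t A B ψ S E hc hS hE ht h => ?_⟩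
  have h0 : 0 < TT t := one_pos.trans_le (one_le_TT ht)
  have hzz : 0 ≤ zz z0 t := hz0.trans (le_zz z0 ht)
  rw [levb_swap E _ (fun x => ⌊Rm ψ x.1 x.2 ^ (8 / 700 : ℝ)⌋₊) (fun x e => BadK γ (A (lv ψ x.1))
    (A (lv ψ x.2)) (B (lv ψ x.1)) (B (lv ψ x.2)) (cf x.1 x.2) (cf x.2 x.1) t e)]
  refine (mul_le_mul_of_nonneg_left (sum_le_sum fun e he => mul_le_mul_of_nonneg_left
    (h1 γ t A B ψ S _ e hc hS ((filter_subset _ _).trans hE) ht (Finset.mem_Icc.1 he).1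
      fun x hx => ?_) (by positivity)) (by positivity)).trans ?_
  · obtain ⟨hx, hm, hb⟩ := mem_filter.1 hx
    have a := hS.1.1 _ (mem_product.1 (hE hx)).1
    have b := hS.1.1 _ (mem_product.1 (hE hx)).2
    have c := two_le_Rm x.2 a.2.1 a.2.2
    refine ⟨⟨(h x hx).1, (h x hx).2.1, hb⟩, levb_pow (by linarith) (Dd_pos b.1 a.2.1)
      (h x hx).2.1 (h x hx).2.2 (Nat.cast_nonneg e) ?_⟩
    exact (Nat.le_floor_iff (rpow_nonneg (by linarith) _)).1 hm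
  · have a : ∀ T : Finset ℕ, ∑ e ∈ T, (e : ℝ) ^ (-(99 / 100) : ℝ) *
        (C1 * (t * TT t ^ (-(1 / 84) : ℝ) * (e : ℝ) ^ (-(1 / 60) : ℝ))) ≤
        C1 * (t * TT t ^ (-(1 / 84) : ℝ)) * C2 := fun T => by
      refine le_trans (le_of_eq ?_) (mul_le_mul_of_nonneg_left (h2 T) (by positivity))
      rw [mul_sum]
      exact sum_congr rfl fun e _ => by ring
    refine (mul_le_mul_of_nonneg_left (a _) (by positivity)).trans ?_
    have b := mul_le_mul_of_nonneg_left (levb_zz hz0 ht) (by positivity : 0 ≤ C1 * C2)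
    refine le_trans (le_of_eq ?_) (b.trans (le_of_eq (by ring)))
    field_simp

end Vale.Agent.P028.T
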