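import Vale.Agent.P028.TStm

namespace Vale.Agent.P028.T

open Real Finset MeasureTheory Filter Metric

theorem levb1_a {m D t y : ℝ} (hm : 0 ≤ m) (hD : 1 ≤ D) (ht : 0 < t) (hy : 0 < y)
    (h : m ^ (21 / 10 : ℝ) ≤ D * t ^ 2 / √(y ^ (1 / 4 : ℝ))) :
    m ≤ D * (t ^ (20 / 21 : ℝ) * y ^ (-(5 / 84) : ℝ)) := by
  have a := rpow_le_rpow (by positivity) h (z := 10 / 21) (by norm_num)
  rw [← rpow_mul hm, show (21 / 10 : ℝ) * (10 / 21) = 1 by norm_num, rpow_one, sqrt_eq_rpow,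
    ← rpow_mul hy.le, div_eq_mul_inv, ← rpow_neg hy.le, mul_rpow (by positivity) (by positivity),
    mul_rpow (by positivity) (by positivity), ← rpow_natCast, ← rpow_mul ht.le,
    ← rpow_mul hy.le, show ((2 : ℕ) : ℝ) * (10 / 21) = 20 / 21 by norm_num,
    show -((1 / 4 : ℝ) * (1 / 2)) * (10 / 21) = -(5 / 84) by norm_num, mul_assoc] at a
  exact a.trans (mul_le_mul_of_nonneg_right (rpow_le_self_of_one_le hD (by norm_num))
    (by positivity))

theorem levb1_b {m D t y : ℝ} (hD : 1 ≤ D) (ht : 0 < t) (hy : 0 < y)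
    (h : m ≤ D * (t ^ (20 / 21 : ℝ) * y ^ (-(5 / 84) : ℝ))) :
    √m ≤ D * (t ^ (10 / 21 : ℝ) * y ^ (-(5 / 168) : ℝ)) := by
  refine sqrt_le_iff.2 ⟨by positivity, h.trans ?_⟩
  rw [mul_pow, mul_pow, ← rpow_natCast (t ^ _), ← rpow_natCast (y ^ _), ← rpow_mul ht.le,
    ← rpow_mul hy.le, show (10 / 21 : ℝ) * ((2 : ℕ) : ℝ) = 20 / 21 by norm_num,
    show -(5 / 168 : ℝ) * ((2 : ℕ) : ℝ) = -(5 / 84) by norm_num]
  exact mul_le_mul_of_nonneg_right (by nlinarith) (by positivity)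

theorem levb1_pf (hLow : S_Low) (hLevR : S_LevR) (hLevA : S_LevA) : S_LevB1 := by
  intro θ z0 hθ hz
  obtain ⟨CL, -, hL⟩ := hLow θ hθ
  obtain ⟨CR, hCR, hR⟩ := hLevR (16 ^ 4) (by norm_num)
  obtain ⟨CA, hCA, hA⟩ := hLevA z0 hz
  obtain ⟨D, hD, hD'⟩ : ∃ D : ℝ, 1 ≤ D ∧ CL ≤ D := ⟨max 1 CL, le_max_left _ _, le_max_right _ _⟩
  refine ⟨CA * (2 * D * CR), by positivity, fun γ t A B ψ S E e hc hb hE ht he h => ?_⟩
  refine (hA t ψ S E ht hb.1 hE fun x hx => (h x hx).1.2.1).trans ?_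
  rw [mul_assoc CA]
  refine mul_le_mul_of_nonneg_left ?_ hCA.le
  have e1 : (1 : ℝ) ≤ e := by exact_mod_cast he
  have T1 := one_le_TT ht
  have T5 : 1 ≤ TT t ^ 5 := one_le_pow₀ T1
  have m0 := hb.1.mE_nonneg hE
  have m1 := hb.1.mE_le hE
  obtain ⟨r1, r2⟩ := hR t e ht e1
  generalize t * TT t ^ (-(1 / 84) : ℝ) * (e : ℝ) ^ (-(1 / 60) : ℝ) = Q at r1 r2 ⊢
  rcases lt_or_ge (e : ℝ) (t * max (16 ^ 4) (TT t)) with k | k
  · have a : √(mE ψ E) / TT t ^ 5 ≤ 1 :=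
      div_le_one_of_le₀ ((sqrt_le_one.2 m1).trans T5) (by positivity)
    have b := r2 k
    nlinarith
  · have y0 : 0 < (e : ℝ) / t := by positivity
    have y1 : max (16 ^ 4) (TT t) ≤ (e : ℝ) / t := by rw [le_div_iff₀ ht]; linarith
    have H4 : (((e : ℝ) / t) ^ (1 / 4 : ℝ)) ^ 4 = e / t := by
      rw [← rpow_natCast, ← rpow_mul y0.le]; norm_num
    have a := hL γ t (((e : ℝ) / t) ^ (1 / 4 : ℝ)) A B ψ S E e hc hb hE
      (le_of_pow_le_pow_left₀ four_ne_zero (by positivity)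
        (by rw [H4]; exact (le_max_left _ _).trans y1)) ht (by rw [H4]; field_simp) he
      (by rw [H4]; exact (le_max_left _ _).trans ((le_max_right _ _).trans y1))
      fun x hx => ⟨(h x hx).1, by
        rw [show 288 = 4 * 72 by norm_num, pow_mul, H4]; exact (h x hx).2⟩
    have b := levb1_a m0 hD ht y0 (a.trans (by gcongr))
    have c := div_le_div_of_nonneg_right (levb1_b hD ht y0 b) (by positivity : 0 ≤ TT t ^ 5)
    have d := mul_le_mul_of_nonneg_left (r1 k) (by positivity : 0 ≤ D)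
    have f : 0 ≤ D * (CR * Q) := le_trans (by positivity) d
    rw [mul_div_assoc] at c
    nlinarith

end Vale.Agent.P028.T
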