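import Vale.Agent.P028.TStm

namespace Vale.Agent.P028.T

open Real Finset MeasureTheory Filter Metric

theorem levc_pf (_hTau : S_Tau) : S_LevC := by
  intro θ hθ
  refine ⟨9, by norm_num, fun t ψ q r hq hr h0 h1 h0' hq' hr' ht hD => ?_⟩
  have hD0 : 0 < Dd ψ q r := Dd_pos hr h0
  have hR : 1 ≤ Rm ψ q r := by linarith [two_le_Rm r h0 h1]
  have hR0 : 0 ≤ Rm ψ q r := by linarith
  have ha := tau_le (c := 700) (R := Rm ψ q r) (by norm_num) (by linarith) hq h0 hq' (le_max_left _ _) hR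
  have hb := tau_le (c := 700) (R := Rm ψ q r) (by norm_num) (by linarith) hr h0' hr' (le_max_right _ _) hR
  generalize Dd ψ q r = D at *
  generalize Rm ψ q r = R at *
  have hs1 : 1 ≤ R ^ (1 / 700 : ℝ) := one_le_rpow hR (by norm_num)
  have hp : ∀ n : ℕ, (R ^ (1 / 700 : ℝ)) ^ n = R ^ ((n : ℝ) / 700) := fun n => by
    rw [← rpow_natCast, ← rpow_mul hR0]; congr 1; ring
  have h7 : (R ^ (1 / 700 : ℝ)) ^ 700 = R := by rw [hp]; norm_num
  have h8 : √(R ^ (8 / 700 : ℝ)) = (R ^ (1 / 700 : ℝ)) ^ 4 := by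
    have e : R ^ (8 / 700 : ℝ) = ((R ^ (1 / 700 : ℝ)) ^ 4) ^ 2 := by
      rw [← pow_mul, hp]; norm_num
    rw [e, sqrt_sq (by positivity)]
  rw [h8]
  generalize R ^ (1 / 700 : ℝ) = s at *
  have hs0 : 0 < s := by linarith
  have hDs : 1 ≤ D * s := by
    rw [← h7, ← mul_pow] at hD
    exact (one_le_pow_iff_of_nonneg (by positivity) (by norm_num)).1 hD
  clear hD h7 h8 hp
  have h3 : (q.divisors.card : ℝ) ^ 2 * r.divisors.card ≤ s ^ 3 := by
    rw [pow_succ s 2]; gcongr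
  rw [div_le_iff₀ (pow_pos hs0 4)]
  calc (4 * t + 1) * ((q.divisors.card : ℝ) ^ 2 * r.divisors.card)
      ≤ (8 * D + 1) * ((q.divisors.card : ℝ) ^ 2 * r.divisors.card) :=
        mul_le_mul_of_nonneg_right (by linarith) (by positivity)
    _ ≤ (8 * D + 1) * s ^ 3 := by gcongr
    _ ≤ (9 * D * s) * s ^ 3 := by
        gcongr
        nlinarith [mul_le_mul_of_nonneg_left hs1 hD0.le]
    _ = 9 * D * s ^ 4 := by ring

end Vale.Agent.P028.T
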