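import Vale.Agent.P028.TStm

namespace Vale.Agent.P028.T

open Real Finset MeasureTheory Filter Metric

theorem levh_num {D R t : ℝ} (ht : 0 < t) (hR : 2 ≤ R) (htD : t ≤ 2 * D) (h : D ^ 700 * R < 1) :
    t ≤ 2 ∧ R ≤ (2 / t) ^ 700 := by
  constructor
  · by_contra hc
    have h1 : 1 ≤ D ^ 700 := one_le_pow₀ (by linarith [not_le.1 hc])
    nlinarith
  · have h1 : (t / 2) ^ 700 ≤ D ^ 700 := pow_le_pow_left₀ (by positivity) (by linarith) _
    have h2 : 0 < (t / 2) ^ 700 := by positivity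
    rw [← inv_div, inv_pow, ← one_div, le_div_iff₀ h2]
    nlinarith

open Classical in
theorem levh_pair (hDead : S_Dead) {γ t : ℝ} {A : ℕ → ℤ} {B : ℕ → ℕ} {ψ : ℕ → ℝ} {q r : ℕ}
    (hc : Ctr γ A B) (hq : 0 < q) (hr : 0 < r) (a : 0 < ψ q) (b : 0 < ψ r) (ht : 0 < t)
    (ht2 : t ≤ 2) (hne : q ≠ r) (h1 : Dd ψ q r ≤ t) (h2 : t ≤ 2 * Dd ψ q r) :
    WW γ A B ψ t q r ≤ if BadE γ A B ψ t 1 q r then 18 / t * (ψ q * ψ r) else 0 := by
  have hD := Dd_pos hr a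
  unfold WW
  split_ifs with hb
  · have h3 : mu ψ q * mu ψ r * ∑ k ∈ KK γ (cf q r) (cf r q) t,
        FF (A (lv ψ q)) (A (lv ψ r)) (B (lv ψ q)) (B (lv ψ r)) q r k ≤ 9 * (ψ q * ψ r) := by
      rw [mul_sum]
      refine (sum_le_card_nsmul _ _ (ψ q * ψ r) fun k _ => ?_).trans ?_
      · have h4 := mul_le_mul_of_nonneg_left
          (hDead (A (lv ψ q)) (A (lv ψ r)) k (B (lv ψ q)) (B (lv ψ r)) q r hq hr).2.1
          (mul_pos a b).le
        unfold mu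
        linarith
      · rw [nsmul_eq_mul]
        exact mul_le_mul_of_nonneg_right (by linarith [card_KK γ (cf q r) (cf r q) ht.le])
          (mul_pos a b).le
    have h5 : 1 / Dd ψ q r ≤ 2 / t := by
      rw [div_le_div_iff₀ hD ht]
      linarith
    rw [div_mul_eq_mul_div, div_eq_mul_one_div]
    refine (mul_le_mul h3 h5 (by positivity) (by positivity)).trans (le_of_eq ?_)
    ring
  · rw [sum_eq_zero fun k hk => ?_, mul_zero]
    refine (hDead _ _ k _ _ q r hq hr).2.2.2 (hc _).1 (hc _).1 (hc _).2.2.1 (hc _).2.2.1 hne ?_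
    by_contra hx
    exact hb ⟨hne, h1, Nat.coprime_one_left _, k, mem_KK.1 hk, by simp, hx⟩

theorem levh_pf (hDead : S_Dead) (hHigh : S_High) : S_LevH := by
  classical
  intro θ hθ
  obtain ⟨C, hC, hH⟩ := hHigh θ hθ
  refine ⟨18 * C, by positivity, fun γ t A B ψ S E hc hb hE ht h => ?_⟩
  have hT := one_le_TT ht
  rcases E.eq_empty_or_nonempty with rfl | ⟨y, hy⟩
  · rw [sum_empty]
    positivity
  have hn : ∀ x ∈ E, t ≤ 2 ∧ Rm ψ x.1 x.2 ≤ (2 / t) ^ 700 := fun x hx => by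
    obtain ⟨-, a2, a3⟩ := hb.1.1 _ (mem_product.1 (hE hx)).1
    exact levh_num ht (two_le_Rm x.2 a2 a3) (h x hx).2.2.1 (h x hx).2.2.2
  have ht2 := (hn y hy).1
  have h1 := hH γ t A B ψ S (E.filter fun x => BadE γ A B ψ t 1 x.1 x.2) hc hb
    ((filter_subset _ _).trans hE) ht ht2
    fun x hx => ⟨(mem_filter.1 hx).2, (hn x (mem_filter.1 hx).1).2⟩
  have h2 : TT t ^ (-(1 / 50) : ℝ) ≤ TT t ^ (-(1 / 100) : ℝ) :=
    rpow_le_rpow_of_exponent_le hT (by norm_num)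
  refine (sum_le_sum fun x hx => levh_pair hDead hc (hb.1.1 _ (mem_product.1 (hE hx)).1).1
    (hb.1.1 _ (mem_product.1 (hE hx)).2).1 (hb.1.1 _ (mem_product.1 (hE hx)).1).2.1
    (hb.1.1 _ (mem_product.1 (hE hx)).2).2.1 ht ht2 (h x hx).1 (h x hx).2.1
    (h x hx).2.2.1).trans ?_
  rw [← sum_filter, ← mul_sum]
  calc _ ≤ 18 / t * (C * t * TT t ^ (-(1 / 100) : ℝ)) :=
        mul_le_mul_of_nonneg_left (h1.trans (mul_le_mul_of_nonneg_left h2 (by positivity)))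
          (by positivity)
    _ = _ := by field_simp

end Vale.Agent.P028.T
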