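import Vale.Agent.P028.TStm

namespace Vale.Agent.P028.T

open Real Finset MeasureTheory Filter Metric

theorem levl_pow (z0 : ℝ) {t : ℝ} (ht : 0 < t) :
    t + (if 1 ≤ t then 4 ^ zz z0 t else 0) ≤ (1 + 4 ^ z0) * t := by
  have h0 : (0 : ℝ) < 4 ^ z0 := by positivity
  split_ifs with h
  · have e : TT t = t := max_eq_left ((inv_le_one_of_one_le₀ h).trans h)
    have h1 : log 4 ≤ 4 - 1 := log_le_sub_one_of_pos (by norm_num)
    have h2 := log_nonneg h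
    have h3 : (4 : ℝ) ^ (log t / 4) ≤ t := by
      rw [rpow_def_of_pos (by norm_num)]
      exact (exp_le_exp.2 (by nlinarith)).trans (exp_log ht).le
    rw [zz, e, rpow_add (by norm_num)]
    nlinarith
  · nlinarith

theorem levl_pair {m D t s Cs ex a K z b L Cc : ℝ} (hm : 0 ≤ m) (hD : 0 < D) (ht : 0 < t)
    (htD : t ≤ 2 * D) (hs : s ≤ Cs * ex * (a + z * b) + L) (ha : a ≤ K * t) (hL : L ≤ Cc * D)
    (hCs : 0 ≤ Cs) (hex : 0 ≤ ex) (hK : 0 ≤ K) (hz : 0 ≤ z) (hb : 0 ≤ b) :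
    m / D * s ≤ 2 * Cs * K * (m * ex) + 2 * Cs * (z / t * (m * ex * b)) + Cc * m := by
  have h1 : s ≤ Cs * ex * (K * t + z * b) + Cc * D :=
    hs.trans (add_le_add (mul_le_mul_of_nonneg_left (by linarith) (by positivity)) hL)
  have h2 : 1 / D ≤ 2 / t := by
    rw [div_le_div_iff₀ hD ht]
    linarith
  calc m / D * s ≤ m / D * (Cs * ex * (K * t + z * b) + Cc * D) :=
        mul_le_mul_of_nonneg_left h1 (by positivity)
    _ = m * (Cs * ex * (K * t + z * b)) * (1 / D) + Cc * m := by field_simp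
    _ ≤ m * (Cs * ex * (K * t + z * b)) * (2 / t) + Cc * m :=
        add_le_add (mul_le_mul_of_nonneg_left h2 (by positivity)) le_rfl
    _ = _ := by field_simp

theorem levl_T {T x : ℝ} (hT : 1 ≤ T) (hx : x ≤ 1) : √x / T ^ 5 ≤ T ^ (-(1 / 100) : ℝ) := by
  have h1 : √x ≤ 1 := sqrt_le_one.2 hx
  have h2 : T ^ (-(5 : ℕ) : ℝ) ≤ T ^ (-(1 / 100) : ℝ) :=
    rpow_le_rpow_of_exponent_le hT (by norm_num)
  rw [rpow_neg (by linarith), rpow_natCast, ← one_div] at h2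
  exact (div_le_div_of_nonneg_right h1 (by positivity)).trans h2

theorem levl_pf (hAn2 : S_An2) (hLevA : S_LevA) (hSum : S_Sum) (hLevB : S_LevB) (hLevC : S_LevC) : S_LevL := by
  classical
  intro θ hθ
  obtain ⟨z0, hz0⟩ := hAn2
  obtain ⟨Ca, hCa, hA⟩ := hLevA z0 hz0
  obtain ⟨Cs, hCs, hS⟩ := hSum
  obtain ⟨Cb, hCb, hB⟩ := hLevB θ z0 hθ hz0
  obtain ⟨Cc, hCc, hC⟩ := hLevC θ hθ
  have hK : (0 : ℝ) < 1 + 4 ^ z0 := by positivity
  refine ⟨2 * Cs * (1 + 4 ^ z0) * Ca + 2 * Cs * Cb + Cc, by positivity,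
    fun γ t A B ψ S E hc hb hE ht h => ?_⟩
  have hz : 2 ^ 100 ≤ zz z0 t := hz0.1.trans (le_zz z0 ht)
  have h1 := hA t ψ S E ht hb.1 hE fun x hx => (h x hx).2.1
  have h2 := hB γ t A B ψ S E hc hb hE ht fun x hx => ⟨(h x hx).1, (h x hx).2.1, (h x hx).2.2.2⟩
  have h3 := levl_T (one_le_TT ht) (hb.1.mE_le hE)
  have h4 := hb.1.mE_nonneg hE
  have h5 : 0 ≤ TT t ^ (-(1 / 100) : ℝ) := rpow_nonneg (zero_le_one.trans (one_le_TT ht)) _
  have key : ∀ x ∈ E, WW γ A B ψ t x.1 x.2 ≤ 2 * Cs * (1 + 4 ^ z0) *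
      (mu ψ x.1 * mu ψ x.2 * exp (2 * Lz (zz z0 t) (cf x.1 x.2 * cf x.2 x.1))) +
      2 * Cs * (zz z0 t / t *
        (mu ψ x.1 * mu ψ x.2 * exp (2 * Lz (zz z0 t) (cf x.1 x.2 * cf x.2 x.1)) *
      ∑ e ∈ (Finset.Icc 1 ⌊Rm ψ x.1 x.2 ^ (8 / 700 : ℝ)⌋₊).filter (fun e => BadK γ (A (lv ψ x.1))
        (A (lv ψ x.2)) (B (lv ψ x.1)) (B (lv ψ x.2)) (cf x.1 x.2) (cf x.2 x.1) t e),
        (e : ℝ) ^ (-(99 / 100) : ℝ))) + Cc * (mu ψ x.1 * mu ψ x.2) := fun x hx => by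
    obtain ⟨m1, m2⟩ := mem_product.1 (hE hx)
    obtain ⟨a1, a2, a3⟩ := hb.1.1 _ m1
    obtain ⟨b1, b2, -⟩ := hb.1.1 _ m2
    have hX : 1 ≤ Rm ψ x.1 x.2 ^ (8 / 700 : ℝ) :=
      one_le_rpow (by linarith [two_le_Rm x.2 a2 a3]) (by norm_num)
    exact levl_pair (hb.1.mE_pos (hE hx)).le (Dd_pos b1 a2) ht (h x hx).2.2.1
      (hS γ t _ _ _ _ _ _ x.1 x.2 hz ht hX a1 b1 (h x hx).1 (hc _).1 (hc _).1 (hc _).2.2.1
        (hc _).2.2.1) (levl_pow z0 ht)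
      (hC t ψ x.1 x.2 a1 b1 a2 a3 b2 (hb.2 _ m1) (hb.2 _ m2) (h x hx).2.2.1 (h x hx).2.2.2)
      hCs.le (exp_pos _).le hK.le (le_trans (by positivity) hz)
      (sum_nonneg fun _ _ => by positivity)
  refine (sum_le_sum key).trans ?_
  rw [sum_add_distrib, sum_add_distrib, ← mul_sum, ← mul_sum, ← mul_sum, ← mul_sum]
  have k1 := mul_le_mul_of_nonneg_left
    (h1.trans (mul_le_mul_of_nonneg_left (add_le_add le_rfl h3) hCa.le))
    (show 0 ≤ 2 * Cs * (1 + 4 ^ z0) by positivity)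
  have k2 := mul_le_mul_of_nonneg_left h2 (show 0 ≤ 2 * Cs by positivity)
  have k3 : 0 ≤ 2 * Cs * Cb * mE ψ E := by positivity
  have k4 : 0 ≤ Cc * TT t ^ (-(1 / 100) : ℝ) := by positivity
  refine (add_le_add (add_le_add k1 k2) (le_refl (Cc * mE ψ E))).trans ?_
  linarith

end Vale.Agent.P028.T
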