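import Vale.Agent.P028.TStm

namespace Vale.Agent.P028.T

open Real Finset MeasureTheory Filter Metric

theorem levr_max (x y : ℝ) : max (exp x) (exp y) = exp (max x y) :=
  (exp_monotone.map_max).symm

theorem levr_pf : S_LevR := by
  intro Y0 hY
  obtain ⟨y, rfl⟩ : ∃ y, Y0 = exp y := ⟨log Y0, (exp_log (by linarith)).symm⟩
  refine ⟨2 * exp (3 * y), by positivity, fun t e ht he => ?_⟩
  obtain ⟨a, rfl⟩ : ∃ a, t = exp a := ⟨log t, (exp_log ht).symm⟩
  obtain ⟨b, rfl⟩ : ∃ b, e = exp b := ⟨log e, (exp_log (by linarith)).symm⟩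
  rw [one_le_exp_iff] at hY he
  have hT : TT (exp a) = exp (max a (-a)) := by rw [TT, ← exp_neg, levr_max]
  have m1 := le_max_left a (-a)
  have m2 := le_max_right a (-a)
  have m3 := max_choice a (-a)
  generalize max a (-a) = m at *
  have n1 := le_max_right y m
  have n2 := max_choice y m
  simp only [hT, levr_max, mul_assoc, ← exp_sub, ← exp_mul, ← exp_nat_mul, ← exp_add, exp_le_exp,
    exp_lt_exp, Nat.cast_ofNat]
  generalize max y m = n at *
  refine ⟨fun h => ?_, fun h => ?_⟩
  · rw [two_mul]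
    exact add_le_add (exp_le_exp.2 (by linarith)) (exp_le_exp.2 (by linarith))
  · refine one_le_mul_of_one_le_of_one_le one_le_two (one_le_exp ?_)
    rcases m3 with rfl | rfl <;> rcases n2 with rfl | rfl <;> linarith

end Vale.Agent.P028.T
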