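import Vale.Agent.P028.TStm

namespace Vale.Agent.P028.T

open Real Finset MeasureTheory Filter Metric

theorem loc_eq {t : ℝ} (h : 0 ≤ t) : t ^ (11 / 21 : ℝ) = t ^ (1 / 42 : ℝ) * √t := by
  rw [sqrt_eq_rpow, ← rpow_add' h (by norm_num)]
  norm_num

theorem loc_le {t M : ℝ} (h : 0 ≤ t) (hM : t ≤ M) : t ^ (11 / 21 : ℝ) ≤ M ^ (1 / 42 : ℝ) * √t := by
  rw [loc_eq h]
  exact mul_le_mul_of_nonneg_right (rpow_le_rpow h hM (by norm_num)) (sqrt_nonneg t)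

theorem loc_le1 {t : ℝ} (h : 0 ≤ t) (hM : t ≤ 1) : t ^ (11 / 21 : ℝ) ≤ √t := by
  simpa using loc_le h hM

theorem loc_c {ρ : ℝ} (h0 : 0 ≤ ρ) (h1 : ρ ≤ 1 / 3) : 2 * ρ / (1 - ρ) ≤ 3 * ρ := by
  rw [div_le_iff₀ (by linarith)]
  nlinarith

theorem loc_row (hS : S_Sch) {ρ s : ℝ} (h0 : 0 ≤ ρ) (h1 : ρ ≤ 1 / 3) {J : Finset ℕ} {k : ℕ}
    (hk : k ∉ J) {z : ℕ → ℝ} (hz : ∀ j, 0 ≤ z j) (hs : ∑ j ∈ J, z j ≤ s) :
    ∑ j ∈ J, √(z j) * ρ ^ Nat.dist k j ≤ 3 * ρ * √s := by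
  have h := (hS ρ {k} J (fun _ => 1) z h0 (by linarith) (fun _ => zero_le_one) hz).1
  simp only [sum_singleton, one_mul] at h
  rw [sum_congr rfl fun j hj => if_neg fun e : k = j => hk (e ▸ hj)] at h
  exact h.trans (mul_le_mul (loc_c h0 h1) (sqrt_le_sqrt hs) (sqrt_nonneg _) (by positivity))

theorem loc_row2 (hS : S_Sch) {ρ s : ℝ} (h0 : 0 ≤ ρ) (h1 : ρ ≤ 1 / 3) {J : Finset ℕ} {k : ℕ}
    (hk : k ∉ J) {z : ℕ → ℝ} (hz : ∀ j, 0 ≤ z j) (hs : ∑ j ∈ J, z j ≤ s) :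
    ∑ j ∈ J, z j ^ (11 / 21 : ℝ) * ρ ^ Nat.dist k j ≤ 3 * ρ * s ^ (11 / 21 : ℝ) := by
  have s0 : 0 ≤ s := (sum_nonneg fun j _ => hz j).trans hs
  calc _ ≤ ∑ j ∈ J, s ^ (1 / 42 : ℝ) * (√(z j) * ρ ^ Nat.dist k j) := sum_le_sum fun j hj => by
        rw [← mul_assoc]
        exact mul_le_mul_of_nonneg_right (loc_le (hz j)
          ((single_le_sum (fun j _ => hz j) hj).trans hs)) (by positivity)
    _ ≤ s ^ (1 / 42 : ℝ) * (3 * ρ * √s) := by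
        rw [← mul_sum]
        exact mul_le_mul_of_nonneg_left (loc_row hS h0 h1 hk hz hs) (by positivity)
    _ = _ := by rw [loc_eq s0]; ring

theorem loc_row3 (hS : S_Sch) {ρ s : ℝ} (h0 : 0 ≤ ρ) (h1 : ρ ≤ 1 / 3) {J : Finset ℕ} {k : ℕ}
    (hk : k ∉ J) {z : ℕ → ℝ} (hz : ∀ j, 0 ≤ z j) (hs : ∑ j ∈ J, z j ≤ s) (h2 : s ≤ 1) :
    ∑ j ∈ J, (if 2 ≤ Nat.dist k j then z j ^ (11 / 21 : ℝ) * ρ ^ Nat.dist k j else 0) ≤
      9 * ρ ^ 2 * √s := by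
  calc _ ≤ ∑ j ∈ J, 9 * ρ ^ 2 * (√(z j) * (1 / 3) ^ Nat.dist k j) := sum_le_sum fun j hj => by
        split_ifs with h
        · obtain ⟨d, hd⟩ := Nat.exists_eq_add_of_le h
          have a := loc_le1 (hz j) (((single_le_sum (fun j _ => hz j) hj).trans hs).trans h2)
          have b : ρ ^ d ≤ (1 / 3) ^ d := pow_le_pow_left₀ h0 h1 d
          rw [hd, pow_add, pow_add]
          calc _ ≤ √(z j) * (ρ ^ 2 * (1 / 3) ^ d) := by gcongr
            _ = _ := by ring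
        · positivity
    _ ≤ 9 * ρ ^ 2 * (3 * (1 / 3) * √s) := by
        rw [← mul_sum]
        exact mul_le_mul_of_nonneg_left (loc_row hS (by norm_num) le_rfl hk hz hs) (by positivity)
    _ = _ := by ring

theorem loc_split {I : Finset ℕ} {k : ℕ} (hk : k ∈ I) (H : ℕ → ℕ → ℝ) :
    ∑ i ∈ I, ∑ j ∈ I, H i j = H k k + ∑ j ∈ I.erase k, H k j + ∑ i ∈ I.erase k, H i k +
      ∑ i ∈ I.erase k, ∑ j ∈ I.erase k, H i j := by
  rw [← add_sum_erase I _ hk, ← add_sum_erase I _ hk, add_assoc (_ + _), ← sum_add_distrib]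
  exact congrArg _ (sum_congr rfl fun i _ => (add_sum_erase I _ hk).symm)

theorem loc_blk (hS : S_Sch) {ρ s : ℝ} (h0 : 0 ≤ ρ) (h1 : ρ ≤ 1 / 3) (J : Finset ℕ)
    {x y : ℕ → ℝ} (hx : ∀ j, 0 ≤ x j) (hy : ∀ j, 0 ≤ y j) (hs : ∑ j ∈ J, x j ≤ s)
    (hs' : ∑ j ∈ J, y j ≤ s) :
    ∑ i ∈ J, ∑ j ∈ J, (x i * y j) ^ (11 / 21 : ℝ) * ρ ^ Nat.dist i j ≤
      2 * (s * s) ^ (11 / 21 : ℝ) := by
  have s0 : 0 ≤ s := (sum_nonneg fun j _ => hx j).trans hs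
  obtain ⟨a, b⟩ := hS ρ J J x y h0 (by linarith) hx hy
  have c : √((∑ i ∈ J, x i) * ∑ j ∈ J, y j) ≤ √(s * s) :=
    sqrt_le_sqrt (mul_le_mul hs hs' (sum_nonneg fun j _ => hy j) s0)
  have d := a.trans (mul_le_mul ((loc_c h0 h1).trans (by linarith : 3 * ρ ≤ 1)) c (sqrt_nonneg _)
    zero_le_one)
  calc _ ≤ ∑ i ∈ J, ∑ j ∈ J, (s * s) ^ (1 / 42 : ℝ) *
        ((if i = j then 0 else √(x i * y j) * ρ ^ Nat.dist i j) +
          if i = j then √(x i * y j) else 0) := sum_le_sum fun i hi => sum_le_sum fun j hj => by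
        have e := loc_le (mul_nonneg (hx i) (hy j)) (mul_le_mul
          ((single_le_sum (fun j _ => hx j) hi).trans hs)
          ((single_le_sum (fun j _ => hy j) hj).trans hs') (hy j) s0)
        split_ifs with h
        · simpa [h] using e
        · rw [add_zero, ← mul_assoc]
          exact mul_le_mul_of_nonneg_right e (by positivity)
    _ ≤ (s * s) ^ (1 / 42 : ℝ) * (2 * √(s * s)) := by
        simp only [← mul_sum, sum_add_distrib]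
        exact mul_le_mul_of_nonneg_left (by linarith) (by positivity)
    _ = _ := by rw [loc_eq (mul_nonneg s0 s0)]; ring

theorem loc_k (hS : S_Sch) {ρ : ℝ} (h0 : 0 ≤ ρ) (h1 : ρ ≤ 1 / 3) (I : Finset ℕ)
    {x y : ℕ → ℝ} (hx : ∀ j, 0 ≤ x j) (hy : ∀ j, 0 ≤ y j) (hs : ∑ j ∈ I, x j ≤ 1)
    (hs' : ∑ j ∈ I, y j ≤ 1)
    (h : 1 ≤ ∑ i ∈ I, ∑ j ∈ I, (x i * y j) ^ (11 / 21 : ℝ) * ρ ^ Nat.dist i j) :
    ∃ k ∈ I, 1 - 126 * ρ ≤ x k * y k := by
  have hI : I.Nonempty := nonempty_iff_ne_empty.2 fun e => by simp [e] at h; linarith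
  obtain ⟨k, hk, hm⟩ := exists_max_image I (fun i => x i * y i) hI
  refine ⟨k, hk, ?_⟩
  obtain ⟨a, b⟩ := hS ρ I I x y h0 (by linarith) hx hy
  have c : √((∑ i ∈ I, x i) * ∑ j ∈ I, y j) ≤ 1 :=
    sqrt_le_one.2 (mul_le_one₀ hs (sum_nonneg fun j _ => hy j) hs')
  have d := a.trans (mul_le_mul (loc_c h0 h1) c (sqrt_nonneg _) (by positivity))
  have p := mul_nonneg (hx k) (hy k)
  have e : (1 : ℝ) ≤ 3 * ρ * 1 + (x k * y k) ^ (1 / 42 : ℝ) * 1 :=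
    calc _ ≤ ∑ i ∈ I, ∑ j ∈ I, ((if i = j then 0 else √(x i * y j) * ρ ^ Nat.dist i j) +
          (x k * y k) ^ (1 / 42 : ℝ) * if i = j then √(x i * y j) else 0) :=
          h.trans (sum_le_sum fun i hi => sum_le_sum fun j hj => by
            split_ifs with e
            · subst e
              simpa using loc_le (mul_nonneg (hx i) (hy i)) (hm i hi)
            · rw [mul_zero, add_zero]
              exact mul_le_mul_of_nonneg_right (loc_le1 (mul_nonneg (hx i) (hy j)) (mul_le_one₀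
                ((single_le_sum (fun j _ => hx j) hi).trans hs) (hy j)
                ((single_le_sum (fun j _ => hy j) hj).trans hs'))) (by positivity))
      _ ≤ _ := by
          simp only [← mul_sum, sum_add_distrib]
          exact add_le_add d (mul_le_mul_of_nonneg_left (b.trans c) (by positivity))
  have f := pow_le_pow_left₀ (by linarith : 0 ≤ 1 + -(3 * ρ))
    (by linarith : 1 + -(3 * ρ) ≤ (x k * y k) ^ (1 / 42 : ℝ)) 42
  rw [one_div, show (42 : ℝ)⁻¹ = ((42 : ℕ) : ℝ)⁻¹ by norm_num, rpow_inv_natCast_pow p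
    (by norm_num)] at f
  have g := one_add_mul_le_pow (by linarith : -2 ≤ -(3 * ρ)) 42
  push_cast at g
  linarith

theorem loc_s {ρ s : ℝ} (h0 : 0 < ρ) (s0 : 0 ≤ s) (s1 : s ≤ (1 / 8) ^ 21)
    (h : s / 2 ≤ 6 * ρ * s ^ (11 / 21 : ℝ) + 2 * (s * s) ^ (11 / 21 : ℝ)) :
    (s * s) ^ (11 / 21 : ℝ) ≤ 24 ^ (11 / 5 : ℝ) * ρ ^ (11 / 5 : ℝ) := by
  obtain ⟨w, w0, rfl⟩ : ∃ w : ℝ, 0 ≤ w ∧ s = w ^ 21 :=
    ⟨s ^ ((21 : ℕ) : ℝ)⁻¹, by positivity, (rpow_inv_natCast_pow s0 (by norm_num)).symm⟩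
  have w1 : w ≤ 1 / 8 := le_of_pow_le_pow_left₀ (by norm_num) (by norm_num) s1
  have e1 : (w ^ 21) ^ (11 / 21 : ℝ) = w ^ 11 := by
    rw [← rpow_natCast, ← rpow_mul w0, ← rpow_natCast]; norm_num
  have e2 : (w ^ 10) ^ (11 / 5 : ℝ) = w ^ 11 * w ^ 11 := by
    rw [← rpow_natCast, ← rpow_mul w0, ← pow_add, ← rpow_natCast]; norm_num
  rw [mul_rpow s0 s0, e1] at h ⊢
  rw [← e2, ← mul_rpow (by norm_num) h0.le]
  refine rpow_le_rpow (by positivity) ?_ (by norm_num)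
  rcases w0.eq_or_lt with rfl | wp
  · simpa using h0.le
  refine le_of_mul_le_mul_right ?_ (pow_pos wp 11)
  nlinarith [mul_le_mul_of_nonneg_left w1 s0]

theorem loc_pf (hSch : S_Sch) : S_Loc := by
  refine ⟨2 * 24 ^ (11 / 5 : ℝ) + 288, (1 / 8) ^ 21 / 252, by positivity, by positivity,
    fun ρ I x y m h0 h1 hx hy hs hs' hm hF => ?_⟩
  have h3 : ρ ≤ 1 / 3 := h1.trans (by norm_num)
  have hm' : 1 ≤ ∑ i ∈ I, ∑ j ∈ I, (x i * y j) ^ (11 / 21 : ℝ) * ρ ^ Nat.dist i j :=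
    hm.ge.trans (sum_le_sum fun i _ => sum_le_sum fun j _ => hF i j)
  obtain ⟨k, hk, hxy⟩ := loc_k hSch h0.le h3 I hx hy hs hs' hm'
  refine ⟨k, ?_⟩
  rw [← add_sum_erase I _ hk] at hs hs'
  have a0 : 0 ≤ ∑ j ∈ I.erase k, x j := sum_nonneg fun j _ => hx j
  have b0 : 0 ≤ ∑ j ∈ I.erase k, y j := sum_nonneg fun j _ => hy j
  obtain ⟨s, hsd⟩ : ∃ s, s = ∑ j ∈ I.erase k, x j + ∑ j ∈ I.erase k, y j := ⟨_, rfl⟩
  have xk := hx k
  have yk := hy k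
  have s1 : s ≤ 252 * ρ := by nlinarith
  have s2 : s ≤ (1 / 8) ^ 21 := by linarith
  have r1 : ∑ j ∈ I.erase k, x k * y j ≤ s := by rw [← mul_sum]; nlinarith
  have r2 : ∑ j ∈ I.erase k, x j * y k ≤ s := by rw [← sum_mul]; nlinarith
  have nk := notMem_erase k I
  have z1 : ∀ j, 0 ≤ x k * y j := fun j => mul_nonneg xk (hy j)
  have z2 : ∀ j, 0 ≤ x j * y k := fun j => mul_nonneg (hx j) yk
  have B := loc_blk hSch h0.le h3 (I.erase k) hx hy (by linarith : _ ≤ s) (by linarith)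
  have K : (x k * y k) ^ (11 / 21 : ℝ) ≤ 1 - s / 2 := by
    refine (loc_le1 (z1 k) (by nlinarith)).trans (sqrt_le_iff.2 ⟨by linarith, ?_⟩)
    nlinarith [sq_nonneg (x k - y k), pow_le_pow_left₀ (by positivity : 0 ≤ (x k + y k) / 2)
      (by linarith : (x k + y k) / 2 ≤ 1 - s / 2) 2]
  have S := loc_s h0 (by linarith) s2 (by
    have t1 := loc_row2 hSch h0.le h3 nk z1 r1
    have t2 := loc_row2 hSch h0.le h3 nk z2 r2
    simp only [Nat.dist_comm k] at t2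
    rw [loc_split hk, Nat.dist_self, pow_zero] at hm'
    linarith)
  have t1 := loc_row3 hSch h0.le h3 nk z1 r1 (s2.trans (by norm_num))
  have t2 := loc_row3 hSch h0.le h3 nk z2 r2 (s2.trans (by norm_num))
  have q : ρ ^ 2 * √s ≤ 16 * ρ ^ (11 / 5 : ℝ) := by
    have q1 : √s ≤ 16 * ρ ^ (1 / 5 : ℝ) := by
      refine le_trans ?_ (mul_le_mul_of_nonneg_left (rpow_le_rpow_of_exponent_ge h0
        (by linarith) (by norm_num : (1 / 5 : ℝ) ≤ 1 / 2)) (by norm_num))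
      rw [← sqrt_eq_rpow, sqrt_le_iff, mul_pow, sq_sqrt h0.le]
      exact ⟨by positivity, by linarith⟩
    rw [show (11 / 5 : ℝ) = (2 : ℕ) + 1 / 5 by norm_num, rpow_add h0, rpow_natCast]
    nlinarith [sq_nonneg ρ]
  rw [loc_split hk, if_neg (by simp), zero_add]
  have u1 : ∑ j ∈ I.erase k, (if 2 ≤ Nat.dist k k + Nat.dist j k then m k j else 0) ≤ _ :=
    le_trans (sum_le_sum fun j _ => by
      rw [Nat.dist_self, zero_add, Nat.dist_comm]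
      split_ifs
      exacts [hF k j, le_rfl]) t1
  have u2 : ∑ j ∈ I.erase k, (if 2 ≤ Nat.dist j k + Nat.dist k k then m j k else 0) ≤ _ :=
    le_trans (sum_le_sum fun j _ => by
      rw [Nat.dist_self, add_zero, Nat.dist_comm k]
      split_ifs
      exacts [hF j k, le_rfl]) t2
  have u3 : ∑ i ∈ I.erase k, ∑ j ∈ I.erase k,
      (if 2 ≤ Nat.dist i k + Nat.dist j k then m i j else 0) ≤ _ :=
    le_trans (sum_le_sum fun i _ => sum_le_sum fun j _ => by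
      have := mul_nonneg (hx i) (hy j)
      split_ifs
      exacts [hF i j, by positivity]) B
  linarith

end Vale.Agent.P028.T
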