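import Vale.Agent.P028.VDefs

/-! Roughness classes: basic estimates. -/

namespace Vale.Agent.P028.V

open Real Finset MeasureTheory Filter Metric

theorem powsum {a : ℝ} (h0 : 0 < a) (h1 : a < 1) (N : ℕ) :
    ∑ k ∈ Finset.Icc 1 N, (k : ℝ) ^ (-a) ≤ (N : ℝ) ^ (1 - a) / (1 - a) := by
  have hb : 0 < 1 - a := sub_pos.2 h1
  induction N with
  | zero => simp [hb.ne']
  | succ N ih =>
    rw [Finset.sum_Icc_succ_top (by omega)]
    refine (add_le_add_left ih _).trans ?_
    have hN : (0 : ℝ) < (N + 1 : ℕ) := by positivity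
    set x : ℝ := ((N + 1 : ℕ) : ℝ) with hx
    have hx1 : 1 ≤ x := by rw [hx]; exact_mod_cast Nat.succ_pos N
    have hi : x⁻¹ ≤ 1 := inv_le_one_of_one_le₀ hx1
    have h2 := rpow_one_add_le_one_add_mul_self (s := -x⁻¹) (p := 1 - a) (by linarith) hb.le
      (by linarith)
    have h3 : (N : ℝ) = x * (1 + -x⁻¹) := by
      rw [mul_add, mul_neg, mul_inv_cancel₀ hN.ne', hx]
      push_cast
      ring
    have h4 : x ^ (-a) = x ^ (1 - a) * x⁻¹ := by
      rw [← rpow_neg_one, ← rpow_add hN]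
      congr 1
      ring
    have h5 : 0 < x ^ (1 - a) := rpow_pos_of_pos hN _
    rw [h3, mul_rpow hN.le (by linarith), h4, div_add' _ _ _ hb.ne', div_le_div_iff_of_pos_right hb]
    nlinarith [mul_le_mul_of_nonneg_left h2 h5.le]

theorem VAr1_sg : sg < 1 := by unfold sg; norm_num

theorem VAr1_mono {n t s : ℕ} (h : Good n t) (hs : t ≤ s) : Good n s := by
  refine le_trans (sum_le_sum_of_subset_of_nonneg (fun p hp => ?_) fun _ _ _ => by positivity)
    (le_trans h (rpow_le_rpow (by positivity) (by exact_mod_cast hs) (sub_pos.2 VAr1_sg).le))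
  exact mem_filter.2 ⟨(mem_filter.1 hp).1, lt_of_le_of_lt hs (mem_filter.1 hp).2⟩

theorem good_of_le {n i : ℕ} (h : cl n ≤ i) : Good n (2 ^ i) := by
  have h1 : Good n (2 ^ n) := by
    unfold Good LL
    rw [filter_false_of_mem fun p hp => not_lt.2
      ((Nat.le_of_mem_primeFactors hp).trans Nat.lt_two_pow_self.le), sum_empty]
    positivity
  exact VAr1_mono (Nat.sInf_mem (s := {i | Good n (2 ^ i)}) ⟨n, h1⟩)
    (Nat.pow_le_pow_right two_pos h)

theorem not_good {n i : ℕ} (h : i < cl n) : ¬Good n (2 ^ i) := Nat.notMem_of_lt_sInf h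

theorem w_eq {n : ℕ} (hn : 0 < n) : w n = (Nat.totient n : ℝ) / n := by
  have h := congrArg (fun x : ℚ => (x : ℝ)) (Nat.totient_eq_mul_prod_factors n)
  have h0 : (n : ℝ) ≠ 0 := by positivity
  push_cast at h
  rw [h, mul_div_cancel_left₀ _ h0, w]

theorem VAr1_exp {x : ℝ} (h0 : 0 ≤ x) (h1 : x ≤ 1 / 2) : exp (-(2 * x)) ≤ 1 - x := by
  have h2 := add_one_le_exp (2 * x)
  rw [exp_neg, inv_le_comm₀ (exp_pos _) (by linarith)]
  refine le_trans ?_ h2
  rw [inv_le_iff_one_le_mul₀ (by linarith)]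
  nlinarith

theorem wt_le {n t : ℕ} (h : Good n t) (ht : 1 ≤ t) : wt n t ≤ 8 * w n := by
  have t0 : (0 : ℝ) < t := by positivity
  have e : w n = wt n t * ∏ p ∈ n.primeFactors.filter (t < ·), (1 - (p : ℝ)⁻¹) := by
    rw [w, wt, ← prod_filter_mul_prod_filter_not _ (· ≤ t)]
    simp only [not_le]
  have h1 : ∑ p ∈ n.primeFactors.filter (t < ·), (p : ℝ)⁻¹ ≤ 1 := by
    have h2 : 0 < (t : ℝ) ^ (1 - sg) := rpow_pos_of_pos t0 _
    refine le_trans ?_ ((div_le_one h2).2 h)
    rw [LL, sum_div]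
    refine sum_le_sum fun p hp => ?_
    have h3 : (t : ℝ) ≤ p := by exact_mod_cast (mem_filter.1 hp).2.le
    have p0 : (0 : ℝ) < p := t0.trans_le h3
    rw [le_div_iff₀ h2, show -sg = -1 + (1 - sg) by ring, rpow_add p0, rpow_neg_one]
    exact mul_le_mul_of_nonneg_left (rpow_le_rpow t0.le h3 (sub_pos.2 VAr1_sg).le) (by positivity)
  have h4 : exp (-2) ≤ ∏ p ∈ n.primeFactors.filter (t < ·), (1 - (p : ℝ)⁻¹) := by
    refine le_trans ?_ (prod_le_prod (f := fun p : ℕ => exp (-(2 * (p : ℝ)⁻¹)))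
      (fun _ _ => (exp_pos _).le) fun p hp => VAr1_exp (by positivity) ?_)
    · rw [← exp_sum, sum_neg_distrib, ← mul_sum]
      exact exp_le_exp.2 (by linarith)
    · have := fac_pos (mem_filter.1 hp).1
      linarith
  have h5 : 1 ≤ 8 * exp (-2) := by
    have a1 : exp 2 = exp 1 * exp 1 := by rw [← exp_add]; norm_num
    have a2 := exp_one_lt_d9
    have a3 := exp_pos 1
    rw [exp_neg, ← div_eq_mul_inv, one_le_div (exp_pos _), a1]
    nlinarith
  rw [e]
  nlinarith [wt_pos n t, mul_le_mul_of_nonneg_left h4 (wt_pos n t).le]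

theorem VAr1_tel {t : ℕ} (ht : 1 ≤ t) : (t : ℝ) * ∏ k ∈ Icc 2 t, (1 - (k : ℝ)⁻¹) = 1 := by
  induction t, ht using Nat.le_induction with
  | base => simp
  | succ t ht ih =>
    have : (t : ℝ) + 1 ≠ 0 := by positivity
    have e : ((t + 1 : ℕ) : ℝ) * (1 - ((t + 1 : ℕ) : ℝ)⁻¹) = t := by
      push_cast
      rw [mul_sub, mul_inv_cancel₀ this]
      ring
    rw [prod_Icc_succ_top (by omega), mul_left_comm, e, mul_comm, ih]

theorem one_le_w {n t : ℕ} (h : Good n t) (ht : 1 ≤ t) : 1 ≤ 8 * t * w n := by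
  have h1 : ∏ k ∈ Icc 2 t, (1 - (k : ℝ)⁻¹) ≤ wt n t := by
    refine prod_le_prod_of_subset_of_le_one (fun p hp => ?_) (fun k hk => ?_) fun k _ _ => ?_
    · exact mem_Icc.2 ⟨(Nat.prime_of_mem_primeFactors (mem_filter.1 hp).1).two_le,
        (mem_filter.1 hp).2⟩
    · have : (1 : ℝ) ≤ k := by exact_mod_cast le_trans one_le_two (mem_Icc.1 hk).1
      exact sub_nonneg.2 (inv_le_one_of_one_le₀ this)
    · exact sub_le_self _ (by positivity)
  have h2 := mul_le_mul_of_nonneg_left (h1.trans (wt_le h ht)) (Nat.cast_nonneg (α := ℝ) t)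
  rw [VAr1_tel ht] at h2
  linarith

theorem big {r : ℕ} (hr : 0 < r) : (r : ℝ) ^ (-sg) ≤ 2 * exp (-(2 ^ cl r / 64)) := by
  have r1 : (1 : ℝ) ≤ r := by exact_mod_cast hr
  rcases hc : cl r with _ | i
  · have h1 := rpow_le_one_of_one_le_of_nonpos r1 (neg_nonpos.2 sg_pos.le)
    have h2 := add_one_le_exp (-(2 ^ 0 / 64))
    norm_num at h2 ⊢
    linarith
  · have h1 := not_le.1 (not_good (n := r) (i := i) (by omega))
    set y : ℝ := ((2 ^ i : ℕ) : ℝ) with hy
    have y0 : 0 < y := by positivity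
    have h2 : LL r (2 ^ i) ≤ r.primeFactors.card * y ^ (-sg) := by
      refine (sum_le_card_nsmul _ _ (y ^ (-sg)) fun p hp => ?_).trans ?_
      · exact rpow_le_rpow_of_nonpos y0 (by rw [hy]; exact_mod_cast (mem_filter.1 hp).2.le)
          (neg_nonpos.2 sg_pos.le)
      · rw [nsmul_eq_mul]
        exact mul_le_mul_of_nonneg_right (by exact_mod_cast card_filter_le _ _) (by positivity)
    have h3 : y < r.primeFactors.card := by
      have := h1.trans_le h2
      rw [sub_eq_add_neg, rpow_add y0, rpow_one] at this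
      exact lt_of_mul_lt_mul_right this (by positivity)
    have h4 : 2 ^ r.primeFactors.card ≤ r :=
      (pow_card_le_prod _ _ 2 fun p hp => (Nat.prime_of_mem_primeFactors hp).two_le).trans
        (Nat.le_of_dvd hr (Nat.prod_primeFactors_dvd r))
    have h5 : r.primeFactors.card * log 2 ≤ log r := by
      rw [← log_pow]
      exact log_le_log (by positivity) (by exact_mod_cast h4)
    have h6 : (r : ℝ) ^ (-sg) ≤ exp (-(2 ^ (i + 1) / 64)) := by
      rw [rpow_def_of_pos (by positivity), exp_le_exp, pow_succ]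
      have a1 := log_two_gt_d9
      have a2 : (2 : ℝ) ^ i = y := by rw [hy]; push_cast; rfl
      rw [a2, sg]
      nlinarith
    linarith [exp_pos (-(2 ^ (i + 1) / 64))]

theorem rankin (q : ℕ) : 1 ≤ 3 * exp (-(2 ^ cl q / 2)) * Phi (2 ^ (cl q - 1)) q := by
  rcases hc : cl q with _ | i
  · have h1 := one_le_Phi (2 ^ (0 - 1)) q
    have h2 : 1 ≤ 3 * exp (-(2 ^ 0 / 2)) := by
      have := add_one_le_exp (-(2 ^ 0 / 2))
      norm_num at this ⊢
      linarith
    exact one_le_mul_of_one_le_of_one_le h2 h1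
  · have h1 := not_le.1 (not_good (n := q) (i := i) (by omega))
    rw [Nat.add_sub_cancel, Phi, mul_assoc, ← exp_add]
    set y : ℝ := ((2 ^ i : ℕ) : ℝ) with hy
    have y0 : 0 < y := by positivity
    have a2 : (2 : ℝ) ^ i = y := by rw [hy]; push_cast; rfl
    have h2 := mul_le_mul_of_nonneg_left h1.le (rpow_pos_of_pos y0 sg).le
    rw [← rpow_add y0, add_sub_cancel, rpow_one] at h2
    have h3 := one_le_exp (x := -(2 ^ (i + 1) / 2) + y ^ sg * LL q (2 ^ i))
      (by rw [pow_succ, a2]; linarith)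
    linarith

end Vale.Agent.P028.V
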