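import Vale.Agent.P028.VSieve

/-! Local mass of the sieved sets, and the second moment criterion. -/

namespace Vale.Agent.P028.V

open Real Finset MeasureTheory Filter Metric

theorem VLoc_vol {q : ℕ} (hq : 0 < q) (γ : ℝ) {ψ : ℝ} (h0 : 0 ≤ ψ) (h1 : ψ ≤ 1 / 2)
    (A : Finset ℤ) : volume.real (⋃ a ∈ A, X.II q γ ψ a) = A.card * (2 * ψ / q) := by
  rw [measureReal_biUnion_finset (f := X.II q γ ψ) (fun a _ b _ hab => ?_)
    (fun a _ => measurableSet_Ioo) (fun a _ => measure_Ioo_lt_top.ne)]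
  · simp only [X.vol_II γ h0, sum_const, nsmul_eq_mul]
  · refine Set.disjoint_left.2 fun x ha hb => hab ?_
    rw [X.mem_II hq, abs_lt] at ha hb
    have h2 : (a : ℝ) < b + 1 := by linarith [ha.1, hb.2]
    have h3 : (b : ℝ) < a + 1 := by linarith [ha.2, hb.1]
    have h4 : a < b + 1 := by exact_mod_cast h2
    have h5 : b < a + 1 := by exact_mod_cast h3
    omega

theorem VLoc_cnt (q : ℕ) (c : ℕ → ℤ) (a : ℤ) (N : ℕ) :
    |(cnt q.primeFactors c a N : ℝ) - N * w q| ≤ 2 ^ q.primeFactors.card :=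
  cnt_approx _ (fun _ hp => Nat.prime_of_mem_primeFactors hp) c a N

theorem low_FF {η : ℝ} (hη : 0 < η) : ∃ Q : ℕ, ∀ q ≥ Q, ∀ (c : ℕ → ℤ) (γ ψ x : ℝ) (K : Set ℝ),
    0 ≤ ψ → ψ ≤ 1 / 2 → K ⊆ Set.Icc x (x + 1) →
    w q * ψ * volume.real K ≤ volume.real (FF q c γ ψ ∩ thickening η K) := by
  classical
  obtain ⟨Q, hQ⟩ := small_err (ε := η / 8) (by positivity)
  refine ⟨max Q ⌈4 / η⌉₊, fun q hq c γ ψ x K h0 h1 hK => ?_⟩
  have e1 := hQ q ((le_max_left _ _).trans hq)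
  have e2 : 4 ≤ q * η := (div_le_iff₀ hη).1 (Nat.ceil_le.1 ((le_max_right _ _).trans hq))
  have hq' : (0 : ℝ) < q := (pos_iff_pos_of_mul_pos (by linarith : 0 < q * η)).2 hη
  have hq0 : 0 < q := by exact_mod_cast hq'
  obtain ⟨N, n1, n2⟩ : ∃ N : ℕ, (N : ℝ) ≤ q * η / 2 ∧ q * η / 2 < N + 1 :=
    ⟨⌊q * η / 2⌋₊, Nat.floor_le (by linarith), Nat.lt_floor_add_one _⟩
  have hN : (0 : ℝ) < N := by linarith
  have hN' : (0 : ℤ) < N := by exact_mod_cast hN
  have hw := w_pos q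
  set J := (Finset.Icc ⌊(q * x - γ) / N⌋ ⌊(q * (x + 1) - γ) / N⌋).filter
    fun j : ℤ => ∃ y ∈ K, ⌊(q * y - γ) / N⌋ = j
  set S := fun j : ℤ => (Finset.Ico (j * N) (j * N + N)).filter
    fun b => ∀ p ∈ q.primeFactors, ¬(p : ℤ) ∣ b - c p
  have fl : ∀ y : ℝ, (⌊(q * y - γ) / N⌋ : ℝ) * N ≤ q * y - γ ∧
      q * y - γ < (⌊(q * y - γ) / N⌋ + 1) * N := fun y =>
    ⟨(le_div_iff₀ hN).1 (Int.floor_le _), (div_lt_iff₀ hN).1 (Int.lt_floor_add_one _)⟩
  have s1 : K ⊆ ⋃ j ∈ J, Set.Icc ((j * N + γ) / q) (((j + 1) * N + γ) / q) := fun y hy => by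
    refine Set.mem_biUnion (x := ⌊(q * y - γ) / N⌋) (mem_coe.2 (mem_filter.2
      ⟨Finset.mem_Icc.2 ⟨Int.floor_mono ?_, Int.floor_mono ?_⟩, y, hy, rfl⟩)) ⟨?_, ?_⟩
    · gcongr; exact (hK hy).1
    · gcongr; exact (hK hy).2
    · rw [div_le_iff₀ hq']; linarith [(fl y).1]
    · rw [le_div_iff₀ hq']; linarith [(fl y).2]
  have m1 : volume.real K ≤ J.card * (N / q) := by
    refine (measureReal_mono s1 (by
      exact (measure_biUnion_lt_top J.finite_toSet fun a _ => measure_Icc_lt_top).ne)).trans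
      ((measureReal_biUnion_finset_le _ _).trans_eq ?_)
    rw [← nsmul_eq_mul, ← sum_const]
    refine sum_congr rfl fun a _ => ?_
    rw [Real.volume_real_Icc_of_le (by gcongr; linarith)]; ring
  have c1 : (J.card : ℝ) * (N * w q / 2) ≤ (J.biUnion S).card := by
    rw [card_biUnion fun j _ k _ hjk => disjoint_left.2 fun a ha hb => hjk ?_]
    · rw [Nat.cast_sum, ← nsmul_eq_mul]
      refine card_nsmul_le_sum _ _ _ fun j _ => ?_
      have k1 := (abs_le.1 (VLoc_cnt q c (j * N) N)).1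
      have k2 : η / 8 * q * w q ≤ N / 2 * w q := mul_le_mul_of_nonneg_right (by linarith) hw.le
      have k3 : ((S j).card : ℝ) = cnt q.primeFactors c (j * N) N := rfl
      linarith
    · have a1 := Finset.mem_Ico.1 (mem_filter.1 ha).1
      have a2 := Finset.mem_Ico.1 (mem_filter.1 hb).1
      have a3 : j < k + 1 := lt_of_mul_lt_mul_right (by linarith [a1.1, a2.2]) hN'.le
      have a4 : k < j + 1 := lt_of_mul_lt_mul_right (by linarith [a2.1, a1.2]) hN'.le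
      omega
  have s2 : ⋃ a ∈ J.biUnion S, X.II q γ ψ a ⊆ FF q c γ ψ ∩ thickening η K := by
    refine Set.iUnion₂_subset fun a ha z hz => ?_
    obtain ⟨j, hj, ha⟩ := mem_biUnion.1 ha
    obtain ⟨y, hy, rfl⟩ := (mem_filter.1 hj).2
    obtain ⟨a1, a2⟩ := mem_filter.1 ha
    rw [X.mem_II hq0] at hz
    refine ⟨⟨a, a2, hz⟩, mem_thickening_iff.2 ⟨y, hy, ?_⟩⟩
    have a3 : (⌊(q * y - γ) / N⌋ : ℝ) * N ≤ a := by exact_mod_cast (Finset.mem_Ico.1 a1).1
    have a4 : (a : ℝ) < ⌊(q * y - γ) / N⌋ * N + N := by exact_mod_cast (Finset.mem_Ico.1 a1).2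
    rw [abs_lt] at hz
    refine lt_of_mul_lt_mul_left (a := (q : ℝ)) ?_ hq'.le
    rw [Real.dist_eq, ← abs_of_pos hq', ← abs_mul, abs_of_pos hq', abs_lt]
    constructor <;> linarith [hz.1, hz.2, (fl y).1, (fl y).2]
  have fin : volume (FF q c γ ψ ∩ thickening η K) ≠ ⊤ :=
    ((measure_mono Set.inter_subset_right).trans_lt
      ((isBounded_Icc x (x + 1)).subset hK).thickening.measure_lt_top).ne
  refine le_trans ?_ ((VLoc_vol hq0 γ h0 h1 _).symm.trans_le (measureReal_mono s2 fin))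
  refine le_trans ?_ (mul_le_mul_of_nonneg_right c1 (by positivity))
  exact (mul_le_mul_of_nonneg_left m1 (by positivity)).trans_eq (by ring)

theorem diag_FF : ∃ Q : ℕ, ∀ q ≥ Q, ∀ (c : ℕ → ℤ) (γ ψ x : ℝ), 0 ≤ ψ → ψ ≤ 1 / 2 →
    volume.real (FF q c γ ψ ∩ Set.Icc (x - 1) (x + 2)) ≤ 20 * (w q * ψ) := by
  classical
  obtain ⟨Q, hQ⟩ := small_err one_pos
  refine ⟨max Q 1, fun q hq c γ ψ x h0 h1 => ?_⟩
  have e1 := hQ q ((le_max_left _ _).trans hq)
  have hq0 : 0 < q := (le_max_right _ _).trans hq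
  have hq1 : (1 : ℝ) ≤ q := by exact_mod_cast hq0
  have hw := w_pos q
  set a0 := ⌊q * (x - 1) - γ⌋ - 1 with ha0
  set A := (Finset.Ico a0 (a0 + (3 * q + 3 : ℕ))).filter
    fun b => ∀ p ∈ q.primeFactors, ¬(p : ℤ) ∣ b - c p
  have c1 : (A.card : ℝ) ≤ 7 * q * w q := by
    have k1 := (abs_le.1 (VLoc_cnt q c a0 (3 * q + 3))).2
    have k2 := mul_le_mul_of_nonneg_right hq1 hw.le
    have k3 : (A.card : ℝ) = cnt q.primeFactors c a0 (3 * q + 3) := rfl
    push_cast at k1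
    linarith
  have s1 : FF q c γ ψ ∩ Set.Icc (x - 1) (x + 2) ⊆ ⋃ a ∈ A, X.II q γ ψ a := by
    rintro y ⟨⟨a, ha, hy⟩, y1, y2⟩
    refine Set.mem_biUnion (x := a) (mem_coe.2 (mem_filter.2 ⟨Finset.mem_Ico.2 ?_, ha⟩))
      ((X.mem_II hq0).2 hy)
    rw [abs_lt] at hy
    have b1 := mul_le_mul_of_nonneg_left y1 (zero_le_one.trans hq1)
    have b2 := mul_le_mul_of_nonneg_left y2 (zero_le_one.trans hq1)
    have b3 := Int.floor_le (q * (x - 1) - γ)
    have b4 := Int.lt_floor_add_one (q * (x - 1) - γ)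
    have b5 : (a0 : ℝ) ≤ a := by rw [ha0]; push_cast; linarith [hy.2]
    have b6 : (a : ℝ) < a0 + (3 * q + 3 : ℕ) := by rw [ha0]; push_cast; linarith [hy.1]
    exact ⟨by exact_mod_cast b5, by exact_mod_cast b6⟩
  refine (measureReal_mono s1 (by
    exact (measure_biUnion_lt_top A.finite_toSet fun a _ => measure_Ioo_lt_top).ne)).trans ?_
  rw [VLoc_vol hq0 γ h0 h1]
  refine (mul_le_mul_of_nonneg_right c1 (by positivity)).trans ?_
  rw [show 7 * q * w q * (2 * ψ / q) = 14 * (w q * ψ) by field_simp; ring]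
  linarith [mul_nonneg hw.le h0]

end Vale.Agent.P028.V
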