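import Vale.Agent.P028.TStm
import Vale.Agent.P028.VLoc
import Vale.Agent.P028.VAr1

namespace Vale.Agent.P028.T

open Real Finset MeasureTheory Filter Metric

theorem loc2_low {η : ℝ} (hη : 0 < η) : ∃ Q : ℕ, ∀ q ≥ Q, ∀ P ⊆ q.primeFactors,
    ∀ (c : ℕ → ℤ) (γ ψ x : ℝ) (K F : Set ℝ), 0 ≤ ψ → ψ ≤ 1 / 2 → K ⊆ Set.Icc x (x + 1) →
    (∀ (a : ℤ) (z : ℝ), (∀ p ∈ P, ¬(p : ℤ) ∣ a - c p) → |q * z - γ - a| < ψ → z ∈ F) →
    (∏ p ∈ P, (1 - (p : ℝ)⁻¹)) * ψ * volume.real K ≤ volume.real (F ∩ thickening η K) := by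
  classical
  obtain ⟨Q, hQ⟩ := V.small_err (ε := η / 8) (by positivity)
  refine ⟨max Q ⌈4 / η⌉₊, fun q hq P hP c γ ψ x K F h0 h1 hK hF => ?_⟩
  have e1 := hQ q ((le_max_left _ _).trans hq)
  have e2 : 4 ≤ q * η := (div_le_iff₀ hη).1 (Nat.ceil_le.1 ((le_max_right _ _).trans hq))
  have hq' : (0 : ℝ) < q := (pos_iff_pos_of_mul_pos (by linarith : 0 < q * η)).2 hη
  have hq0 : 0 < q := by exact_mod_cast hq'
  obtain ⟨N, n1, n2⟩ : ∃ N : ℕ, (N : ℝ) ≤ q * η / 2 ∧ q * η / 2 < N + 1 :=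
    ⟨⌊q * η / 2⌋₊, Nat.floor_le (by linarith), Nat.lt_floor_add_one _⟩
  have hN : (0 : ℝ) < N := by linarith
  have hN' : (0 : ℤ) < N := by exact_mod_cast hN
  obtain ⟨W, hW⟩ : ∃ W, W = ∏ p ∈ P, (1 - (p : ℝ)⁻¹) := ⟨_, rfl⟩
  have hw' : V.w q ≤ W := by
    rw [hW]
    exact prod_le_prod_of_subset_of_le_one hP
      (fun p hp => le_trans (by norm_num) (V.fac_pos hp)) fun p _ _ => sub_le_self _ (by positivity)
  have hw : 0 < W := (V.w_pos q).trans_le hw'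
  have e3 : (2 : ℝ) ^ P.card ≤ η / 8 * q * W :=
    ((pow_le_pow_right₀ one_le_two (card_le_card hP)).trans e1).trans (by gcongr)
  rw [← hW]
  set J := (Finset.Icc ⌊(q * x - γ) / N⌋ ⌊(q * (x + 1) - γ) / N⌋).filter
    fun j : ℤ => ∃ y ∈ K, ⌊(q * y - γ) / N⌋ = j
  set S := fun j : ℤ => (Finset.Ico (j * N) (j * N + N)).filter
    fun b => ∀ p ∈ P, ¬(p : ℤ) ∣ b - c p
  have fl : ∀ y : ℝ, (⌊(q * y - γ) / N⌋ : ℝ) * N ≤ q * y - γ ∧
      q * y - γ < (⌊(q * y - γ) / N⌋ + 1) * N := fun y =>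
    ⟨(le_div_iff₀ hN).1 (Int.floor_le _), (div_lt_iff₀ hN).1 (Int.lt_floor_add_one _)⟩
  have s1 : K ⊆ ⋃ j ∈ J, Set.Icc ((j * N + γ) / q) (((j + 1) * N + γ) / q) := fun y hy => by
    refine Set.mem_biUnion (x := ⌊(q * y - γ) / N⌋) (mem_coe.2 (mem_filter.2
      ⟨Finset.mem_Icc.2 ⟨Int.floor_mono ?_, Int.floor_mono ?_⟩, y, hy, rfl⟩)) ⟨?_, ?_⟩
    · gcongr; exact (hK hy).1
    · gcongr; exact (hK hy).2
    · rw [div_le_iff₀ hq']; linarith [(fl y).1]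
    · rw [le_div_iff₀ hq']; linarith [(fl y).2]
  have m1 : volume.real K ≤ J.card * (N / q) := by
    refine (measureReal_mono s1 (by
      exact (measure_biUnion_lt_top J.finite_toSet fun a _ => measure_Icc_lt_top).ne)).trans
      ((measureReal_biUnion_finset_le _ _).trans_eq ?_)
    rw [← nsmul_eq_mul, ← sum_const]
    refine sum_congr rfl fun a _ => ?_
    rw [Real.volume_real_Icc_of_le (by gcongr; linarith)]; ring
  have c1 : (J.card : ℝ) * (N * W / 2) ≤ (J.biUnion S).card := by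
    rw [card_biUnion fun j _ k _ hjk => disjoint_left.2 fun a ha hb => hjk ?_]
    · rw [Nat.cast_sum, ← nsmul_eq_mul]
      refine card_nsmul_le_sum _ _ _ fun j _ => ?_
      have k1 := (abs_le.1 (V.cnt_approx P
        (fun _ hp => Nat.prime_of_mem_primeFactors (hP hp)) c (j * N) N)).1
      rw [← hW] at k1
      have k2 : η / 8 * q * W ≤ N / 2 * W := mul_le_mul_of_nonneg_right (by linarith) hw.le
      have k3 : ((S j).card : ℝ) = V.cnt P c (j * N) N := rfl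
      linarith
    · have a1 := Finset.mem_Ico.1 (mem_filter.1 ha).1
      have a2 := Finset.mem_Ico.1 (mem_filter.1 hb).1
      have a3 : j < k + 1 := lt_of_mul_lt_mul_right (by linarith [a1.1, a2.2]) hN'.le
      have a4 : k < j + 1 := lt_of_mul_lt_mul_right (by linarith [a2.1, a1.2]) hN'.le
      omega
  have s2 : ⋃ a ∈ J.biUnion S, X.II q γ ψ a ⊆ F ∩ thickening η K := by
    refine Set.iUnion₂_subset fun a ha z hz => ?_
    obtain ⟨j, hj, ha⟩ := mem_biUnion.1 ha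
    obtain ⟨y, hy, rfl⟩ := (mem_filter.1 hj).2
    obtain ⟨a1, a2⟩ := mem_filter.1 ha
    rw [X.mem_II hq0] at hz
    refine ⟨hF a z a2 hz, mem_thickening_iff.2 ⟨y, hy, ?_⟩⟩
    have a3 : (⌊(q * y - γ) / N⌋ : ℝ) * N ≤ a := by exact_mod_cast (Finset.mem_Ico.1 a1).1
    have a4 : (a : ℝ) < ⌊(q * y - γ) / N⌋ * N + N := by exact_mod_cast (Finset.mem_Ico.1 a1).2
    rw [abs_lt] at hz
    refine lt_of_mul_lt_mul_left (a := (q : ℝ)) ?_ hq'.le
    rw [Real.dist_eq, ← abs_of_pos hq', ← abs_mul, abs_of_pos hq', abs_lt]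
    constructor <;> linarith [hz.1, hz.2, (fl y).1, (fl y).2]
  have fin : volume (F ∩ thickening η K) ≠ ⊤ :=
    ((measure_mono Set.inter_subset_right).trans_lt
      ((isBounded_Icc x (x + 1)).subset hK).thickening.measure_lt_top).ne
  refine le_trans ?_ ((V.VLoc_vol hq0 γ h0 h1 _).symm.trans_le (measureReal_mono s2 fin))
  refine le_trans ?_ (mul_le_mul_of_nonneg_right c1 (by positivity))
  exact (mul_le_mul_of_nonneg_left m1 (by positivity)).trans_eq (by ring)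

theorem loc2_cls (A : ℤ) (B p : ℕ) : ∃ c : ℤ, p.Prime → ¬p ∣ B → (p : ℤ) ∣ c * B + A := by
  by_cases h : p.Prime ∧ ¬p ∣ B
  · obtain ⟨s, t, e⟩ : IsCoprime (p : ℤ) (B : ℤ) :=
      Nat.isCoprime_iff_coprime.2 ((Nat.Prime.coprime_iff_not_dvd h.1).2 h.2)
    exact ⟨-(A * t), fun _ _ => ⟨A * s, by linear_combination (-A) * e⟩⟩
  · exact ⟨0, fun h1 h2 => absurd ⟨h1, h2⟩ h⟩

theorem loc2_cop {A a : ℤ} {B q : ℕ} (hq : 0 < q) (hA : IsCoprime A (B : ℤ)) {c : ℕ → ℤ}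
    (hc : ∀ p : ℕ, p.Prime → ¬p ∣ B → (p : ℤ) ∣ c p * B + A)
    (h : ∀ p ∈ q.primeFactors.filter fun p => ¬p ∣ B, ¬(p : ℤ) ∣ a - c p) :
    IsCoprime (a * B + A) (q : ℤ) := by
  rw [Int.isCoprime_iff_gcd_eq_one]
  by_contra hg
  obtain ⟨p, hp, hd⟩ := Nat.exists_prime_and_dvd hg
  have h1 : (p : ℤ) ∣ a * B + A := (Int.natCast_dvd_natCast.2 hd).trans (Int.gcd_dvd_left _ _)
  have h2 : (p : ℤ) ∣ (q : ℤ) := (Int.natCast_dvd_natCast.2 hd).trans (Int.gcd_dvd_right _ _)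
  have hp' : Prime (p : ℤ) := Nat.prime_iff_prime_int.1 hp
  by_cases hB : p ∣ B
  · have h3 : (p : ℤ) ∣ (B : ℤ) := Int.natCast_dvd_natCast.2 hB
    exact hp'.not_isUnit (hA.isUnit_of_dvd' ((dvd_add_right (h3.mul_left a)).1 h1) h3)
  · have h3 : (p : ℤ) ∣ (a - c p) * B := by
      have := h1.sub (hc p hp hB)
      rwa [show a * B + A - (c p * B + A) = (a - c p) * B by ring] at this
    rcases hp'.dvd_or_dvd h3 with h4 | h4
    · exact h p (mem_filter.2 ⟨Nat.mem_primeFactors.2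
        ⟨hp, Int.natCast_dvd_natCast.1 h2, hq.ne'⟩, hB⟩) h4
    · exact hB (Int.natCast_dvd_natCast.1 h4)

theorem loc2_pf : S_Loc2 := by
  intro η hη
  obtain ⟨Q, hQ⟩ := loc2_low hη
  refine ⟨max Q 1, fun q hq γ ψ x A B K hA h0 h1 hK => ?_⟩
  have hq0 : 0 < q := (le_max_right _ _).trans hq
  choose c hc using loc2_cls A B
  have h2 := hQ q ((le_max_left _ _).trans hq) _ (filter_subset (fun p => ¬p ∣ B) _) c γ ψ x K
    (AA q γ ψ A B) h0 h1 hK fun a z ha hz => ⟨a, hz, loc2_cop hq0 hA hc ha⟩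
  rw [← V.w_eq hq0, V.w, ← prod_filter_mul_prod_filter_not _ (· ∣ B), mul_assoc, mul_assoc]
  rw [mul_assoc] at h2
  exact mul_le_mul_of_nonneg_left h2 (om_bd q B).1

end Vale.Agent.P028.T
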