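import Vale.Agent.P028.TStm

namespace Vale.Agent.P028.T

open Real Finset MeasureTheory Filter Metric

theorem low_three {w x y z K : ℝ} (hw : 0 ≤ w) (hx : 0 ≤ x) (h : w ≤ x + y + z)
    (h1 : x ^ (21 / 10 : ℝ) ≤ K) (h2 : y ^ (21 / 10 : ℝ) ≤ K) (h3 : z ^ (21 / 10 : ℝ) ≤ K) :
    w ^ (21 / 10 : ℝ) ≤ 27 * K := by
  obtain ⟨m, h0, hm, hK⟩ : ∃ m : ℝ, 0 ≤ m ∧ w ≤ 3 * m ∧ m ^ (21 / 10 : ℝ) ≤ K := by
    rcases le_total x y with a | a <;> rcases le_total y z with b | b <;>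
      rcases le_total x z with c | c <;>
      first
        | exact ⟨x, hx, by linarith, h1⟩
        | exact ⟨y, by linarith, by linarith, h2⟩
        | exact ⟨z, by linarith, by linarith, h3⟩
  have a : (3 : ℝ) ^ (21 / 10 : ℝ) ≤ 27 := by
    refine (rpow_le_rpow_of_exponent_le (by norm_num)
      (show (21 / 10 : ℝ) ≤ (3 : ℕ) by norm_num)).trans ?_
    rw [rpow_natCast]
    norm_num
  refine (rpow_le_rpow hw hm (by norm_num)).trans ?_
  rw [mul_rpow (by norm_num) h0]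
  exact mul_le_mul a hK (by positivity) (by norm_num)

theorem low_sum {a b t p D Y : ℝ} (ha : 1 ≤ a) (hb : 1 ≤ b) (ht : 0 < t) (hD : 0 < D)
    (hp : p ≤ a * b) (h : a * b * (2 * t) ≤ Y * D) : p * ((t / b + t / a) / D) ≤ Y := by
  rw [← mul_div_assoc, div_le_iff₀ hD]
  refine le_trans (mul_le_mul hp ?_ (by positivity) (by positivity)) h
  linarith [div_le_self ht.le ha, div_le_self ht.le hb]

theorem low_big {P H : ℝ} (hH : 1 ≤ H) (h : H ^ 28 ≤ P) : P ^ (97 / 100 : ℝ) * √H ≤ P := by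
  have hP : 0 < P := lt_of_lt_of_le (by positivity) h
  have a : √H ≤ P ^ (3 / 100 : ℝ) := by
    refine le_trans ?_ (rpow_le_rpow (by positivity) h (by norm_num))
    rw [sqrt_eq_rpow, ← rpow_natCast, ← rpow_mul (by positivity)]
    exact rpow_le_rpow_of_exponent_le hH (by norm_num)
  refine (mul_le_mul_of_nonneg_left a (by positivity)).trans_eq ?_
  rw [← rpow_add hP]
  norm_num

theorem low_pf (hMA : S_MA) (hSav1 : S_Sav1) (hPlain : S_Plain) (hReg : S_Reg) : S_Low := by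
  intro θ hθ
  obtain ⟨Cm, hCm, hMA⟩ := hMA
  obtain ⟨Cp, hCp, hPlain⟩ := hPlain
  obtain ⟨C1, hC1, hReg⟩ := hReg θ hθ
  refine ⟨27 * (Cp + Cm * (C1 + 2)), by positivity, ?_⟩
  intro γ t H A B ψ S E e hc hS hE hH ht he he0 htH hb
  have H1 : 1 ≤ H := by linarith
  have H0 : 0 < H := by linarith
  have s0 : 0 < √H := sqrt_pos.2 H0
  have s1 : √H ≤ H := sqrt_le_self_iff.2 (Or.inr H1)
  have e1 : 1 ≤ t * H ^ 4 := he ▸ by exact_mod_cast he0
  have hd : ∀ x ∈ E, ψ x.1 * cf x.2 x.1 ≤ t ∧ ψ x.2 * cf x.1 x.2 ≤ t := fun x hx =>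
    max_le_iff.1 (hb x hx).1.2.1
  set E1 := E.filter fun x => ψ x.1 * cf x.2 x.1 < t / H
  set E2 := E.filter fun x => ψ x.2 * cf x.1 x.2 < t / H
  set E3 := E.filter fun x => t / H ≤ ψ x.1 * cf x.2 x.1 ∧ t / H ≤ ψ x.2 * cf x.1 x.2
  have u1 : E1 ⊆ S ×ˢ S := (filter_subset _ _).trans hE
  have u2 : E2 ⊆ S ×ˢ S := (filter_subset _ _).trans hE
  have u3 : E3 ⊆ S ×ˢ S := (filter_subset _ _).trans hE
  have a0 : mE ψ E ≤ mE ψ (E1 ∪ E2) + mE ψ E3 :=
    hS.1.mE_union (union_subset u1 u2) u3 fun x hx => by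
      simp only [E1, E2, E3, mem_union, mem_filter, hx, true_and]
      by_contra k
      push Not at k
      exact absurd (k.2 k.1.1) k.1.2.not_gt
  have a00 := hS.1.mE_union u1 u2 Subset.rfl
  have a1 := hPlain ψ S E1 (t / H) t hS.1 u1 (by positivity) ht fun x hx =>
    ⟨(mem_filter.1 hx).2.le, (hd x (mem_filter.1 hx).1).2⟩
  have a2 := hPlain ψ S E2 t (t / H) hS.1 u2 ht (by positivity) fun x hx =>
    ⟨(hd x (mem_filter.1 hx).1).1, (mem_filter.1 hx).2.le⟩
  have hd3 : ∀ x ∈ E3, ψ x.1 * cf x.2 x.1 ≤ t ∧ ψ x.2 * cf x.1 x.2 ≤ t := fun x hx =>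
    hd x (mem_filter.1 hx).1
  set Y := t ^ 2 / √H with hY
  have Y0 : 0 < Y := by positivity
  have a3 := hMA ψ S E3 t t ((C1 + 2) * Y) hS.1 u3 ht ht (by positivity) hd3
    fun N α β hN hα hβ => by
      have α1 : (1 : ℝ) ≤ α := by exact_mod_cast hα
      have β1 : (1 : ℝ) ≤ β := by exact_mod_cast hβ
      have P1 : (1 : ℝ) ≤ α * β := one_le_mul_of_one_le_of_one_le α1 β1
      have hp : ((α : ℝ) * β) ^ (97 / 100 : ℝ) ≤ α * β :=
        rpow_le_self_of_one_le P1 (by norm_num)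
      rcases le_total ((α : ℝ) * β) (H ^ 28) with k | k
      · obtain ⟨d, d1, d2⟩ := exists_nat_pow_near (one_le_pow₀ H1 : 1 ≤ H ^ 44) one_lt_two
        refine ⟨C1 / √H, d, by positivity, fun i j hij => hReg γ t H A B ψ S E3 e N α β i j hc hS
          u3 hH ht he htH hN hα hβ k ((pow_le_pow_right₀ one_le_two hij).trans d1) fun x hx =>
          ⟨(hb x (mem_filter.1 hx).1).1, (hb x (mem_filter.1 hx).1).2, (mem_filter.1 hx).2⟩, ?_⟩
        have b1 : ((α : ℝ) * β) ^ (97 / 100 : ℝ) * (C1 / √H * (t / β * (t / α))) ≤ C1 * Y :=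
          (mul_le_mul_of_nonneg_right hp (by positivity)).trans_eq (by rw [hY]; field_simp)
        have b2 := low_sum (Y := 2 * Y) α1 β1 ht (by positivity : (0 : ℝ) < 2 ^ d) hp (by
          have c1 : H ^ 33 ≤ 2 ^ d := by
            have c0 : 2 ≤ H ^ 11 := le_trans (by linarith) (le_self_pow₀ H1 (by norm_num))
            have c2 := mul_le_mul_of_nonneg_left c0 (by positivity : 0 ≤ H ^ 33)
            rw [pow_succ (2 : ℝ)] at d2
            linarith [show H ^ 33 * H ^ 11 = H ^ 44 by ring]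
          have c3 : t ^ 2 / H ≤ Y := div_le_div_of_nonneg_left (by positivity) s0 s1
          calc (α : ℝ) * β * (2 * t) ≤ H ^ 28 * (2 * t) * (t * H ^ 4) :=
                (mul_le_mul_of_nonneg_right k (by positivity)).trans
                  (le_mul_of_one_le_right (by positivity) e1)
            _ = 2 * (t ^ 2 / H) * H ^ 33 := by field_simp
            _ ≤ 2 * Y * 2 ^ d := by gcongr)
        rw [mul_add]
        linarith
      · obtain ⟨d, hd⟩ := pow_unbounded_of_one_lt ((α : ℝ) * β * (2 * t) / Y) one_lt_two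
        refine ⟨1, d, zero_le_one, fun i j _ => hSav1 ψ S E3 t t N α β i j hS.1 u3 hN hα hβ ht.le
          ht.le hd3, ?_⟩
        have b1 : ((α : ℝ) * β) ^ (97 / 100 : ℝ) * (1 * (t / β * (t / α))) ≤ Y := by
          rw [hY, le_div_iff₀ s0, mul_right_comm]
          exact (mul_le_mul_of_nonneg_right (low_big H1 k) (by positivity)).trans_eq
            (by field_simp)
        have b2 := low_sum (Y := Y) α1 β1 ht (by positivity : (0 : ℝ) < 2 ^ d) hp
          ((div_lt_iff₀' Y0).1 hd).le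
        rw [mul_add]
        linarith [mul_pos hC1 Y0]
  have c3 : Cp * (t ^ 2 / H) ≤ Cp * Y :=
    mul_le_mul_of_nonneg_left (div_le_div_of_nonneg_left (by positivity) s0 s1) hCp.le
  have c4 : 0 < Cm * ((C1 + 2) * Y) := by positivity
  have c5 : 0 < Cp * Y := by positivity
  rw [show t / H * t = t ^ 2 / H by ring] at a1
  rw [show t * (t / H) = t ^ 2 / H by ring] at a2
  refine (low_three (K := Cp * Y + Cm * ((C1 + 2) * Y)) (hS.1.mE_nonneg hE) (hS.1.mE_nonneg u1)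
    (by linarith) (a1.trans (by linarith)) (a2.trans (by linarith))
    (a3.trans (by linarith))).trans_eq ?_
  rw [hY]
  ring

end Vale.Agent.P028.T
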