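import Vale.Agent.P028.TStm

namespace Vale.Agent.P028.T

open Real Finset MeasureTheory Filter Metric

theorem ma_V (ψ : ℕ → ℝ) {V : Finset ℕ} {v : ℕ → ℕ} {n : ℕ} (h : ∀ q ∈ V, v q < n) :
    ∑ i ∈ range n, mV ψ (V.filter fun q => v q = i) = mV ψ V :=
  sum_fiberwise_of_maps_to (fun q hq => mem_range.2 (h q hq)) _

theorem ma_E (ψ : ℕ → ℝ) {E : Finset (ℕ × ℕ)} {v w : ℕ → ℕ} {n : ℕ}
    (h : ∀ e ∈ E, v e.1 < n ∧ w e.2 < n) :
    ∑ i ∈ range n, ∑ j ∈ range n, mE ψ (E.filter fun e => v e.1 = i ∧ w e.2 = j) = mE ψ E := by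
  rw [← sum_product', mE, ← sum_fiberwise_of_maps_to (t := range n ×ˢ range n)
    (g := fun e : ℕ × ℕ => (v e.1, w e.2))
    fun e he => mem_product.2 ⟨mem_range.2 (h e he).1, mem_range.2 (h e he).2⟩]
  exact sum_congr rfl fun z _ => sum_congr (filter_congr fun e _ => by rw [Prod.ext_iff]) fun _ _ => rfl

theorem ma_pf (hGW : S_GW) (hFCr : S_FCr) (hImg : S_Img) : S_MA := by
  obtain ⟨C, hC, hG⟩ := hGW
  obtain ⟨C', hC', hF⟩ := hFCr
  refine ⟨C * C', mul_pos hC hC', fun ψ S E t1 t2 Z hS hE h1 h2 hZ ht h => ?_⟩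
  rcases E.eq_empty_or_nonempty with rfl | hne
  · rw [mE, sum_empty, zero_rpow (by norm_num)]; positivity
  obtain ⟨V, W, E1, E', N, α, β, hV, hW, a1, a2, a3, ⟨e0, he0⟩, hN, hα, hβ, hR, a4, a5, a6⟩ :=
    hG ψ S E hS hE hne
  obtain ⟨η, d0, hη, hSav, hZ'⟩ := h N α β hN hα hβ
  let li : ℕ → ℕ := fun q => Nat.log 2 (cf q (α * N))
  let lj : ℕ → ℕ := fun r => Nat.log 2 (cf r (β * N))
  obtain ⟨n, hn⟩ : ∃ n, ∀ q ∈ S, li q < n ∧ lj q < n :=
    ⟨S.sup li + S.sup lj + 1, fun q hq => by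
      have := le_sup (f := li) hq
      have := le_sup (f := lj) hq
      omega⟩
  let F : ℕ → ℕ → Finset (ℕ × ℕ) := fun i j => E'.filter fun e => li e.1 = i ∧ lj e.2 = j
  have F1 : ∀ i j, F i j ⊆ E1 := fun i j => (filter_subset _ _).trans a3
  have FS : ∀ i j, F i j ⊆ S ×ˢ S := fun i j => (F1 i j).trans (a1.trans hE)
  have Fs : ∀ i j, StrF (F i j) N α β i j := fun i j e he => by
    obtain ⟨k1, k2, k3⟩ := mem_filter.1 he
    obtain ⟨k4, k5⟩ := mem_product.1 (FS i j he)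
    exact ⟨a5 e k1, k2 ▸ Dy_log (cf_pos (hS.1 _ k4).1 _), k3 ▸ Dy_log (cf_pos (hS.1 _ k5).1 _)⟩
  have hI := fun i j => hImg ψ S (F i j) t1 t2 N α β i j hS (FS i j) hN hα hβ h1.le h2.le (Fs i j)
    fun e he => ht e (a1 (F1 i j he))
  have hα' : (0:ℝ) < α := by exact_mod_cast hα
  have hβ' : (0:ℝ) < β := by exact_mod_cast hβ
  have key := hF (range n) (fun i => mV ψ (V.filter fun q => li q = i))
    (fun j => mV ψ (W.filter fun r => lj r = j)) (fun i j => mV ψ ((F i j).image Prod.fst))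
    (fun i j => mV ψ ((F i j).image Prod.snd)) (fun i j => mE ψ (F i j)) (mV ψ V) (mV ψ W)
    (mE ψ E1) (t1 / β) (t2 / α) η d0
    (sum_pos (fun _ hq => hS.mu_pos (hV hq)) ⟨_, (mem_product.1 (a2 he0)).1⟩) (hS.mV_le hV)
    (sum_pos (fun _ hq => hS.mu_pos (hW hq)) ⟨_, (mem_product.1 (a2 he0)).2⟩) (hS.mV_le hW)
    (sum_pos (fun _ he => hS.mE_pos (hE (a1 he))) ⟨_, he0⟩) (by positivity) (by positivity) hη
    (ma_V ψ fun q hq => (hn q (hV hq)).1).le (ma_V ψ fun q hq => (hn q (hW hq)).2).le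
    (by
      rw [ma_E ψ fun e he => ⟨(hn _ (mem_product.1 (hE (a1 (a3 he)))).1).1,
        (hn _ (mem_product.1 (hE (a1 (a3 he)))).2).2⟩]
      exact a4)
    (fun i j => ⟨hS.mV_nonneg (fst_sub (FS i j)), hS.mV_mono ((filter_subset _ _).trans hV)
      (image_subset_iff.2 fun e he => mem_filter.2
        ⟨(mem_product.1 (a2 (F1 i j he))).1, (mem_filter.1 he).2.1⟩), (hI i j).1⟩)
    (fun i j => ⟨hS.mV_nonneg (snd_sub (FS i j)), hS.mV_mono ((filter_subset _ _).trans hW)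
      (image_subset_iff.2 fun e he => mem_filter.2
        ⟨(mem_product.1 (a2 (F1 i j he))).2, (mem_filter.1 he).2.2⟩), (hI i j).2⟩)
    (fun i j => ⟨hS.mE_le_mul (FS i j), hR _ (F1 i j)⟩)
    fun i j hij => hSav i j hij _ ((F1 i j).trans a1) (Fs i j)
  calc mE ψ E ^ (21 / 10 : ℝ) ≤ C * mE ψ E1 * ((α : ℝ) * β) ^ (97 / 100 : ℝ) := a6
    _ ≤ C * (C' * (η * (t1 / β * (t2 / α)) + (t1 / β + t2 / α) / 2 ^ d0)) *
        ((α : ℝ) * β) ^ (97 / 100 : ℝ) := by gcongr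
    _ = C * C' * (((α : ℝ) * β) ^ (97 / 100 : ℝ) *
        (η * (t1 / β * (t2 / α)) + (t1 / β + t2 / α) / 2 ^ d0)) := by ring
    _ ≤ C * C' * Z := by gcongr

end Vale.Agent.P028.T
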