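import Vale.Agent.P028.TStm

namespace Vale.Agent.P028.T

open Real Finset MeasureTheory Filter Metric

theorem ml_tot {d q : ℕ} (hq : 0 < q) (h : d ∣ q) :
    (Nat.totient q : ℝ) / q ≤ (Nat.totient d : ℝ) / d := by
  have hd := Nat.pos_of_dvd_of_pos h hq
  have w : ∀ p ∈ q.primeFactors, (0 : ℚ) ≤ 1 - (p : ℚ)⁻¹ := fun p hp => by
    have : (1 : ℚ) ≤ p := by exact_mod_cast (Nat.prime_of_mem_primeFactors hp).one_le
    linarith [inv_le_one_of_one_le₀ this]
  have k : (Nat.totient q : ℚ) / q ≤ (Nat.totient d : ℚ) / d := by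
    rw [Nat.totient_eq_mul_prod_factors, Nat.totient_eq_mul_prod_factors,
      mul_div_cancel_left₀ _ (by exact_mod_cast hq.ne'),
      mul_div_cancel_left₀ _ (by exact_mod_cast hd.ne')]
    exact prod_le_prod_of_subset_of_le_one (Nat.primeFactors_mono h hq.ne') w
      fun p _ _ => sub_le_self _ (by positivity)
  simpa using (Rat.cast_le (K := ℝ)).2 k

theorem ml_pf : S_ML := by
  refine ⟨fun M hM => ?_, fun ψ V M κ n hM hκ hV hn => ?_⟩
  · rw [← sum_div, div_eq_one_iff_eq (by exact_mod_cast hM.ne'), ← Nat.cast_sum,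
      Nat.sum_div_divisors M Nat.totient, Nat.sum_totient]
  · rw [mV, ← sum_fiberwise_of_maps_to (g := fun q => cf M q) (t := M.divisors)
      fun q _ => Nat.mem_divisors.2 ⟨cf_dvd M q, hM.ne'⟩, mul_sum]
    refine sum_le_sum fun b hb => ?_
    refine (sum_le_card_nsmul _ _ (κ * ((Nat.totient (M / b) : ℝ) / M)) fun q hq => ?_).trans ?_
    · obtain ⟨h1, rfl⟩ := mem_filter.1 hq
      obtain ⟨q0, p0, p1⟩ := hV q h1
      have g0 : (0 : ℝ) < M.gcd q := by exact_mod_cast Nat.gcd_pos_of_pos_left q hM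
      have b0 : (0 : ℝ) < cf M q := by exact_mod_cast cf_pos hM q
      have e : (M : ℝ) = cf M q * M.gcd q := by exact_mod_cast (cf_mul M q).symm
      rw [div_cf hM, mu]
      refine (mul_le_mul (ml_tot q0 (Nat.gcd_dvd_right M q)) ((le_div_iff₀ b0).2 p1) p0
        (by positivity)).trans_eq ?_
      generalize (Nat.totient (M.gcd q) : ℝ) = x
      rw [e]
      field_simp
    · rw [nsmul_eq_mul, mul_comm, mul_assoc]
      gcongr
      exact hn b hb

end Vale.Agent.P028.T
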