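import Vale.Agent.P028.TStm

namespace Vale.Agent.P028.T

open Real Finset MeasureTheory Filter Metric

theorem main_blk (m : ℕ → ℝ) (h0 : ∀ q, 0 ≤ m q) (h1 : ∀ q, m q ≤ 1 / 2) (hd : ¬Summable m)
    (Q : ℕ) : ∃ S : Finset ℕ, (∀ q ∈ S, Q ≤ q ∧ 0 < m q) ∧ 1 / 2 ≤ ∑ q ∈ S, m q ∧
      ∑ q ∈ S, m q ≤ 1 := by
  have hd' : ¬Summable fun n => m (n + Q) := fun h => hd ((summable_nat_add_iff Q).1 h)
  have ht := (not_summable_iff_tendsto_nat_atTop_of_nonneg fun n => h0 (n + Q)).1 hd'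
  have ex : ∃ n, 1 / 2 ≤ ∑ i ∈ range n, m (i + Q) := (ht.eventually_ge_atTop _).exists
  classical
  have a := Nat.find_spec ex
  have b : ∑ i ∈ range (Nat.find ex), m (i + Q) ≤ 1 := by
    rcases h : Nat.find ex with _ | n
    · simp
    · have := Nat.find_min ex (m := n) (by omega)
      rw [sum_range_succ]
      linarith [h1 (n + Q), not_le.1 this]
  have e : ∑ q ∈ ((range (Nat.find ex)).image (· + Q)).filter (fun q => 0 < m q), m q =
      ∑ i ∈ range (Nat.find ex), m (i + Q) := by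
    rw [sum_filter_of_ne fun q _ h => (h0 q).lt_of_ne' h,
      sum_image fun x _ y _ h => Nat.add_right_cancel h]
  refine ⟨_, fun q hq => ⟨?_, (mem_filter.1 hq).2⟩, e ▸ a, e ▸ b⟩
  obtain ⟨i, _, rfl⟩ := mem_image.1 (mem_filter.1 hq).1
  omega

theorem main_pf (hMom : S_Mom) (hLoc2 : S_Loc2) (hFull : S_Full) (hCtr : S_Ctr) : S_Main := by
  intro γ θ ψ hθ h0 hd
  obtain ⟨C, hC, hM⟩ := hMom θ hθ
  obtain ⟨A, B, hc⟩ := hCtr γ
  set φ : ℕ → ℝ := fun q => if 2 ≤ q then min (ψ q) ((q.divisors.card : ℝ) ^ (-θ)) else 0 with hφ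
  have p0 : ∀ q, 0 ≤ φ q := fun q => by
    simp only [hφ]
    split_ifs
    · exact le_min (h0 q) (by positivity)
    · exact le_rfl
  have p1 : ∀ q, φ q ≤ ψ q := fun q => by
    simp only [hφ]
    split_ifs
    · exact min_le_left _ _
    · exact h0 q
  have p2 : ∀ q, φ q ≤ (q.divisors.card : ℝ) ^ (-θ) := fun q => by
    simp only [hφ]
    split_ifs
    · exact min_le_right _ _
    · positivity
  have p3 : ∀ q, φ q ≤ 1 / 2 := fun q => by
    by_cases h : 2 ≤ q
    · have a : (2 : ℝ) ≤ q.divisors.card := by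
        exact_mod_cast Finset.one_lt_card.2 ⟨1, Nat.one_mem_divisors.2 (by omega), q,
          Nat.mem_divisors_self q (by omega), by omega⟩
      refine (p2 q).trans ((rpow_le_rpow_of_exponent_le (by linarith)
        (by linarith : -θ ≤ -1)).trans ?_)
      rw [rpow_neg_one, one_div]
      exact inv_anti₀ two_pos a
    · simp [hφ, h]
  have hd' : ¬Summable (mu φ) := fun h => hd ((summable_nat_add_iff 2).1
    (((summable_nat_add_iff 2).2 h).congr fun n => by simp [mu, hφ]))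
  have key := hFull (fun q => AA q γ (φ q) (A (lv φ q)) (B (lv φ q))) (mu φ)
    (fun q => om q (B (lv φ q))) C (fun q => isOpen_AA _ _ _ _ _) hC
    (fun η hη => (hLoc2 η hη).imp fun Q h q hq x K hK =>
      h q hq γ (φ q) x _ _ K (hc _).2.2.1 (p0 q) (p3 q) hK) fun Q => by
      obtain ⟨S, a, b, c⟩ := main_blk (mu φ) (fun q => mu_nonneg (p0 q))
        (fun q => (mu_le (p0 q)).trans (p3 q)) hd' (max Q 1)
      exact ⟨S, fun q hq => le_of_max_le_left (a q hq).1, b, fun x => hM γ x A B φ S hc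
        ⟨⟨fun q hq => ⟨le_of_max_le_right (a q hq).1, (a q hq).2.trans_le (mu_le (p0 q)), p3 q⟩, c⟩,
          fun q _ => p2 q⟩⟩
  refine mem_ae_iff.1 (key.mono fun x h => ?_)
  refine Nat.frequently_atTop_iff_infinite.1 ((h.and_eventually (eventually_gt_atTop 0)).mono ?_)
  rintro q ⟨⟨a, ha, _⟩, hq⟩
  exact ⟨hq, a, ha.trans_le (p1 q)⟩

end Vale.Agent.P028.T
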