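import Vale.Agent.P028.TStm

namespace Vale.Agent.P028.T

open Real Finset MeasureTheory Filter Metric

theorem mom_diag (hDead : S_Dead) (γ : ℝ) (A : ℕ → ℤ) (B : ℕ → ℕ) {ψ : ℕ → ℝ} {q : ℕ} (hq : 0 < q)
    (h0 : 0 < ψ q) (h1 : ψ q ≤ 1 / 2) : WW γ A B ψ (Dd ψ q q) q q ≤ 3 * mu ψ q := by
  have e : Dd ψ q q = ψ q := by simp [Dd, cf_self hq]
  have h2 := sum_le_card_nsmul (KK γ (cf q q) (cf q q) (ψ q)) _ 1 fun k _ =>
    (hDead (A (lv ψ q)) (A (lv ψ q)) k (B (lv ψ q)) (B (lv ψ q)) q q hq hq).2.2.1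
  rw [← mul_sum, nsmul_eq_mul, mul_one] at h2
  have h3 := mul_le_mul_of_nonneg_left
    (h2.trans ((card_KK γ _ _ h0.le).trans (show 4 * ψ q + 1 ≤ 3 by linarith))) (mu_pos hq h0).le
  rw [WW, e]
  refine le_trans (le_of_eq ?_) (h3.trans (mul_comm _ _).le)
  rw [mul_div_assoc, mul_assoc, mu, mul_div_assoc, div_self h0.ne', mul_one]

theorem mom_TT (i : ℤ) :
    TT ((2 : ℝ) ^ i) ^ (-(1 / 100) : ℝ) ≤ ((2 : ℝ) ^ (-(1 / 100) : ℝ)) ^ i.natAbs := by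
  rw [rpow_pow_comm zero_le_two]
  refine rpow_le_rpow_of_nonpos (by positivity) ?_ (by norm_num)
  obtain ⟨n, rfl | rfl⟩ := i.eq_nat_or_neg
  · exact le_max_of_le_left (by simp)
  · exact le_max_of_le_right (by simp)

theorem mom_sum : ∃ K : ℝ, 0 ≤ K ∧ ∀ J : Finset ℤ,
    ∑ i ∈ J, TT ((2 : ℝ) ^ i) ^ (-(1 / 100) : ℝ) ≤ K := by
  have h := summable_geometric_of_lt_one (r := (2 : ℝ) ^ (-(1 / 100) : ℝ)) (by positivity)
    (rpow_lt_one_of_one_lt_of_neg one_lt_two (by norm_num))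
  have h2 : Summable fun i : ℤ => ((2 : ℝ) ^ (-(1 / 100) : ℝ)) ^ i.natAbs :=
    Summable.of_nat_of_neg (by simpa using h) (by simpa using h)
  exact ⟨_, tsum_nonneg fun _ => by positivity, fun J => (sum_le_sum fun i _ => mom_TT i).trans
    (h2.sum_le_tsum J fun _ _ => by positivity)⟩

theorem mom_lev {D : ℝ} (h : 0 < D) :
    D ≤ (2 : ℝ) ^ Int.clog 2 D ∧ (2 : ℝ) ^ Int.clog 2 D ≤ 2 * D := by
  have h1 := Int.self_le_zpow_clog one_lt_two D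
  have h2 := Int.zpow_pred_clog_lt_self one_lt_two h
  rw [Nat.cast_ofNat] at h1 h2
  rw [zpow_sub_one₀ two_ne_zero] at h2
  exact ⟨h1, by linarith⟩

theorem mom_pf (hOvl : S_Ovl) (hDead : S_Dead) (hLevL : S_LevL) (hLevH : S_LevH) : S_Mom := by
  intro θ hθ
  obtain ⟨C1, c1, hL⟩ := hLevL θ hθ
  obtain ⟨C2, c2, hH⟩ := hLevH θ hθ
  obtain ⟨K, k0, hK⟩ := mom_sum
  refine ⟨12 * (3 + (C1 + (C1 + C2) * K)), by positivity, fun γ c A B ψ S hc hS => ?_⟩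
  have hp := hS.1.1
  have hD : ∀ x ∈ S ×ˢ S, 0 < Dd ψ x.1 x.2 := fun x hx => lt_max_of_lt_left (mul_pos
    (hp _ (mem_product.1 hx).1).2.1 (Nat.cast_pos.2 (cf_pos (hp _ (mem_product.1 hx).2).1 _)))
  have h1 : ∑ x ∈ (S ×ˢ S).filter (fun x => x.1 = x.2), WW γ A B ψ (Dd ψ x.1 x.2) x.1 x.2 ≤ 3 := by
    rw [sum_filter, sum_product]
    simp only [sum_ite_eq]
    refine (sum_le_sum (g := fun q => 3 * mu ψ q) fun q hq => ?_).trans ?_
    · rw [if_pos hq]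
      exact mom_diag hDead γ A B (hp q hq).1 (hp q hq).2.1 (hp q hq).2.2
    · rw [← mul_sum]
      linarith [show ∑ q ∈ S, mu ψ q ≤ 1 from hS.1.2]
  have h2 : ∑ x ∈ (S ×ˢ S).filter (fun x => ¬x.1 = x.2),
      WW γ A B ψ (2 ^ Int.clog 2 (Dd ψ x.1 x.2)) x.1 x.2 ≤ C1 + (C1 + C2) * K := by
    set E := (S ×ˢ S).filter fun x => ¬x.1 = x.2 with hE
    have hES : E ⊆ S ×ˢ S := filter_subset _ _
    have hm : ∀ x ∈ E, Int.clog 2 (Dd ψ x.1 x.2) ∈ E.image fun x => Int.clog 2 (Dd ψ x.1 x.2) :=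
      fun x hx => mem_image_of_mem _ hx
    have h3 : ∑ i ∈ E.image fun x => Int.clog 2 (Dd ψ x.1 x.2),
        mE ψ (E.filter fun x => Int.clog 2 (Dd ψ x.1 x.2) = i) ≤ 1 :=
      (sum_fiberwise_of_maps_to hm _).trans_le (hS.1.mE_le hES)
    rw [← sum_fiberwise_of_maps_to hm]
    refine (sum_le_sum (g := fun i => C1 * mE ψ (E.filter fun x => Int.clog 2 (Dd ψ x.1 x.2) = i) +
      (C1 + C2) * TT ((2 : ℝ) ^ i) ^ (-(1 / 100) : ℝ)) fun i _ => ?_).trans ?_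
    · set P := E.filter fun x => Int.clog 2 (Dd ψ x.1 x.2) = i with hP
      have hPS : P ⊆ S ×ˢ S := (filter_subset _ _).trans hES
      have h4 : ∀ x ∈ P, x.1 ≠ x.2 ∧ Dd ψ x.1 x.2 ≤ 2 ^ i ∧ 2 ^ i ≤ 2 * Dd ψ x.1 x.2 :=
        fun x hx => ⟨(mem_filter.1 (mem_filter.1 hx).1).2,
          (mem_filter.1 hx).2 ▸ mom_lev (hD x (hPS hx))⟩
      rw [sum_congr rfl fun x hx => by rw [(mem_filter.1 hx).2],
        ← sum_filter_add_sum_filter_not P fun x => 1 ≤ Dd ψ x.1 x.2 ^ 700 * Rm ψ x.1 x.2]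
      have h5 := hL γ (2 ^ i) A B ψ S (P.filter fun x => 1 ≤ Dd ψ x.1 x.2 ^ 700 * Rm ψ x.1 x.2)
        hc hS ((filter_subset _ _).trans hPS) (by positivity) fun x hx =>
          have k := h4 x (mem_filter.1 hx).1
          ⟨k.1, k.2.1, k.2.2, (mem_filter.1 hx).2⟩
      have h6 := hH γ (2 ^ i) A B ψ S (P.filter fun x => ¬1 ≤ Dd ψ x.1 x.2 ^ 700 * Rm ψ x.1 x.2)
        hc hS ((filter_subset _ _).trans hPS) (by positivity) fun x hx =>
          have k := h4 x (mem_filter.1 hx).1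
          ⟨k.1, k.2.1, k.2.2, not_le.1 (mem_filter.1 hx).2⟩
      have h7 := mul_le_mul_of_nonneg_left (hS.1.mE_mono hPS
        (filter_subset (fun x => 1 ≤ Dd ψ x.1 x.2 ^ 700 * Rm ψ x.1 x.2) P)) c1.le
      linarith
    · rw [sum_add_distrib, ← mul_sum, ← mul_sum]
      exact add_le_add (mul_le_of_le_one_right c1.le h3)
        (mul_le_mul_of_nonneg_left (hK _) (by positivity))
  have ho := fun (x : ℕ × ℕ) (hx : x ∈ S ×ˢ S) t =>
    have a := hp _ (mem_product.1 hx).1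
    have b := hp _ (mem_product.1 hx).2
    hOvl γ c t A B ψ x.1 x.2 hc a.1 b.1 a.2.1 a.2.2 b.2.1 b.2.2
  rw [← sum_product', ← sum_filter_add_sum_filter_not _ fun x : ℕ × ℕ => x.1 = x.2, mul_add]
  refine add_le_add ((sum_le_sum fun x hx => ho x (mem_filter.1 hx).1 _ le_rfl).trans ?_)
    ((sum_le_sum fun x hx => ho x (mem_filter.1 hx).1 _
      (mom_lev (hD x (mem_filter.1 hx).1)).1).trans ?_)
  · rw [← mul_sum]
    linarith
  · rw [← mul_sum]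
    linarith

end Vale.Agent.P028.T
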