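import Vale.Agent.P028.TStm

namespace Vale.Agent.P028.T

open Real Finset MeasureTheory Filter Metric

theorem ovl_rng {q : ℕ} (hq : 0 < q) {γ ψ c x : ℝ} {a : ℤ} (h1 : ψ ≤ 1 / 2)
    (ha : |q * x - γ - a| < ψ) (hx : x ∈ Set.Icc (c - 1) (c + 2)) :
    a ∈ Finset.Ico ⌊q * (c - 1) - γ - 1⌋ (⌊q * (c - 1) - γ - 1⌋ + 6 * q) := by
  have hq' : (1 : ℝ) ≤ q := by exact_mod_cast hq
  have b5 := mul_le_mul_of_nonneg_left hx.1 (zero_le_one.trans hq')
  have b6 := mul_le_mul_of_nonneg_left hx.2 (zero_le_one.trans hq')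
  rw [abs_lt] at ha
  refine Finset.mem_Ico.2 ⟨Int.floor_le_iff.2 (by linarith), ?_⟩
  have : (a : ℝ) < ⌊q * (c - 1) - γ - 1⌋ + 6 * q := by
    linarith [Int.lt_floor_add_one (q * (c - 1) - γ - 1)]
  exact_mod_cast this

theorem ovl_vol {q r : ℕ} (hq : 0 < q) (hr : 0 < r) (γ : ℝ) {ψ : ℕ → ℝ} (h : 0 < ψ q)
    (h' : 0 < ψ r) (a a' : ℤ) : volume.real (X.II q γ (ψ q) a ∩ X.II r γ (ψ r) a') ≤
      2 * (ψ q * ψ r) / (q.gcd r * Dd ψ q r) := by
  have e1 : (cf q r : ℝ) * q.gcd r = q := by exact_mod_cast cf_mul q r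
  have e2 : (cf r q : ℝ) * q.gcd r = r := by exact_mod_cast cf_mul' q r
  have hq' : (0 : ℝ) < q := by exact_mod_cast hq
  have hr' : (0 : ℝ) < r := by exact_mod_cast hr
  rcases max_choice (ψ q * cf r q) (ψ r * cf q r) with e | e
  · refine (measureReal_mono Set.inter_subset_right measure_Ioo_lt_top.ne).trans_eq
      ((X.vol_II γ h'.le a').trans ?_)
    rw [Dd, e, mul_left_comm (q.gcd r : ℝ), mul_comm (q.gcd r : ℝ), e2]
    field_simp
  · refine (measureReal_mono Set.inter_subset_left measure_Ioo_lt_top.ne).trans_eq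
      ((X.vol_II γ h.le a).trans ?_)
    rw [Dd, e, mul_left_comm (q.gcd r : ℝ), mul_comm (q.gcd r : ℝ), e1]
    field_simp

theorem ovl_k {q r : ℕ} (hq : 0 < q) (hr : 0 < r) {γ t x : ℝ} {ψ : ℕ → ℝ} {a a' : ℤ}
    (ha : |q * x - γ - a| < ψ q) (ha' : |r * x - γ - a'| < ψ r) (ht : Dd ψ q r ≤ t) :
    cf r q * a - cf q r * a' ∈ KK γ (cf q r) (cf r q) t := by
  have e1 : (cf q r : ℝ) * q.gcd r = q := by exact_mod_cast cf_mul q r
  have e2 : (cf r q : ℝ) * q.gcd r = r := by exact_mod_cast cf_mul' q r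
  have hu : (0 : ℝ) < cf q r := by exact_mod_cast cf_pos hq r
  have hv : (0 : ℝ) < cf r q := by exact_mod_cast cf_pos hr q
  have e3 : (cf r q : ℝ) * (q * x) = cf q r * (r * x) := by
    linear_combination (cf q r * x : ℝ) * e2 - (cf r q * x : ℝ) * e1
  have h1 := (le_max_left _ _).trans ht
  have h2 := (le_max_right _ _).trans ht
  rw [abs_lt] at ha ha'
  have b1 := mul_lt_mul_of_pos_left ha.1 hv
  have b2 := mul_lt_mul_of_pos_left ha.2 hv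
  have b3 := mul_lt_mul_of_pos_left ha'.1 hu
  have b4 := mul_lt_mul_of_pos_left ha'.2 hu
  rw [mem_KK, abs_le]
  push_cast
  constructor <;> linarith

theorem ovl_pf (hCnt : S_Cnt) : S_Ovl := by
  classical
  intro γ c t A B ψ q r hc hq hr h0 h1 h0' h1' ht
  set T : ℤ → Finset (ℤ × ℤ) := fun k =>
    (Finset.Ico ⌊q * (c - 1) - γ - 1⌋ (⌊q * (c - 1) - γ - 1⌋ + 6 * q) ×ˢ
      Finset.Ico ⌊r * (c - 1) - γ - 1⌋ (⌊r * (c - 1) - γ - 1⌋ + 6 * r)).filter fun x =>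
      cf r q * x.1 - cf q r * x.2 = k ∧ IsCoprime (x.1 * B (lv ψ q) + A (lv ψ q)) (q : ℤ) ∧
        IsCoprime (x.2 * B (lv ψ r) + A (lv ψ r)) (r : ℤ)
  have sub : AA q γ (ψ q) (A (lv ψ q)) (B (lv ψ q)) ∩ AA r γ (ψ r) (A (lv ψ r)) (B (lv ψ r)) ∩
      Set.Icc (c - 1) (c + 2) ⊆ ⋃ k ∈ KK γ (cf q r) (cf r q) t, ⋃ x ∈ T k,
        X.II q γ (ψ q) x.1 ∩ X.II r γ (ψ r) x.2 := by
    rintro x ⟨⟨⟨a, ha, hA⟩, a', ha', hA'⟩, hx⟩
    exact Set.mem_biUnion (ovl_k hq hr ha ha' ht) (Set.mem_biUnion (x := (a, a'))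
      (mem_coe.2 (mem_filter.2 ⟨mem_product.2 ⟨ovl_rng hq h1 ha hx, ovl_rng hr h1' ha' hx⟩,
        rfl, hA, hA'⟩)) ⟨(X.mem_II hq).2 ha, (X.mem_II hr).2 ha'⟩)
  have hD := Dd_pos (ψ := ψ) hr h0
  have hg : (0 : ℝ) < q.gcd r := by exact_mod_cast Nat.gcd_pos_of_pos_left r hq
  have h2 := (measureReal_mono sub (measure_biUnion_lt_top (finite_toSet _) fun k _ =>
    measure_biUnion_lt_top (finite_toSet _) fun x _ =>
      (measure_mono Set.inter_subset_left).trans_lt measure_Ioo_lt_top).ne).trans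
    ((measureReal_biUnion_finset_le _ _).trans (sum_le_sum fun k _ =>
      (measureReal_biUnion_finset_le _ _).trans
        (sum_le_card_nsmul _ _ _ fun x _ => ovl_vol hq hr γ h0 h0' x.1 x.2)))
  refine (mul_le_mul_of_nonneg_left h2 (mul_nonneg (om_bd _ _).1 (om_bd _ _).1)).trans ?_
  rw [WW, mul_sum, mul_sum, mul_sum]
  refine sum_le_sum fun k _ => ?_
  have h3 := hCnt (A (lv ψ q)) (A (lv ψ r)) k _ (B (lv ψ q)) (B (lv ψ r)) q r (T k) hq hr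
    (hc _).2.2.1 (hc _).2.2.1 fun x hx =>
      have h4 := mem_filter.1 hx
      have h5 := Finset.mem_Ico.1 (mem_product.1 h4.1).1
      ⟨h5.1, h5.2, h4.2⟩
  rw [nsmul_eq_mul, ← mul_assoc]
  refine (mul_le_mul_of_nonneg_right h3 (by positivity)).trans_eq ?_
  unfold mu
  field_simp
  ring

end Vale.Agent.P028.T
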