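import Vale.Agent.P028.TStm

namespace Vale.Agent.P028.T

open Real Finset MeasureTheory Filter Metric

/-- the one sided alternative -/
def reg_P (γ t H : ℝ) (α b i : ℕ) : Prop :=
  (2 ^ i < b ^ 4 ∧ H ^ 4 < b) ∨ (H ^ 2 ≤ 2 ^ i ∧ ¬Res γ t H (α * b) (2 ^ i))

theorem reg_one (hB : S_RegB) (hC : S_RegC) {θ : ℝ} (hθ : 100000 ≤ θ) : ∃ C : ℝ, 0 < C ∧
    ∀ (γ t H : ℝ) (A : ℕ → ℤ) (B : ℕ → ℕ) (ψ : ℕ → ℝ) (S : Finset ℕ) (F : Finset (ℕ × ℕ))
    (e N α β i j : ℕ), Blk θ ψ S → F ⊆ S ×ˢ S → 2 ≤ H → 0 < t → (e : ℝ) = t * H ^ 4 →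
    1 ≤ t * H ^ 4 → 0 < N → 0 < α → 0 < β → (α : ℝ) * β ≤ H ^ 28 → StrF F N α β i j →
    (∀ x ∈ F, RegE γ A B ψ t H e x.1 x.2 ∧ reg_P γ t H α (cf (β * N) x.2) i) →
    mE ψ F ≤ C / √H * (mV ψ (F.image Prod.fst) * (t / α * 2 ^ j / 2 ^ i)) +
      66 / √H * (mV ψ (F.image Prod.snd) * (t / β * 2 ^ i / 2 ^ j)) := by
  classical
  obtain ⟨C, C0, hC⟩ := hC θ hθ
  refine ⟨C, C0, fun γ t H A B ψ S F e N α β i j hS hF hH ht he h1 hN hα hβ hab hs hx => ?_⟩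
  obtain ⟨p, hp⟩ : ∃ p : ℕ × ℕ → Prop, p = fun x => 2 ^ i < cf (β * N) x.2 ^ 4 ∧
    H ^ 4 < cf (β * N) x.2 := ⟨_, rfl⟩
  have s1 : F.filter p ⊆ F := filter_subset _ _
  have s2 : F.filter (fun x => ¬p x) ⊆ F := filter_subset _ _
  refine (hS.1.mE_union (s1.trans hF) (s2.trans hF)
    (filter_union_filter_not_eq p F).ge).trans (add_le_add ?_ ?_)
  · have k := hC t H ψ S _ N α β i j hS (s1.trans hF) hH ht h1 hN hα hβ hab
      (fun x h => hs x (s1 h)) fun x h => ⟨(hx x (s1 h)).1.2.2.2,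
        (le_max_right _ _).trans (hx x (s1 h)).1.1.2.1, by simpa only [hp] using (mem_filter.1 h).2⟩
    refine (hS.1.mE_le_mul (s1.trans hF)).trans ?_
    rw [mul_left_comm]
    exact mul_le_mul (hS.1.mV_mono (fst_sub hF) (image_subset_image s1)) k
      (hS.1.mV_nonneg (snd_sub (s1.trans hF))) (hS.1.mV_nonneg (fst_sub hF))
  · have q : ∀ x ∈ F.filter (fun x => ¬p x),
        H ^ 2 ≤ 2 ^ i ∧ ¬Res γ t H (α * cf (β * N) x.2) (2 ^ i) := fun x h =>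
      (hx x (s2 h)).2.resolve_left (by simpa only [hp] using (mem_filter.1 h).2)
    rcases (F.filter fun x => ¬p x).eq_empty_or_nonempty with h | ⟨y, hy⟩
    · have := hS.1.mV_nonneg (snd_sub hF)
      rw [h, mE, sum_empty]
      positivity
    · refine (hB γ t H A B ψ S _ e N α β i j hS.1 (s2.trans hF) (by linarith) ht he hN hα hβ
        (q y hy).1 (fun x h => hs x (s2 h)) fun x h => ⟨(hx x (s2 h)).1, (q x h).2⟩).trans ?_
      have := hS.1.mV_mono (snd_sub hF) (image_subset_image s2 : image Prod.snd _ ⊆ _)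
      gcongr

theorem reg_pf (hRegA1 : S_RegA1) (hRegA2 : S_RegA2) (hRegB : S_RegB) (hRegC : S_RegC) : S_Reg := by
  classical
  intro θ hθ
  obtain ⟨C, C0, hC⟩ := reg_one hRegB hRegC hθ
  refine ⟨C + 66, by positivity, fun γ t H A B ψ S E e N α β i j hc hS hE hH ht he htH hN hα hβ
    hab hd hx F hFE hs => ?_⟩
  have hF := hFE.trans hE
  have H1 : 1 ≤ H := by linarith
  have h1 : 1 ≤ t * H ^ 4 := by
    have : (0 : ℝ) < e := by rw [he]; positivity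
    rw [← he]
    exact_mod_cast this
  have alt : ∀ x ∈ F, ¬reg_P γ t H α (cf (β * N) x.2) i → reg_P γ t H β (cf (α * N) x.1) j := by
    intro x h n1
    by_contra n2
    simp only [reg_P, not_or, not_and_or, not_lt, not_not] at n1 n2
    obtain ⟨m1, m2⟩ := mem_product.1 (hF h)
    obtain ⟨a1, a2, a3⟩ := hS.1.1 _ m1
    obtain ⟨b1, b2, b3⟩ := hS.1.1 _ m2
    have r := hx x (hFE h)
    obtain ⟨u1, u2, u3⟩ := hs x h
    obtain ⟨k1, k2⟩ := hRegA1 t H ψ N α β i j x.1 x.2 hH ht h1 a2 b2 r.2.1 r.2.2.1 r.2.2.2 u1 u2 u3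
      hα hβ hab hd n1.1 n2.1
    have w : ∀ b l : ℕ, H ^ 156 ≤ 2 ^ l → (b ^ 4 ≤ 2 ^ l ∨ (b : ℝ) ≤ H ^ 4) → b ^ 4 ≤ 2 ^ l :=
      fun b l hl hb => hb.elim id fun hb => by
        have : (b : ℝ) ^ 4 ≤ 2 ^ l := (pow_le_pow_left₀ (Nat.cast_nonneg b) hb 4).trans
          ((pow_mul H 4 4).ge.trans ((pow_le_pow_right₀ H1 (by norm_num)).trans hl))
        exact_mod_cast this
    have w2 : H ^ 2 ≤ H ^ 156 := pow_le_pow_right₀ H1 (by norm_num)
    exact hRegA2 γ t H A B ψ e N α β i j x.1 x.2 hc hH ht he htH a1 b1 hN hα hβ a2 a3 b2 b3 r u1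
      u2 u3 hab hd (w _ _ k1 n1.1) (w _ _ k2 n2.1) k1 k2
      (n1.2.resolve_left (not_not.2 (w2.trans k1))) (n2.2.resolve_left (not_not.2 (w2.trans k2)))
  obtain ⟨p, hp⟩ : ∃ p : ℕ × ℕ → Prop, p = fun x => reg_P γ t H α (cf (β * N) x.2) i := ⟨_, rfl⟩
  have s1 : F.filter p ⊆ F := filter_subset _ _
  have s2 : F.filter (fun x => ¬p x) ⊆ F := filter_subset _ _
  have k1 := hC γ t H A B ψ S _ e N α β i j hS (s1.trans hF) (by linarith) ht he h1 hN hα hβ hab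
    (fun x h => hs x (s1 h)) fun x h => ⟨hx x (hFE (s1 h)), by
      simpa only [hp] using (mem_filter.1 h).2⟩
  have k2 := hC γ t H A B ψ S _ e N β α j i hS (swap_sub (s2.trans hF)) (by linarith) ht he h1 hN
    hβ hα (by rwa [mul_comm]) (StrF.swap fun x h => hs x (s2 h)) fun x h => by
      obtain ⟨y, hy, rfl⟩ := mem_image.1 h
      exact ⟨(hx y (hFE (s2 hy))).swap hc,
        alt y (s2 hy) (by simpa only [hp] using (mem_filter.1 hy).2)⟩
  rw [mE_swap, fst_swap, snd_swap] at k2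
  have m1 := hS.1.mV_mono (fst_sub hF) (image_subset_image s1 : image Prod.fst _ ⊆ _)
  have m2 := hS.1.mV_mono (snd_sub hF) (image_subset_image s1 : image Prod.snd _ ⊆ _)
  have m3 := hS.1.mV_mono (fst_sub hF) (image_subset_image s2 : image Prod.fst _ ⊆ _)
  have m4 := hS.1.mV_mono (snd_sub hF) (image_subset_image s2 : image Prod.snd _ ⊆ _)
  refine (hS.1.mE_union (s1.trans hF) (s2.trans hF) (filter_union_filter_not_eq p F).ge).trans
    ((add_le_add k1 k2).trans ?_)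
  calc _ ≤ C / √H * (mV ψ (F.image Prod.fst) * (t / α * 2 ^ j / 2 ^ i)) +
        66 / √H * (mV ψ (F.image Prod.snd) * (t / β * 2 ^ i / 2 ^ j)) +
        (C / √H * (mV ψ (F.image Prod.snd) * (t / β * 2 ^ i / 2 ^ j)) +
        66 / √H * (mV ψ (F.image Prod.fst) * (t / α * 2 ^ j / 2 ^ i))) := by gcongr
    _ = _ := by ring

end Vale.Agent.P028.T
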