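import Vale.Agent.P028.TStm

namespace Vale.Agent.P028.T

open Real Finset MeasureTheory Filter Metric

theorem rega1_one {H P α a b : ℝ} (hH : 16 ≤ H) (ha0 : 0 ≤ a) (hb0 : 0 ≤ b)
    (h : H ^ 283 ≤ α * a * b) (hα : α ≤ H ^ 28) (ha : a ≤ 2 * P) (hb : b ^ 4 ≤ P ∨ b ≤ H ^ 4) :
    H ^ 200 ≤ P := by
  by_contra hP
  rw [not_le] at hP
  have h1 : (1 : ℝ) ≤ H := by linarith
  have h0 : (0 : ℝ) < H := by linarith
  have hb' : b ≤ H ^ 50 := by
    rcases hb with hb | hb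
    · refine le_of_lt (lt_of_pow_lt_pow_left₀ 4 (by positivity) ?_)
      rw [← pow_mul]
      exact hb.trans_lt hP
    · exact hb.trans (pow_le_pow_right₀ h1 (by norm_num))
  have ha' : a ≤ 2 * H ^ 200 := by linarith
  have h2 : α * a * b ≤ H ^ 28 * (2 * H ^ 200) * H ^ 50 := by gcongr
  have h3 : H ^ 28 * (2 * H ^ 200) * H ^ 50 = 2 * H ^ 278 := by ring
  have h4 : H * H ^ 278 ≤ H ^ 283 := by
    rw [← pow_succ']; exact pow_le_pow_right₀ h1 (by norm_num)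
  have h5 : 0 < H ^ 278 := by positivity
  have h6 : 16 * H ^ 278 ≤ H * H ^ 278 := by gcongr
  linarith

theorem rega1_two {H : ℝ} {i j : ℕ} (hH : 16 ≤ H) (h : H ^ 200 ≤ 2 ^ i)
    (hd : (2 : ℝ) ^ Nat.dist i j ≤ H ^ 44) : H ^ 156 ≤ 2 ^ i ∧ H ^ 156 ≤ 2 ^ j := by
  have h1 : (1 : ℝ) ≤ H := by linarith
  have h0 : (0 : ℝ) < H := by linarith
  refine ⟨(pow_le_pow_right₀ h1 (by norm_num)).trans h, ?_⟩
  have a : i ≤ j + Nat.dist i j := by unfold Nat.dist; omega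
  have b : (2 : ℝ) ^ i ≤ 2 ^ j * H ^ 44 :=
    calc (2 : ℝ) ^ i ≤ 2 ^ (j + Nat.dist i j) := pow_le_pow_right₀ one_le_two a
      _ = 2 ^ j * 2 ^ Nat.dist i j := pow_add _ _ _
      _ ≤ _ := by gcongr
  have c : H ^ 156 * H ^ 44 ≤ 2 ^ j * H ^ 44 := by rw [← pow_add]; exact h.trans b
  exact le_of_mul_le_mul_right c (by positivity)

theorem rega1_inv {t H x u : ℝ} (hH : 16 ≤ H) (ht : 1 ≤ t * H ^ 4) (hx : 0 < x)
    (h : t / H ≤ x * u) (hR : H ^ 288 ≤ 1 / x) : H ^ 283 ≤ u := by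
  have h0 : (0 : ℝ) < H := by linarith
  rw [div_le_iff₀ h0] at h
  rw [le_div_iff₀ hx] at hR
  have a : t * H ^ 4 ≤ x * u * H * H ^ 4 := by gcongr
  have b : H ^ 283 * (x * H ^ 5) ≤ u * (x * H ^ 5) :=
    calc H ^ 283 * (x * H ^ 5) = H ^ 288 * x := by ring
      _ ≤ x * u * H * H ^ 4 := hR.trans (ht.trans a)
      _ = _ := by ring
  exact le_of_mul_le_mul_right b (by positivity)

theorem rega1_side {H : ℝ} {α β a b u i : ℕ} (hH : 16 ≤ H) (hu : H ^ 283 ≤ u) (e : u = α * a * b)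
    (hβ : 0 < β) (hαβ : (α : ℝ) * β ≤ H ^ 28) (ha : Dy i a) (hb : b ^ 4 ≤ 2 ^ i ∨ (b : ℝ) ≤ H ^ 4) :
    H ^ 200 ≤ 2 ^ i := by
  have hβ' : (1 : ℝ) ≤ β := by exact_mod_cast hβ
  refine rega1_one (α := α) (a := a) (b := b) hH (by positivity) (by positivity) ?_ ?_ ?_ ?_
  · rw [e] at hu; push_cast at hu; exact hu
  · exact (le_mul_of_one_le_right (by positivity) hβ').trans hαβ
  · have := ha.2.le
    rw [pow_succ'] at this
    exact_mod_cast this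
  · exact hb.imp_left fun h => by exact_mod_cast h

theorem rega1_pf : S_RegA1 := by
  intro t H ψ N α β i j q r hH _ ht hq hr hR h1 h2 hS hi hj hα hβ hαβ hd hb hb'
  rcases le_max_iff.1 hR with h | h
  · have := rega1_side hH (rega1_inv hH ht hq h1 h) hS.2 hα (by rwa [mul_comm]) hj hb'
    exact (rega1_two hH this (by rwa [Nat.dist_comm])).symm
  · exact rega1_two hH (rega1_side hH (rega1_inv hH ht hr h2 h) hS.1 hβ hαβ hi hb) hd

end Vale.Agent.P028.T
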