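import Vale.Agent.P028.TStm

namespace Vale.Agent.P028.T

open Real Finset MeasureTheory Filter Metric

theorem rega2_X {H P β b : ℝ} (hβ0 : 0 ≤ β) (hβ : β ≤ H ^ 28)
    (hb : b ^ 4 ≤ H ^ 44 * P) (hP : H ^ 156 ≤ P) : β * b * H ^ 78 ≤ P := by
  have P0 : 0 ≤ P := le_trans (by positivity) hP
  refine le_of_pow_le_pow_left₀ (n := 4) (by norm_num) P0 ?_
  calc (β * b * H ^ 78) ^ 4 = β ^ 4 * b ^ 4 * (H ^ 156) ^ 2 := by ring
    _ ≤ (H ^ 28) ^ 4 * (H ^ 44 * P) * P ^ 2 := by gcongr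
    _ = H ^ 156 * P ^ 3 := by ring
    _ ≤ P * P ^ 3 := by gcongr
    _ = P ^ 4 := by ring

theorem rega2_pow {H : ℝ} (hH : 16 ≤ H) {n : ℕ} (hn : 2 ≤ n) : 256 ≤ H ^ n :=
  calc (256 : ℝ) = 16 ^ 2 := by norm_num
    _ ≤ H ^ 2 := by gcongr
    _ ≤ H ^ n := pow_le_pow_right₀ (by linarith) hn

theorem rega2_R {H P R X a t ψ k : ℝ} (hH : 16 ≤ H) (ht : 0 < t) (hψ : 0 < ψ) (hR : 0 < R)
    (h1 : 1 / ψ < 2 * R ^ 2) (h2 : R ^ 2 ≤ 1 / ψ) (h3 : t / H ≤ ψ * (X * a))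
    (h4 : ψ * (X * a) ≤ t) (h5 : P ≤ a) (h6 : a ≤ 2 * P) (h7 : t ≤ H ^ 4) (h8 : X * H ^ 78 ≤ P)
    (hX : 0 < X) (hk : k ≤ H) : k * X / R + R * (2 * t * H ^ 2 / P) < 1 := by
  have H0 : 0 < H := by linarith
  have P0 : 0 < P := lt_of_lt_of_le (by positivity) h8
  rw [div_lt_iff₀ hψ] at h1
  rw [le_div_iff₀ hψ] at h2
  rw [div_le_iff₀ H0] at h3
  have a1 : 2 * H * X < R := by
    refine lt_of_pow_lt_pow_left₀ 2 hR.le (lt_of_mul_lt_mul_right (a := 2 * H ^ 4) ?_ (by positivity))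
    calc (2 * H * X) ^ 2 * (2 * H ^ 4) = X * (X * H ^ 6 * 8) := by ring
      _ ≤ X * (X * H ^ 6 * H ^ 72) := by gcongr; linarith [rega2_pow hH (n := 72) (by norm_num)]
      _ = X * (X * H ^ 78) := by ring
      _ ≤ X * a := by gcongr; linarith
      _ < 2 * R ^ 2 * ψ * (X * a) := lt_mul_of_one_lt_left (mul_pos hX (by linarith)) h1
      _ = 2 * R ^ 2 * (ψ * (X * a)) := by ring
      _ ≤ 2 * R ^ 2 * H ^ 4 := by gcongr; linarith
      _ = _ := by ring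
  have a2 : R * (4 * t * H ^ 2) < P := by
    refine lt_of_pow_lt_pow_left₀ 2 P0.le ?_
    calc (R * (4 * t * H ^ 2)) ^ 2 = 16 * H ^ 4 * t * (R ^ 2 * t) := by ring
      _ ≤ 16 * H ^ 4 * H ^ 4 * (R ^ 2 * (ψ * (X * (2 * P)) * H)) := by
          gcongr
          exact h3.trans (by gcongr)
      _ = R ^ 2 * ψ * (32 * (X * H ^ 9 * P)) := by ring
      _ ≤ 1 * (32 * (X * H ^ 9 * P)) := by gcongr
      _ < 1 * (H ^ 69 * (X * H ^ 9 * P)) := by
          gcongr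
          linarith [rega2_pow hH (n := 69) (by norm_num)]
      _ = X * H ^ 78 * P := by ring
      _ ≤ P * P := by gcongr
      _ = _ := by ring
  have b1 : k * X / R < 1 / 2 := by
    rw [div_lt_iff₀ hR]
    nlinarith [mul_le_mul_of_nonneg_right hk hX.le]
  have b2 : R * (2 * t * H ^ 2 / P) < 1 / 2 := by
    rw [← mul_div_assoc, div_lt_iff₀ P0]
    linarith
  linarith

theorem rega2_S {H P X t k : ℝ} (hH : 16 ≤ H) (ht : 0 < t) (h7 : t ≤ H ^ 4) (h8 : X * H ^ 78 ≤ P)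
    (hX : 0 < X) (hk : k ≤ H) : 2 * t * H ^ 2 * (k * X / P) < 1 / 2 := by
  have H0 : 0 < H := by linarith
  have P0 : 0 < P := lt_of_lt_of_le (by positivity) h8
  rw [← mul_div_assoc, div_lt_iff₀ P0]
  calc 2 * t * H ^ 2 * (k * X) ≤ 2 * t * H ^ 2 * (H * X) := by gcongr
    _ ≤ 2 * H ^ 4 * H ^ 2 * (H * X) := by gcongr
    _ = 1 / 2 * (X * H ^ 7 * 4) := by ring
    _ < 1 / 2 * (X * H ^ 7 * H ^ 71) := by
        gcongr
        linarith [rega2_pow hH (n := 71) (by norm_num)]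
    _ = 1 / 2 * (X * H ^ 78) := by ring
    _ ≤ 1 / 2 * P := by gcongr

theorem rega2_e {H t : ℝ} (hH : 16 ≤ H) (ht : 0 < t) :
    2 * t * H ^ 2 + 8 * t * H ^ 3 < t * H ^ 4 := by
  have : 0 < t * H ^ 2 := mul_pos ht (by positivity)
  have h2 : 2 + 8 * H < H ^ 2 := by nlinarith
  linarith [mul_lt_mul_of_pos_left h2 this]

theorem rega2_dist {H : ℝ} {i j : ℕ} (h : (2 : ℝ) ^ Nat.dist i j ≤ H ^ 44) :
    (2 : ℝ) ^ i ≤ H ^ 44 * 2 ^ j :=
  calc (2 : ℝ) ^ i ≤ 2 ^ (Nat.dist i j + j) :=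
        pow_le_pow_right₀ one_le_two (by unfold Nat.dist; omega)
    _ ≤ _ := by rw [pow_add]; gcongr

theorem rega2_pf (hExa : S_Exa) : S_RegA2 := by
  intro γ t H A B ψ e N α β i j q r hc hH ht he htH hq hr hN hα hβ q0 q1 r0 r1
    ⟨⟨_, hD, hcop, m, hm, hdv, hn⟩, _, g1, g2⟩ ⟨su, sv⟩ di dj hαβ hd hb' hb hi hj
    ⟨k', k1', k2', c', hc'⟩ ⟨k, k1, k2, c, hcc⟩
  have cop := cf_coprime hq r
  have b0 := cf_pos (Nat.mul_pos hα hN) q
  have b0' := cf_pos (Nat.mul_pos hβ hN) r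
  have d1 : ψ q * cf r q ≤ t := (le_max_left _ _).trans hD
  have d2 : ψ r * cf q r ≤ t := (le_max_right _ _).trans hD
  rw [mul_right_comm] at su sv
  rw [su, sv] at hm hdv hn cop
  rw [sv] at g1 d1
  rw [su] at g2 d2
  generalize cf (α * N) q = b at *
  generalize cf (β * N) r = b' at *
  generalize cf q (α * N) = a at *
  generalize cf r (β * N) = a' at *
  have H1 : 1 ≤ H ^ 44 := one_le_pow₀ (by linarith)
  have α1 : (1 : ℝ) ≤ α := Nat.one_le_cast.2 hα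
  have β1 : (1 : ℝ) ≤ β := Nat.one_le_cast.2 hβ
  have hα' : (α : ℝ) ≤ H ^ 28 := (le_mul_of_one_le_right (by linarith) β1).trans hαβ
  have hβ' : (β : ℝ) ≤ H ^ 28 := (le_mul_of_one_le_left (by linarith) α1).trans hαβ
  have e1 : (b : ℝ) ^ 4 ≤ 2 ^ j := by exact_mod_cast hb
  have e2 : (b' : ℝ) ^ 4 ≤ 2 ^ i := by exact_mod_cast hb'
  have x1 := rega2_X (by positivity) hβ'
    (e1.trans (rega2_dist (by rwa [Nat.dist_comm]))) hi
  have x2 := rega2_X (by positivity) hβ'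
    (e1.trans (le_mul_of_one_le_left (by positivity) H1)) hj
  have x3 := rega2_X (by positivity) hα'
    (e2.trans (le_mul_of_one_le_left (by positivity) H1)) hi
  have x4 := rega2_X (by positivity) hα' (e2.trans (rega2_dist hd)) hj
  have X0 : (0 : ℝ) < β * b := by positivity
  have X0' : (0 : ℝ) < α * b' := by positivity
  have lq := lv_spec q0 (by linarith)
  have lr := lv_spec r0 (by linarith)
  have sq : ∀ l : ℕ, √(2 ^ l : ℝ) ^ 2 = 2 ^ l := fun l => sq_sqrt (by positivity)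
  have dy : ∀ {i a : ℕ}, Dy i a → (2 : ℝ) ^ i ≤ a ∧ (a : ℝ) ≤ 2 * 2 ^ i := fun h =>
    ⟨by exact_mod_cast h.1, by have := h.2.le; rw [pow_succ'] at this; exact_mod_cast this⟩
  push_cast at g1 g2 d1 d2
  refine hn (hExa γ t H _ _ _ _ c c' m _ _ (β * b) (α * b') a a' (2 ^ i) (2 ^ j) k k' e ht
    (hc _).1 (hc _).1 (hc _).2.1 (hc _).2.1 (hc _).2.2.1 (hc _).2.2.1 (hc _).2.2.2 (hc _).2.2.2
    (Nat.mul_pos hβ b0) (Nat.mul_pos hα b0')
    (Nat.Coprime.coprime_mul_right (Nat.Coprime.coprime_mul_right_right cop.symm))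
    (by positivity) (by positivity) (by rw [← pow_succ']; exact di.2)
    (by rw [← pow_succ']; exact dj.2) k1 k2 k1' k2' hcc hc' ?_ ?_ ?_ hm hcop hdv ?_)
  · push_cast
    exact rega2_R hH ht q0 (by positivity) (by rw [sq]; exact lq.2) (by rw [sq]; exact lq.1) g1 d1
      (dy dj).1 (dy dj).2 htH x2 X0 k2
  · push_cast
    exact rega2_R hH ht r0 (by positivity) (by rw [sq]; exact lr.2) (by rw [sq]; exact lr.1) g2 d2
      (dy di).1 (dy di).2 htH x3 X0' k2'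
  · push_cast
    linarith [rega2_S hH ht htH x1 X0 k2, rega2_S hH ht htH x4 X0' k2']
  · rw [he]
    exact rega2_e hH ht

end Vale.Agent.P028.T
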