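import Vale.Agent.P028.TStm

namespace Vale.Agent.P028.T

open Real Finset MeasureTheory Filter Metric

theorem regb_arith {H t β a J I : ℝ} (hH : 1 ≤ H) (ht : 0 < t) (hβ : 0 < β) (hJ : 0 < J)
    (hI : 0 ≤ I) (ha : J ≤ a) :
    6 * √H * (11 * I / H) * (t / (β * a)) ≤ 66 / √H * (t / β * I / J) := by
  have h0 : 0 < √H := Real.sqrt_pos.2 (by linarith)
  have h1 : √H * √H = H := Real.mul_self_sqrt (by linarith)
  have h2 : 6 * √H * (11 * I / H) = 66 / √H * I := by
    rw [← h1, Real.sqrt_mul_self h0.le]; field_simp; ring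
  have h3 : t / (β * a) ≤ t / (β * J) := by gcongr
  rw [h2]
  calc 66 / √H * I * (t / (β * a)) ≤ 66 / √H * I * (t / (β * J)) := by gcongr
    _ = 66 / √H * (t / β * I / J) := by field_simp

theorem regb_pf (hDeg : S_Deg) (hRegB1 : S_RegB1) : S_RegB := by
  intro γ t H A B ψ S F e N α β i j hS hF hH ht he hN hα hβ hi hst hx
  rw [mE_eq_snd]
  have hM : 0 < α * N := Nat.mul_pos hα hN
  have key : ∀ r ∈ F.image Prod.snd, mV ψ ((F.filter fun x => x.2 = r).image Prod.fst) ≤
      66 / √H * (t / β * 2 ^ i / 2 ^ j) := by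
    intro r hr
    obtain ⟨x0, hx0, hx0r⟩ := mem_image.1 hr
    have hV : ∀ q ∈ (F.filter fun x => x.2 = r).image Prod.fst, (q, r) ∈ F := by
      intro q hq
      obtain ⟨y, hy, rfl⟩ := mem_image.1 hq
      obtain ⟨h1, h2⟩ := mem_filter.1 hy
      rw [← h2]; exact h1
    have ha' : 2 ^ j ≤ cf r (β * N) := by
      have := (hst x0 hx0).2.2.1
      rwa [hx0r] at this
    have ha'' : (2 : ℝ) ^ j ≤ (cf r (β * N) : ℝ) := by exact_mod_cast ha'
    have hβ' : (0 : ℝ) < β := by exact_mod_cast hβ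
    have hJ : (0 : ℝ) < 2 ^ j := by positivity
    have hres : ¬Res γ t H (α * cf (β * N) r) (2 ^ i) := by
      have := (hx x0 hx0).2
      rwa [hx0r] at this
    refine le_trans (hDeg ψ _ (α * N) ((β : ℝ) * cf r (β * N)) t H (11 * 2 ^ i / H) hM
      (mul_pos hβ' (hJ.trans_le ha'')) ht hH (by positivity) ?_ ?_)
      (regb_arith hH ht hβ' hJ (by positivity) ha'')
    · intro q hq
      have hqF := hV q hq
      have hq0 := hS.1 q (mem_product.1 (hF hqF)).1
      have hs : cf r q = β * cf r (β * N) * cf (α * N) q := (hst _ hqF).1.2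
      have hs' : (cf r q : ℝ) = (β : ℝ) * cf r (β * N) * cf (α * N) q := by exact_mod_cast hs
      have hR := (hx _ hqF).1
      have h1 : t / H ≤ ψ q * cf r q := hR.2.2.1
      have h2 : ψ q * cf r q ≤ t := le_trans (le_max_left _ _) hR.1.2.1
      rw [hs'] at h1 h2
      exact ⟨hq0.1, hq0.2.1, by linarith [hq0.2.2], h1, h2⟩
    · intro l b
      set V' := ((F.filter fun x => x.2 = r).image Prod.fst).filter
        fun q => lv ψ q = l ∧ cf (α * N) q = b with hV'
      have h1 : V'.card ≤ (V'.image fun q => cf q (α * N)).card :=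
        card_fibre hM V' _ b fun q hq => ⟨(mem_filter.1 hq).2.2, mem_image_of_mem _ hq⟩
      have h2 := hRegB1 γ t H (A l) (A (lv ψ r)) (B l) (B (lv ψ r)) (α * cf (β * N) r)
        (β * cf r (β * N) * b) e (2 ^ i) (V'.image fun q => cf q (α * N)) hH ht he
        (by exact_mod_cast hi) hres (by
          intro a ha
          obtain ⟨q, hq, rfl⟩ := mem_image.1 ha
          obtain ⟨hq1, hq2, hq3⟩ := mem_filter.1 hq
          have hqF := hV q hq1
          have hd := (hst _ hqF).2.1
          have hs1 : cf q r = α * cf q (α * N) * cf (β * N) r := (hst _ hqF).1.1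
          have hs2 : cf r q = β * cf r (β * N) * cf (α * N) q := (hst _ hqF).1.2
          have hb : BadK γ (A (lv ψ q)) (A (lv ψ r)) (B (lv ψ q)) (B (lv ψ r)) (cf q r) (cf r q)
            t e := (hx _ hqF).1.1.2.2
          rw [hq2, hs2, hq3, hs1, mul_right_comm] at hb
          refine ⟨hd.1, ?_, hb⟩
          have := hd.2
          rwa [pow_succ, mul_comm (2 ^ i) 2] at this)
      have h3 : (V'.card : ℝ) ≤ ((V'.image fun q => cf q (α * N)).card : ℝ) := by exact_mod_cast h1
      push_cast at h2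
      exact h3.trans h2
  calc ∑ r ∈ F.image Prod.snd, mu ψ r * mV ψ ((F.filter fun x => x.2 = r).image Prod.fst)
      ≤ ∑ r ∈ F.image Prod.snd, mu ψ r * (66 / √H * (t / β * 2 ^ i / 2 ^ j)) :=
        sum_le_sum fun r hr =>
          mul_le_mul_of_nonneg_left (key r hr) (hS.mu_pos (snd_sub hF hr)).le
    _ = 66 / √H * (mV ψ (F.image Prod.snd) * (t / β * 2 ^ i / 2 ^ j)) := by
        rw [← sum_mul]; unfold mV; ring

end Vale.Agent.P028.T
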