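import Vale.Agent.P028.TStm

namespace Vale.Agent.P028.T

open Real Finset MeasureTheory Filter Metric

theorem regb1_bez {e B : ℤ} (h : IsCoprime e B) (A : ℤ) : ∃ a p : ℤ, a * B + A = e * p := by
  obtain ⟨x, y, hxy⟩ := h
  exact ⟨-(y * A), x * A, by linear_combination (-A) * hxy⟩

theorem regb1_pf (hBL : S_BL) : S_RegB1 := by
  intro γ t H A A' B B' X v e A0 T hH ht he hA0 hres hT
  have hH0 : 0 < H := by linarith
  have hA : (0 : ℝ) < A0 := lt_of_lt_of_le (by positivity) hA0
  rcases T.eq_empty_or_nonempty with rfl | ⟨a0, ha0⟩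
  · rw [card_empty, Nat.cast_zero]
    positivity
  have he0 : (0 : ℝ) < e := by
    rw [he]
    positivity
  have hc : IsCoprime (e : ℤ) ((B : ℤ) * B') := by
    have := Nat.isCoprime_iff_coprime.2 (hT a0 ha0).2.2.1
    rwa [Nat.cast_mul] at this
  obtain ⟨ae, p, hp⟩ := regb1_bez hc.of_mul_right_left A
  obtain ⟨ae', p', hp'⟩ := regb1_bez hc.of_mul_right_right A'
  rcases hBL (X * (γ + ae') / e) (2 * t / e) H A0 (by positivity) hH (by exact_mod_cast hA) with
    h | ⟨k, k1, k2, c, hk⟩
  · refine (h (v * (γ + ae) / e) T fun a ha => ?_).trans ?_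
    · obtain ⟨a1, a2, -, k, k1, k2, -⟩ := hT a ha
      have k3 : (e : ℤ) ∣ (B : ℤ) * B' * (k - ae * v + ae' * (X * a : ℕ)) := by
        have e1 : (B : ℤ) * B' * (k - ae * v + ae' * (X * a : ℕ)) =
            nu A A' B B' (X * a) v k - e * (B' * v * p - B * (X * a : ℕ) * p') := by
          unfold nu
          linear_combination (-(B' * v : ℤ)) * hp + (B * (X * a : ℕ) : ℤ) * hp'
        rw [e1]
        exact dvd_sub k2 (dvd_mul_right _ _)
      obtain ⟨n, hn⟩ := hc.dvd_of_dvd_mul_left k3
      refine ⟨a1, a2, n, ?_⟩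
      have hn' : (k : ℝ) - ae * v + ae' * (X * a) = e * n := by exact_mod_cast hn
      have e2 : a * (X * (γ + ae') / e) - v * (γ + ae) / e - n =
          -(k + γ * ((v : ℝ) - (X * a : ℕ))) / e := by
        rw [eq_div_iff he0.ne']
        push_cast
        field_simp
        linear_combination hn'
      rw [e2, abs_div, abs_neg, abs_of_pos he0]
      exact div_le_div_of_nonneg_right k1 he0.le
    · have h1 : 2 * (2 * t / e) * A0 ≤ 4 * A0 / H := by
        have e3 : 2 * (2 * t / e) * A0 = 4 * A0 / H ^ 4 := by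
          rw [he]
          field_simp
          ring
        rw [e3]
        exact div_le_div_of_nonneg_left (by positivity) hH0 (le_self_pow₀ hH (by norm_num))
      have h2 : 2 * H ≤ 2 * A0 / H := by
        rw [le_div_iff₀ hH0]
        nlinarith
      have e4 : 11 * (A0 : ℝ) / H = 4 * A0 / H + 5 * A0 / H + 2 * A0 / H := by ring
      linarith
  · refine absurd ⟨k, k1, k2, c * e - k * X * ae', ?_⟩ hres
    have e5 : (k : ℝ) * X * γ - (c * e - k * X * ae' : ℤ) = e * (k * (X * (γ + ae') / e) - c) := by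
      push_cast
      field_simp
      ring
    rw [e5, abs_mul, abs_of_pos he0]
    refine (mul_le_mul_of_nonneg_left hk he0.le).trans_eq ?_
    field_simp

end Vale.Agent.P028.T
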