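import Vale.Agent.P028.TStm

namespace Vale.Agent.P028.T

open Real Finset MeasureTheory Filter Metric

theorem regc_num {t H x α a b P : ℝ} (hH : 2 ≤ H) (ht : 0 < t) (htH : 1 ≤ t * H ^ 4) (hx : 0 < x)
    (hα0 : 0 ≤ α) (hα : α ≤ H ^ 28) (ha0 : 0 ≤ a) (ha : a ≤ 2 * P) (hP : P ≤ b ^ 4)
    (hb : H ^ 4 ≤ b) (h : t / H ≤ x * (α * a * b)) : 1 / x ≤ b ^ 14 := by
  have hH0 : 0 < H := by linarith
  have hb0 : 0 < b := lt_of_lt_of_le (by positivity) hb
  have h1 : α * a * b ≤ H ^ 28 * (2 * b ^ 4) * b := by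
    gcongr
    linarith
  have h2 : (2 : ℝ) ≤ H ^ 3 := hH.trans (le_self_pow₀ (by linarith) (by norm_num))
  have h3 : (H ^ 4) ^ 9 ≤ b ^ 9 := by gcongr
  rw [div_le_iff₀ hH0] at h
  rw [div_le_iff₀ hx]
  calc 1 ≤ t * H ^ 4 := htH
    _ ≤ x * (α * a * b) * H * H ^ 4 := by gcongr
    _ ≤ x * (H ^ 28 * (2 * b ^ 4) * b) * H * H ^ 4 := by gcongr
    _ = 2 * H ^ 33 * b ^ 5 * x := by ring
    _ ≤ H ^ 3 * H ^ 33 * b ^ 5 * x := by gcongr
    _ = (H ^ 4) ^ 9 * b ^ 5 * x := by ring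
    _ ≤ b ^ 9 * b ^ 5 * x := by gcongr
    _ = b ^ 14 * x := by ring

theorem regc_pow {θ x C : ℝ} {M r : ℕ} (hθ : 100000 ≤ θ) (hM : 0 < M) (hr : 0 < r) (hx : 0 < x)
    (hT : ∀ n : ℕ, (n.divisors.card : ℝ) ≤ C * (n : ℝ) ^ (1 / 4 : ℝ))
    (h : x ≤ (r.divisors.card : ℝ) ^ (-θ)) (hb : 1 / x ≤ (cf M r : ℝ) ^ 14) :
    (M.divisors.card : ℝ) ≤ C * √(cf M r) := by
  have hb1 : (1 : ℝ) ≤ cf M r := by exact_mod_cast cf_pos hM r
  have h1 := tau_le (c := 56) (by norm_num) (by linarith) hr hx h hb (one_le_pow₀ hb1)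
  rw [← rpow_natCast, ← rpow_mul (by linarith),
    show ((14 : ℕ) : ℝ) * (1 / 56) = 1 / 4 by norm_num] at h1
  have h4 : M.divisors.card ≤ (cf M r).divisors.card * r.divisors.card := by
    conv_lhs => rw [← cf_mul M r, Nat.divisors_mul]
    exact card_mul_le.trans (Nat.mul_le_mul_left _ (card_le_card
      (Nat.divisors_subset_of_dvd hr.ne' (Nat.gcd_dvd_right M r))))
  calc (M.divisors.card : ℝ) ≤ (cf M r).divisors.card * r.divisors.card := by exact_mod_cast h4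
    _ ≤ C * (cf M r : ℝ) ^ (1 / 4 : ℝ) * (cf M r : ℝ) ^ (1 / 4 : ℝ) :=
      mul_le_mul (hT _) h1 (by positivity) ((Nat.cast_nonneg _).trans (hT _))
    _ = _ := by rw [mul_assoc, ← rpow_add (by linarith), sqrt_eq_rpow]; norm_num

theorem regc_pf (hML : S_ML) (hBig : S_Big) (hTau : S_Tau) : S_RegC := by
  intro θ hθ
  obtain ⟨C, hC, hT'⟩ := hTau (1 / 4) (by norm_num)
  refine ⟨C, hC, fun t H ψ S F N α β i j hS hF hH ht htH hN hα hβ hαβ hStr h => ?_⟩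
  have hM : 0 < β * N := Nat.mul_pos hβ hN
  have hH0 : 0 < H := by linarith
  have hα' : (0 : ℝ) < α := by exact_mod_cast hα
  have hβ' : (1 : ℝ) ≤ β := by exact_mod_cast hβ
  have hm : ∀ x ∈ F, x.2 ∈ S := fun x hx => (mem_product.1 (hF hx)).2
  have hu : ∀ x ∈ F, (cf x.1 x.2 : ℝ) = α * cf x.1 (α * N) * cf (β * N) x.2 := fun x hx => by
    exact_mod_cast (hStr x hx).1.1
  set T := (F.image Prod.snd).image (cf (β * N)) with hT
  have k1 := hML.2 ψ (F.image Prod.snd) (β * N) (t / (α * 2 ^ i))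
    (fun b => if b ∈ T then 2 ^ j else 0) hM (by positivity) (fun r hr => by
      obtain ⟨x, hx, rfl⟩ := mem_image.1 hr
      obtain ⟨a1, a2, -⟩ := hS.1.1 _ (hm x hx)
      refine ⟨a1, a2.le, ?_⟩
      have a3 : (2 : ℝ) ^ i ≤ cf x.1 (α * N) := by exact_mod_cast (hStr x hx).2.1.1
      have a4 := (h x hx).2.1
      rw [hu x hx] at a4
      rw [le_div_iff₀ (by positivity)]
      calc _ = ψ x.2 * (α * 2 ^ i * cf (β * N) x.2) := by ring
        _ ≤ ψ x.2 * (α * cf x.1 (α * N) * cf (β * N) x.2) := by gcongr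
        _ ≤ t := a4) (fun b _ => by
      split_ifs with hb
      · have a := card_fibre hM ((F.image Prod.snd).filter fun q => cf (β * N) q = b)
          (Finset.Ico (2 ^ j) (2 ^ (j + 1))) b fun r hr => by
            obtain ⟨x, hx, rfl⟩ := mem_image.1 (mem_filter.1 hr).1
            exact ⟨(mem_filter.1 hr).2, Finset.mem_Ico.2 (hStr x hx).2.2⟩
        rw [Nat.card_Ico, pow_succ, mul_two, Nat.add_sub_cancel] at a
        exact_mod_cast a
      · rw [filter_eq_empty_iff.2 fun r hr e => hb (mem_image.2 ⟨r, hr, e⟩)]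
        simp)
  have hsub : T ⊆ (β * N).divisors := fun b hb => by
    obtain ⟨r, -, rfl⟩ := mem_image.1 hb
    exact Nat.mem_divisors.2 ⟨cf_dvd _ _, hM.ne'⟩
  have k2 := hBig (β * N) (H ^ 4) C T hM (by positivity) hC.le fun b hb => by
    obtain ⟨r, hr, rfl⟩ := mem_image.1 hb
    obtain ⟨x, hx, rfl⟩ := mem_image.1 hr
    obtain ⟨a1, a2, -⟩ := hS.1.1 _ (hm x hx)
    obtain ⟨b1, -, b2, b3⟩ := h x hx
    refine ⟨cf_dvd _ _, b3.le, regc_pow hθ hM a1 a2 hT' (hS.2 _ (hm x hx)) ?_⟩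
    rw [hu x hx] at b1
    have b4 : (cf x.1 (α * N) : ℝ) ≤ 2 * 2 ^ i := by
      have := (hStr x hx).2.1.2.le
      rw [pow_succ'] at this
      exact_mod_cast this
    exact regc_num hH ht htH a2 hα'.le ((le_mul_of_one_le_right hα'.le hβ').trans hαβ)
      (Nat.cast_nonneg _) b4 (by exact_mod_cast b2.le) b3.le b1
  simp only [mul_ite, mul_zero, sum_ite_mem, inter_eq_right.2 hsub, ← sum_mul] at k1
  have k3 : C / √(H ^ 4) ≤ C / √H := by
    have : √H ≤ √(H ^ 4) := sqrt_le_sqrt (le_self_pow₀ (by linarith) (by norm_num))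
    have := sqrt_pos.2 hH0
    gcongr
  calc _ ≤ _ := k1
    _ ≤ t / (α * 2 ^ i) * (C / √H * 2 ^ j) := by
      gcongr
      exact k2.trans k3
    _ = _ := by ring

end Vale.Agent.P028.T
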