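import Vale.Agent.P028.TStm

namespace Vale.Agent.P028.T

open Real Finset MeasureTheory Filter Metric

theorem rk1_pf (hRk0 : S_Rk0) : S_Rk1 := by
  intro Λ hΛ
  obtain ⟨C, hC, h⟩ := hRk0 Λ hΛ
  refine ⟨2 * C, by positivity, fun z κ i hz => ?_⟩
  have h1 := h z κ (2 ^ (i + 1)) (Finset.Ico (2 ^ i) (2 ^ (i + 1))) (fun _ => 1) hz
    (by positivity) (fun _ _ => zero_le_one) fun d _ => by
      have a : ((Finset.Ico (2 ^ i) (2 ^ (i + 1))).filter (d ∣ ·)).card ≤ 2 ^ (i + 1) / d := by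
        rw [← Nat.Ioc_filter_dvd_card_eq_div]
        refine card_le_card (filter_subset_filter _ fun x hx => ?_)
        rw [Finset.mem_Ico] at hx
        exact Finset.mem_Ioc.2 ⟨lt_of_lt_of_le (by positivity) hx.1, hx.2.le⟩
      have b : (((2 ^ (i + 1) / d : ℕ)) : ℝ) ≤ ((2 ^ (i + 1) : ℕ) : ℝ) / d := Nat.cast_div_le
      rw [sum_const, nsmul_eq_mul, mul_one]
      push_cast at b
      exact le_trans (by exact_mod_cast a) b
  rw [sum_const, nsmul_eq_mul, mul_one, pow_succ (2 : ℝ)] at h1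
  linarith

theorem rk_sum {M d : ℕ} (hM : 0 < M) :
    ∑ b ∈ M.divisors.filter (d ∣ ·), Nat.totient (M / b) ≤ M / d := by
  by_cases h : d ∣ M
  · have h0 : M / d ≠ 0 := (Nat.div_pos (Nat.le_of_dvd hM h) (Nat.pos_of_dvd_of_pos h hM)).ne'
    conv_rhs => rw [← Nat.sum_totient (M / d)]
    rw [← sum_image (g := fun b => M / b) (f := Nat.totient) fun a ha b hb e => by
      have e' : M / a = M / b := e
      rw [← Nat.div_div_self (Nat.dvd_of_mem_divisors (mem_filter.1 ha).1) hM.ne', e',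
        Nat.div_div_self (Nat.dvd_of_mem_divisors (mem_filter.1 hb).1) hM.ne']]
    refine sum_le_sum_of_subset (image_subset_iff.2 fun b hb => Nat.mem_divisors.2 ⟨?_, h0⟩)
    exact Nat.div_dvd_div_left (Nat.dvd_of_mem_divisors (mem_filter.1 hb).1) (mem_filter.1 hb).2
  · rw [filter_eq_empty_iff.2 fun b hb k => h (k.trans (Nat.dvd_of_mem_divisors hb)), sum_empty]
    exact Nat.zero_le _

theorem rk2_pf (hRk0 : S_Rk0) : S_Rk2 := by
  intro Λ hΛ
  obtain ⟨C, hC, h⟩ := hRk0 Λ hΛ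
  refine ⟨C, hC, fun z κ M hz hM => ?_⟩
  have h1 := h z κ 1 M.divisors (fun b => (Nat.totient (M / b) : ℝ) / M) hz zero_le_one
    (fun _ _ => by positivity) fun d hd => by
      have a : ((∑ b ∈ M.divisors.filter (d ∣ ·), Nat.totient (M / b) : ℕ) : ℝ) ≤ (M : ℝ) / d :=
        le_trans (by exact_mod_cast rk_sum hM) Nat.cast_div_le
      have c : (0 : ℝ) < M := by exact_mod_cast hM
      push_cast at a
      rw [← sum_div, div_le_iff₀ c, one_div_mul_eq_div]
      exact a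
  rwa [mul_one] at h1

end Vale.Agent.P028.T
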