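import Vale.Agent.P028.TStm

namespace Vale.Agent.P028.T

open Real Finset MeasureTheory Filter Metric

theorem rk0_exp {Λ s : ℝ} (hΛ : 0 < Λ) (h0 : 0 ≤ s) (h1 : s ≤ 1) :
    exp (Λ * s) - 1 ≤ Λ * exp Λ * s := by
  have a := mul_le_mul_of_nonneg_right (add_one_le_exp (-(Λ * s))) (exp_pos (Λ * s)).le
  rw [← exp_add, neg_add_cancel, exp_zero] at a
  have b : exp (Λ * s) ≤ exp Λ := exp_le_exp.2 (mul_le_of_le_one_right hΛ.le h1)
  have c := mul_le_mul_of_nonneg_left b (mul_nonneg hΛ.le h0)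
  linarith

theorem rk0_sum {z : ℝ} (hz : 1 ≤ z) (P : Finset ℕ) (h : ∀ p ∈ P, z < p) :
    ∑ p ∈ P, z * ((p : ℝ) ^ 2)⁻¹ ≤ 2 := by
  have a : P ⊆ Ioo ⌊z⌋₊ (P.sup id + 1) := fun p hp => mem_Ioo.2
    ⟨(Nat.floor_lt (by linarith)).2 (h p hp), Nat.lt_succ_of_le (le_sup (f := id) hp)⟩
  have b := (sum_le_sum_of_subset_of_nonneg (f := fun p : ℕ => ((p : ℝ) ^ 2)⁻¹) a
    fun _ _ _ => by positivity).trans (sum_Ioo_inv_sq_le _ _)
  rw [← mul_sum]
  refine (mul_le_mul_of_nonneg_left b (by linarith)).trans ?_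
  rw [← mul_div_assoc, div_le_iff₀ (by positivity)]
  linarith [Nat.lt_floor_add_one z]

theorem rk0_pf : S_Rk0 := by
  intro Λ hΛ
  refine ⟨exp (Λ * exp Λ * 2), exp_pos _, fun z κ W T w hz hW hw hd => ?_⟩
  set P := T.biUnion fun a => a.primeFactors.filter fun p : ℕ => z < (p : ℝ) with hP
  set g : ℕ → ℝ := fun p => exp (Λ * (z * (p : ℝ)⁻¹)) - 1 with hg
  have g0 : ∀ p, 0 ≤ g p := fun p => sub_nonneg.2 (one_le_exp (by positivity))
  have hp : ∀ p ∈ P, p.Prime ∧ z < p := fun p k => by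
    obtain ⟨a, -, k⟩ := mem_biUnion.1 k
    exact ⟨Nat.prime_of_mem_primeFactors (mem_filter.1 k).1, (mem_filter.1 k).2⟩
  have s1 : ∀ a ∈ T, exp (Λ * z * Lz z a) ≤
      ∑ D ∈ P.powerset.filter fun D => ∏ p ∈ D, p ∣ a, ∏ p ∈ D, g p := fun a ha => by
    have e : exp (Λ * z * Lz z a) =
        ∏ p ∈ a.primeFactors.filter fun p : ℕ => z < (p : ℝ), (1 + g p) := by
      simp only [Lz, hg, mul_sum, exp_sum, add_sub_cancel, mul_assoc]
    rw [e, prod_one_add]
    refine sum_le_sum_of_subset_of_nonneg (fun D hD => ?_) fun D _ _ => prod_nonneg fun p _ => g0 p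
    have k := mem_powerset.1 hD
    exact mem_filter.2 ⟨mem_powerset.2 fun p e => mem_biUnion.2 ⟨a, ha, k e⟩,
      (prod_dvd_prod_of_subset _ _ _ (k.trans (filter_subset _ _))).trans
        (Nat.prod_primeFactors_dvd a)⟩
  have s2 : ∑ a ∈ T, exp (Λ * z * Lz z a) * w a ≤ (∏ p ∈ P, (1 + g p / p)) * W := by
    refine (sum_le_sum fun a ha => mul_le_mul_of_nonneg_right (s1 a ha) (hw a ha)).trans ?_
    simp only [sum_mul, prod_one_add]
    rw [sum_comm' (t' := P.powerset) (s' := fun D => T.filter fun a => ∏ p ∈ D, p ∣ a)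
      fun a D => by simp only [mem_filter]; tauto]
    refine sum_le_sum fun D hD => ?_
    rw [← mul_sum, prod_div_distrib, div_mul_eq_mul_div, mul_div_assoc, ← Nat.cast_prod]
    exact mul_le_mul_of_nonneg_left (hd _ (prod_pos fun p k => (hp p (mem_powerset.1 hD k)).1.pos))
      (prod_nonneg fun p _ => g0 p)
  have s3 : ∏ p ∈ P, (1 + g p / p) ≤ exp (Λ * exp Λ * 2) := by
    refine (prod_one_add_le_exp_sum _ fun p => div_nonneg (g0 p) p.cast_nonneg).trans
      (exp_le_exp.2 (le_trans ?_ (mul_le_mul_of_nonneg_left (rk0_sum hz P fun p k => (hp p k).2)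
        (by positivity))))
    rw [mul_sum]
    refine sum_le_sum fun p k => ?_
    have p0 : (0 : ℝ) < p := by linarith [(hp p k).2]
    refine (div_le_div_of_nonneg_right (rk0_exp hΛ (by positivity)
      ((mul_inv_le_iff₀ p0).2 (by linarith [(hp p k).2]))) p0.le).trans (le_of_eq ?_)
    field_simp
  calc _ ≤ ∑ a ∈ T.filter fun a => κ ≤ Lz z a,
        exp (-(Λ * z * κ)) * (exp (Λ * z * Lz z a) * w a) := sum_le_sum fun a ha => by
        rw [← mul_assoc, ← exp_add]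
        refine le_mul_of_one_le_left (hw a (mem_filter.1 ha).1) (one_le_exp ?_)
        linarith [mul_le_mul_of_nonneg_left (mem_filter.1 ha).2 (by positivity : 0 ≤ Λ * z)]
    _ ≤ ∑ a ∈ T, exp (-(Λ * z * κ)) * (exp (Λ * z * Lz z a) * w a) :=
        sum_le_sum_of_subset_of_nonneg (filter_subset _ _) fun a ha _ => by
          have := hw a ha
          positivity
    _ ≤ _ := by
        rw [← mul_sum, mul_comm (exp (Λ * exp Λ * 2)), mul_assoc _ _ W]
        exact mul_le_mul_of_nonneg_left (s2.trans (mul_le_mul_of_nonneg_right s3 hW)) (exp_pos _).le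

end Vale.Agent.P028.T
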