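import Vale.Agent.P028.TStm

namespace Vale.Agent.P028.T

open Real Finset MeasureTheory Filter Metric

theorem strl_cf {q r : ℕ} (hq : 0 < q) (hr : 0 < r) (p : ℕ) :
    (cf q r).factorization p = q.factorization p - r.factorization p := by
  unfold cf
  rw [Nat.factorization_div (Nat.gcd_dvd_left q r), Finsupp.tsub_apply,
    Nat.factorization_gcd hq.ne' hr.ne', Finsupp.inf_apply]
  omega

theorem strl_pos {P : Finset ℕ} (hP : ∀ p ∈ P, p.Prime) (e : ℕ → ℕ) : 0 < ∏ p ∈ P, p ^ e p :=
  prod_pos fun p hp => pow_pos (hP p hp).pos _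

theorem strl_prod {P : Finset ℕ} (hP : ∀ p ∈ P, p.Prime) (e : ℕ → ℕ) (l : ℕ) :
    (∏ p ∈ P, p ^ e p).factorization l = if l ∈ P then e l else 0 := by
  rw [Nat.factorization_prod_apply fun p hp => (pow_pos (hP p hp).pos _).ne',
    sum_congr rfl fun p hp => by rw [(hP p hp).factorization_pow, Finsupp.single_apply],
    sum_ite_eq']

theorem strl_mul {a b : ℕ} (ha : 0 < a) (hb : 0 < b) (l : ℕ) :
    (a * b).factorization l = a.factorization l + b.factorization l := by
  rw [Nat.factorization_mul ha.ne' hb.ne', Finsupp.add_apply]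

theorem strl_pf : S_StrL := by
  intro U Fx f g k hU hF hd
  have n1 := strl_pos hU k
  have n2 := strl_pos hF fun p => min (f p) (g p)
  have hN := mul_pos n1 n2
  have ha := strl_pos hF fun p => f p - g p
  have hb := strl_pos hF fun p => g p - f p
  refine ⟨_, _, _, hN, ha, hb, ?_, fun q r hq hr sq sr h1 h2 => ?_⟩
  · rw [← prod_mul_distrib]
    exact prod_congr rfl fun p _ => by rw [← pow_add, Nat.dist]
  have haN := mul_pos ha hN
  have hbN := mul_pos hb hN
  have key : ∀ l, (l ∈ Fx ∧ l ∉ U ∧ q.factorization l = f l ∧ r.factorization l = g l) ∨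
      (l ∉ Fx ∧ l ∈ U ∧ Nat.dist (q.factorization l) (k l) +
        Nat.dist (r.factorization l) (k l) ≤ 1) ∨
      (l ∉ Fx ∧ l ∉ U ∧ q.factorization l = 0 ∧ r.factorization l = 0) := by
    intro l
    by_cases a : l ∈ Fx
    · exact Or.inl ⟨a, fun b => disjoint_left.1 hd b a, h1 l a⟩
    by_cases b : l ∈ U
    · exact Or.inr (Or.inl ⟨a, b, h2 l b⟩)
    have c : l ∉ U ∪ Fx := fun c => (mem_union.1 c).elim b a
    refine Or.inr (Or.inr ⟨a, b, ?_, ?_⟩)
    · exact Finsupp.notMem_support_iff.1 fun h => c (sq (by simpa using h))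
    · exact Finsupp.notMem_support_iff.1 fun h => c (sr (by simpa using h))
  constructor
  · refine Nat.eq_of_factorization_eq (cf_pos hq _).ne'
      (mul_pos (mul_pos ha (cf_pos hq _)) (cf_pos hbN _)).ne' fun l => ?_
    rw [strl_mul (mul_pos ha (cf_pos hq _)) (cf_pos hbN _), strl_mul ha (cf_pos hq _),
      strl_cf hq hr, strl_cf hq haN, strl_cf hbN hr, strl_mul ha hN, strl_mul hb hN,
      strl_mul n1 n2, strl_prod hU, strl_prod hF, strl_prod hF, strl_prod hF]
    rcases key l with ⟨a, b, c⟩ | ⟨a, b, c⟩ | ⟨a, b, c⟩ <;>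
      simp only [a, b, if_true, if_false, Nat.dist] at c ⊢ <;> omega
  · refine Nat.eq_of_factorization_eq (cf_pos hr _).ne'
      (mul_pos (mul_pos hb (cf_pos hr _)) (cf_pos haN _)).ne' fun l => ?_
    rw [strl_mul (mul_pos hb (cf_pos hr _)) (cf_pos haN _), strl_mul hb (cf_pos hr _),
      strl_cf hr hq, strl_cf hr hbN, strl_cf haN hq, strl_mul ha hN, strl_mul hb hN,
      strl_mul n1 n2, strl_prod hU, strl_prod hF, strl_prod hF, strl_prod hF]
    rcases key l with ⟨a, b, c⟩ | ⟨a, b, c⟩ | ⟨a, b, c⟩ <;>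
      simp only [a, b, if_true, if_false, Nat.dist] at c ⊢ <;> omega

end Vale.Agent.P028.T
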