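import Vale.Agent.P028.TStm

namespace Vale.Agent.P028.T

open Real Finset MeasureTheory Filter Metric

theorem sum_w {X e : ℝ} (hX : 1 ≤ X) (h : X < e) : e ^ (-(99 / 100) : ℝ) ≤ 1 / √X := by
  rw [sqrt_eq_rpow, one_div, ← rpow_neg (by linarith)]
  exact (rpow_le_rpow_of_exponent_le (by linarith) (by norm_num)).trans
    (rpow_le_rpow_of_nonpos (by linarith) h.le (by norm_num))

theorem sum_rough {g M e : ℕ} {z : ℝ} (h : e ∈ Er g z M) (h1 : e ≠ 1) : z < e := by
  obtain ⟨-, h2, h3, -⟩ := mem_filter.1 h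
  obtain ⟨p, hp, hd⟩ := Nat.exists_prime_and_dvd h1
  have h0 := h2.ne_zero
  exact (h3 p (Nat.mem_primeFactors.2 ⟨hp, hd, h0⟩)).trans_le
    (by exact_mod_cast Nat.le_of_dvd (Nat.pos_of_ne_zero h0) hd)

theorem sum_pf (hDead : S_Dead) (hExp1 : S_Exp1) (hExp2 : S_Exp2) (hLeg : S_Leg) (hTail : S_Tail) : S_Sum := by
  classical
  refine ⟨47, by norm_num, fun γ t z X A A' B B' q r hz ht hX hq hr hqr hB hB' hA hA' => ?_⟩
  have z1 : (100 : ℝ) ≤ z := le_trans (by norm_num) hz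
  have s1 : 10 ≤ √z := by rw [le_sqrt' (by norm_num)]; linarith
  have s2 : 10 * √z ≤ z := by nlinarith [mul_self_sqrt (by linarith : 0 ≤ z)]
  have hE := fun k => hExp2 z A A' k B B' q r (by linarith) hq hr
  set K := KK γ (cf q r) (cf r q) t with hK
  set P := PP z (cf q r * cf r q)
  set Y := exp (2 * Lz z (cf q r * cf r q))
  set G := GG z A A' B B' q r
  set ν := nu A A' B B' (cf q r) (cf r q)
  set E := Er (q.gcd r) z (B * B') with hEr
  set Bd := (Finset.Icc 1 ⌊X⌋₊).filter fun e => BadK γ A A' B B' (cf q r) (cf r q) t e with hBd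
  set K' := K.filter fun k => FF A A' B B' q r k ≠ 0 with hK'
  set τ : ℝ := q.divisors.card * r.divisors.card with hτ
  have τ0 : 0 ≤ τ := by positivity
  have P0 : 0 ≤ P := (hE 0).2.2.1
  have PY : P ≤ Y := (hE 0).2.2.2.1
  have Y0 : 0 ≤ Y := P0.trans PY
  have cK : (K.card : ℝ) ≤ 4 * t + 1 := card_KK _ _ _ ht.le
  have sub : ∀ e : ℕ, (K'.filter fun k => (e : ℤ) ∣ ν k) ⊆ K := fun e =>
    (filter_subset _ _).trans (filter_subset _ _)
  have cK' : ∀ e : ℕ, ((K'.filter fun k => (e : ℤ) ∣ ν k).card : ℝ) ≤ 4 * t + 1 := fun e =>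
    le_trans (by exact_mod_cast card_le_card (sub e)) cK
  have step : ∑ k ∈ K, FF A A' B B' q r k ≤ ∑ e ∈ E, (e : ℝ) ^ (-(99 / 100) : ℝ) *
      ∑ k ∈ K'.filter fun k => (e : ℤ) ∣ ν k, G k * P := by
    rw [← sum_filter_ne_zero]
    refine (sum_le_sum fun k _ => hExp1 z A A' k B B' q r hz hq hr).trans (le_of_eq ?_)
    change ∑ k ∈ K', G k * P * ∑ e ∈ E.filter fun e : ℕ => (e : ℤ) ∣ ν k,
      (e : ℝ) ^ (-(99 / 100) : ℝ) = _
    simp only [sum_filter (s := E), sum_filter (s := K'), mul_sum]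
    rw [sum_comm]
    refine sum_congr rfl fun e _ => sum_congr rfl fun k _ => ?_
    split_ifs <;> ring
  have term : ∀ e ∈ E, (e : ℝ) ^ (-(99 / 100) : ℝ) *
      ∑ k ∈ K'.filter fun k => (e : ℤ) ∣ ν k, G k * P ≤ (4 * t + 1) * τ / √X +
        (if z < (e : ℝ) then 8 * t * Y * (√z * ((e : ℝ) ^ (-(99 / 100) : ℝ) / e)) else 0) +
        (if e ∈ Bd then Y * z * (e : ℝ) ^ (-(99 / 100) : ℝ) else 0) +
        if e = 1 then Y * (15 * t + 3 * if 1 ≤ t then 4 ^ z else 0) else 0 := by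
    intro e he
    have e0 : 0 < e := Nat.pos_of_mem_divisors (mem_filter.1 he).1
    have ec : Nat.Coprime e (B * B') := (mem_filter.1 he).2.2.2
    have w0 : 0 ≤ (e : ℝ) ^ (-(99 / 100) : ℝ) := by positivity
    have a0 : 0 ≤ (4 * t + 1) * τ / √X := by positivity
    have b0 : 0 ≤ if z < (e : ℝ) then 8 * t * Y * (√z * ((e : ℝ) ^ (-(99 / 100) : ℝ) / e))
      else 0 := by positivity
    have c0 : 0 ≤ if e ∈ Bd then Y * z * (e : ℝ) ^ (-(99 / 100) : ℝ) else 0 := by positivity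
    have d0 : 0 ≤ if e = 1 then Y * (15 * t + 3 * if 1 ≤ t then 4 ^ z else 0) else 0 := by
      positivity
    have S0 : 0 ≤ ∑ k ∈ K'.filter fun k => (e : ℤ) ∣ ν k, G k * P :=
      sum_nonneg fun k _ => mul_nonneg (hE k).1 P0
    rcases lt_or_ge X e with hX' | hX'
    · have h1 := sum_le_card_nsmul (K'.filter fun k => (e : ℤ) ∣ ν k) _ τ fun k _ => (hE k).2.2.2.2
      rw [nsmul_eq_mul] at h1
      have h2 := mul_le_mul (sum_w hX hX') (h1.trans (mul_le_mul_of_nonneg_right (cK' e) τ0)) S0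
        (by positivity)
      rw [one_div_mul_eq_div] at h2
      linarith
    rcases (K'.filter fun k => (e : ℤ) ∣ ν k).eq_empty_or_nonempty with h0 | ⟨k, hk⟩
    · rw [h0, sum_empty, mul_zero]
      linarith
    have bad : e ∈ Bd := mem_filter.2 ⟨mem_Icc.2 ⟨e0, Nat.le_floor hX'⟩, ec, k,
      mem_KK.1 (sub e hk), (mem_filter.1 hk).2, fun h => (mem_filter.1 (mem_filter.1 hk).1).2
        ((hDead A A' k B B' q r hq hr).2.2.2 hB hB' hA hA' hqr h)⟩
    have h1 := sum_le_card_nsmul (K'.filter fun k => (e : ℤ) ∣ ν k) _ (2 * √z * Y) fun k _ =>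
      mul_le_mul (hE k).2.1 PY P0 (by positivity)
    rw [nsmul_eq_mul] at h1
    rw [if_pos bad]
    by_cases e1 : e = 1
    · subst e1
      rw [if_pos rfl]
      simp only [Nat.cast_one, one_rpow, one_mul, mul_one] at *
      by_cases t1 : 1 ≤ t
      · have h2 : ∑ k ∈ K, G k ≤ 3 * (K.card + 4 ^ z) :=
          hLeg z A A' _ _ B B' q r (by linarith) hq hr
        have h3 : ∑ k ∈ K'.filter fun k => (1 : ℤ) ∣ ν k, G k * P ≤ (∑ k ∈ K, G k) * Y := by
          rw [sum_mul]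
          exact (sum_le_sum_of_subset_of_nonneg (by simpa using sub 1) fun k _ _ =>
            mul_nonneg (hE k).1 P0).trans
            (sum_le_sum fun k _ => mul_le_mul_of_nonneg_left PY (hE k).1)
        have h4 : ∑ k ∈ K, G k ≤ 15 * t + 3 * 4 ^ z := by linarith
        have h5 := mul_le_mul_of_nonneg_right h4 Y0
        have : 0 ≤ Y * z := by positivity
        rw [if_pos t1]
        linarith
      · have h2 := mul_le_mul_of_nonneg_right (cK' 1) (by positivity : 0 ≤ 2 * √z * Y)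
        have h3 := mul_le_mul_of_nonneg_left s2 Y0
        have h4 : t * (√z * Y) ≤ 1 * (√z * Y) :=
          mul_le_mul_of_nonneg_right (not_le.1 t1).le (by positivity)
        simp only [Nat.cast_one] at h2
        rw [if_pos trivial] at d0
        linarith
    · have h2 : ((K'.filter fun k => (e : ℤ) ∣ ν k).card : ℝ) ≤ 4 * t / e + 1 := le_trans
        (by exact_mod_cast card_le_card (filter_subset_filter _ (filter_subset _ _)))
        (hTail.2.1 γ t A A' B B' _ _ e ht.le e0 ec)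
      have h3 := mul_le_mul_of_nonneg_left (h1.trans
        (mul_le_mul_of_nonneg_right h2 (by positivity))) w0
      have h4 := mul_le_mul_of_nonneg_left (by linarith : 2 * √z ≤ z) (mul_nonneg Y0 w0)
      rw [if_pos (sum_rough he e1)]
      have h5 : (e : ℝ) ^ (-(99 / 100) : ℝ) * ((4 * t / e + 1) * (2 * √z * Y)) =
          8 * t * Y * (√z * ((e : ℝ) ^ (-(99 / 100) : ℝ) / e)) +
            Y * (e : ℝ) ^ (-(99 / 100) : ℝ) * (2 * √z) := by ring
      linarith
  refine step.trans ((sum_le_sum term).trans ?_)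
  simp only [sum_add_distrib, ← sum_filter]
  have a1 : ∑ _e ∈ E, (4 * t + 1) * τ / √X ≤
      (4 * t + 1) * (q.divisors.card ^ 2 * r.divisors.card) / √X := by
    have : (E.card : ℝ) ≤ q.divisors.card := by
      exact_mod_cast card_le_card ((filter_subset _ _).trans
        (Nat.divisors_subset_of_dvd hq.ne' (Nat.gcd_dvd_left q r)))
    rw [sum_const, nsmul_eq_mul]
    exact (mul_le_mul_of_nonneg_right this (by positivity)).trans_eq (by rw [hτ]; ring)
  have b1 : ∑ e ∈ E.filter fun e : ℕ => z < (e : ℝ),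
      8 * t * Y * (√z * ((e : ℝ) ^ (-(99 / 100) : ℝ) / e)) ≤ 8 * t * Y * 4 := by
    rw [← mul_sum, ← mul_sum]
    exact mul_le_mul_of_nonneg_left (hTail.1 z _ (by linarith) fun e he => (mem_filter.1 he).2)
      (by positivity)
  have c1 : ∑ e ∈ E.filter fun e : ℕ => e ∈ Bd, Y * z * (e : ℝ) ^ (-(99 / 100) : ℝ) ≤
      Y * z * ∑ e ∈ Bd, (e : ℝ) ^ (-(99 / 100) : ℝ) := by
    rw [mul_sum]
    exact sum_le_sum_of_subset_of_nonneg (fun e he => (mem_filter.1 he).2) fun _ _ _ => by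
      positivity
  have d1 : ∑ _e ∈ E.filter fun e : ℕ => e = 1, Y * (15 * t + 3 * if 1 ≤ t then 4 ^ z else 0) ≤
      Y * (15 * t + 3 * if 1 ≤ t then 4 ^ z else 0) := by
    rw [filter_eq']
    split_ifs <;> simp <;> positivity
  have p1 : 0 ≤ Y * if 1 ≤ t then (4 : ℝ) ^ z else 0 := by positivity
  have p2 : 0 ≤ Y * z * ∑ e ∈ Bd, (e : ℝ) ^ (-(99 / 100) : ℝ) :=
    mul_nonneg (by positivity) (sum_nonneg fun _ _ => by positivity)
  linarith

end Vale.Agent.P028.T
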