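import Vale.Agent.P028.TStm

namespace Vale.Agent.P028.T

open Real Finset MeasureTheory Filter Metric

theorem tail_step {x : ℝ} (hx : 0 < x) :
    (x + 1) ^ (-(99 / 100) : ℝ) / (x + 1) ≤ 2 / √x - 2 / √(x + 1) := by
  have h1 : (x + 1) ^ (-(99 / 100) : ℝ) ≤ (√(x + 1))⁻¹ := by
    rw [sqrt_eq_rpow, ← rpow_neg (by positivity)]
    exact rpow_le_rpow_of_exponent_le (by linarith) (by norm_num)
  refine (div_le_div_of_nonneg_right h1 (by positivity)).trans ?_
  have a0 : 0 < √x := sqrt_pos.2 hx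
  have ab : √x ≤ √(x + 1) := sqrt_le_sqrt (by linarith)
  have a2 : √x * √x = x := mul_self_sqrt hx.le
  have b2 : √(x + 1) * √(x + 1) = x + 1 := mul_self_sqrt (by positivity)
  generalize √(x + 1) = b at *
  generalize √x = a at *
  have b0 : 0 < b := a0.trans_le ab
  have e : 1 = b * b - a * a := by linarith
  rw [← b2, div_sub_div _ _ a0.ne' b0.ne', inv_eq_one_div, div_div,
    div_le_div_iff₀ (by positivity) (by positivity)]
  have h2 : 0 ≤ b * (b - a) * (2 * b * b - a * (b + a)) :=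
    mul_nonneg (mul_nonneg b0.le (sub_nonneg.2 ab)) (by nlinarith)
  calc 1 * (a * b) = (b * b - a * a) * (a * b) := by rw [← e]
    _ ≤ _ := by linarith

theorem tail_tel {m : ℕ} (hm : 0 < m) {n : ℕ} (h : m ≤ n) :
    ∑ e ∈ Finset.Ioc m n, (e : ℝ) ^ (-(99 / 100) : ℝ) / e ≤ 2 / √m - 2 / √n := by
  induction n, h using Nat.le_induction with
  | base => simp
  | succ n hn ih =>
    have := tail_step (x := n) (by exact_mod_cast hm.trans_le hn)
    rw [sum_Ioc_succ_top hn]
    push_cast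
    linarith

theorem tail_pf : S_Tail := by
  refine ⟨fun z T hz hT => ?_, fun γ t A A' B B' u v e ht he hc => ?_, ?_⟩
  · have hm : 0 < ⌊z⌋₊ := Nat.floor_pos.2 hz
    have m1 : (1 : ℝ) ≤ ⌊z⌋₊ := by exact_mod_cast hm
    have m0 : 0 < √(⌊z⌋₊ : ℝ) := sqrt_pos.2 (by linarith)
    have h1 : ∑ e ∈ T, (e : ℝ) ^ (-(99 / 100) : ℝ) / e ≤ 2 / √(⌊z⌋₊ : ℝ) :=
      (sum_le_sum_of_subset_of_nonneg (fun e he => Finset.mem_Ioc.2
        ⟨(Nat.floor_lt (by linarith)).2 (hT e he), le_max_of_le_right (le_sup (f := id) he)⟩)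
        fun _ _ _ => by positivity).trans ((tail_tel hm (le_max_left _ (T.sup id))).trans
          (sub_le_self _ (by positivity)))
    have h2 : √z ≤ 2 * √(⌊z⌋₊ : ℝ) := by
      rw [sqrt_le_iff, mul_pow, sq_sqrt (by positivity)]
      exact ⟨by positivity, by linarith [Nat.lt_floor_add_one z]⟩
    refine (mul_le_mul h2 h1 (sum_nonneg fun _ _ => by positivity) (by positivity)).trans
      (le_of_eq ?_)
    field_simp
    norm_num
  · have e0 : (0 : ℝ) < e := by exact_mod_cast he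
    rcases ((KK γ u v t).filter fun k => (e : ℤ) ∣ nu A A' B B' u v k).eq_empty_or_nonempty
      with h | h
    · rw [h, card_empty, Nat.cast_zero]
      positivity
    obtain ⟨k0, h0, hmin⟩ := exists_min_image _ id h
    have hs : ((KK γ u v t).filter fun k => (e : ℤ) ∣ nu A A' B B' u v k) ⊆
        (range (⌊4 * t / e⌋₊ + 1)).image fun j : ℕ => k0 + e * j := fun k hk => by
      have a1 := dvd_sub (mem_filter.1 hk).2 (mem_filter.1 h0).2
      rw [show nu A A' B B' u v k - nu A A' B B' u v k0 = ((B * B' : ℕ) : ℤ) * (k - k0) by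
        unfold nu; push_cast; ring] at a1
      obtain ⟨j, hj⟩ := (Nat.isCoprime_iff_coprime.2 hc).dvd_of_dvd_mul_left a1
      have a2 : 0 ≤ (e : ℤ) * j := hj ▸ sub_nonneg.2 (hmin k hk)
      lift j to ℕ using nonneg_of_mul_nonneg_right a2 (by exact_mod_cast he)
      have a3 := abs_le.1 (mem_KK.1 (mem_filter.1 hk).1)
      have a4 := abs_le.1 (mem_KK.1 (mem_filter.1 h0).1)
      have a5 : (k : ℝ) - k0 = e * j := by exact_mod_cast hj
      exact mem_image.2 ⟨j, mem_range.2 (Nat.lt_succ_of_le (Nat.le_floor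
        ((le_div_iff₀ e0).2 (by linarith)))), by linarith⟩
    have a6 := (card_le_card hs).trans card_image_le
    rw [card_range] at a6
    have a7 := Nat.floor_le (show 0 ≤ 4 * t / e by positivity)
    exact le_trans (by exact_mod_cast a6) (add_le_add_left a7 1)
  · have hs : Summable fun e : ℕ => (e : ℝ) ^ (-(151 / 150) : ℝ) :=
      summable_nat_rpow.2 (by norm_num)
    have h0 : 0 ≤ ∑' e : ℕ, (e : ℝ) ^ (-(151 / 150) : ℝ) := tsum_nonneg fun _ => by positivity
    refine ⟨∑' e : ℕ, (e : ℝ) ^ (-(151 / 150) : ℝ) + 1, by linarith, fun T => ?_⟩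
    refine le_trans (le_of_eq (sum_congr rfl fun e _ => ?_))
      ((hs.sum_le_tsum T fun _ _ => by positivity).trans (le_add_of_nonneg_right zero_le_one))
    rw [← rpow_add' (Nat.cast_nonneg e) (by norm_num)]
    norm_num

end Vale.Agent.P028.T
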