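import Vale.Agent.P028.TSch
import Vale.Agent.P028.TLoc
import Vale.Agent.P028.TGW1
import Vale.Agent.P028.TGW2
import Vale.Agent.P028.TStrL
import Vale.Agent.P028.TGW
import Vale.Agent.P028.TFCr
import Vale.Agent.P028.TML
import Vale.Agent.P028.TImg
import Vale.Agent.P028.TMA
import Vale.Agent.P028.TRk0
import Vale.Agent.P028.TRk
import Vale.Agent.P028.TAn1
import Vale.Agent.P028.TAn
import Vale.Agent.P028.TAn2
import Vale.Agent.P028.TBL
import Vale.Agent.P028.TExa
import Vale.Agent.P028.TTau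
import Vale.Agent.P028.TDeg
import Vale.Agent.P028.TRegA1
import Vale.Agent.P028.TRegA2
import Vale.Agent.P028.TRegB1
import Vale.Agent.P028.TRegB
import Vale.Agent.P028.TRegC
import Vale.Agent.P028.TReg
import Vale.Agent.P028.TLow
import Vale.Agent.P028.THD1
import Vale.Agent.P028.THD2
import Vale.Agent.P028.THighD
import Vale.Agent.P028.THighA
import Vale.Agent.P028.THigh
import Vale.Agent.P028.TCRT
import Vale.Agent.P028.TCnt1
import Vale.Agent.P028.TCnt
import Vale.Agent.P028.TDead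
import Vale.Agent.P028.TOvl
import Vale.Agent.P028.TExp1
import Vale.Agent.P028.TExp2
import Vale.Agent.P028.TLeg
import Vale.Agent.P028.TTail
import Vale.Agent.P028.TSum
import Vale.Agent.P028.TLevR
import Vale.Agent.P028.TLevA
import Vale.Agent.P028.TLevB1
import Vale.Agent.P028.TLevB
import Vale.Agent.P028.TLevC
import Vale.Agent.P028.TLevL
import Vale.Agent.P028.TLevH
import Vale.Agent.P028.TMom
import Vale.Agent.P028.TLoc2
import Vale.Agent.P028.TFull
import Vale.Agent.P028.TMain

namespace Vale.Agent.P028.T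

theorem all_ma : S_MA := ma_pf (gw_pf gw1_pf (gw2_pf sch_pf (loc_pf sch_pf)) strl_pf) fcr_pf
  (img_pf ml_pf)

theorem all_sav : S_Sav1 := sav1_pf (img_pf ml_pf)

theorem all_an2 : S_An2 :=
  an2_pf (an_pf all_ma all_sav (an1_pf ml_pf (rk1_pf rk0_pf) (rk2_pf rk0_pf)))

theorem all_low : S_Low := low_pf all_ma all_sav (plain_pf all_ma all_sav)
  (reg_pf rega1_pf (rega2_pf exa_pf) (regb_pf (deg_pf ml_pf) (regb1_pf bl_pf))
    (regc_pf ml_pf big_pf tau_pf))

theorem all_high : S_High := high_pf (higha_pf (highd_pf hd1_pf hd2_pf bl_pf)) tau_pf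

theorem all_main : S_Main :=
  main_pf (mom_pf (ovl_pf (cnt_pf crt_pf cnt1_pf dead_pf)) dead_pf
    (levl_pf all_an2 leva_pf (sum_pf dead_pf exp1_pf exp2_pf (leg_pf crt_pf) tail_pf)
      (levb_pf (levb1_pf all_low levr_pf leva_pf) tail_pf) (levc_pf tau_pf))
    (levh_pf dead_pf all_high)) loc2_pf full_pf ctr_pf

end Vale.Agent.P028.T
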