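import Vale.Agent.P028.TStm

namespace Vale.Agent.P028.T

open Real Finset MeasureTheory Filter Metric

theorem dead_chi (A A' k : ℤ) (B B' u v : ℕ) {p : ℕ} (hp : p.Prime) :
    0 ≤ chi A A' B B' u v k p ∧ (1 - (p : ℝ)⁻¹) * chi A A' B B' u v k p ≤ 1 := by
  have h2 : (2 : ℝ) ≤ p := by exact_mod_cast hp.two_le
  have h3 : (0 : ℝ) < p - 1 := by linarith
  have h4 : (1 - (p : ℝ)⁻¹) * (p / (p - 1)) = 1 := by field_simp
  have h5 : (0 : ℝ) ≤ p / (p - 1) := by positivity
  have h6 : (0 : ℝ) ≤ (p : ℝ)⁻¹ := by positivity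
  unfold chi
  split_ifs <;> constructor <;> linarith

theorem dead_le (A A' k : ℤ) (B B' u v : ℕ) {n : ℕ} (hn : 0 < n) :
    (Nat.totient n : ℝ) / n * ∏ p ∈ n.primeFactors, chi A A' B B' u v k p ≤ 1 := by
  have h1 : (Nat.totient n : ℝ) = n * ∏ p ∈ n.primeFactors, (1 - (p : ℝ)⁻¹) := by
    have := congrArg (fun x : ℚ => (x : ℝ)) (Nat.totient_eq_mul_prod_factors n)
    simpa using this
  rw [h1, mul_div_cancel_left₀ _ (by positivity), ← prod_mul_distrib]
  refine prod_le_one (fun p hp => mul_nonneg (sub_nonneg.2 (inv_le_one_of_one_le₀ ?_))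
    (dead_chi _ _ _ _ _ _ _ (Nat.prime_of_mem_primeFactors hp)).1)
    fun p hp => (dead_chi _ _ _ _ _ _ _ (Nat.prime_of_mem_primeFactors hp)).2
  exact_mod_cast (Nat.prime_of_mem_primeFactors hp).one_le

theorem dead_pf : S_Dead := by
  intro A A' k B B' q r hq hr
  have h0 : 0 ≤ FF A A' B B' q r k :=
    prod_nonneg fun p hp => (dead_chi _ _ _ _ _ _ _ (Nat.prime_of_mem_primeFactors hp)).1
  refine ⟨h0, le_trans (mul_le_mul_of_nonneg_right ?_ h0)
    (dead_le A A' k B B' _ _ (Nat.mul_pos hq hr)), ?_, fun hB hB' c c' hne hE => ?_⟩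
  · rw [div_mul_div_comm, Nat.cast_mul]
    exact div_le_div_of_nonneg_right (by exact_mod_cast Nat.totient_super_multiplicative q r)
      (by positivity)
  · rw [FF, Nat.primeFactors_mul hq.ne' hq.ne', union_self]
    exact dead_le A A' k B B' _ _ hq
  · obtain ⟨e1, e2⟩ := hE
    obtain rfl : B = B' := Nat.dvd_antisymm
      (Int.natCast_dvd_natCast.1 (c.symm.dvd_of_dvd_mul_left ⟨A', by rw [e1, mul_comm]⟩))
      (Int.natCast_dvd_natCast.1 (c'.symm.dvd_of_dvd_mul_left ⟨A, by rw [← e1, mul_comm]⟩))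
    obtain rfl : A = A' := mul_right_cancel₀ (by exact_mod_cast hB.ne') e1
    have hc := cf_coprime hq r
    obtain ⟨p, hp, hd⟩ := Nat.exists_prime_and_dvd (n := cf q r * cf r q) fun h =>
      ne_cf hq hne ((Nat.eq_one_of_mul_eq_one_right h).trans (Nat.eq_one_of_mul_eq_one_left h).symm)
    have nb : ¬(p ∣ cf q r ∧ p ∣ cf r q) := fun h =>
      hp.one_lt.ne' (Nat.eq_one_of_dvd_coprimes hc h.1 h.2)
    have hd' := (Nat.Prime.dvd_mul hp).1 hd
    have pB : ¬p ∣ B := fun h => by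
      have h1 : (p : ℤ) ∣ B := Int.natCast_dvd_natCast.2 h
      have h2 : (p : ℤ) ∣ (cf r q : ℤ) - cf q r :=
        (c.symm.of_isCoprime_of_dvd_left h1).dvd_of_dvd_mul_left
          (by rw [eq_neg_of_add_eq_zero_right e2]; exact (h1.mul_left k).neg_right)
      rcases hd' with a | a
      · exact nb ⟨a, Int.natCast_dvd_natCast.1 (by
          simpa using h2.add (Int.natCast_dvd_natCast.2 a))⟩
      · exact nb ⟨Int.natCast_dvd_natCast.1 (by
          simpa using (Int.natCast_dvd_natCast.2 a).sub h2), a⟩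
    refine prod_eq_zero (i := p) (Nat.mem_primeFactors.2 ⟨hp, hd.trans
      (Nat.mul_dvd_mul (cf_dvd q r) (cf_dvd r q)), (Nat.mul_pos hq hr).ne'⟩) ?_
    unfold chi
    by_cases a : p ∣ cf q r
    · rw [if_pos ⟨a, pB⟩, if_pos]
      rw [show (B : ℤ) * k + A * cf r q = A * cf q r by linear_combination e2]
      exact (Int.natCast_dvd_natCast.2 a).mul_left A
    · rw [if_neg fun h => a h.1, if_pos ⟨hd'.resolve_left a, pB⟩, if_pos]
      rw [show (B : ℤ) * k - A * cf q r = -A * cf r q by linear_combination e2]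
      exact (Int.natCast_dvd_natCast.2 (hd'.resolve_left a)).mul_left _

end Vale.Agent.P028.T
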