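import Vale.Agent.P028.XMeas

/-! Definitions and basic facts for the polynomial range of the weak inhomogeneous conjecture. -/

namespace Vale.Agent.P028.T

open Real Finset MeasureTheory Filter Metric

/-- cofactor of the gcd -/
def cf (q r : ℕ) : ℕ := q / q.gcd r

noncomputable def mu (ψ : ℕ → ℝ) (q : ℕ) : ℝ := (Nat.totient q : ℝ) / q * ψ q

noncomputable def mV (ψ : ℕ → ℝ) (V : Finset ℕ) : ℝ := ∑ q ∈ V, mu ψ q

noncomputable def mE (ψ : ℕ → ℝ) (E : Finset (ℕ × ℕ)) : ℝ := ∑ e ∈ E, mu ψ e.1 * mu ψ e.2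

/-- structured pair: `q = αN a / b`, `r = βN a' / b'`, cofactors `α a b'` and `β a' b` -/
def Str (N α β q r : ℕ) : Prop :=
  cf q r = α * cf q (α * N) * cf (β * N) r ∧ cf r q = β * cf r (β * N) * cf (α * N) q

def Dy (i a : ℕ) : Prop := 2 ^ i ≤ a ∧ a < 2 ^ (i + 1)

def Blk0 (ψ : ℕ → ℝ) (S : Finset ℕ) : Prop :=
  (∀ q ∈ S, 0 < q ∧ 0 < ψ q ∧ ψ q ≤ 1 / 2) ∧ mV ψ S ≤ 1

def Blk (θ : ℝ) (ψ : ℕ → ℝ) (S : Finset ℕ) : Prop :=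
  Blk0 ψ S ∧ ∀ q ∈ S, ψ q ≤ (q.divisors.card : ℝ) ^ (-θ)

/-- Dirichlet centres, one for each dyadic level -/
def Ctr (γ : ℝ) (A : ℕ → ℤ) (B : ℕ → ℕ) : Prop :=
  ∀ j, 0 < B j ∧ (B j : ℝ) ≤ √(2 ^ j) ∧ IsCoprime (A j) (B j : ℤ) ∧ |γ * B j - A j| ≤ 1 / √(2 ^ j)

noncomputable def lv (ψ : ℕ → ℝ) (q : ℕ) : ℕ := Nat.log 2 ⌊1 / ψ q⌋₊

noncomputable def Dd (ψ : ℕ → ℝ) (q r : ℕ) : ℝ := max (ψ q * cf r q) (ψ r * cf q r)

noncomputable def Rm (ψ : ℕ → ℝ) (q r : ℕ) : ℝ := max (1 / ψ q) (1 / ψ r)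

def nu (A A' : ℤ) (B B' u v : ℕ) (k : ℤ) : ℤ := B * B' * k + A * B' * v - A' * B * u

/-- exact coincidence of centres -/
def Ex (A A' : ℤ) (B B' u v : ℕ) (k : ℤ) : Prop :=
  A * B' = A' * B ∧ k * B + A * ((v : ℤ) - u) = 0

def BadK (γ : ℝ) (A A' : ℤ) (B B' u v : ℕ) (t : ℝ) (e : ℕ) : Prop :=
  Nat.Coprime e (B * B') ∧ ∃ k : ℤ, |k + γ * ((v : ℝ) - u)| ≤ 2 * t ∧
    (e : ℤ) ∣ nu A A' B B' u v k ∧ ¬Ex A A' B B' u v k

def BadE (γ : ℝ) (A : ℕ → ℤ) (B : ℕ → ℕ) (ψ : ℕ → ℝ) (t : ℝ) (e q r : ℕ) : Prop :=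
  q ≠ r ∧ Dd ψ q r ≤ t ∧
    BadK γ (A (lv ψ q)) (A (lv ψ r)) (B (lv ψ q)) (B (lv ψ r)) (cf q r) (cf r q) t e

/-- resonance of `X γ` -/
def Res (γ t H : ℝ) (X A0 : ℕ) : Prop :=
  ∃ k : ℕ, 1 ≤ k ∧ (k : ℝ) ≤ H ∧ ∃ c : ℤ, |k * X * γ - c| ≤ 2 * t * H ^ 2 / A0

/-- the sieved approximation set -/
def AA (q : ℕ) (γ ψ : ℝ) (A : ℤ) (B : ℕ) : Set ℝ :=
  {x | ∃ a : ℤ, |q * x - γ - a| < ψ ∧ IsCoprime (a * B + A) (q : ℤ)}

noncomputable def om (q B : ℕ) : ℝ := ∏ p ∈ q.primeFactors.filter (· ∣ B), (1 - (p : ℝ)⁻¹)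

noncomputable def chi (A A' : ℤ) (B B' u v : ℕ) (k : ℤ) (p : ℕ) : ℝ :=
  if p ∣ u ∧ ¬p ∣ B then (if (p : ℤ) ∣ B * k + A * v then 0 else p / (p - 1))
  else if p ∣ v ∧ ¬p ∣ B' then (if (p : ℤ) ∣ B' * k - A' * u then 0 else p / (p - 1))
  else if ¬p ∣ u * v * B * B' ∧ (p : ℤ) ∣ nu A A' B B' u v k then p / (p - 1) else 1

noncomputable def FF (A A' : ℤ) (B B' q r : ℕ) (k : ℤ) : ℝ :=
  ∏ p ∈ (q * r).primeFactors, chi A A' B B' (cf q r) (cf r q) k p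

noncomputable def GG (z : ℝ) (A A' : ℤ) (B B' q r : ℕ) (k : ℤ) : ℝ :=
  ∏ p ∈ (q * r).primeFactors.filter (fun p : ℕ => (p : ℝ) ≤ z), chi A A' B B' (cf q r) (cf r q) k p

noncomputable def PP (z : ℝ) (n : ℕ) : ℝ :=
  ∏ p ∈ n.primeFactors.filter (fun p : ℕ => z < (p : ℝ)), (p : ℝ) / (p - 1)

noncomputable def KK (γ : ℝ) (u v : ℕ) (t : ℝ) : Finset ℤ :=
  Finset.Icc ⌈-(γ * ((v : ℝ) - u)) - 2 * t⌉ ⌊-(γ * ((v : ℝ) - u)) + 2 * t⌋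

noncomputable def Lz (z : ℝ) (n : ℕ) : ℝ :=
  ∑ p ∈ n.primeFactors.filter (fun p : ℕ => z < (p : ℝ)), (p : ℝ)⁻¹

/-- squarefree `z`-rough divisors of `g` coprime to `M` -/
noncomputable def Er (g : ℕ) (z : ℝ) (M : ℕ) : Finset ℕ :=
  g.divisors.filter fun e => Squarefree e ∧ (∀ p ∈ e.primeFactors, z < (p : ℝ)) ∧ Nat.Coprime e M

def Reg (ψ : ℕ → ℝ) (V W : Finset ℕ) (E : Finset (ℕ × ℕ)) : Prop :=
  ∀ F ⊆ E, mE ψ F ≤ mE ψ E * (mV ψ (F.image Prod.fst) / mV ψ V *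
    (mV ψ (F.image Prod.snd) / mV ψ W)) ^ (11 / 21 : ℝ)

/-- all pairs of `F` are structured with dyadic numerators -/
def StrF (F : Finset (ℕ × ℕ)) (N α β i j : ℕ) : Prop :=
  ∀ e ∈ F, Str N α β e.1 e.2 ∧ Dy i (cf e.1 (α * N)) ∧ Dy j (cf e.2 (β * N))

def Sav (ψ : ℕ → ℝ) (E : Finset (ℕ × ℕ)) (t1 t2 η : ℝ) (N α β i j : ℕ) : Prop :=
  ∀ F ⊆ E, StrF F N α β i j → mE ψ F ≤ η * (mV ψ (F.image Prod.fst) * (t2 / α * 2 ^ j / 2 ^ i) +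
    mV ψ (F.image Prod.snd) * (t1 / β * 2 ^ i / 2 ^ j))

noncomputable def TT (t : ℝ) : ℝ := max t t⁻¹

noncomputable def zz (z0 t : ℝ) : ℝ := z0 + log (TT t) / 4

/-- contribution of a pair to the second moment -/
noncomputable def WW (γ : ℝ) (A : ℕ → ℤ) (B : ℕ → ℕ) (ψ : ℕ → ℝ) (t : ℝ) (q r : ℕ) : ℝ :=
  mu ψ q * mu ψ r / Dd ψ q r * ∑ k ∈ KK γ (cf q r) (cf r q) t,
    FF (A (lv ψ q)) (A (lv ψ r)) (B (lv ψ q)) (B (lv ψ r)) q r k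

/-- a regular bad pair in the low range -/
def RegE (γ : ℝ) (A : ℕ → ℤ) (B : ℕ → ℕ) (ψ : ℕ → ℝ) (t H : ℝ) (e q r : ℕ) : Prop :=
  BadE γ A B ψ t e q r ∧ H ^ 288 ≤ Rm ψ q r ∧ t / H ≤ ψ q * cf r q ∧ t / H ≤ ψ r * cf q r

theorem cf_mul (q r : ℕ) : cf q r * q.gcd r = q := Nat.div_mul_cancel (Nat.gcd_dvd_left q r)

theorem cf_mul' (q r : ℕ) : cf r q * q.gcd r = r := by rw [Nat.gcd_comm]; exact cf_mul r q

theorem cf_dvd (q r : ℕ) : cf q r ∣ q := ⟨_, (cf_mul q r).symm⟩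

theorem cf_pos {q : ℕ} (hq : 0 < q) (r : ℕ) : 0 < cf q r := Nat.pos_of_dvd_of_pos (cf_dvd q r) hq

theorem cf_coprime {q : ℕ} (hq : 0 < q) (r : ℕ) : Nat.Coprime (cf q r) (cf r q) := by
  unfold cf
  rw [Nat.gcd_comm r q]
  exact Nat.coprime_div_gcd_div_gcd (Nat.gcd_pos_of_pos_left r hq)

theorem div_cf {M : ℕ} (hM : 0 < M) (q : ℕ) : M / cf M q = M.gcd q :=
  Nat.div_div_self (Nat.gcd_dvd_left M q) hM.ne'

theorem eq_cf {M : ℕ} (hM : 0 < M) (q : ℕ) : q = M / cf M q * cf q M := by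
  rw [div_cf hM, mul_comm]; exact (cf_mul' M q).symm

theorem cf_self {q : ℕ} (hq : 0 < q) : cf q q = 1 := by
  unfold cf; rw [Nat.gcd_self]; exact Nat.div_self hq

theorem ne_cf {q r : ℕ} (hq : 0 < q) (h : q ≠ r) : cf q r ≠ cf r q := fun e => h (by
  have a := cf_mul q r
  have b := cf_mul' q r
  have _ := hq
  rw [← e] at b
  omega)

/-- a fibre of `b = cf M q` injects into the numerators -/
theorem card_fibre {M : ℕ} (hM : 0 < M) (V T : Finset ℕ) (b : ℕ)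
    (h : ∀ q ∈ V, cf M q = b ∧ cf q M ∈ T) : V.card ≤ T.card :=
  card_le_card_of_injOn (fun q => cf q M) (fun q hq => (h q hq).2) fun q hq r hr e => by
    have e : cf q M = cf r M := e
    rw [eq_cf hM q, eq_cf hM r, (h q hq).1, (h r hr).1, e]

theorem tot_le (q : ℕ) : (Nat.totient q : ℝ) / q ≤ 1 :=
  div_le_one_of_le₀ (by exact_mod_cast Nat.totient_le q) (by positivity)

theorem mu_nonneg {ψ : ℕ → ℝ} {q : ℕ} (h : 0 ≤ ψ q) : 0 ≤ mu ψ q := by unfold mu; positivity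

theorem mu_pos {ψ : ℕ → ℝ} {q : ℕ} (hq : 0 < q) (h : 0 < ψ q) : 0 < mu ψ q := by
  have := Nat.totient_pos.2 hq
  unfold mu; positivity

theorem mu_le {ψ : ℕ → ℝ} {q : ℕ} (h : 0 ≤ ψ q) : mu ψ q ≤ ψ q :=
  mul_le_of_le_one_left h (tot_le q)

theorem Blk0.mu_pos {ψ : ℕ → ℝ} {S : Finset ℕ} (h : Blk0 ψ S) {q : ℕ} (hq : q ∈ S) :
    0 < mu ψ q := T.mu_pos (h.1 q hq).1 (h.1 q hq).2.1

theorem Blk0.mV_nonneg {ψ : ℕ → ℝ} {S V : Finset ℕ} (h : Blk0 ψ S) (hV : V ⊆ S) : 0 ≤ mV ψ V :=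
  sum_nonneg fun _ hq => (h.mu_pos (hV hq)).le

theorem Blk0.mV_mono {ψ : ℕ → ℝ} {S V W : Finset ℕ} (h : Blk0 ψ S) (hW : W ⊆ S) (hV : V ⊆ W) :
    mV ψ V ≤ mV ψ W :=
  sum_le_sum_of_subset_of_nonneg hV fun _ hq _ => (h.mu_pos (hW hq)).le

theorem Blk0.mV_le {ψ : ℕ → ℝ} {S V : Finset ℕ} (h : Blk0 ψ S) (hV : V ⊆ S) : mV ψ V ≤ 1 :=
  (h.mV_mono Subset.rfl hV).trans h.2

theorem Blk0.mE_pos {ψ : ℕ → ℝ} {S : Finset ℕ} (h : Blk0 ψ S) {e : ℕ × ℕ} (he : e ∈ S ×ˢ S) :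
    0 < mu ψ e.1 * mu ψ e.2 :=
  mul_pos (h.mu_pos (mem_product.1 he).1) (h.mu_pos (mem_product.1 he).2)

theorem Blk0.mE_nonneg {ψ : ℕ → ℝ} {S : Finset ℕ} (h : Blk0 ψ S) {E : Finset (ℕ × ℕ)}
    (hE : E ⊆ S ×ˢ S) : 0 ≤ mE ψ E := sum_nonneg fun _ he => (h.mE_pos (hE he)).le

theorem Blk0.mE_mono {ψ : ℕ → ℝ} {S : Finset ℕ} (h : Blk0 ψ S) {E F : Finset (ℕ × ℕ)}
    (hE : E ⊆ S ×ˢ S) (hF : F ⊆ E) : mE ψ F ≤ mE ψ E :=
  sum_le_sum_of_subset_of_nonneg hF fun _ he _ => (h.mE_pos (hE he)).le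

theorem mE_prod (ψ : ℕ → ℝ) (V W : Finset ℕ) : mE ψ (V ×ˢ W) = mV ψ V * mV ψ W := by
  unfold mE mV; rw [sum_product, sum_mul_sum]

theorem fst_sub {S : Finset ℕ} {E : Finset (ℕ × ℕ)} (hE : E ⊆ S ×ˢ S) : E.image Prod.fst ⊆ S :=
  image_subset_iff.2 fun _ he => (mem_product.1 (hE he)).1

theorem snd_sub {S : Finset ℕ} {E : Finset (ℕ × ℕ)} (hE : E ⊆ S ×ˢ S) : E.image Prod.snd ⊆ S :=
  image_subset_iff.2 fun _ he => (mem_product.1 (hE he)).2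

theorem Blk0.mE_le_mul {ψ : ℕ → ℝ} {S : Finset ℕ} (h : Blk0 ψ S) {E : Finset (ℕ × ℕ)}
    (hE : E ⊆ S ×ˢ S) : mE ψ E ≤ mV ψ (E.image Prod.fst) * mV ψ (E.image Prod.snd) := by
  rw [← mE_prod]
  exact h.mE_mono (product_subset_product (fst_sub hE) (snd_sub hE)) fun e he =>
    mem_product.2 ⟨mem_image_of_mem _ he, mem_image_of_mem _ he⟩

theorem Blk0.mE_le {ψ : ℕ → ℝ} {S : Finset ℕ} (h : Blk0 ψ S) {E : Finset (ℕ × ℕ)}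
    (hE : E ⊆ S ×ˢ S) : mE ψ E ≤ 1 :=
  (h.mE_le_mul hE).trans (mul_le_one₀ (h.mV_le (fst_sub hE)) (h.mV_nonneg (snd_sub hE))
    (h.mV_le (snd_sub hE)))

theorem Blk0.mE_union {ψ : ℕ → ℝ} {S : Finset ℕ} (h : Blk0 ψ S) {E F G : Finset (ℕ × ℕ)}
    (hF : F ⊆ S ×ˢ S) (hG : G ⊆ S ×ˢ S) (hE : E ⊆ F ∪ G) : mE ψ E ≤ mE ψ F + mE ψ G := by
  have a := h.mE_mono (union_subset hF hG) hE
  have b : mE ψ (F ∪ G) + mE ψ (F ∩ G) = mE ψ F + mE ψ G := sum_union_inter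
  linarith [h.mE_nonneg (inter_subset_left.trans hF : F ∩ G ⊆ _)]

/-- degree form of the edge mass: sum over the second coordinate -/
theorem mE_eq_snd (ψ : ℕ → ℝ) (E : Finset (ℕ × ℕ)) : mE ψ E =
    ∑ r ∈ E.image Prod.snd, mu ψ r * mV ψ ((E.filter fun e => e.2 = r).image Prod.fst) := by
  unfold mE mV
  rw [← sum_fiberwise_of_maps_to (g := Prod.snd) fun e he => mem_image_of_mem _ he]
  refine sum_congr rfl fun r _ => ?_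
  rw [sum_image fun a ha b hb e => Prod.ext e
    (((mem_filter.1 ha).2).trans ((mem_filter.1 hb).2).symm), mul_sum]
  exact sum_congr rfl fun e he => by rw [(mem_filter.1 he).2, mul_comm]

theorem mE_swap (ψ : ℕ → ℝ) (E : Finset (ℕ × ℕ)) : mE ψ (E.image Prod.swap) = mE ψ E := by
  unfold mE
  rw [sum_image fun a _ b _ e => Prod.swap_injective e]
  exact sum_congr rfl fun e _ => mul_comm _ _

theorem fst_swap (E : Finset (ℕ × ℕ)) : (E.image Prod.swap).image Prod.fst = E.image Prod.snd := by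
  rw [image_image]; rfl

theorem snd_swap (E : Finset (ℕ × ℕ)) : (E.image Prod.swap).image Prod.snd = E.image Prod.fst := by
  rw [image_image]; rfl

theorem swap_sub {S : Finset ℕ} {E : Finset (ℕ × ℕ)} (hE : E ⊆ S ×ˢ S) :
    E.image Prod.swap ⊆ S ×ˢ S :=
  image_subset_iff.2 fun _ he => mem_product.2 (mem_product.1 (hE he)).symm

theorem Str.swap {N α β q r : ℕ} (h : Str N α β q r) : Str N β α r q := h.symm

theorem StrF.swap {F : Finset (ℕ × ℕ)} {N α β i j : ℕ} (h : StrF F N α β i j) :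
    StrF (F.image Prod.swap) N β α j i := fun e he => by
  obtain ⟨x, hx, rfl⟩ := mem_image.1 he
  exact ⟨(h x hx).1.swap, (h x hx).2.2, (h x hx).2.1⟩

theorem Dd_comm (ψ : ℕ → ℝ) (q r : ℕ) : Dd ψ q r = Dd ψ r q := max_comm _ _

theorem Rm_comm (ψ : ℕ → ℝ) (q r : ℕ) : Rm ψ q r = Rm ψ r q := max_comm _ _

theorem Ex.swap {A A' : ℤ} {B B' u v : ℕ} {k : ℤ} (hB : 0 < B) (h : Ex A A' B B' u v k) :
    Ex A' A B' B v u (-k) := by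
  refine ⟨h.1.symm, ?_⟩
  have hB' : (B : ℤ) ≠ 0 := by exact_mod_cast hB.ne'
  refine mul_left_cancel₀ hB' ?_
  linear_combination (-(B' : ℤ)) * h.2 + ((v : ℤ) - u) * h.1

theorem BadK.swap {γ t : ℝ} {A A' : ℤ} {B B' u v e : ℕ} (hB' : 0 < B')
    (h : BadK γ A A' B B' u v t e) : BadK γ A' A B' B v u t e := by
  obtain ⟨h1, k, h2, h3, h4⟩ := h
  refine ⟨by rwa [mul_comm], -k, ?_, ?_, fun h => h4 (by simpa using h.swap hB')⟩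
  · rw [← abs_neg]; push_cast
    rwa [show -(-(k : ℝ) + γ * (u - v)) = k + γ * (v - u) by ring]
  · rw [← dvd_neg]
    rwa [show -nu A' A B' B v u (-k) = nu A A' B B' u v k by unfold nu; ring]

theorem BadE.swap {γ t : ℝ} {A : ℕ → ℤ} {B : ℕ → ℕ} {ψ : ℕ → ℝ} {e q r : ℕ} (hc : Ctr γ A B)
    (h : BadE γ A B ψ t e q r) : BadE γ A B ψ t e r q :=
  ⟨h.1.symm, by rw [Dd_comm]; exact h.2.1, h.2.2.swap (hc _).1⟩

theorem RegE.swap {γ t H : ℝ} {A : ℕ → ℤ} {B : ℕ → ℕ} {ψ : ℕ → ℝ} {e q r : ℕ} (hc : Ctr γ A B)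
    (h : RegE γ A B ψ t H e q r) : RegE γ A B ψ t H e r q :=
  ⟨h.1.swap hc, by rw [Rm_comm]; exact h.2.1, h.2.2.2, h.2.2.1⟩

theorem lv_spec {ψ : ℕ → ℝ} {q : ℕ} (h0 : 0 < ψ q) (h1 : ψ q ≤ 1) :
    (2 : ℝ) ^ lv ψ q ≤ 1 / ψ q ∧ 1 / ψ q < 2 * 2 ^ lv ψ q := by
  have a : 1 ≤ 1 / ψ q := by rw [le_div_iff₀ h0]; linarith
  have b : ⌊1 / ψ q⌋₊ ≠ 0 := (Nat.floor_pos.2 a).ne'
  constructor
  · exact le_trans (by exact_mod_cast Nat.pow_log_le_self 2 b) (Nat.floor_le (by positivity))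
  · have c := Nat.lt_pow_succ_log_self one_lt_two ⌊1 / ψ q⌋₊
    have d : ((⌊1 / ψ q⌋₊ + 1 : ℕ) : ℝ) ≤ ((2 ^ (lv ψ q + 1) : ℕ) : ℝ) := by exact_mod_cast c
    push_cast at d
    rw [pow_succ] at d
    linarith [Nat.lt_floor_add_one (1 / ψ q)]

/-- uniqueness of good rational approximations -/
theorem UL {γ R ζ : ℝ} {A c k : ℤ} {B : ℕ} (hB : (B : ℝ) ≤ R) (hA : |γ * B - A| ≤ 1 / R)
    (hk : |k * γ - c| ≤ ζ) (h : |(k : ℝ)| / R + R * ζ < 1) : c * B = A * k := by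
  have e : ((c * B - A * k : ℤ) : ℝ) = k * (γ * B - A) - B * (k * γ - c) := by push_cast; ring
  have h1 : |(k : ℝ) * (γ * B - A)| ≤ |(k : ℝ)| / R := by
    rw [abs_mul, div_eq_mul_one_div]; gcongr
  have h2 : |(B : ℝ) * (k * γ - c)| ≤ R * ζ := by
    rw [abs_mul, Nat.abs_cast]
    exact mul_le_mul hB hk (abs_nonneg _) ((Nat.cast_nonneg B).trans hB)
  have h3 : |((c * B - A * k : ℤ) : ℝ)| < 1 := by
    rw [e]; linarith [abs_sub (k * (γ * B - A)) ((B : ℝ) * (k * γ - c))]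
  have h4 : |c * B - A * k| < 1 := by exact_mod_cast h3
  have := Int.abs_lt_one_iff.1 h4
  omega

theorem mem_KK {γ t : ℝ} {u v : ℕ} {k : ℤ} :
    k ∈ KK γ u v t ↔ |k + γ * ((v : ℝ) - u)| ≤ 2 * t := by
  rw [KK, Finset.mem_Icc, Int.ceil_le, Int.le_floor, abs_le]
  constructor <;> intro h <;> constructor <;> linarith [h.1, h.2]

theorem card_KK (γ : ℝ) (u v : ℕ) {t : ℝ} (ht : 0 ≤ t) : ((KK γ u v t).card : ℝ) ≤ 4 * t + 1 := by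
  have h2 := Int.le_ceil (-(γ * ((v : ℝ) - u)) - 2 * t)
  have h3 := Int.floor_le (-(γ * ((v : ℝ) - u)) + 2 * t)
  rw [KK, Int.card_Icc]
  rcases le_total 0 (⌊-(γ * ((v : ℝ) - u)) + 2 * t⌋ + 1 - ⌈-(γ * ((v : ℝ) - u)) - 2 * t⌉) with h4 | h4
  · rw [← Int.cast_natCast, Int.toNat_of_nonneg h4]; push_cast; linarith
  · rw [Int.toNat_of_nonpos h4]; push_cast; linarith

theorem Lz_nonneg (z : ℝ) (n : ℕ) : 0 ≤ Lz z n := sum_nonneg fun _ _ => by positivity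

theorem Lz_mul (z : ℝ) (m n : ℕ) : Lz z (m * n) ≤ Lz z m + Lz z n := by
  rcases eq_or_ne m 0 with rfl | hm
  · simpa [Lz] using Lz_nonneg z n
  rcases eq_or_ne n 0 with rfl | hn
  · simpa [Lz] using Lz_nonneg z m
  unfold Lz
  rw [Nat.primeFactors_mul hm hn, filter_union, ← sum_union_inter]
  exact le_add_of_nonneg_right (sum_nonneg fun _ _ => by positivity)

theorem one_le_TT {t : ℝ} (ht : 0 < t) : 1 ≤ TT t := by
  rcases le_total 1 t with h | h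
  · exact le_max_of_le_left h
  · exact le_max_of_le_right (one_le_inv₀ ht |>.2 h)

theorem le_zz (z0 : ℝ) {t : ℝ} (ht : 0 < t) : z0 ≤ zz z0 t :=
  le_add_of_nonneg_right (by have := log_nonneg (one_le_TT ht); positivity)

theorem AA_subset (q : ℕ) (γ ψ : ℝ) (A : ℤ) (B : ℕ) : AA q γ ψ A B ⊆ X.EE q γ ψ :=
  fun _ ⟨a, h, _⟩ => ⟨a, h⟩

theorem isOpen_AA (q : ℕ) (γ ψ : ℝ) (A : ℤ) (B : ℕ) : IsOpen (AA q γ ψ A B) := by
  unfold AA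
  rw [Set.ofPred_exists]
  refine isOpen_iUnion fun a => ?_
  by_cases h : IsCoprime (a * B + A) (q : ℤ)
  · simp only [eq_true h, and_true]
    exact isOpen_lt (by fun_prop) continuous_const
  · simp only [eq_false h, and_false]
    exact isOpen_empty

theorem om_bd (q B : ℕ) : 0 ≤ om q B ∧ om q B ≤ 1 := by
  have h : ∀ p ∈ q.primeFactors.filter (· ∣ B), 0 ≤ 1 - (p : ℝ)⁻¹ := fun p hp => by
    have : (1 : ℝ) ≤ p := by exact_mod_cast (Nat.prime_of_mem_primeFactors (mem_filter.1 hp).1).one_le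
    linarith [inv_le_one_of_one_le₀ this]
  exact ⟨prod_nonneg h, prod_le_one h fun p _ => sub_le_self _ (by positivity)⟩

theorem Blk0.sub {ψ : ℕ → ℝ} {S V : Finset ℕ} (h : Blk0 ψ S) (hV : V ⊆ S) : Blk0 ψ V :=
  ⟨fun q hq => h.1 q (hV hq), h.mV_le hV⟩

theorem psi_le {ψ : ℕ → ℝ} {q : ℕ} (hq : 0 < q) (h : 0 ≤ ψ q) :
    ψ q ≤ q.divisors.card * mu ψ q := by
  have a : q ≤ q.divisors.card * Nat.totient q := by
    conv_lhs => rw [← Nat.sum_totient q]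
    exact sum_le_card_nsmul _ _ _ fun d hd => Nat.le_of_dvd (Nat.totient_pos.2 hq)
      (Nat.totient_dvd_of_dvd (Nat.dvd_of_mem_divisors hd))
  have b : (q : ℝ) ≤ q.divisors.card * Nat.totient q := by exact_mod_cast a
  have c : (0 : ℝ) < q := by exact_mod_cast hq
  rw [mu, ← mul_assoc, ← mul_div_assoc]
  exact le_mul_of_one_le_left h ((one_le_div c).2 b)

theorem le_rpow_inv {θ x : ℝ} {q : ℕ} (hθ : 0 < θ) (hq : 0 < q) (h0 : 0 < x)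
    (h : x ≤ (q : ℝ) ^ (-θ)) : (q : ℝ) ≤ (1 / x) ^ (1 / θ) := by
  have c : (0 : ℝ) < q := by exact_mod_cast hq
  rw [one_div θ, le_rpow_inv_iff_of_pos c.le (by positivity) hθ, one_div]
  rw [rpow_neg c.le] at h
  exact (le_inv_comm₀ h0 (by positivity)).1 h

theorem tau_le {θ c x R : ℝ} {q : ℕ} (hc : 0 < c) (hθ : c ≤ θ) (hq : 0 < q) (h0 : 0 < x)
    (h : x ≤ (q.divisors.card : ℝ) ^ (-θ)) (hR : 1 / x ≤ R) (h1 : 1 ≤ R) :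
    (q.divisors.card : ℝ) ≤ R ^ (1 / c) :=
  (le_rpow_inv (hc.trans_le hθ) (card_pos.2 ⟨1, Nat.one_mem_divisors.2 hq.ne'⟩) h0 h).trans
    ((rpow_le_rpow (by positivity) hR (by have := hc.trans_le hθ; positivity)).trans
      (rpow_le_rpow_of_exponent_le h1 (one_div_le_one_div_of_le hc hθ)))

theorem Dd_pos {ψ : ℕ → ℝ} {q r : ℕ} (hr : 0 < r) (h : 0 < ψ q) : 0 < Dd ψ q r :=
  lt_max_of_lt_left (mul_pos h (by exact_mod_cast cf_pos hr q))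

theorem two_le_Rm {ψ : ℕ → ℝ} {q : ℕ} (r : ℕ) (h0 : 0 < ψ q) (h : ψ q ≤ 1 / 2) : 2 ≤ Rm ψ q r :=
  le_max_of_le_left (by rw [le_div_iff₀ h0]; linarith)

theorem Dy_log {a : ℕ} (ha : 0 < a) : Dy (Nat.log 2 a) a :=
  ⟨Nat.pow_log_le_self 2 ha.ne', Nat.lt_pow_succ_log_self one_lt_two a⟩

end Vale.Agent.P028.T
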