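import Vale.Agent.P028.TStm

namespace Vale.Agent.P028.T

open Real Finset MeasureTheory Filter Metric

theorem sch_test (k : ℕ → ℕ → ℝ) {L : ℝ} (hL : 0 ≤ L) (h0 : ∀ i j, 0 ≤ k i j)
    (hs : ∀ i j, k i j = k j i) (hr : ∀ (s : Finset ℕ) i, ∑ j ∈ s, k i j ≤ L) (s t : Finset ℕ)
    (x y : ℕ → ℝ) (hx : ∀ i, 0 ≤ x i) (hy : ∀ i, 0 ≤ y i) :
    ∑ i ∈ s, ∑ j ∈ t, k i j * √(x i * y j) ≤ L * √((∑ i ∈ s, x i) * ∑ j ∈ t, y j) := by
  have h := sum_mul_sq_le_sq_mul_sq (s ×ˢ t) (fun z => √(k z.1 z.2) * √(x z.1))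
    (fun z => √(k z.1 z.2) * √(y z.2))
  have e : ∀ i j, √(k i j) ^ 2 = k i j := fun i j => sq_sqrt (h0 i j)
  have ex : ∀ i, √(x i) ^ 2 = x i := fun i => sq_sqrt (hx i)
  have ey : ∀ i, √(y i) ^ 2 = y i := fun i => sq_sqrt (hy i)
  simp only [mul_pow, e, ex, ey, sum_product] at h
  have a1 : ∑ i ∈ s, ∑ j ∈ t, k i j * x i ≤ L * ∑ i ∈ s, x i := by
    rw [mul_sum]
    refine sum_le_sum fun i _ => ?_
    rw [← sum_mul]
    exact mul_le_mul_of_nonneg_right (hr t i) (hx _)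
  have a2 : ∑ i ∈ s, ∑ j ∈ t, k i j * y j ≤ L * ∑ j ∈ t, y j := by
    rw [sum_comm, mul_sum]
    refine sum_le_sum fun j _ => ?_
    rw [← sum_mul]
    simp only [hs _ j]
    exact mul_le_mul_of_nonneg_right (hr s j) (hy _)
  have a3 : ∀ i j, √(k i j) * √(x i) * (√(k i j) * √(y j)) = k i j * √(x i * y j) :=
    fun i j => by rw [mul_mul_mul_comm, ← sq, e, sqrt_mul (hx i)]
  simp only [a3] at h
  have hX : 0 ≤ ∑ i ∈ s, x i := sum_nonneg fun i _ => hx i
  have hY : 0 ≤ ∑ j ∈ t, y j := sum_nonneg fun i _ => hy i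
  refine abs_le_of_sq_le_sq' ?_ (by positivity) |>.2
  refine h.trans ((mul_le_mul a1 a2 (sum_nonneg fun i _ => sum_nonneg fun j _ =>
    mul_nonneg (h0 _ _) (hy _)) (by positivity)).trans_eq ?_)
  rw [mul_pow, sq_sqrt (mul_nonneg hX hY)]
  ring

theorem sch_geo {κ : ℝ} (h0 : 0 ≤ κ) (h1 : κ < 1) (s : Finset ℕ) (φ : ℕ → ℕ)
    (hφ : Set.InjOn φ s) : ∑ j ∈ s, κ ^ (φ j + 1) ≤ κ / (1 - κ) := by
  have h2 : HasSum (fun d : ℕ => κ ^ (d + 1)) (κ * (1 - κ)⁻¹) := by
    simpa only [pow_succ'] using (hasSum_geometric_of_lt_one h0 h1).mul_left κ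
  rw [← sum_image (f := fun d => κ ^ (d + 1)) hφ]
  exact sum_le_hasSum _ (fun _ _ => by positivity) h2

theorem sch_row {κ : ℝ} (h0 : 0 ≤ κ) (h1 : κ < 1) (s : Finset ℕ) (i : ℕ) :
    ∑ j ∈ s, (if i = j then 0 else κ ^ Nat.dist i j) ≤ 2 * κ / (1 - κ) := by
  have a1 := sch_geo h0 h1 (s.filter (· < i)) (fun j => i - j - 1) fun a ha b hb e => by
    simp only [coe_filter, Set.mem_ofPred_eq] at ha hb e; omega
  have a2 := sch_geo h0 h1 (s.filter (i < ·)) (fun j => j - i - 1) fun a ha b hb e => by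
    simp only [coe_filter, Set.mem_ofPred_eq] at ha hb e; omega
  rw [sum_filter] at a1 a2
  refine le_trans (le_of_eq ?_) ((add_le_add a1 a2).trans_eq (by ring))
  rw [← sum_add_distrib]
  refine sum_congr rfl fun j _ => ?_
  rcases lt_trichotomy j i with h | h | h
  · rw [if_neg h.ne', if_pos h, if_neg h.not_gt, add_zero, Nat.dist_eq_sub_of_le_right h.le]
    congr 1; omega
  · simp [h]
  · rw [if_neg h.ne, if_neg h.not_gt, if_pos h, zero_add, Nat.dist_eq_sub_of_le h.le]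
    congr 1; omega

theorem sch_pf : S_Sch := by
  intro ρ I J x y h0 h1 hx hy
  have h2 : 0 < 1 - ρ := by linarith
  constructor
  · refine le_trans (le_of_eq ?_) (sch_test (fun i j => if i = j then 0 else ρ ^ Nat.dist i j)
      (by positivity) (fun i j => by split_ifs <;> positivity)
      (fun i j => by simp only [Nat.dist_comm i j, eq_comm]) (sch_row h0 h1) I J x y hx hy)
    refine sum_congr rfl fun i _ => sum_congr rfl fun j _ => ?_
    split_ifs
    · rw [zero_mul]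
    · rw [mul_comm]
  · refine le_trans (le_of_eq ?_) ((sch_test (fun i j => if i = j then 1 else 0)
      zero_le_one (fun i j => by split_ifs <;> positivity)
      (fun i j => by simp only [eq_comm]) (fun s i => ?_) I J x y hx hy).trans_eq (one_mul _))
    · refine sum_congr rfl fun i _ => sum_congr rfl fun j _ => ?_
      split_ifs
      · rw [one_mul]
      · rw [zero_mul]
    · rw [sum_ite_eq]
      split_ifs <;> norm_num

end Vale.Agent.P028.T
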