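import Vale.Agent.P028.TDefs

/-! Statements of the steps of the proof. -/

namespace Vale.Agent.P028.T

open Real Finset MeasureTheory Filter Metric

def S_Sch : Prop := ∀ (ρ : ℝ) (I J : Finset ℕ) (x y : ℕ → ℝ), 0 ≤ ρ → ρ < 1 →
  (∀ i, 0 ≤ x i) → (∀ i, 0 ≤ y i) →
  ∑ i ∈ I, ∑ j ∈ J, (if i = j then 0 else √(x i * y j) * ρ ^ Nat.dist i j) ≤
    2 * ρ / (1 - ρ) * √((∑ i ∈ I, x i) * ∑ j ∈ J, y j) ∧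
  ∑ i ∈ I, ∑ j ∈ J, (if i = j then √(x i * y j) else 0) ≤ √((∑ i ∈ I, x i) * ∑ j ∈ J, y j)

def S_Loc : Prop := ∃ C ρ0 : ℝ, 0 < C ∧ 0 < ρ0 ∧ ∀ (ρ : ℝ) (I : Finset ℕ) (x y : ℕ → ℝ)
  (m : ℕ → ℕ → ℝ), 0 < ρ → ρ ≤ ρ0 → (∀ i, 0 ≤ x i) → (∀ i, 0 ≤ y i) → ∑ i ∈ I, x i ≤ 1 →
  ∑ i ∈ I, y i ≤ 1 → ∑ i ∈ I, ∑ j ∈ I, m i j = 1 →
  (∀ i j, m i j ≤ (x i * y j) ^ (11 / 21 : ℝ) * ρ ^ Nat.dist i j) →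
  ∃ k, ∑ i ∈ I, ∑ j ∈ I, (if 2 ≤ Nat.dist i k + Nat.dist j k then m i j else 0) ≤
    C * ρ ^ (11 / 5 : ℝ)

def S_GW1 : Prop := ∀ (p0 : ℕ) (ψ : ℕ → ℝ) (S : Finset ℕ) (E : Finset (ℕ × ℕ)), Blk0 ψ S →
  E ⊆ S ×ˢ S → E.Nonempty → ∃ (V W Fx : Finset ℕ) (E1 : Finset (ℕ × ℕ)) (f g : ℕ → ℕ),
  V ⊆ S ∧ W ⊆ S ∧ E1 ⊆ E ∧ E1 ⊆ V ×ˢ W ∧ E1.Nonempty ∧ Reg ψ V W E1 ∧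
  (∀ p ∈ Fx, p.Prime ∧ (∀ q ∈ V, q.factorization p = f p) ∧ ∀ r ∈ W, r.factorization p = g p) ∧
  (∀ p : ℕ, p.Prime → p ∉ Fx → ∀ i j : ℕ,
    mE ψ (E1.filter fun e => e.1.factorization p = i ∧ e.2.factorization p = j) ≤
      (if p ≤ p0 then 1 / 8 else 1) * mE ψ E1 *
      (mV ψ (V.filter fun q => q.factorization p = i) / mV ψ V *
        (mV ψ (W.filter fun r => r.factorization p = j) / mV ψ W)) ^ (11 / 21 : ℝ) *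
      ((p : ℝ) ^ (-(97 / 210) : ℝ)) ^ Nat.dist i j) ∧
  mE ψ E ^ (21 / 10 : ℝ) ≤
    128 ^ (p0 + 1) * mE ψ E1 * (∏ p ∈ Fx, (p : ℝ) ^ Nat.dist (f p) (g p)) ^ (97 / 100 : ℝ)

def S_GW2 : Prop := ∃ C ρ0 : ℝ, 0 < C ∧ 0 < ρ0 ∧ ∀ (ψ : ℕ → ℝ) (S V W : Finset ℕ)
  (E : Finset (ℕ × ℕ)) (v : ℕ → ℕ) (c ρ : ℝ), Blk0 ψ S → V ⊆ S → W ⊆ S → E ⊆ V ×ˢ W →
  E.Nonempty → 0 < ρ → ρ ≤ 3 / 4 → c ≤ 1 →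
  (∀ i j : ℕ, mE ψ (E.filter fun e => v e.1 = i ∧ v e.2 = j) ≤ c * mE ψ E *
    (mV ψ (V.filter fun q => v q = i) / mV ψ V *
      (mV ψ (W.filter fun r => v r = j) / mV ψ W)) ^ (11 / 21 : ℝ) * ρ ^ Nat.dist i j) →
  1 / 8 < c ∧ (ρ ≤ ρ0 → ∃ k, mE ψ (E.filter fun e => 2 ≤ Nat.dist (v e.1) k + Nat.dist (v e.2) k) ≤
    C * ρ ^ (11 / 5 : ℝ) * mE ψ E)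

def S_StrL : Prop := ∀ (U Fx : Finset ℕ) (f g k : ℕ → ℕ), (∀ p ∈ U, p.Prime) →
  (∀ p ∈ Fx, p.Prime) → Disjoint U Fx → ∃ N α β : ℕ, 0 < N ∧ 0 < α ∧ 0 < β ∧
  α * β = ∏ p ∈ Fx, p ^ Nat.dist (f p) (g p) ∧ ∀ q r : ℕ, 0 < q → 0 < r →
  q.primeFactors ⊆ U ∪ Fx → r.primeFactors ⊆ U ∪ Fx →
  (∀ p ∈ Fx, q.factorization p = f p ∧ r.factorization p = g p) →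
  (∀ p ∈ U, Nat.dist (q.factorization p) (k p) + Nat.dist (r.factorization p) (k p) ≤ 1) →
  Str N α β q r

def S_GW : Prop := ∃ C : ℝ, 0 < C ∧ ∀ (ψ : ℕ → ℝ) (S : Finset ℕ) (E : Finset (ℕ × ℕ)), Blk0 ψ S →
  E ⊆ S ×ˢ S → E.Nonempty → ∃ (V W : Finset ℕ) (E1 E' : Finset (ℕ × ℕ)) (N α β : ℕ),
  V ⊆ S ∧ W ⊆ S ∧ E1 ⊆ E ∧ E1 ⊆ V ×ˢ W ∧ E' ⊆ E1 ∧ E1.Nonempty ∧ 0 < N ∧ 0 < α ∧ 0 < β ∧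
  Reg ψ V W E1 ∧ mE ψ E1 ≤ 2 * mE ψ E' ∧ (∀ e ∈ E', Str N α β e.1 e.2) ∧
  mE ψ E ^ (21 / 10 : ℝ) ≤ C * mE ψ E1 * ((α : ℝ) * β) ^ (97 / 100 : ℝ)

def S_FCr : Prop := ∃ C : ℝ, 0 < C ∧ ∀ (I : Finset ℕ) (x y : ℕ → ℝ) (a b m : ℕ → ℕ → ℝ)
  (X Y M T1 T2 η : ℝ) (d0 : ℕ), 0 < X → X ≤ 1 → 0 < Y → Y ≤ 1 → 0 < M → 0 < T1 → 0 < T2 → 0 ≤ η →
  ∑ i ∈ I, x i ≤ X → ∑ i ∈ I, y i ≤ Y → M ≤ 2 * ∑ i ∈ I, ∑ j ∈ I, m i j →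
  (∀ i j, 0 ≤ a i j ∧ a i j ≤ x i ∧ a i j ≤ T1 * 2 ^ i / 2 ^ j) →
  (∀ i j, 0 ≤ b i j ∧ b i j ≤ y j ∧ b i j ≤ T2 * 2 ^ j / 2 ^ i) →
  (∀ i j, m i j ≤ a i j * b i j ∧ m i j ≤ M * (a i j / X * (b i j / Y)) ^ (11 / 21 : ℝ)) →
  (∀ i j, Nat.dist i j ≤ d0 →
    m i j ≤ η * (a i j * (T2 * 2 ^ j / 2 ^ i) + b i j * (T1 * 2 ^ i / 2 ^ j))) →
  M ≤ C * (η * (T1 * T2) + (T1 + T2) / 2 ^ d0)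

def S_ML : Prop := (∀ M : ℕ, 0 < M → ∑ b ∈ M.divisors, (Nat.totient (M / b) : ℝ) / M = 1) ∧
  ∀ (ψ : ℕ → ℝ) (V : Finset ℕ) (M : ℕ) (κ : ℝ) (n : ℕ → ℝ), 0 < M → 0 ≤ κ →
    (∀ q ∈ V, 0 < q ∧ 0 ≤ ψ q ∧ ψ q * cf M q ≤ κ) →
    (∀ b ∈ M.divisors, ((V.filter fun q => cf M q = b).card : ℝ) ≤ n b) →
    mV ψ V ≤ κ * ∑ b ∈ M.divisors, (Nat.totient (M / b) : ℝ) / M * n b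

def S_Img : Prop := ∀ (ψ : ℕ → ℝ) (S : Finset ℕ) (F : Finset (ℕ × ℕ)) (t1 t2 : ℝ)
  (N α β i j : ℕ), Blk0 ψ S → F ⊆ S ×ˢ S → 0 < N → 0 < α → 0 < β → 0 ≤ t1 → 0 ≤ t2 →
  StrF F N α β i j → (∀ e ∈ F, ψ e.1 * cf e.2 e.1 ≤ t1 ∧ ψ e.2 * cf e.1 e.2 ≤ t2) →
  mV ψ (F.image Prod.fst) ≤ t1 / β * 2 ^ i / 2 ^ j ∧
    mV ψ (F.image Prod.snd) ≤ t2 / α * 2 ^ j / 2 ^ i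

def S_MA : Prop := ∃ C : ℝ, 0 < C ∧ ∀ (ψ : ℕ → ℝ) (S : Finset ℕ) (E : Finset (ℕ × ℕ))
  (t1 t2 Z : ℝ), Blk0 ψ S → E ⊆ S ×ˢ S → 0 < t1 → 0 < t2 → 0 ≤ Z →
  (∀ e ∈ E, ψ e.1 * cf e.2 e.1 ≤ t1 ∧ ψ e.2 * cf e.1 e.2 ≤ t2) →
  (∀ N α β : ℕ, 0 < N → 0 < α → 0 < β → ∃ (η : ℝ) (d0 : ℕ), 0 ≤ η ∧
    (∀ i j, Nat.dist i j ≤ d0 → Sav ψ E t1 t2 η N α β i j) ∧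
    ((α : ℝ) * β) ^ (97 / 100 : ℝ) * (η * (t1 / β * (t2 / α)) + (t1 / β + t2 / α) / 2 ^ d0) ≤ Z) →
  mE ψ E ^ (21 / 10 : ℝ) ≤ C * Z

def S_Sav1 : Prop := ∀ (ψ : ℕ → ℝ) (S : Finset ℕ) (E : Finset (ℕ × ℕ)) (t1 t2 : ℝ)
  (N α β i j : ℕ), Blk0 ψ S → E ⊆ S ×ˢ S → 0 < N → 0 < α → 0 < β → 0 ≤ t1 → 0 ≤ t2 →
  (∀ e ∈ E, ψ e.1 * cf e.2 e.1 ≤ t1 ∧ ψ e.2 * cf e.1 e.2 ≤ t2) → Sav ψ E t1 t2 1 N α β i j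

def S_Plain : Prop := ∃ C : ℝ, 0 < C ∧ ∀ (ψ : ℕ → ℝ) (S : Finset ℕ) (E : Finset (ℕ × ℕ))
  (t1 t2 : ℝ), Blk0 ψ S → E ⊆ S ×ˢ S → 0 < t1 → 0 < t2 →
  (∀ e ∈ E, ψ e.1 * cf e.2 e.1 ≤ t1 ∧ ψ e.2 * cf e.1 e.2 ≤ t2) →
  mE ψ E ^ (21 / 10 : ℝ) ≤ C * (t1 * t2)

def S_Rk0 : Prop := ∀ Λ : ℝ, 0 < Λ → ∃ C : ℝ, 0 < C ∧ ∀ (z κ W : ℝ) (T : Finset ℕ) (w : ℕ → ℝ),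
  1 ≤ z → 0 ≤ W → (∀ a ∈ T, 0 ≤ w a) →
  (∀ d : ℕ, 0 < d → ∑ a ∈ T.filter (d ∣ ·), w a ≤ W / d) →
  ∑ a ∈ T.filter (fun a => κ ≤ Lz z a), w a ≤ C * exp (-(Λ * z * κ)) * W

def S_Rk1 : Prop := ∀ Λ : ℝ, 0 < Λ → ∃ C : ℝ, 0 < C ∧ ∀ (z κ : ℝ) (i : ℕ), 1 ≤ z →
  (((Finset.Ico (2 ^ i) (2 ^ (i + 1))).filter fun a : ℕ => κ ≤ Lz z a).card : ℝ) ≤
    C * exp (-(Λ * z * κ)) * 2 ^ i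

def S_Rk2 : Prop := ∀ Λ : ℝ, 0 < Λ → ∃ C : ℝ, 0 < C ∧ ∀ (z κ : ℝ) (M : ℕ), 1 ≤ z → 0 < M →
  ∑ b ∈ M.divisors.filter (fun b => κ ≤ Lz z b), (Nat.totient (M / b) : ℝ) / M ≤
    C * exp (-(Λ * z * κ))

def S_An1 : Prop := ∀ Λ : ℝ, 0 < Λ → ∃ C : ℝ, 0 < C ∧ ∀ (z κ t : ℝ) (ψ : ℕ → ℝ) (S : Finset ℕ)
  (F : Finset (ℕ × ℕ)) (N α β i j : ℕ), 1 ≤ z → 0 ≤ t → Blk0 ψ S → F ⊆ S ×ˢ S → 0 < N → 0 < α →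
  0 < β → StrF F N α β i j →
  (∀ e ∈ F, ψ e.1 * cf e.2 e.1 ≤ t ∧ (κ ≤ Lz z (cf e.1 (α * N)) ∨ κ ≤ Lz z (cf (α * N) e.1))) →
  mV ψ (F.image Prod.fst) ≤ C * exp (-(Λ * z * κ)) * (t / β * 2 ^ i / 2 ^ j)

def S_An : Prop := ∀ Λ : ℝ, 0 < Λ → ∃ C z1 : ℝ, 0 < C ∧ ∀ (z K t : ℝ) (ψ : ℕ → ℝ) (S : Finset ℕ)
  (E : Finset (ℕ × ℕ)), z1 ≤ z → 0 ≤ K → 0 < t → Blk0 ψ S → E ⊆ S ×ˢ S →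
  (∀ e ∈ E, Dd ψ e.1 e.2 ≤ t ∧ K ≤ Lz z (cf e.1 e.2 * cf e.2 e.1)) →
  mE ψ E ^ (21 / 10 : ℝ) ≤ C * t ^ 2 * exp (-(Λ * z * K))

/-- conclusion of `S_An2` for a given `z0` -/
def AnZ (z0 : ℝ) : Prop := 2 ^ 100 ≤ z0 ∧ ∃ C : ℝ, 0 < C ∧ ∀ (t : ℝ) (ψ : ℕ → ℝ) (S : Finset ℕ)
  (E : Finset (ℕ × ℕ)), 0 < t → Blk0 ψ S → E ⊆ S ×ˢ S →
  (∀ e ∈ E, Dd ψ e.1 e.2 ≤ t ∧ 1 ≤ Lz (zz z0 t) (cf e.1 e.2 * cf e.2 e.1)) →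
  ∑ e ∈ E, mu ψ e.1 * mu ψ e.2 * exp (4 * Lz (zz z0 t) (cf e.1 e.2 * cf e.2 e.1)) ≤
    C / TT t ^ 10

def S_An2 : Prop := ∃ z0 : ℝ, AnZ z0

def S_BL : Prop := ∀ (ξ ε H : ℝ) (A0 : ℕ), 0 < ε → 1 ≤ H → 0 < A0 →
  (∀ (ρ : ℝ) (T : Finset ℕ), (∀ a ∈ T, A0 ≤ a ∧ a < 2 * A0 ∧ ∃ n : ℤ, |a * ξ - ρ - n| ≤ ε) →
    (T.card : ℝ) ≤ 2 * ε * A0 + 5 * A0 / H + 2 * H) ∨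
  ∃ k : ℕ, 1 ≤ k ∧ (k : ℝ) ≤ H ∧ ∃ c : ℤ, |k * ξ - c| ≤ ε * H ^ 2 / A0

def S_Exa : Prop := ∀ (γ t H R R' : ℝ) (A A' c c' m : ℤ) (B B' X X' a a' A0 A0' k k' e : ℕ),
  0 < t → 0 < B → 0 < B' → (B : ℝ) ≤ R → (B' : ℝ) ≤ R' → IsCoprime A (B : ℤ) →
  IsCoprime A' (B' : ℤ) → |γ * B - A| ≤ 1 / R → |γ * B' - A'| ≤ 1 / R' → 0 < X → 0 < X' →
  Nat.Coprime X X' → 0 < A0 → 0 < A0' → a < 2 * A0 → a' < 2 * A0' → 1 ≤ k → (k : ℝ) ≤ H → 1 ≤ k' →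
  (k' : ℝ) ≤ H → |k * X * γ - c| ≤ 2 * t * H ^ 2 / A0' → |k' * X' * γ - c'| ≤ 2 * t * H ^ 2 / A0 →
  k * X / R + R * (2 * t * H ^ 2 / A0') < 1 → k' * X' / R' + R' * (2 * t * H ^ 2 / A0) < 1 →
  2 * t * H ^ 2 * (k * X / A0 + k' * X' / A0') < 1 →
  |m + γ * (((X * a' : ℕ) : ℝ) - (X' * a : ℕ))| ≤ 2 * t → Nat.Coprime e (B * B') →
  (e : ℤ) ∣ nu A A' B B' (X' * a) (X * a') m → 2 * t * H ^ 2 + 8 * t * H ^ 3 < e →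
  Ex A A' B B' (X' * a) (X * a') m

def S_Tau : Prop := ∀ ε : ℝ, 0 < ε → ∃ C : ℝ, 0 < C ∧ ∀ n : ℕ,
  (n.divisors.card : ℝ) ≤ C * (n : ℝ) ^ ε

def S_Big : Prop := ∀ (M : ℕ) (Y K : ℝ) (T : Finset ℕ), 0 < M → 0 < Y → 0 ≤ K →
  (∀ b ∈ T, b ∣ M ∧ Y ≤ b ∧ (M.divisors.card : ℝ) ≤ K * √b) →
  ∑ b ∈ T, (Nat.totient (M / b) : ℝ) / M ≤ K / √Y

def S_Deg : Prop := ∀ (ψ : ℕ → ℝ) (V : Finset ℕ) (M : ℕ) (c0 t H n0 : ℝ), 0 < M → 0 < c0 → 0 < t →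
  1 ≤ H → 0 ≤ n0 →
  (∀ q ∈ V, 0 < q ∧ 0 < ψ q ∧ ψ q ≤ 1 ∧ t / H ≤ ψ q * (c0 * cf M q) ∧ ψ q * (c0 * cf M q) ≤ t) →
  (∀ l b : ℕ, ((V.filter fun q => lv ψ q = l ∧ cf M q = b).card : ℝ) ≤ n0) →
  mV ψ V ≤ 6 * √H * n0 * (t / c0)

def S_RegA1 : Prop := ∀ (t H : ℝ) (ψ : ℕ → ℝ) (N α β i j q r : ℕ), 16 ≤ H → 0 < t →
  1 ≤ t * H ^ 4 → 0 < ψ q → 0 < ψ r → H ^ 288 ≤ Rm ψ q r → t / H ≤ ψ q * cf r q →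
  t / H ≤ ψ r * cf q r → Str N α β q r → Dy i (cf q (α * N)) → Dy j (cf r (β * N)) → 0 < α → 0 < β →
  (α : ℝ) * β ≤ H ^ 28 → (2 : ℝ) ^ Nat.dist i j ≤ H ^ 44 →
  (cf (β * N) r ^ 4 ≤ 2 ^ i ∨ (cf (β * N) r : ℝ) ≤ H ^ 4) →
  (cf (α * N) q ^ 4 ≤ 2 ^ j ∨ (cf (α * N) q : ℝ) ≤ H ^ 4) →
  H ^ 156 ≤ 2 ^ i ∧ H ^ 156 ≤ 2 ^ j

def S_RegA2 : Prop := ∀ (γ t H : ℝ) (A : ℕ → ℤ) (B : ℕ → ℕ) (ψ : ℕ → ℝ) (e N α β i j q r : ℕ),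
  Ctr γ A B → 16 ≤ H → 0 < t → (e : ℝ) = t * H ^ 4 → t ≤ H ^ 4 → 0 < q → 0 < r → 0 < N → 0 < α →
  0 < β → 0 < ψ q → ψ q ≤ 1 / 2 → 0 < ψ r → ψ r ≤ 1 / 2 → RegE γ A B ψ t H e q r → Str N α β q r →
  Dy i (cf q (α * N)) → Dy j (cf r (β * N)) → (α : ℝ) * β ≤ H ^ 28 →
  (2 : ℝ) ^ Nat.dist i j ≤ H ^ 44 → cf (β * N) r ^ 4 ≤ 2 ^ i → cf (α * N) q ^ 4 ≤ 2 ^ j →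
  H ^ 156 ≤ 2 ^ i → H ^ 156 ≤ 2 ^ j → Res γ t H (α * cf (β * N) r) (2 ^ i) →
  Res γ t H (β * cf (α * N) q) (2 ^ j) → False

def S_RegB1 : Prop := ∀ (γ t H : ℝ) (A A' : ℤ) (B B' X v e A0 : ℕ) (T : Finset ℕ), 1 ≤ H → 0 < t →
  (e : ℝ) = t * H ^ 4 → H ^ 2 ≤ A0 → ¬Res γ t H X A0 →
  (∀ a ∈ T, A0 ≤ a ∧ a < 2 * A0 ∧ BadK γ A A' B B' (X * a) v t e) → (T.card : ℝ) ≤ 11 * A0 / H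

def S_RegB : Prop := ∀ (γ t H : ℝ) (A : ℕ → ℤ) (B : ℕ → ℕ) (ψ : ℕ → ℝ) (S : Finset ℕ)
  (F : Finset (ℕ × ℕ)) (e N α β i j : ℕ), Blk0 ψ S → F ⊆ S ×ˢ S → 1 ≤ H → 0 < t →
  (e : ℝ) = t * H ^ 4 → 0 < N → 0 < α → 0 < β → H ^ 2 ≤ 2 ^ i → StrF F N α β i j →
  (∀ x ∈ F, RegE γ A B ψ t H e x.1 x.2 ∧ ¬Res γ t H (α * cf (β * N) x.2) (2 ^ i)) →
  mE ψ F ≤ 66 / √H * (mV ψ (F.image Prod.snd) * (t / β * 2 ^ i / 2 ^ j))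

def S_RegC : Prop := ∀ θ : ℝ, 100000 ≤ θ → ∃ C : ℝ, 0 < C ∧ ∀ (t H : ℝ) (ψ : ℕ → ℝ) (S : Finset ℕ)
  (F : Finset (ℕ × ℕ)) (N α β i j : ℕ), Blk θ ψ S → F ⊆ S ×ˢ S → 2 ≤ H → 0 < t → 1 ≤ t * H ^ 4 →
  0 < N → 0 < α → 0 < β → (α : ℝ) * β ≤ H ^ 28 → StrF F N α β i j →
  (∀ x ∈ F, t / H ≤ ψ x.2 * cf x.1 x.2 ∧ ψ x.2 * cf x.1 x.2 ≤ t ∧ 2 ^ i < cf (β * N) x.2 ^ 4 ∧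
    H ^ 4 < cf (β * N) x.2) →
  mV ψ (F.image Prod.snd) ≤ C / √H * (t / α * 2 ^ j / 2 ^ i)

def S_Reg : Prop := ∀ θ : ℝ, 100000 ≤ θ → ∃ C : ℝ, 0 < C ∧ ∀ (γ t H : ℝ) (A : ℕ → ℤ) (B : ℕ → ℕ)
  (ψ : ℕ → ℝ) (S : Finset ℕ) (E : Finset (ℕ × ℕ)) (e N α β i j : ℕ), Ctr γ A B → Blk θ ψ S →
  E ⊆ S ×ˢ S → 16 ≤ H → 0 < t → (e : ℝ) = t * H ^ 4 → t ≤ H ^ 4 → 0 < N → 0 < α → 0 < β →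
  (α : ℝ) * β ≤ H ^ 28 → (2 : ℝ) ^ Nat.dist i j ≤ H ^ 44 →
  (∀ x ∈ E, RegE γ A B ψ t H e x.1 x.2) → Sav ψ E t t (C / √H) N α β i j

def S_Low : Prop := ∀ θ : ℝ, 100000 ≤ θ → ∃ C : ℝ, 0 < C ∧ ∀ (γ t H : ℝ) (A : ℕ → ℤ) (B : ℕ → ℕ)
  (ψ : ℕ → ℝ) (S : Finset ℕ) (E : Finset (ℕ × ℕ)) (e : ℕ), Ctr γ A B → Blk θ ψ S →
  E ⊆ S ×ˢ S → 16 ≤ H → 0 < t → (e : ℝ) = t * H ^ 4 → 0 < e → t ≤ H ^ 4 →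
  (∀ x ∈ E, BadE γ A B ψ t e x.1 x.2 ∧ H ^ 288 ≤ Rm ψ x.1 x.2) →
  mE ψ E ^ (21 / 10 : ℝ) ≤ C * t ^ 2 / √H

def S_HD1 : Prop := ∀ (ψ : ℕ → ℝ) (S : Finset ℕ) (E : Finset (ℕ × ℕ)) (τ κ n0 : ℝ), Blk0 ψ S →
  E ⊆ S ×ˢ S → (∀ q ∈ S, (q.divisors.card : ℝ) ≤ τ) → 0 ≤ κ → 0 ≤ n0 → (∀ x ∈ E, ψ x.1 ≤ κ) →
  (∀ r v : ℕ, ∀ T : Finset ℕ, (∀ u ∈ T, ∃ q, (q, r) ∈ E ∧ cf q r = u ∧ cf r q = v) →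
    (T.card : ℝ) ≤ n0) →
  ∑ x ∈ E, ψ x.1 * ψ x.2 ≤ τ ^ 2 * κ * n0

def S_HD2 : Prop := ∃ G0 : ℝ, 1 ≤ G0 ∧ ∀ (γ t G : ℝ) (A : ℕ → ℤ) (B : ℕ → ℕ) (ψ : ℕ → ℝ) (q r U : ℕ),
  Ctr γ A B → G0 ≤ G → t * G ^ 16 = 1 → 0 < q → 0 < r → 0 < ψ q → ψ q ≤ 1 / 2 → 0 < ψ r →
  ψ r ≤ 1 / 2 → BadE γ A B ψ t 1 q r → t / G ^ 2 ≤ ψ q * cf r q → t / G ^ 2 ≤ ψ r * cf q r →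
  0 < U → cf q r < 2 * U → (cf r q : ℝ) ≤ 2 * U * G →
  G ^ 4 ≤ U ∧ ¬∃ k : ℕ, 1 ≤ k ∧ (k : ℝ) ≤ G ^ 2 ∧ ∃ c : ℤ, |k * γ - c| ≤ 2 * t * (G ^ 2) ^ 2 / U

def S_HighD : Prop := ∃ C G0 : ℝ, 0 < C ∧ 1 ≤ G0 ∧ ∀ (γ t G τ : ℝ) (A : ℕ → ℤ) (B : ℕ → ℕ) (ψ : ℕ → ℝ)
  (S : Finset ℕ) (E : Finset (ℕ × ℕ)) (i j : ℕ), Ctr γ A B → Blk0 ψ S → E ⊆ S ×ˢ S → G0 ≤ G →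
  t * G ^ 16 = 1 → (∀ q ∈ S, (q.divisors.card : ℝ) ≤ τ) → i ≤ j →
  (∀ x ∈ E, BadE γ A B ψ t 1 x.1 x.2 ∧ Dy i (cf x.1 x.2) ∧ Dy j (cf x.2 x.1)) →
  ∑ x ∈ E, ψ x.1 * ψ x.2 ≤ C * τ ^ 2 * t / G

def S_HighA : Prop := ∃ C G0 : ℝ, 0 < C ∧ 1 ≤ G0 ∧ ∀ (γ t G τ : ℝ) (A : ℕ → ℤ) (B : ℕ → ℕ)
  (ψ : ℕ → ℝ) (S : Finset ℕ) (E : Finset (ℕ × ℕ)) (n : ℕ), Ctr γ A B → Blk0 ψ S → E ⊆ S ×ˢ S →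
  G0 ≤ G → t * G ^ 16 = 1 → (∀ q ∈ S, (q.divisors.card : ℝ) ≤ τ) →
  (∀ x ∈ E, BadE γ A B ψ t 1 x.1 x.2 ∧ cf x.1 x.2 < 2 ^ n ∧ cf x.2 x.1 < 2 ^ n) →
  ∑ x ∈ E, ψ x.1 * ψ x.2 ≤ C * n ^ 2 * τ ^ 2 * t / G

def S_High : Prop := ∀ θ : ℝ, 100000 ≤ θ → ∃ C : ℝ, 0 < C ∧ ∀ (γ t : ℝ) (A : ℕ → ℤ) (B : ℕ → ℕ)
  (ψ : ℕ → ℝ) (S : Finset ℕ) (E : Finset (ℕ × ℕ)), Ctr γ A B → Blk θ ψ S → E ⊆ S ×ˢ S → 0 < t →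
  t ≤ 2 → (∀ x ∈ E, BadE γ A B ψ t 1 x.1 x.2 ∧ Rm ψ x.1 x.2 ≤ (2 / t) ^ 700) →
  ∑ x ∈ E, ψ x.1 * ψ x.2 ≤ C * t * TT t ^ (-(1 / 50) : ℝ)

def S_CRT : Prop := ∀ (P : Finset ℕ) (h : ℕ → ℤ → ℝ) (lo : ℤ) (n : ℕ), (∀ p ∈ P, p.Prime) →
  (∀ p ∈ P, p ∣ n ∨ ∀ a : ℤ, h p a = h p 0) → (∀ p ∈ P, ∀ a : ℤ, h p (a + p) = h p a) →
  ∑ a ∈ Finset.Ico lo (lo + n), ∏ p ∈ P, h p a =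
    n * ∏ p ∈ P, (∑ c ∈ Finset.range p, h p c) / p

def S_Cnt1 : Prop := ∀ (A A' k a0 a0' : ℤ) (B B' g u v p : ℕ), p.Prime → Nat.Coprime u v →
  IsCoprime A (B : ℤ) → IsCoprime A' (B' : ℤ) → v * a0 - u * a0' = k → p ∣ g * u * (g * v) →
  (if p ∣ g * u ∧ p ∣ B then 1 - (p : ℝ)⁻¹ else 1) * (if p ∣ g * v ∧ p ∣ B' then 1 - (p : ℝ)⁻¹ else 1) *
    ((((Finset.range p).filter fun c : ℕ => ¬(p ∣ g * u ∧ (p : ℤ) ∣ (a0 + u * c) * B + A) ∧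
      ¬(p ∣ g * v ∧ (p : ℤ) ∣ (a0' + v * c) * B' + A')).card : ℝ) / p) ≤
  (if p ∣ g * u then 1 - (p : ℝ)⁻¹ else 1) * (if p ∣ g * v then 1 - (p : ℝ)⁻¹ else 1) *
    chi A A' B B' u v k p

def S_Cnt : Prop := ∀ (A A' k lo : ℤ) (B B' q r : ℕ) (T : Finset (ℤ × ℤ)), 0 < q → 0 < r →
  IsCoprime A (B : ℤ) → IsCoprime A' (B' : ℤ) →
  (∀ x ∈ T, lo ≤ x.1 ∧ x.1 < lo + 6 * q ∧ cf r q * x.1 - cf q r * x.2 = k ∧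
    IsCoprime (x.1 * B + A) (q : ℤ) ∧ IsCoprime (x.2 * B' + A') (r : ℤ)) →
  om q B * om r B' * T.card ≤
    6 * q.gcd r * ((Nat.totient q : ℝ) / q * ((Nat.totient r : ℝ) / r)) * FF A A' B B' q r k

def S_Dead : Prop := ∀ (A A' k : ℤ) (B B' q r : ℕ), 0 < q → 0 < r →
  0 ≤ FF A A' B B' q r k ∧
  (Nat.totient q : ℝ) / q * ((Nat.totient r : ℝ) / r) * FF A A' B B' q r k ≤ 1 ∧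
  (Nat.totient q : ℝ) / q * FF A A' B B' q q k ≤ 1 ∧
  (0 < B → 0 < B' → IsCoprime A (B : ℤ) → IsCoprime A' (B' : ℤ) → q ≠ r →
    Ex A A' B B' (cf q r) (cf r q) k → FF A A' B B' q r k = 0)

def S_Ovl : Prop := ∀ (γ c t : ℝ) (A : ℕ → ℤ) (B : ℕ → ℕ) (ψ : ℕ → ℝ) (q r : ℕ), Ctr γ A B →
  0 < q → 0 < r → 0 < ψ q → ψ q ≤ 1 / 2 → 0 < ψ r → ψ r ≤ 1 / 2 → Dd ψ q r ≤ t →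
  om q (B (lv ψ q)) * om r (B (lv ψ r)) * volume.real (AA q γ (ψ q) (A (lv ψ q)) (B (lv ψ q)) ∩
    AA r γ (ψ r) (A (lv ψ r)) (B (lv ψ r)) ∩ Set.Icc (c - 1) (c + 2)) ≤ 12 * WW γ A B ψ t q r

def S_Exp1 : Prop := ∀ (z : ℝ) (A A' k : ℤ) (B B' q r : ℕ), 2 ^ 100 ≤ z → 0 < q → 0 < r →
  FF A A' B B' q r k ≤ GG z A A' B B' q r k * PP z (cf q r * cf r q) *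
    ∑ e ∈ (Er (q.gcd r) z (B * B')).filter
      (fun e : ℕ => (e : ℤ) ∣ nu A A' B B' (cf q r) (cf r q) k), (e : ℝ) ^ (-(99 / 100) : ℝ)

def S_Exp2 : Prop := ∀ (z : ℝ) (A A' k : ℤ) (B B' q r : ℕ), 1 ≤ z → 0 < q → 0 < r →
  0 ≤ GG z A A' B B' q r k ∧ GG z A A' B B' q r k ≤ 2 * √z ∧ 0 ≤ PP z (cf q r * cf r q) ∧
  PP z (cf q r * cf r q) ≤ exp (2 * Lz z (cf q r * cf r q)) ∧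
  GG z A A' B B' q r k * PP z (cf q r * cf r q) ≤ q.divisors.card * r.divisors.card

def S_Leg : Prop := ∀ (z : ℝ) (A A' lo hi : ℤ) (B B' q r : ℕ), 0 ≤ z → 0 < q → 0 < r →
  ∑ k ∈ Finset.Icc lo hi, GG z A A' B B' q r k ≤ 3 * ((Finset.Icc lo hi).card + 4 ^ z)

def S_Tail : Prop := (∀ (z : ℝ) (T : Finset ℕ), 1 ≤ z → (∀ e ∈ T, z < (e : ℝ)) →
    √z * ∑ e ∈ T, (e : ℝ) ^ (-(99 / 100) : ℝ) / e ≤ 4) ∧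
  (∀ (γ t : ℝ) (A A' : ℤ) (B B' u v e : ℕ), 0 ≤ t → 0 < e → Nat.Coprime e (B * B') →
    (((KK γ u v t).filter fun k => (e : ℤ) ∣ nu A A' B B' u v k).card : ℝ) ≤ 4 * t / e + 1) ∧
  ∃ C : ℝ, 0 < C ∧ ∀ T : Finset ℕ,
    ∑ e ∈ T, (e : ℝ) ^ (-(99 / 100) : ℝ) * (e : ℝ) ^ (-(1 / 60) : ℝ) ≤ C

open Classical in
def S_Sum : Prop := ∃ C : ℝ, 0 < C ∧ ∀ (γ t z X : ℝ) (A A' : ℤ) (B B' q r : ℕ), 2 ^ 100 ≤ z →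
  0 < t → 1 ≤ X → 0 < q → 0 < r → q ≠ r → 0 < B → 0 < B' → IsCoprime A (B : ℤ) →
  IsCoprime A' (B' : ℤ) →
  ∑ k ∈ KK γ (cf q r) (cf r q) t, FF A A' B B' q r k ≤
    C * exp (2 * Lz z (cf q r * cf r q)) * (t + (if 1 ≤ t then 4 ^ z else 0) +
      z * ∑ e ∈ (Finset.Icc 1 ⌊X⌋₊).filter (fun e => BadK γ A A' B B' (cf q r) (cf r q) t e),
        (e : ℝ) ^ (-(99 / 100) : ℝ)) +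
    (4 * t + 1) * (q.divisors.card ^ 2 * r.divisors.card) / √X

def S_LevR : Prop := ∀ Y0 : ℝ, 1 ≤ Y0 → ∃ C : ℝ, 0 < C ∧ ∀ t e : ℝ, 0 < t → 1 ≤ e →
  (t * max Y0 (TT t) ≤ e → t ^ (20 / 21 : ℝ) * (e / t) ^ (-(5 / 84) : ℝ) +
    t ^ (10 / 21 : ℝ) * (e / t) ^ (-(5 / 168) : ℝ) / TT t ^ 5 ≤
      C * (t * TT t ^ (-(1 / 84) : ℝ) * e ^ (-(1 / 60) : ℝ))) ∧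
  (e < t * max Y0 (TT t) → 1 ≤ C * (t * TT t ^ (-(1 / 84) : ℝ) * e ^ (-(1 / 60) : ℝ)))

def S_LevA : Prop := ∀ z0 : ℝ, AnZ z0 → ∃ C : ℝ, 0 < C ∧ ∀ (t : ℝ) (ψ : ℕ → ℝ) (S : Finset ℕ)
  (E : Finset (ℕ × ℕ)), 0 < t → Blk0 ψ S → E ⊆ S ×ˢ S → (∀ x ∈ E, Dd ψ x.1 x.2 ≤ t) →
  ∑ x ∈ E, mu ψ x.1 * mu ψ x.2 * exp (2 * Lz (zz z0 t) (cf x.1 x.2 * cf x.2 x.1)) ≤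
    C * (mE ψ E + √(mE ψ E) / TT t ^ 5)

def S_LevB1 : Prop := ∀ θ z0 : ℝ, 100000 ≤ θ → AnZ z0 → ∃ C : ℝ, 0 < C ∧ ∀ (γ t : ℝ) (A : ℕ → ℤ)
  (B : ℕ → ℕ) (ψ : ℕ → ℝ) (S : Finset ℕ) (E : Finset (ℕ × ℕ)) (e : ℕ), Ctr γ A B → Blk θ ψ S →
  E ⊆ S ×ˢ S → 0 < t → 0 < e →
  (∀ x ∈ E, BadE γ A B ψ t e x.1 x.2 ∧ ((e : ℝ) / t) ^ 72 ≤ Rm ψ x.1 x.2) →
  ∑ x ∈ E, mu ψ x.1 * mu ψ x.2 * exp (2 * Lz (zz z0 t) (cf x.1 x.2 * cf x.2 x.1)) ≤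
    C * (t * TT t ^ (-(1 / 84) : ℝ) * (e : ℝ) ^ (-(1 / 60) : ℝ))

open Classical in
def S_LevB : Prop := ∀ θ z0 : ℝ, 100000 ≤ θ → AnZ z0 → ∃ C : ℝ, 0 < C ∧ ∀ (γ t : ℝ) (A : ℕ → ℤ)
  (B : ℕ → ℕ) (ψ : ℕ → ℝ) (S : Finset ℕ) (E : Finset (ℕ × ℕ)), Ctr γ A B → Blk θ ψ S →
  E ⊆ S ×ˢ S → 0 < t →
  (∀ x ∈ E, x.1 ≠ x.2 ∧ Dd ψ x.1 x.2 ≤ t ∧ 1 ≤ Dd ψ x.1 x.2 ^ 700 * Rm ψ x.1 x.2) →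
  zz z0 t / t * ∑ x ∈ E, mu ψ x.1 * mu ψ x.2 * exp (2 * Lz (zz z0 t) (cf x.1 x.2 * cf x.2 x.1)) *
    ∑ e ∈ (Finset.Icc 1 ⌊Rm ψ x.1 x.2 ^ (8 / 700 : ℝ)⌋₊).filter (fun e => BadK γ (A (lv ψ x.1))
      (A (lv ψ x.2)) (B (lv ψ x.1)) (B (lv ψ x.2)) (cf x.1 x.2) (cf x.2 x.1) t e),
      (e : ℝ) ^ (-(99 / 100) : ℝ) ≤ C * TT t ^ (-(1 / 100) : ℝ)

def S_LevC : Prop := ∀ θ : ℝ, 100000 ≤ θ → ∃ C : ℝ, 0 < C ∧ ∀ (t : ℝ) (ψ : ℕ → ℝ) (q r : ℕ), 0 < q →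
  0 < r → 0 < ψ q → ψ q ≤ 1 / 2 → 0 < ψ r → ψ q ≤ (q.divisors.card : ℝ) ^ (-θ) → ψ r ≤ (r.divisors.card : ℝ) ^ (-θ) →
  t ≤ 2 * Dd ψ q r → 1 ≤ Dd ψ q r ^ 700 * Rm ψ q r →
  (4 * t + 1) * (q.divisors.card ^ 2 * r.divisors.card) / √(Rm ψ q r ^ (8 / 700 : ℝ)) ≤
    C * Dd ψ q r

def S_LevL : Prop := ∀ θ : ℝ, 100000 ≤ θ → ∃ C : ℝ, 0 < C ∧ ∀ (γ t : ℝ) (A : ℕ → ℤ)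
  (B : ℕ → ℕ) (ψ : ℕ → ℝ) (S : Finset ℕ) (E : Finset (ℕ × ℕ)), Ctr γ A B → Blk θ ψ S →
  E ⊆ S ×ˢ S → 0 < t → (∀ x ∈ E, x.1 ≠ x.2 ∧ Dd ψ x.1 x.2 ≤ t ∧ t ≤ 2 * Dd ψ x.1 x.2 ∧
    1 ≤ Dd ψ x.1 x.2 ^ 700 * Rm ψ x.1 x.2) →
  ∑ x ∈ E, WW γ A B ψ t x.1 x.2 ≤ C * (mE ψ E + TT t ^ (-(1 / 100) : ℝ))

def S_LevH : Prop := ∀ θ : ℝ, 100000 ≤ θ → ∃ C : ℝ, 0 < C ∧ ∀ (γ t : ℝ) (A : ℕ → ℤ)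
  (B : ℕ → ℕ) (ψ : ℕ → ℝ) (S : Finset ℕ) (E : Finset (ℕ × ℕ)), Ctr γ A B → Blk θ ψ S →
  E ⊆ S ×ˢ S → 0 < t → (∀ x ∈ E, x.1 ≠ x.2 ∧ Dd ψ x.1 x.2 ≤ t ∧ t ≤ 2 * Dd ψ x.1 x.2 ∧
    Dd ψ x.1 x.2 ^ 700 * Rm ψ x.1 x.2 < 1) →
  ∑ x ∈ E, WW γ A B ψ t x.1 x.2 ≤ C * TT t ^ (-(1 / 100) : ℝ)

def S_Mom : Prop := ∀ θ : ℝ, 100000 ≤ θ → ∃ C : ℝ, 0 < C ∧ ∀ (γ c : ℝ) (A : ℕ → ℤ) (B : ℕ → ℕ)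
  (ψ : ℕ → ℝ) (S : Finset ℕ), Ctr γ A B → Blk θ ψ S →
  ∑ q ∈ S, ∑ r ∈ S, om q (B (lv ψ q)) * om r (B (lv ψ r)) *
    volume.real (AA q γ (ψ q) (A (lv ψ q)) (B (lv ψ q)) ∩
      AA r γ (ψ r) (A (lv ψ r)) (B (lv ψ r)) ∩ Set.Icc (c - 1) (c + 2)) ≤ C

def S_Loc2 : Prop := ∀ η : ℝ, 0 < η → ∃ Q : ℕ, ∀ q ≥ Q, ∀ (γ ψ c : ℝ) (A : ℤ) (B : ℕ) (K : Set ℝ),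
  IsCoprime A (B : ℤ) → 0 ≤ ψ → ψ ≤ 1 / 2 → K ⊆ Set.Icc c (c + 1) →
  (Nat.totient q : ℝ) / q * ψ * volume.real K ≤
    om q B * volume.real (AA q γ ψ A B ∩ thickening η K)

def S_Full : Prop := ∀ (E : ℕ → Set ℝ) (m ω : ℕ → ℝ) (C : ℝ), (∀ q, IsOpen (E q)) → 0 < C →
  (∀ η > 0, ∃ Q : ℕ, ∀ q ≥ Q, ∀ (x : ℝ) (K : Set ℝ), K ⊆ Set.Icc x (x + 1) →
    m q * volume.real K ≤ ω q * volume.real (E q ∩ thickening η K)) →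
  (∀ Q : ℕ, ∃ S : Finset ℕ, (∀ q ∈ S, Q ≤ q) ∧ 1 / 2 ≤ ∑ q ∈ S, m q ∧
    ∀ x : ℝ, ∑ q ∈ S, ∑ r ∈ S, ω q * ω r * volume.real (E q ∩ E r ∩ Set.Icc (x - 1) (x + 2)) ≤ C) →
  ∀ᵐ x : ℝ, ∃ᶠ q in atTop, x ∈ E q

def S_Ctr : Prop := ∀ γ : ℝ, ∃ (A : ℕ → ℤ) (B : ℕ → ℕ), Ctr γ A B

def S_Main : Prop := ∀ (γ θ : ℝ) (ψ : ℕ → ℝ), 100000 ≤ θ → (∀ q, 0 ≤ ψ q) →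
  (¬Summable fun q : ℕ => (Nat.totient q : ℝ) / q * min (ψ q) ((q.divisors.card : ℝ) ^ (-θ))) →
  volume {x : ℝ | {q : ℕ | 0 < q ∧ ∃ a : ℤ, |q * x - γ - a| < ψ q}.Infinite}ᶜ = 0

end Vale.Agent.P028.T
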