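import Vale.Agent.P028.TStm

namespace Vale.Agent.P028.T

open Real Finset MeasureTheory Filter Metric

theorem tau_loc {ε : ℝ} (hε : 0 < ε) : ∃ (C0 : ℝ) (P : ℕ), 1 ≤ C0 ∧ ∀ p k : ℕ, 2 ≤ p →
    ((k : ℝ) + 1) ≤ (if p < P then C0 else 1) * ((p : ℝ) ^ k) ^ ε := by
  have hl : 0 < log 2 := log_pos one_lt_two
  have hx : 0 < ε * log 2 := mul_pos hε hl
  refine ⟨max 1 (1 / (ε * log 2)), ⌈exp (log 2 / ε)⌉₊, le_max_left _ _, fun p k hp => ?_⟩
  have hp' : (2 : ℝ) ≤ p := by exact_mod_cast hp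
  have hp0 : (0 : ℝ) < p := by linarith
  have hk : (0 : ℝ) ≤ k := Nat.cast_nonneg k
  rw [rpow_def_of_pos (pow_pos hp0 k), log_pow]
  split_ifs with h
  · have h1 : log 2 ≤ log p := log_le_log two_pos hp'
    have h2 : k * (ε * log 2) + 1 ≤ exp (k * log p * ε) := by
      refine (add_one_le_exp _).trans (exp_le_exp.2 ?_)
      have := mul_le_mul_of_nonneg_left h1 (mul_nonneg hk hε.le)
      linarith
    have h3 : 1 ≤ max 1 (1 / (ε * log 2)) := le_max_left _ _
    have h4 : 1 ≤ max 1 (1 / (ε * log 2)) * (ε * log 2) :=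
      (div_le_iff₀ hx).1 (le_max_right _ _)
    generalize max 1 (1 / (ε * log 2)) = C at h3 h4 ⊢
    have h5 := mul_le_mul_of_nonneg_left h2 (by linarith : 0 ≤ C)
    have h6 := mul_le_mul_of_nonneg_left h4 hk
    linarith
  · have h1 : exp (log 2 / ε) ≤ p := Nat.ceil_le.1 (not_lt.1 h)
    have h2 : log 2 / ε ≤ log p := (le_log_iff_exp_le hp0).2 h1
    have h3 : log 2 ≤ log p * ε := (div_le_iff₀ hε).1 h2
    have h4 : ((k : ℝ) + 1) ≤ 2 ^ k := by exact_mod_cast Nat.lt_two_pow_self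
    have h5 : (2 : ℝ) ^ k = exp (k * log 2) := by rw [exp_nat_mul, exp_log two_pos]
    rw [one_mul]
    refine h4.trans (h5.le.trans (exp_le_exp.2 ?_))
    have := mul_le_mul_of_nonneg_left h3 hk
    linarith

theorem tau_pf : S_Tau := by
  intro ε hε
  obtain ⟨C0, P, h1, h⟩ := tau_loc hε
  refine ⟨C0 ^ P, by positivity, fun n => ?_⟩
  rcases eq_or_ne n 0 with rfl | hn
  · rw [Nat.divisors_zero, card_empty, Nat.cast_zero]
    positivity
  have e : (n : ℝ) = ∏ p ∈ n.primeFactors, (p : ℝ) ^ n.factorization p := by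
    have := Nat.factorization_prod_pow_eq_self hn
    rw [Finsupp.prod, Nat.support_factorization] at this
    exact_mod_cast this.symm
  have e2 : (n : ℝ) ^ ε = ∏ p ∈ n.primeFactors, ((p : ℝ) ^ n.factorization p) ^ ε := by
    rw [Real.finset_prod_rpow _ _ (fun _ _ => by positivity), ← e]
  rw [Nat.card_divisors hn, e2]
  push_cast
  refine (prod_le_prod (fun _ _ => by positivity) fun p hp =>
    h p _ (Nat.prime_of_mem_primeFactors hp).two_le).trans ?_
  rw [prod_mul_distrib]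
  refine mul_le_mul_of_nonneg_right ?_ (prod_nonneg fun _ _ => by positivity)
  rw [← prod_filter, prod_const]
  refine pow_le_pow_right₀ h1 ?_
  refine (card_le_card (t := range P) fun p hp => mem_range.2 (mem_filter.1 hp).2).trans ?_
  rw [card_range]

theorem big_pf : S_Big := by
  intro M Y K T hM hY hK hT
  rcases T.eq_empty_or_nonempty with rfl | hne
  · rw [sum_empty]; positivity
  obtain ⟨c, hc, hm⟩ := T.exists_min_image (fun b => b) hne
  obtain ⟨-, c2, c3⟩ := hT c hc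
  have hM' : (0 : ℝ) < M := by exact_mod_cast hM
  have hc0 : (0 : ℝ) < c := hY.trans_le c2
  have hs : 0 < √(c : ℝ) := sqrt_pos.2 hc0
  have key : ∀ b ∈ T, (Nat.totient (M / b) : ℝ) / M ≤ 1 / c := by
    intro b hb
    have hb0 : (c : ℝ) ≤ b := by exact_mod_cast hm b hb
    have a1 : (Nat.totient (M / b) : ℝ) ≤ M / b :=
      le_trans (by exact_mod_cast Nat.totient_le _) Nat.cast_div_le
    calc (Nat.totient (M / b) : ℝ) / M ≤ (M / b) / M := div_le_div_of_nonneg_right a1 hM'.le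
      _ = 1 / b := by field_simp
      _ ≤ _ := one_div_le_one_div_of_le hc0 hb0
  have hcard : (T.card : ℝ) ≤ K * √c :=
    le_trans (by exact_mod_cast card_le_card fun b hb => Nat.mem_divisors.2 ⟨(hT b hb).1, hM.ne'⟩) c3
  refine (sum_le_card_nsmul _ _ _ key).trans ?_
  rw [nsmul_eq_mul]
  refine (mul_le_mul_of_nonneg_right hcard (by positivity)).trans ?_
  rw [mul_one_div, mul_div_assoc, sqrt_div_self', mul_one_div]
  exact div_le_div_of_nonneg_left hK (sqrt_pos.2 hY) (sqrt_le_sqrt c2)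

theorem ctr_pf : S_Ctr := by
  intro γ
  have h1 : ∀ j : ℕ, (1 : ℝ) ≤ √(2 ^ j) := fun j => one_le_sqrt.2 (one_le_pow₀ one_le_two)
  choose q hq using fun j : ℕ =>
    exists_rat_abs_sub_le_and_den_le γ (n := ⌊√((2 : ℝ) ^ j)⌋₊) (Nat.floor_pos.2 (h1 j))
  refine ⟨fun j => (q j).num, fun j => (q j).den, fun j => ⟨(q j).pos, ?_, ?_, ?_⟩⟩
  · exact le_trans (by exact_mod_cast (hq j).2) (Nat.floor_le (sqrt_nonneg _))
  · rw [Int.isCoprime_iff_gcd_eq_one]
    exact (q j).reduced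
  · have hd : (0 : ℝ) < (q j).den := by exact_mod_cast (q j).pos
    have e : γ * (q j).den - (q j).num = (γ - q j) * (q j).den := by
      rw [Rat.cast_def]
      field_simp
    have a := mul_le_mul_of_nonneg_right (hq j).1 hd.le
    have b : (1 : ℝ) / ((⌊√((2 : ℝ) ^ j)⌋₊ + 1) * (q j).den) * (q j).den =
        1 / (⌊√((2 : ℝ) ^ j)⌋₊ + 1) := by field_simp
    rw [e, abs_mul, abs_of_pos hd]
    refine a.trans (b.le.trans ?_)
    exact one_div_le_one_div_of_le (by linarith [h1 j]) (Nat.lt_floor_add_one _).le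

end Vale.Agent.P028.T
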