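import Mathlib

/-! Overlap estimate and the second moment criterion for full measure. -/

namespace Vale.Agent.P028.X

open Real Finset MeasureTheory Filter Metric

/-- the points with `‖q x - γ‖ < ψ` -/
def EE (q : ℕ) (γ ψ : ℝ) : Set ℝ := {x | ∃ a : ℤ, |q * x - γ - a| < ψ}

theorem isOpen_EE (q : ℕ) (γ ψ : ℝ) : IsOpen (EE q γ ψ) := by
  unfold EE
  rw [Set.ofPred_exists]
  exact isOpen_iUnion fun a => isOpen_lt (by fun_prop) continuous_const

/-- one interval of `EE` -/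
def II (q : ℕ) (γ ψ : ℝ) (a : ℤ) : Set ℝ := Set.Ioo ((a + γ - ψ) / q) ((a + γ + ψ) / q)

theorem mem_II {q : ℕ} (hq : 0 < q) {γ ψ x : ℝ} {a : ℤ} :
    x ∈ II q γ ψ a ↔ |q * x - γ - a| < ψ := by
  have h : (0 : ℝ) < q := by exact_mod_cast hq
  rw [II, Set.mem_Ioo, div_lt_iff₀ h, lt_div_iff₀ h, abs_lt]
  constructor <;> intro h <;> constructor <;> linarith [h.1, h.2]

theorem vol_II {q : ℕ} (γ : ℝ) {ψ : ℝ} (hψ : 0 ≤ ψ) (a : ℤ) :
    volume.real (II q γ ψ a) = 2 * ψ / q := by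
  rw [II, Real.volume_real_Ioo_of_le (by gcongr; linarith)]; ring

theorem card_cls {u v g : ℕ} (hu : 0 < u) (hc : Nat.Coprime u v) (lo k : ℤ) :
    ((Finset.Ico lo (lo + 6 * g * u)).filter fun a => (u : ℤ) ∣ v * a - k).card ≤ 6 * g := by
  have hu' : (0 : ℤ) < u := by exact_mod_cast hu
  refine le_trans (card_le_card_of_injOn (fun a => (a - lo) / u) (t := Finset.Ico 0 (6 * g : ℤ))
    (fun a ha => ?_) fun a ha b hb e => ?_) (by rw [Int.card_Ico]; omega)
  · simp only [coe_filter, Finset.mem_Ico, Set.mem_ofPred_eq, coe_Ico, Set.mem_Ico] at ha ⊢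
    exact ⟨Int.ediv_nonneg (by omega) hu'.le, Int.ediv_lt_of_lt_mul hu' (by omega)⟩
  · simp only [coe_filter, Set.mem_ofPred_eq] at ha hb e
    have h1 : (u : ℤ) ∣ v * (a - b) := by
      have := dvd_sub ha.2 hb.2
      rwa [show (v : ℤ) * a - k - (v * b - k) = v * (a - b) by ring] at this
    have h2 : (u : ℤ) ∣ a - b := (Nat.isCoprime_iff_coprime.2 hc).dvd_of_dvd_mul_left h1
    have h3 : (a - lo) % u = (b - lo) % u :=
      (Int.emod_emod_of_dvd _ dvd_rfl).symm.trans (by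
        rw [Int.emod_emod_of_dvd _ dvd_rfl]
        exact (Int.emod_eq_emod_iff_emod_sub_eq_zero.2 (by
          rw [show a - lo - (b - lo) = a - b by ring]; exact Int.emod_eq_zero_of_dvd h2)))
    have h4 := Int.mul_ediv_add_emod (a - lo) u
    have h5 := Int.mul_ediv_add_emod (b - lo) u
    rw [e, h3] at h4
    omega

theorem ovl1 {q r : ℕ} (hq : 0 < q) (hr : 0 < r) (γ γ' c : ℝ) {ψ ψ' : ℝ} (h0 : 0 < ψ)
    (h1 : ψ ≤ 1 / 2) (h : ψ / q ≤ ψ' / r) :
    volume.real (EE q γ ψ ∩ EE r γ' ψ' ∩ Set.Icc (c - 1) (c + 2)) ≤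
      48 * (ψ * ψ') + 12 * (q.gcd r * (ψ / q)) := by
  obtain ⟨g, u, v, hg, hc, rfl, rfl⟩ := Nat.exists_coprime' (Nat.gcd_pos_of_pos_left r hq)
  have hu : 0 < u := Nat.pos_of_mul_pos_right hq
  have hv : 0 < v := Nat.pos_of_mul_pos_right hr
  have hg' : (0 : ℝ) < g := by exact_mod_cast hg
  have hu' : (0 : ℝ) < u := by exact_mod_cast hu
  have hv' : (0 : ℝ) < v := by exact_mod_cast hv
  have hug : (1 : ℝ) ≤ u * g := by exact_mod_cast hq
  have hD : v * ψ ≤ u * ψ' := by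
    push_cast at h
    rw [div_le_div_iff₀ (by positivity) (by positivity)] at h
    exact le_of_mul_le_mul_right (by linarith) hg'
  have hD0 : 0 < u * ψ' := lt_of_lt_of_le (by positivity) hD
  set β := u * γ' - v * γ
  set lo := ⌊u * g * (c - 1) - γ - 1⌋
  set Ks := Finset.Icc ⌈β - 2 * (u * ψ')⌉ ⌊β + 2 * (u * ψ')⌋
  set A := Ks.biUnion fun k => (Finset.Ico lo (lo + 6 * g * u)).filter fun a => (u : ℤ) ∣ v * a - k
  have hK : (Ks.card : ℝ) ≤ 4 * (u * ψ') + 1 := by
    have h2 := Int.le_ceil (β - 2 * (u * ψ'))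
    have h3 := Int.floor_le (β + 2 * (u * ψ'))
    rw [Int.card_Icc]
    rcases le_total 0 (⌊β + 2 * (u * ψ')⌋ + 1 - ⌈β - 2 * (u * ψ')⌉) with h4 | h4
    · rw [← Int.cast_natCast, Int.toNat_of_nonneg h4]; push_cast; linarith
    · rw [Int.toNat_of_nonpos h4]; push_cast; linarith
  have hA : (A.card : ℝ) ≤ (4 * (u * ψ') + 1) * (6 * g) := by
    have h2 : A.card ≤ Ks.card * (6 * g) := card_biUnion_le_card_mul _ _ _ fun k _ =>
      card_cls hu hc lo k
    calc (A.card : ℝ) ≤ Ks.card * (6 * g) := by exact_mod_cast h2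
      _ ≤ _ := by gcongr
  have sub : EE (u * g) γ ψ ∩ EE (v * g) γ' ψ' ∩ Set.Icc (c - 1) (c + 2) ⊆
      ⋃ a ∈ A, II (u * g) γ ψ a := by
    rintro x ⟨⟨⟨a, ha⟩, a', ha'⟩, hx1, hx2⟩
    refine Set.mem_biUnion (x := a) ?_ ((mem_II hq).2 ha)
    push_cast at ha ha'
    rw [abs_lt] at ha ha'
    have b1 := mul_lt_mul_of_pos_left ha.1 hv'
    have b2 := mul_lt_mul_of_pos_left ha.2 hv'
    have b3 := mul_lt_mul_of_pos_left ha'.1 hu'
    have b4 := mul_lt_mul_of_pos_left ha'.2 hu'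
    have b5 := mul_le_mul_of_nonneg_left hx1 (zero_le_one.trans hug)
    have b6 := mul_le_mul_of_nonneg_left hx2 (zero_le_one.trans hug)
    refine mem_coe.2 (mem_biUnion.2 ⟨v * a - u * a', Finset.mem_Icc.2 ⟨Int.ceil_le.2 ?_,
      Int.le_floor.2 ?_⟩, mem_filter.2 ⟨Finset.mem_Ico.2 ⟨?_, ?_⟩, ⟨a', by ring⟩⟩⟩)
    · push_cast; simp only [β]; linarith
    · push_cast; simp only [β]; linarith
    · have : (lo : ℝ) ≤ a := by linarith [Int.floor_le (u * g * (c - 1) - γ - 1)]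
      exact_mod_cast this
    · have : (a : ℝ) < lo + 6 * g * u := by linarith [Int.lt_floor_add_one (u * g * (c - 1) - γ - 1)]
      exact_mod_cast this
  refine (measureReal_mono sub (by
    exact (measure_biUnion_lt_top A.finite_toSet fun a _ => measure_Ioo_lt_top).ne)).trans
    ((measureReal_biUnion_finset_le _ _).trans ?_)
  simp only [vol_II γ h0.le, sum_const, nsmul_eq_mul]
  rw [Nat.gcd_mul_right, hc, one_mul]
  refine (mul_le_mul_of_nonneg_right hA (by positivity)).trans_eq ?_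
  push_cast; field_simp; ring

theorem ovl {q r : ℕ} (hq : 0 < q) (hr : 0 < r) (γ γ' c : ℝ) {ψ ψ' : ℝ} (h0 : 0 < ψ)
    (h1 : ψ ≤ 1 / 2) (h0' : 0 < ψ') (h1' : ψ' ≤ 1 / 2) :
    volume.real (EE q γ ψ ∩ EE r γ' ψ' ∩ Set.Icc (c - 1) (c + 2)) ≤
      48 * (ψ * ψ') + 12 * (q.gcd r / √(q * r) * (√ψ * √ψ')) := by
  have key : ∀ {q r : ℕ} {ψ ψ' : ℝ}, 0 < q → 0 < r → 0 < ψ → 0 < ψ' → ψ / q ≤ ψ' / r →
      (q.gcd r : ℝ) * (ψ / q) ≤ q.gcd r / √(q * r) * (√ψ * √ψ') := by
    intro q r ψ ψ' hq hr h0 h0' h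
    rw [div_mul_eq_mul_div, mul_div_assoc, ← sqrt_mul h0.le, ← sqrt_div (by positivity)]
    gcongr
    refine le_sqrt_of_sq_le ?_
    rw [mul_div_mul_comm, sq]
    exact mul_le_mul_of_nonneg_left h (by positivity)
  rcases le_total (ψ / q) (ψ' / r) with h | h
  · linarith [ovl1 hq hr γ γ' c h0 h1 h, key hq hr h0 h0' h]
  · have a := key hr hq h0' h0 h
    have b := ovl1 hr hq γ' γ c h0' h1' h
    rw [Set.inter_comm (EE r _ _)] at b
    rw [Nat.gcd_comm r q, mul_comm (r : ℝ)] at a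
    rw [Nat.gcd_comm r q] at b
    linarith

theorem low {q : ℕ} (hq : 0 < q) (γ c : ℝ) {ψ η : ℝ} (h0 : 0 < ψ) (h1 : ψ ≤ 1 / 2) {K : Set ℝ}
    (hK : K ⊆ Set.Icc c (c + 1)) (hη : 1 / (q : ℝ) ≤ η) :
    2 * ψ * volume.real K ≤ volume.real (EE q γ ψ ∩ thickening η K) := by
  classical
  have hq' : (0 : ℝ) < q := by exact_mod_cast hq
  set A := (Finset.Icc ⌊q * c - γ - 1⌋ ⌈q * (c + 1) - γ + 1⌉).filter
    fun a : ℤ => ∃ x ∈ K, |q * x - γ - a| ≤ 1 / 2
  have s1 : K ⊆ ⋃ a ∈ A, Set.Icc ((a + γ - 1 / 2) / q) ((a + γ + 1 / 2) / q) := fun x hx => by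
    have h2 := abs_sub_round (q * x - γ)
    have h3 := abs_le.1 h2
    have b5 := mul_le_mul_of_nonneg_left (hK hx).1 hq'.le
    have b6 := mul_le_mul_of_nonneg_left (hK hx).2 hq'.le
    refine Set.mem_biUnion (x := round (q * x - γ)) (mem_coe.2 (mem_filter.2
      ⟨Finset.mem_Icc.2 ⟨Int.floor_le_iff.2 (by linarith), Int.le_ceil_iff.2 (by linarith)⟩,
        x, hx, h2⟩)) ⟨?_, ?_⟩
    · rw [div_le_iff₀ hq']; linarith
    · rw [le_div_iff₀ hq']; linarith
  have m1 : volume.real K ≤ A.card * (1 / q) := by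
    refine (measureReal_mono s1 (by
      exact (measure_biUnion_lt_top A.finite_toSet fun a _ => measure_Icc_lt_top).ne)).trans
      ((measureReal_biUnion_finset_le _ _).trans_eq ?_)
    rw [← nsmul_eq_mul, ← sum_const]
    refine sum_congr rfl fun a _ => ?_
    rw [Real.volume_real_Icc_of_le (by gcongr; linarith)]; ring
  have s2 : ⋃ a ∈ A, II q γ ψ a ⊆ EE q γ ψ ∩ thickening η K := by
    refine Set.iUnion₂_subset fun a ha x hx => ?_
    obtain ⟨y, hy, h2⟩ := (mem_filter.1 ha).2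
    rw [mem_II hq] at hx
    refine ⟨⟨a, hx⟩, mem_thickening_iff.2 ⟨y, hy, lt_of_lt_of_le ?_ hη⟩⟩
    rw [Real.dist_eq, lt_div_iff₀ hq', ← abs_of_pos hq', ← abs_mul, abs_lt]
    rw [abs_lt] at hx
    rw [abs_le] at h2
    constructor <;> linarith [hx.1, hx.2, h2.1, h2.2]
  have m2 : volume.real (⋃ a ∈ A, II q γ ψ a) = A.card * (2 * ψ / q) := by
    rw [measureReal_biUnion_finset (f := II q γ ψ) (fun a _ b _ hab => ?_)
      (fun a _ => measurableSet_Ioo)
      (fun a _ => measure_Ioo_lt_top.ne)]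
    · simp only [vol_II γ h0.le, sum_const, nsmul_eq_mul]
    · refine Set.disjoint_left.2 fun x ha hb => hab ?_
      rw [mem_II hq, abs_lt] at ha hb
      have h2 : (a : ℝ) < b + 1 := by linarith [ha.1, hb.2]
      have h3 : (b : ℝ) < a + 1 := by linarith [ha.2, hb.1]
      have h4 : a < b + 1 := by exact_mod_cast h2
      have h5 : b < a + 1 := by exact_mod_cast h3
      omega
  have fin : volume (EE q γ ψ ∩ thickening η K) ≠ ⊤ :=
    ((measure_mono Set.inter_subset_right).trans_lt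
      ((isBounded_Icc c (c + 1)).subset hK).thickening.measure_lt_top).ne
  refine le_trans ?_ (m2.symm.trans_le (measureReal_mono s2 fin))
  exact (mul_le_mul_of_nonneg_left m1 (by positivity)).trans_eq (by ring)

theorem cs {ι : Type} (S : Finset ι) (ω : ι → ℝ) (E : ι → Set ℝ) (G J : Set ℝ) {l : ℝ} (hl : 0 < l)
    (hE : ∀ q, MeasurableSet (E q)) (hG : MeasurableSet G) (hJ : MeasurableSet J) (hGJ : G ⊆ J)
    (fin : volume J ≠ ⊤) :
    ∑ q ∈ S, ω q * volume.real (E q ∩ G) ≤ l / 2 * volume.real G +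
      1 / (2 * l) * ∑ q ∈ S, ∑ r ∈ S, ω q * ω r * volume.real (E q ∩ E r ∩ J) := by
  have int : ∀ A : Set ℝ, MeasurableSet A → A ⊆ J →
      Integrable (A.indicator (1 : ℝ → ℝ)) := fun A hA h =>
    (integrableOn_const ((measure_mono h).trans_lt fin.lt_top).ne).integrable_indicator hA
  have i1 := fun q => int _ ((hE q).inter hG) (Set.inter_subset_right.trans hGJ)
  have i2 := fun q r => int _ (((hE q).inter (hE r)).inter hJ) Set.inter_subset_right
  have i3 := fun q => integrable_finsetSum S fun r _ => (i2 q r).const_mul (ω q * ω r)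
  simp only [← integral_indicator_one ((hE _).inter hG), ← integral_indicator_one hG,
    ← integral_indicator_one (((hE _).inter (hE _)).inter hJ), ← integral_const_mul]
  rw [← integral_finsetSum _ fun q _ => (i1 q).const_mul _]
  simp only [← integral_finsetSum _ fun r _ => (i2 _ r).const_mul _]
  rw [← integral_finsetSum _ fun q _ => i3 q, ← integral_const_mul,
    ← integral_add ((int G hG hGJ).const_mul _)
      ((integrable_finsetSum S fun q _ => i3 q).const_mul _)]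
  refine integral_mono (integrable_finsetSum S fun q _ => (i1 q).const_mul _)
    (((int G hG hGJ).const_mul _).add ((integrable_finsetSum S fun q _ => i3 q).const_mul _))
    fun x => ?_
  have e : ∑ q ∈ S, ∑ r ∈ S, ω q * ω r * (E q ∩ E r ∩ J).indicator (1 : ℝ → ℝ) x =
      (∑ q ∈ S, ω q * (E q ∩ J).indicator (1 : ℝ → ℝ) x) ^ 2 := by
    rw [sq, sum_mul_sum]
    refine sum_congr rfl fun q _ => sum_congr rfl fun r _ => ?_
    rw [mul_mul_mul_comm, ← Pi.mul_apply, ← Set.inter_indicator_one, Set.inter_inter_distrib_right]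
  beta_reduce
  rw [e]
  by_cases hx : x ∈ G
  · have e2 : ∀ q, (E q ∩ G).indicator (1 : ℝ → ℝ) x = (E q ∩ J).indicator (1 : ℝ → ℝ) x :=
      fun q => by
        by_cases h : x ∈ E q
        · rw [Set.indicator_of_mem (Set.mem_inter h hx), Set.indicator_of_mem (Set.mem_inter h (hGJ hx))]
        · rw [Set.indicator_of_notMem fun h' => h h'.1, Set.indicator_of_notMem fun h' => h h'.1]
    simp only [e2, Set.indicator_of_mem hx, Pi.one_apply]
    generalize ∑ q ∈ S, ω q * (E q ∩ J).indicator (1 : ℝ → ℝ) x = F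
    have : l / 2 * 1 + 1 / (2 * l) * F ^ 2 - F = 1 / (2 * l) * (l - F) ^ 2 := by field_simp; ring
    have : 0 ≤ 1 / (2 * l) * (l - F) ^ 2 := by positivity
    linarith
  · have e2 : ∀ q, (E q ∩ G).indicator (1 : ℝ → ℝ) x = 0 := fun q => by
      simp [hx]
    simp only [e2, Set.indicator_of_notMem hx, mul_zero, sum_const_zero, zero_add]
    positivity

/-- a global second moment bound on far blocks gives full measure -/
theorem full (γ ψ : ℕ → ℝ) {C : ℝ} (hC : 0 < C) (h : ∀ Q : ℕ, ∃ (S : Finset ℕ) (ω : ℕ → ℝ),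
    (∀ q ∈ S, Q ≤ q ∧ 0 < q ∧ 0 < ψ q ∧ ψ q ≤ 1 / 2 ∧ 0 ≤ ω q) ∧ 0 < ∑ q ∈ S, ω q * ψ q ∧
    ∀ c : ℝ, ∑ q ∈ S, ∑ r ∈ S, ω q * ω r * volume.real
      (EE q (γ q) (ψ q) ∩ EE r (γ r) (ψ r) ∩ Set.Icc (c - 1) (c + 2)) ≤
      C * (∑ q ∈ S, ω q * ψ q) ^ 2) :
    ∀ᵐ x : ℝ, ∃ᶠ q in atTop, x ∈ EE q (γ q) (ψ q) := by
  have main : ∀ (Q : ℕ) (c : ℝ),
      volume ((⋂ q ≥ Q, (EE q (γ q) (ψ q))ᶜ) ∩ Set.Icc c (c + 1)) = 0 := by
    intro Q c
    set K := (⋂ q ≥ Q, (EE q (γ q) (ψ q))ᶜ) ∩ Set.Icc c (c + 1)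
    have hcl : IsClosed K := (isClosed_biInter fun q _ => (isOpen_EE _ _ _).isClosed_compl).inter
      isClosed_Icc
    have hb : Bornology.IsBounded K := (isBounded_Icc c (c + 1)).subset Set.inter_subset_right
    by_contra h0
    have hκ : 0 < volume.real K := ENNReal.toReal_pos h0 hb.measure_lt_top.ne
    have t := (ENNReal.tendsto_toReal hb.measure_lt_top.ne).comp
      (tendsto_measure_thickening_of_isClosed (μ := volume)
        ⟨1, one_pos, hb.thickening.measure_lt_top.ne⟩ hcl)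
    obtain ⟨η, h1, h2, h3⟩ := ((t.eventually (gt_mem_nhds (show volume.real K <
      volume.real K + 4 * volume.real K ^ 2 / C by
        linarith [(by positivity : 0 < 4 * volume.real K ^ 2 / C)]))).and
      (Ioc_mem_nhdsGT (one_pos (α := ℝ)))).exists
    obtain ⟨S, ω, hS, hm, hT⟩ := h (max Q ⌈1 / η⌉₊)
    have hKt : K ⊆ thickening η K := self_subset_thickening h2 K
    have hG : volume.real (thickening η K \ K) < 4 * volume.real K ^ 2 / C := by
      rw [measureReal_sdiff hKt hcl.measurableSet hb.thickening.measure_lt_top.ne]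
      have h1 : volume.real (thickening η K) < _ := h1
      linarith
    have sub : thickening η K \ K ⊆ Set.Icc (c - 1) (c + 2) := fun x hx => by
      obtain ⟨y, hy, hd⟩ := mem_thickening_iff.1 hx.1
      rw [Real.dist_eq, abs_lt] at hd
      constructor <;> linarith [hy.2.1, hy.2.2, hd.1, hd.2]
    set m := ∑ q ∈ S, ω q * ψ q
    have a := cs S ω (fun q => EE q (γ q) (ψ q)) _ _
      (show 0 < C * m / (2 * volume.real K) by positivity)
      (fun q => (isOpen_EE _ _ _).measurableSet)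
      (isOpen_thickening.measurableSet.diff hcl.measurableSet) measurableSet_Icc sub
      measure_Icc_lt_top.ne
    have b : 2 * volume.real K * m ≤
        ∑ q ∈ S, ω q * volume.real (EE q (γ q) (ψ q) ∩ (thickening η K \ K)) := by
      rw [mul_sum]
      refine sum_le_sum fun q hq => ?_
      obtain ⟨a1, a2, a3, a4, a5⟩ := hS q hq
      have a6 : 1 / (q : ℝ) ≤ η := by
        rw [one_div_le (by exact_mod_cast a2) h2]
        exact (Nat.le_ceil _).trans (by exact_mod_cast le_of_max_le_right a1)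
      have e : EE q (γ q) (ψ q) ∩ (thickening η K \ K) = EE q (γ q) (ψ q) ∩ thickening η K :=
        Set.ext fun x => ⟨fun h => ⟨h.1, h.2.1⟩, fun h => ⟨h.1, h.2, fun hk =>
          Set.mem_iInter₂.1 hk.1 q (le_of_max_le_left a1) h.1⟩⟩
      rw [e]
      exact le_trans (le_of_eq (by ring)) (mul_le_mul_of_nonneg_left
        (low a2 (γ q) c a3 a4 Set.inter_subset_right a6) a5)
    have c1 := mul_le_mul_of_nonneg_left (hT c)
      (show 0 ≤ 1 / (2 * (C * m / (2 * volume.real K))) by positivity)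
    have c2 := mul_lt_mul_of_pos_left hG
      (show 0 < C * m / (2 * volume.real K) / 2 by positivity)
    have e1 : 1 / (2 * (C * m / (2 * volume.real K))) * (C * m ^ 2) = volume.real K * m := by
      field_simp
    have e2 : C * m / (2 * volume.real K) / 2 * (4 * volume.real K ^ 2 / C) =
        volume.real K * m := by field_simp; ring
    linarith
  refine measure_mono_null (t := ⋃ Q : ℕ, ⋃ n : ℤ,
    (⋂ q ≥ Q, (EE q (γ q) (ψ q))ᶜ) ∩ Set.Icc (n : ℝ) (n + 1)) (fun x hx => ?_)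
    (measure_iUnion_null fun Q => measure_iUnion_null fun n => main Q n)
  obtain ⟨Q, hQ⟩ := eventually_atTop.1 (not_frequently.1 hx)
  exact Set.mem_iUnion₂.2 ⟨Q, ⌊x⌋, Set.mem_iInter₂.2 hQ, Int.floor_le x, (Int.lt_floor_add_one x).le⟩

end Vale.Agent.P028.X
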