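import Vale.Agent.P028.XGcd
import Vale.Agent.P028.XMeas

/-! Full measure under a sub-polynomial extra divergence, moving targets allowed. -/

namespace Vale.Agent.P028.X

open Real Finset MeasureTheory Filter

noncomputable def ep (j : ℕ) : ℝ := 1 / (4 * √(j + 1))

theorem one_le_sqrt' (j : ℕ) : 1 ≤ √(j + 1 : ℝ) :=
  one_le_sqrt.2 (by linarith [(by positivity : (0 : ℝ) ≤ j)])

theorem ep_pos (j : ℕ) : 0 < ep j := by unfold ep; have := one_le_sqrt' j; positivity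

theorem ep_le (j : ℕ) : ep j ≤ 1 / 4 :=
  one_div_le_one_div_of_le (by norm_num) (by linarith [one_le_sqrt' j])

noncomputable def tm (c : ℝ) (j : ℕ) : ℝ :=
  (1 + 1 / (2 * ep j)) ^ (KK / ep j) *
    (exp (-((j * log 2) ^ c) / 4) * 2 ^ ((j + 1) * ep j) * 2 ^ ((j + 1) * ep j))

theorem tm_nonneg (c : ℝ) (j : ℕ) : 0 ≤ tm c j := by
  unfold tm; have := ep_pos j; positivity

theorem summable_tm {c : ℝ} (hc : 1 / 2 < c) : Summable (tm c) := by
  obtain ⟨τ, hτ, h2, h3⟩ : ∃ τ : ℝ, 0 < τ ∧ τ ≤ 1 / 2 ∧ 1 / 2 + 2 * τ ≤ c :=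
    ⟨min (1 / 2) ((c - 1 / 2) / 2), lt_min (by norm_num) (by linarith), min_le_left _ _,
      by linarith [min_le_right (1 / 2) ((c - 1 / 2) / 2)]⟩
  have hK := KK_ge
  have hs : Summable fun j : ℕ => 1 / ((j + 1 : ℕ) : ℝ) ^ 2 :=
    (summable_nat_add_iff 1).2 (summable_one_div_nat_pow.2 one_lt_two)
  refine .of_norm_bounded_eventually_nat hs ?_
  have t : Tendsto (fun j : ℕ => (j + 1 : ℝ) ^ τ) atTop atTop :=
    (tendsto_rpow_atTop hτ).comp (tendsto_atTop_add_const_right _ _ tendsto_natCast_atTop_atTop)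
  filter_upwards [t.eventually_ge_atTop ((6 * KK / τ + 5) * (4 * 4 ^ c)), eventually_ge_atTop 1]
    with j hj hj1
  rw [Real.norm_of_nonneg (tm_nonneg c j)]
  have s1 := one_le_sqrt' j
  have hj1 : (1 : ℝ) ≤ j := by exact_mod_cast hj1
  set t : ℝ := j + 1 with ht
  have t1 : 1 ≤ t := by linarith
  have t0 : 0 < t := by linarith
  have sq : √t * √t = t := mul_self_sqrt t0.le
  set Y := √t * t ^ τ
  have r1 : 1 ≤ t ^ τ := one_le_rpow t1 hτ.le
  have y1 : √t ≤ Y := le_mul_of_one_le_right (by positivity) r1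
  have e1 : 1 / (2 * ep j) = 2 * √t := by unfold ep; rw [← ht]; field_simp; norm_num
  have e2 : KK / ep j = 4 * KK * √t := by unfold ep; rw [← ht]; field_simp
  have e3 : t * ep j = √t / 4 := by
    unfold ep; rw [← ht]; field_simp; rw [sq_sqrt t0.le]
  have l1 : log (1 + 2 * √t) ≤ 3 * t ^ τ / (2 * τ) := by
    refine (log_le_rpow_div (ε := 2 * τ) (by positivity) (by positivity)).trans ?_
    gcongr
    calc (1 + 2 * √t) ^ (2 * τ) ≤ (3 * √t) ^ (2 * τ) := by gcongr; linarith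
      _ = 3 ^ (2 * τ) * t ^ τ := by
          rw [mul_rpow (by norm_num) (by positivity), sqrt_eq_rpow, ← rpow_mul t0.le]
          congr 2; ring
      _ ≤ 3 ^ (1 : ℝ) * t ^ τ := by gcongr <;> linarith
      _ = _ := by rw [rpow_one]
  have l2 : log (1 + 2 * √t) * (4 * KK * √t) ≤ 6 * KK / τ * Y :=
    (mul_le_mul_of_nonneg_right l1 (by positivity)).trans_eq (by simp only [Y]; field_simp; ring)
  have l3 : log t ≤ 2 * √t := by
    have := log_le_rpow_div (ε := 1 / 2) t0.le (by norm_num)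
    rw [← sqrt_eq_rpow] at this; linarith
  have l4 : Y * t ^ τ / 4 ^ c ≤ (j * log 2) ^ c := by
    calc Y * t ^ τ / 4 ^ c ≤ t ^ c / 4 ^ c := by
          gcongr
          simp only [Y]
          rw [sqrt_eq_rpow, ← rpow_add t0, ← rpow_add t0]
          exact rpow_le_rpow_of_exponent_le t1 (by linarith)
      _ = (t / 4) ^ c := (div_rpow t0.le (by norm_num) _).symm
      _ ≤ _ := by
          gcongr
          nlinarith [log_two_gt_d9]
  have l5 : (6 * KK / τ + 5) * Y ≤ Y * t ^ τ / 4 ^ c / 4 := by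
    rw [div_div, le_div_iff₀ (by positivity)]
    nlinarith [mul_le_mul_of_nonneg_left hj (by positivity : 0 ≤ Y)]
  have l6 : log 2 * (√t / 4) ≤ √t / 4 :=
    mul_le_of_le_one_left (by positivity) (by linarith [log_two_lt_d9])
  unfold tm
  rw [e1, e2, ← ht, e3, rpow_def_of_pos (by positivity), rpow_def_of_pos two_pos, ← exp_add,
    ← exp_add, ← exp_add]
  push_cast
  rw [← ht, ← exp_log (show 0 < 1 / t ^ 2 by positivity), exp_le_exp, one_div, log_inv, log_pow]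
  push_cast
  linarith

theorem pw {ε ψ ω : ℝ} {j : ℕ} (h0 : 0 < ε) (h1 : ε ≤ 1 / 4) (hψ : 2⁻¹ ^ (j + 1) < ψ) (hω : 0 < ω)
    (hω1 : ω ≤ 1) :
    ω * √ψ ≤ ω ^ (1 / 4 : ℝ) * 2 ^ ((j + 1) * ε) * (ω * ψ) ^ (1 / 2 + ε) := by
  have hψ0 : 0 < ψ := lt_trans (by positivity) hψ
  have a1 : ω ≤ ω ^ (1 / 4 : ℝ) * ω ^ (1 / 2 + ε) := by
    rw [← rpow_add hω]
    exact (rpow_one ω).symm.trans_le (rpow_le_rpow_of_exponent_ge hω hω1 (by linarith))
  have a2 : 1 ≤ 2 ^ ((j + 1) * ε) * ψ ^ ε := by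
    rw [rpow_mul (by norm_num), ← mul_rpow (by positivity) hψ0.le]
    refine one_le_rpow ?_ h0.le
    rw [inv_pow, inv_lt_iff_one_lt_mul₀' (by positivity), ← rpow_natCast] at hψ
    push_cast at hψ
    exact hψ.le
  rw [mul_rpow hω.le hψ0.le, rpow_add hψ0, ← sqrt_eq_rpow]
  calc ω * √ψ ≤ ω ^ (1 / 4 : ℝ) * ω ^ (1 / 2 + ε) * (√ψ * (2 ^ ((j + 1) * ε) * ψ ^ ε)) :=
        mul_le_mul a1 (le_mul_of_one_le_right (by positivity) a2) (by positivity) (by positivity)
    _ = _ := by ring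

theorem form_le {c : ℝ} (hc : 1 / 2 < c) (S : Finset ℕ) (ψ ω : ℕ → ℝ) (hS : 0 ∉ S)
    (hψ : ∀ q ∈ S, 0 < ψ q ∧ ψ q ≤ 1) (h0 : ∀ q, 0 ≤ ψ q)
    (hω : ∀ q, ω q = exp (-(max 0 (log (ψ q)⁻¹) ^ c))) (hm : 1 ≤ ∑ q ∈ S, ω q * ψ q) :
    ∑ q ∈ S, ∑ r ∈ S, (q.gcd r : ℝ) / √(q * r) * (ω q * √(ψ q) * (ω r * √(ψ r))) ≤
      2 * (∑' j, tm c j) * (∑ q ∈ S, ω q * ψ q) ^ 2 := by
  have w0 : ∀ q, 0 < ω q := fun q => by rw [hω]; positivity
  have w1 : ∀ q, ω q ≤ 1 := fun q => by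
    rw [hω, exp_le_one_iff, neg_nonpos]; exact rpow_nonneg (le_max_left _ _) _
  have n0 : ∀ q, 0 ≤ ω q * ψ q := fun q => mul_nonneg (w0 q).le (h0 q)
  choose! J hJ using fun q (hq : q ∈ S) =>
    exists_nat_pow_near_of_lt_one (hψ q hq).1 (hψ q hq).2 (by norm_num : (0 : ℝ) < 2⁻¹) (by norm_num)
  set F : ℕ → ℕ → ℝ := fun q r => (q.gcd r : ℝ) / √(q * r) * (ω q * √(ψ q) * (ω r * √(ψ r)))
  have F0 : ∀ q r, 0 ≤ F q r := fun q r => by have := w0 q; have := w0 r; positivity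
  have Fs : ∀ q r, F q r = F r q := fun q r => by
    simp only [F]; rw [Nat.gcd_comm, mul_comm (q : ℝ), mul_comm (ω q * _)]
  set m := ∑ q ∈ S, ω q * ψ q
  have half : ∑ q ∈ S, ∑ r ∈ S with J r ≤ J q, F q r ≤ (∑' j, tm c j) * m ^ 2 := by
    rw [← sum_fiberwise_of_maps_to (g := J) (t := S.image J) fun q hq => mem_image_of_mem _ hq]
    refine le_trans (sum_le_sum fun j _ => ?_) ((sum_mul _ _ _).symm.trans_le
      (mul_le_mul_of_nonneg_right ((summable_tm hc).sum_le_tsum _ fun j _ => tm_nonneg c j)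
        (sq_nonneg m)))
    have e0 := ep_pos j
    have e1 := ep_le j
    have g := gcd_sum e0 e1 (S.filter fun q => J q = j) (S.filter fun r => J r ≤ j)
      (fun h => hS (mem_filter.1 h).1) (fun h => hS (mem_filter.1 h).1) n0 n0
    have hm' : ∀ p : ℕ → Prop, ∀ [DecidablePred p],
        (∑ q ∈ S with p q, ω q * ψ q) ^ (1 / 2 + ep j) ≤ m := fun p _ =>
      (rpow_le_rpow (sum_nonneg fun q _ => n0 q) (sum_le_sum_of_subset_of_nonneg (filter_subset _ _)
        fun q _ _ => n0 q) (by positivity)).trans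
        ((rpow_le_rpow_of_exponent_le hm (by linarith)).trans_eq (rpow_one m))
    set M := exp (-((j * log 2) ^ c) / 4) * 2 ^ ((j + 1) * ep j) * 2 ^ ((j + 1) * ep j)
    have M0 : 0 ≤ M := by positivity
    calc _ ≤ ∑ q ∈ S with J q = j, ∑ r ∈ S with J r ≤ j, M * ((q.gcd r : ℝ) / √(q * r) *
          ((ω q * ψ q) ^ (1 / 2 + ep j) * (ω r * ψ r) ^ (1 / 2 + ep j))) := by
          refine sum_le_sum fun q hq' => ?_
          obtain ⟨hq, rfl⟩ := mem_filter.1 hq'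
          refine sum_le_sum fun r hr => ?_
          obtain ⟨hr, hjr⟩ := mem_filter.1 hr
          have a1 := pw e0 e1 (hJ q hq).1 (w0 q) (w1 q)
          have a2 := pw e0 e1 (lt_of_le_of_lt (pow_le_pow_of_le_one (by norm_num) (by norm_num)
            (Nat.succ_le_succ hjr)) (hJ r hr).1) (w0 r) (w1 r)
          have a3 : ω q ^ (1 / 4 : ℝ) ≤ exp (-((J q * log 2) ^ c) / 4) := by
            rw [hω, ← exp_mul, exp_le_exp, mul_one_div]
            gcongr
            refine le_trans ?_ (le_max_right _ _)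
            rw [← log_pow]
            refine log_le_log (by positivity) ?_
            rw [le_inv_comm₀ (by positivity) (hψ q hq).1, ← inv_pow]
            exact (hJ q hq).2
          have a4 : ω r ^ (1 / 4 : ℝ) ≤ 1 := rpow_le_one (w0 r).le (w1 r) (by norm_num)
          have := n0 q
          have := n0 r
          have := w0 r
          refine le_trans (mul_le_mul_of_nonneg_left ?_
            (show 0 ≤ (q.gcd r : ℝ) / √(q * r) by positivity)) (mul_left_comm _ _ _).le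
          calc _ ≤ exp (-((J q * log 2) ^ c) / 4) * 2 ^ ((J q + 1) * ep (J q)) *
                (ω q * ψ q) ^ (1 / 2 + ep (J q)) *
                (1 * 2 ^ ((J q + 1) * ep (J q)) * (ω r * ψ r) ^ (1 / 2 + ep (J q))) :=
                mul_le_mul (a1.trans (by gcongr)) (a2.trans (by gcongr)) (by positivity)
                  (by positivity)
            _ = _ := by simp only [M]; ring
      _ ≤ M * ((1 + 1 / (2 * ep j)) ^ (KK / ep j) * (m * m)) := by
          simp only [← mul_sum]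
          refine mul_le_mul_of_nonneg_left (g.trans (mul_le_mul_of_nonneg_left ?_ (by positivity))) M0
          exact mul_le_mul (hm' _) (hm' _) (rpow_nonneg (sum_nonneg fun q _ => n0 q) _) (by linarith)
      _ = _ := by unfold tm; ring
  have sw : ∑ q ∈ S, ∑ r ∈ S with J q ≤ J r, F q r = ∑ q ∈ S, ∑ r ∈ S with J r ≤ J q, F q r := by
    simp only [sum_filter]
    rw [sum_comm]
    simp only [Fs]
  have sp : ∑ q ∈ S, ∑ r ∈ S, F q r ≤
      ∑ q ∈ S, ∑ r ∈ S with J r ≤ J q, F q r + ∑ q ∈ S, ∑ r ∈ S with J q ≤ J r, F q r := by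
    simp only [sum_filter, ← sum_add_distrib]
    refine sum_le_sum fun q _ => sum_le_sum fun r _ => ?_
    have := F0 q r
    split_ifs <;> linarith
  linarith

theorem main {c : ℝ} (hc : 1 / 2 < c) (γ ψ : ℕ → ℝ) (h0 : ∀ q, 0 ≤ ψ q)
    (hdiv : ¬Summable fun q => ψ q * exp (-(max 0 (log (ψ q)⁻¹) ^ c))) :
    ∀ᵐ x : ℝ, ∃ᶠ q in atTop, x ∈ EE q (γ q) (ψ q) := by
  by_cases hb : ∃ᶠ q in atTop, 1 / 2 < ψ q
  · exact ae_of_all _ fun x => hb.mono fun q hq =>
      ⟨round (q * x - γ q), (abs_sub_round _).trans_lt hq⟩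
  obtain ⟨Q₀, hQ₀⟩ := eventually_atTop.1 (not_frequently.1 hb)
  have hT : 0 ≤ ∑' j, tm c j := tsum_nonneg (tm_nonneg c)
  refine full γ ψ (C := 48 + 24 * ∑' j, tm c j) (by positivity) fun Q => ?_
  set ω : ℕ → ℝ := fun q => exp (-(max 0 (log (ψ q)⁻¹) ^ c))
  have w0 : ∀ q, 0 < ω q := fun q => exp_pos _
  set Q' := max Q Q₀ + 1
  have ns : ¬Summable fun q => ω (q + Q') * ψ (q + Q') := fun h => hdiv (by
    have := (summable_nat_add_iff (f := fun q => ω q * ψ q) Q').1 h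
    simpa only [mul_comm (ω _)] using this)
  obtain ⟨N, hN⟩ := (((not_summable_iff_tendsto_nat_atTop_of_nonneg fun q =>
    mul_nonneg (w0 _).le (h0 _)).1 ns).eventually_ge_atTop 1).exists
  set S := (Finset.Ico Q' (N + Q')).filter fun q => 0 < ψ q
  have hm : 1 ≤ ∑ q ∈ S, ω q * ψ q := by
    have e := sum_Ico_add' (fun q => ω q * ψ q) 0 N Q'
    rw [zero_add, Nat.Ico_zero_eq_range] at e
    rw [sum_filter_of_ne fun q _ h => (h0 q).lt_of_ne' (right_ne_zero_of_mul h), ← e]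
    exact hN
  have hS : ∀ q ∈ S, Q ≤ q ∧ 0 < q ∧ 0 < ψ q ∧ ψ q ≤ 1 / 2 ∧ 0 ≤ ω q := fun q hq => by
    obtain ⟨h1, h2⟩ := mem_filter.1 hq
    have h3 := (Finset.mem_Ico.1 h1).1
    exact ⟨by omega, by omega, h2, not_lt.1 (hQ₀ q (by omega)), (w0 q).le⟩
  refine ⟨S, ω, hS, by linarith, fun x => ?_⟩
  have f := form_le hc S ψ ω (fun h => (hS 0 h).2.1.false)
    (fun q hq => ⟨(hS q hq).2.2.1, by linarith [(hS q hq).2.2.2.1]⟩) h0 (fun _ => rfl) hm
  calc _ ≤ ∑ q ∈ S, ∑ r ∈ S, (48 * (ω q * ψ q * (ω r * ψ r)) +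
        12 * ((q.gcd r : ℝ) / √(q * r) * (ω q * √(ψ q) * (ω r * √(ψ r))))) := by
        refine sum_le_sum fun q hq => sum_le_sum fun r hr => ?_
        obtain ⟨-, a2, a3, a4, a5⟩ := hS q hq
        obtain ⟨-, b2, b3, b4, b5⟩ := hS r hr
        exact (mul_le_mul_of_nonneg_left (ovl a2 b2 _ _ x a3 a4 b3 b4)
          (mul_nonneg a5 b5)).trans_eq (by ring)
    _ ≤ _ := by
        simp only [sum_add_distrib, ← mul_sum]
        rw [← sum_mul]
        nlinarith

end Vale.Agent.P028.X
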