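import Vale.Agent.Results.P028.DivisorRange
import Vale.Agent.P028.XMain

/-! Combination of the divisor range with the extra divergence theorem. -/

namespace Vale.Agent.P028.U

open Filter Real

theorem pow_cmp {K c c' : ℝ} (hK : 0 < K) (h0 : 0 < c') (h : c' < c) :
    ∃ C : ℝ, ∀ L : ℝ, 0 ≤ L → (K * L) ^ c' ≤ L ^ c + C := by
  refine ⟨(K * K ^ (c' / (c - c'))) ^ c', fun L hL => ?_⟩
  have hd : 0 < c - c' := sub_pos.2 h
  have hC : 0 ≤ (K * K ^ (c' / (c - c'))) ^ c' := by positivity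
  rcases le_total L (K ^ (c' / (c - c'))) with a | a
  · have : (K * L) ^ c' ≤ (K * K ^ (c' / (c - c'))) ^ c' := by gcongr
    linarith [rpow_nonneg hL c]
  · have hL' : 0 < L := lt_of_lt_of_le (by positivity) a
    have b : K ^ c' ≤ L ^ (c - c') := by
      have := rpow_le_rpow (by positivity) a hd.le
      rwa [← rpow_mul hK.le, div_mul_cancel₀ _ hd.ne'] at this
    have e : L ^ c = L ^ (c - c') * L ^ c' := by rw [← rpow_add hL']; congr 1; ring
    rw [mul_rpow hK.le hL, e]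
    have : K ^ c' * L ^ c' ≤ L ^ (c - c') * L ^ c' := by gcongr
    linarith

theorem extra (γ : ℝ) (ψ : ℕ → ℝ) (hψ : ∀ q, 0 ≤ ψ q) {c : ℝ} (hc : 1 / 2 < c)
    (hdiv : ¬Summable fun q : ℕ => ψ q * exp (-(max 0 (log (ψ q)⁻¹) ^ c))) :
    MeasureTheory.volume
      {x : ℝ | {q : ℕ | 0 < q ∧ ∃ a : ℤ, |(q : ℝ) * x - γ - a| < ψ q}.Infinite}ᶜ = 0 := by
  refine MeasureTheory.mem_ae_iff.1
    ((Vale.Agent.P028.X.main hc (fun _ => γ) ψ hψ hdiv).mono fun x h => ?_)
  exact Nat.frequently_atTop_iff_infinite.1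
    ((Frequently.and_eventually h (eventually_gt_atTop 0)).mono fun q hq => ⟨hq.2, hq.1⟩)

theorem tau_extra (γ : ℝ) (ψ : ℕ → ℝ) (hψ : ∀ q, 0 ≤ ψ q) {c : ℝ} (hc : 1 / 2 < c)
    (hdiv : ¬Summable fun q : ℕ =>
      (Nat.totient q : ℝ) / q * (ψ q * exp (-(log (q.divisors.card : ℝ) ^ c)))) :
    MeasureTheory.volume
      {x : ℝ | {q : ℕ | 0 < q ∧ ∃ a : ℤ, |(q : ℝ) * x - γ - a| < ψ q}.Infinite}ᶜ = 0 := by
  by_cases ha : Summable fun q : ℕ =>
      (Nat.totient q : ℝ) / q * min (ψ q) (1 / (q.divisors.card : ℝ) ^ 100000)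
  swap
  · exact Vale.Agent.Results.P028.DivisorRange.result γ ψ hψ (Or.inl ha)
  refine extra γ ψ hψ (c := (1 / 2 + c) / 2) (by linarith) fun hg => hdiv ?_
  obtain ⟨C, hC⟩ := pow_cmp (K := (100000 : ℕ)) (c := c) (c' := (1 / 2 + c) / 2) (by positivity)
    (by linarith) (by linarith)
  generalize 100000 = K at *
  refine (ha.add (hg.mul_left (exp C))).of_nonneg_of_le
    (fun q => mul_nonneg (by positivity) (mul_nonneg (hψ q) (exp_pos _).le)) fun q => ?_
  have g0 : 0 ≤ exp C * (ψ q * exp (-(max 0 (log (ψ q)⁻¹) ^ ((1 / 2 + c) / 2)))) :=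
    mul_nonneg (exp_pos _).le (mul_nonneg (hψ q) (exp_pos _).le)
  have L0 : 0 ≤ log (q.divisors.card : ℝ) := log_natCast_nonneg _
  have f0 : 0 ≤ (Nat.totient q : ℝ) / q := by positivity
  rcases le_or_gt (ψ q) (1 / (q.divisors.card : ℝ) ^ K) with h | h
  · rw [min_eq_left h]
    have : ψ q * exp (-(log (q.divisors.card : ℝ) ^ c)) ≤ ψ q :=
      mul_le_of_le_one_right (hψ q) (exp_le_one_iff.2 (neg_nonpos.2 (rpow_nonneg L0 c)))
    linarith [mul_le_mul_of_nonneg_left this f0]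
  rcases q.eq_zero_or_pos with rfl | hq
  · simpa using g0
  have t0 : (0 : ℝ) < q.divisors.card := by
    exact_mod_cast Finset.card_pos.2 ⟨1, Nat.one_mem_divisors.2 hq.ne'⟩
  have p0 : 0 < ψ q := lt_trans (by positivity) h
  have a : max 0 (log (ψ q)⁻¹) ≤ K * log (q.divisors.card : ℝ) := by
    refine max_le (by positivity) ?_
    rw [← log_pow]
    refine log_le_log (by positivity) ?_
    rw [one_div] at h
    exact (inv_lt_comm₀ (by positivity) p0).1 h |>.le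
  have b : max 0 (log (ψ q)⁻¹) ^ ((1 / 2 + c) / 2) ≤ log (q.divisors.card : ℝ) ^ c + C :=
    (rpow_le_rpow (le_max_left _ _) a (by linarith)).trans (hC _ L0)
  have d : exp (-(log (q.divisors.card : ℝ) ^ c)) ≤
      exp C * exp (-(max 0 (log (ψ q)⁻¹) ^ ((1 / 2 + c) / 2))) := by
    rw [← exp_add]; exact exp_le_exp.2 (by linarith)
  have e : (Nat.totient q : ℝ) / q * (ψ q * exp (-(log (q.divisors.card : ℝ) ^ c))) ≤
      ψ q * exp (-(log (q.divisors.card : ℝ) ^ c)) :=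
    mul_le_of_le_one_left (by positivity) (Vale.Agent.P028.T.tot_le q)
  have f : 0 ≤ (Nat.totient q : ℝ) / q * min (ψ q) (1 / (q.divisors.card : ℝ) ^ K) :=
    mul_nonneg f0 (le_min p0.le (by positivity))
  have g := mul_le_mul_of_nonneg_left d p0.le
  nlinarith

end Vale.Agent.P028.U
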