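import Vale.Agent.P028.VAr1

/-! Divisor sums. -/

namespace Vale.Agent.P028.V

open Real Finset MeasureTheory Filter Metric

theorem VAr2_x {p : ℕ} (hp : p.Prime) : (p : ℝ) ^ (-sg) ≤ 23 / 24 := by
  have h2 : (2 : ℝ) ≤ p := by exact_mod_cast hp.two_le
  refine (rpow_le_rpow_of_nonpos two_pos h2 (neg_nonpos.2 sg_pos.le)).trans ?_
  refine le_of_pow_le_pow_left₀ (n := 16) (by norm_num) (by norm_num) ?_
  rw [← rpow_natCast, ← rpow_mul (by norm_num), sg]
  norm_num

theorem VAr2_geom {x : ℝ} (h0 : 0 ≤ x) (h1 : x ≤ 23 / 24) (n : ℕ) :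
    ∑ k ∈ range n, x ^ k ≤ 24 := by
  induction n with
  | zero => simp
  | succ n ih =>
    rw [geom_sum_succ]
    nlinarith [sum_nonneg fun k (_ : k ∈ range n) => pow_nonneg h0 k]

theorem VAr2_prod (r : ℕ) :
    ∑ g ∈ r.divisors, (3 : ℝ) ^ g.primeFactors.card * (g : ℝ) ^ (-sg) ≤
      ∏ p ∈ r.primeFactors, (1 + 72 * (p : ℝ) ^ (-sg)) := by
  induction r using Nat.recOnPosPrimePosCoprime with
  | prime_pow p n hp hn =>
    rw [Nat.sum_divisors_prime_pow hp, Nat.primeFactors_prime_pow hn.ne' hp, prod_singleton,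
      sum_range_succ']
    have h0 : 0 ≤ (p : ℝ) ^ (-sg) := by positivity
    have e : ∀ k ∈ range n, (3 : ℝ) ^ (p ^ (k + 1)).primeFactors.card *
        ((p ^ (k + 1) : ℕ) : ℝ) ^ (-sg) = 3 * (p : ℝ) ^ (-sg) * ((p : ℝ) ^ (-sg)) ^ k :=
      fun k _ => by
        rw [Nat.primeFactors_prime_pow k.succ_ne_zero hp, card_singleton, Nat.cast_pow,
          ← rpow_pow_comm (by positivity)]
        ring
    rw [sum_congr rfl e, ← mul_sum]
    have h1 := mul_le_mul_of_nonneg_left (VAr2_geom h0 (VAr2_x hp) n) h0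
    simp only [pow_zero, Nat.primeFactors_one, card_empty, Nat.cast_one, one_rpow]
    linarith
  | zero => simp
  | one => simp
  | coprime a b ha hb hab iha ihb =>
    rw [Nat.divisors_mul, Finset.mul_def, sum_image hab.mul_injOn_divisors, hab.primeFactors_mul,
      prod_union hab.disjoint_primeFactors]
    refine le_trans (le_of_eq ?_) (mul_le_mul iha ihb (by positivity) (by positivity))
    rw [sum_mul_sum, sum_product]
    refine sum_congr rfl fun x hx => sum_congr rfl fun y hy => ?_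
    have hc : x.Coprime y := (hab.coprime_dvd_left (Nat.dvd_of_mem_divisors hx)).coprime_dvd_right
      (Nat.dvd_of_mem_divisors hy)
    rw [hc.primeFactors_mul, card_union_of_disjoint hc.disjoint_primeFactors, Nat.cast_mul,
      mul_rpow (by positivity) (by positivity)]
    ring

theorem Gsum {r t : ℕ} (hr : 0 < r) (h : Good r t) (ht : 1 ≤ t) :
    ∑ g ∈ r.divisors, (3 : ℝ) ^ g.primeFactors.card * (g : ℝ) ^ (-sg) ≤
      exp (250 * (t : ℝ) ^ (1 - sg)) := by
  refine (VAr2_prod r).trans ((prod_one_add_le_exp_sum _ fun p => by positivity).trans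
    (exp_le_exp.2 ?_))
  rw [← mul_sum, ← sum_filter_add_sum_filter_not _ (t < ·)]
  have h1 : ∑ p ∈ r.primeFactors.filter (fun p => ¬t < p), (p : ℝ) ^ (-sg) ≤
      ∑ k ∈ Finset.Icc 1 t, (k : ℝ) ^ (-sg) :=
    sum_le_sum_of_subset_of_nonneg (fun p hp => mem_Icc.2
      ⟨(Nat.prime_of_mem_primeFactors (mem_filter.1 hp).1).one_le, not_lt.1 (mem_filter.1 hp).2⟩)
      fun _ _ _ => by positivity
  have h2 := powsum sg_pos (by unfold sg; norm_num) t
  have h3 : (t : ℝ) ^ (1 - sg) / (1 - sg) = 16 / 15 * (t : ℝ) ^ (1 - sg) := by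
    generalize (t : ℝ) ^ (1 - sg) = s
    unfold sg
    ring
  have h4 : 0 ≤ (t : ℝ) ^ (1 - sg) := by positivity
  unfold Good LL at h
  linarith

theorem summable_cl (K : ℝ) :
    Summable fun i : ℕ => (2 : ℝ) ^ i * exp (K * ((2 : ℝ) ^ i) ^ (1 - sg) - 2 ^ i / 64) := by
  have h1 : Tendsto (fun i : ℕ => ((2 : ℝ) ^ i) ^ sg) atTop atTop :=
    (tendsto_rpow_atTop sg_pos).comp (tendsto_pow_atTop_atTop_of_one_lt one_lt_two)
  refine Summable.of_norm_bounded_eventually_nat (summable_geometric_two.mul_left (2 * 128 ^ 2)) ?_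
  filter_upwards [h1.eventually_ge_atTop (128 * K)] with i hi
  have h2 : (0 : ℝ) < 2 ^ i := by positivity
  rw [one_div, inv_pow]
  generalize (2 : ℝ) ^ i = t at hi h2
  have h3 : K * t ^ (1 - sg) ≤ t / 128 := by
    rw [rpow_sub h2, rpow_one, ← mul_div_assoc, div_le_div_iff₀ (by positivity) (by norm_num)]
    nlinarith
  have h4 : exp (K * t ^ (1 - sg) - t / 64) ≤ (exp (t / 128))⁻¹ := by
    rw [← exp_neg]
    exact exp_le_exp.2 (by linarith)
  have h5 : (t / 128) ^ 2 / 2 ≤ exp (t / 128) := by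
    have := quadratic_le_exp_of_nonneg (x := t / 128) (by positivity)
    linarith
  rw [Real.norm_of_nonneg (by positivity)]
  refine (mul_le_mul_of_nonneg_left (h4.trans (inv_anti₀ (by positivity) h5)) h2.le).trans
    (le_of_eq ?_)
  field_simp

/-- sums over `q` grouped by `gcd(q, r)` -/
theorem sum_le_div {r : ℕ} (hr : 0 < r) (S : Finset ℕ) (hS : ∀ q ∈ S, 0 < q) (f B : ℕ → ℝ)
    (h : ∀ g v : ℕ, r = g * v → ∀ U : Finset ℕ,
      (∀ u ∈ U, 0 < u ∧ Nat.Coprime u v ∧ g * u ∈ S) → ∑ u ∈ U, f (g * u) ≤ B g) :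
    ∑ q ∈ S, f q ≤ ∑ g ∈ r.divisors, B g := by
  rw [← sum_fiberwise_of_maps_to (g := fun q => Nat.gcd q r) (t := r.divisors)
    fun q _ => Nat.mem_divisors.2 ⟨Nat.gcd_dvd_right _ _, hr.ne'⟩]
  refine sum_le_sum fun g hg => ?_
  have e : ∀ q ∈ S.filter fun q => Nat.gcd q r = g, g * (q / g) = q := fun q hq =>
    Nat.mul_div_cancel' ((mem_filter.1 hq).2 ▸ Nat.gcd_dvd_left q r)
  refine le_trans (le_of_eq ?_) (h g (r / g)
    (Nat.mul_div_cancel' (Nat.dvd_of_mem_divisors hg)).symm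
    ((S.filter fun q => Nat.gcd q r = g).image (· / g)) fun u hu => ?_)
  · rw [sum_image fun q hq q' hq' hh => by rw [← e q hq, ← e q' hq', show q / g = q' / g from hh]]
    exact sum_congr rfl fun q hq => by rw [e q hq]
  · obtain ⟨q, hq, rfl⟩ := mem_image.1 hu
    obtain ⟨h1, h2⟩ := mem_filter.1 hq
    refine ⟨Nat.pos_of_mul_pos_left (a := g) ?_, ?_, ?_⟩
    · rw [e q hq]
      exact hS q h1
    · rw [← h2]
      exact Nat.coprime_div_gcd_div_gcd (Nat.gcd_pos_of_pos_right _ hr)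
    · rw [e q hq]
      exact h1

end Vale.Agent.P028.V
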