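import Vale.Agent.P028.XLoc

/-! The GCD sum inequality. -/

namespace Vale.Agent.P028.X

open Real Finset

noncomputable def KK : ℝ := 245 * exp 140

theorem KK_ge : 1 ≤ KK := by
  unfold KK; nlinarith [add_one_le_exp (140 : ℝ)]

theorem cc_le {ε κ : ℝ} (h0 : 0 < ε) (h1 : ε ≤ 1 / 4) (k0 : 0 < κ) (k1 : κ ≤ 1) :
    cc ε κ ≤ (1 + κ ^ (2 + 4 * ε)) ^ (KK / ε) := by
  have hK : 1 ≤ KK / ε := by
    rw [le_div_iff₀ h0]; linarith [KK_ge]
  refine le_trans ?_ (one_add_mul_self_le_rpow_one_add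
    (le_trans (by norm_num) (rpow_nonneg k0.le _)) hK)
  set e := (1 / 2 + ε) / (1 - (1 / 2 + ε))
  have e1 : 1 + 4 * ε ≤ e := by
    rw [le_div_iff₀ (by linarith)]; nlinarith
  have e2 : e ≤ 1 + 8 * ε := by
    rw [div_le_iff₀ (by linarith)]; nlinarith
  have hw : 1 ≤ 35 / 2 / ε := by rw [le_div_iff₀ h0]; linarith
  have a1 : (35 / 2 / ε) ^ e ≤ 35 / 2 / ε * exp 140 := by
    refine (rpow_le_rpow_of_exponent_le hw e2).trans ?_
    rw [rpow_add (by positivity), rpow_one, rpow_def_of_pos (by positivity)]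
    gcongr
    calc _ ≤ 35 / 2 / ε * (8 * ε) := by
          gcongr; linarith [log_le_sub_one_of_pos (by positivity : 0 < 35 / 2 / ε)]
      _ = 140 := by field_simp; norm_num
  have a2 : κ ^ e ≤ κ ^ (1 + 4 * ε) := rpow_le_rpow_of_exponent_ge k0 k1 e1
  have a3 : κ ^ (2 + 4 * ε) = κ * κ ^ (1 + 4 * ε) := by
    rw [← rpow_one_add' k0.le (by positivity)]; congr 1; ring
  have a4 : 7 * κ / (2 / 5 * ε) = 35 / 2 / ε * κ := by field_simp; ring
  unfold cc KK
  rw [a4, mul_rpow (by positivity) k0.le, a3]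
  calc _ ≤ 1 + 2 * (7 * κ * (35 / 2 / ε * exp 140 * κ ^ (1 + 4 * ε))) := by gcongr
    _ = _ := by ring

theorem zeta_le {σ : ℝ} (h : 1 < σ) (N : ℕ) :
    ∑ n ∈ range (N + 1), ((n + 1 : ℕ) : ℝ) ^ (-σ) ≤ 1 + 1 / (σ - 1) := by
  have a : AntitoneOn (fun x : ℝ => x ^ (-σ)) (Set.Icc 1 (1 + N)) := fun x hx y _ hxy =>
    rpow_le_rpow_of_nonpos (by linarith [hx.1]) hxy (by linarith)
  have b := a.sum_le_integral
  rw [integral_rpow (Or.inr ⟨by linarith, by
    rw [Set.uIcc_of_le (by linarith [(by positivity : (0 : ℝ) ≤ N)])]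
    exact fun h => by linarith [h.1]⟩), one_rpow] at b
  have c : ((1 + N : ℝ) ^ (-σ + 1) - 1) / (-σ + 1) ≤ 1 / (σ - 1) := by
    rw [← neg_div_neg_eq, show -(-σ + 1) = σ - 1 by ring]
    gcongr
    linarith [rpow_nonneg (by positivity : (0 : ℝ) ≤ 1 + N) (-σ + 1)]
  rw [sum_range_succ', add_comm]
  refine add_le_add (by simp) (le_trans (le_of_eq (sum_congr rfl fun i _ => ?_)) (b.trans c))
  congr 1; push_cast; ring

theorem euler_le {σ : ℝ} (h : 1 < σ) (P : Finset ℕ) (hP : ∀ p ∈ P, p.Prime) :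
    ∏ p ∈ P, (1 + (p : ℝ) ^ (-σ)) ≤ 1 + 1 / (σ - 1) := by
  have inj : Set.InjOn (fun t : Finset ℕ => ∏ p ∈ t, p - 1) P.powerset := fun s hs t ht e => by
    have hs' : ∀ p ∈ s, p.Prime := fun p hp => hP p (mem_powerset.1 hs hp)
    have ht' : ∀ p ∈ t, p.Prime := fun p hp => hP p (mem_powerset.1 ht hp)
    have h1 : 0 < ∏ p ∈ s, p := prod_pos fun p hp => (hs' p hp).pos
    have h2 : 0 < ∏ p ∈ t, p := prod_pos fun p hp => (ht' p hp).pos
    have e : ∏ p ∈ s, p = ∏ p ∈ t, p := by simp only at e; omega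
    rw [← Nat.primeFactors_prod hs', e, Nat.primeFactors_prod ht']
  obtain ⟨N, hN⟩ := (P.powerset.image fun t : Finset ℕ => ∏ p ∈ t, p - 1).exists_nat_subset_range
  refine le_trans ?_ ((sum_le_sum_of_subset_of_nonneg (hN.trans (range_subset_range.2 N.le_succ))
    fun _ _ _ => by positivity).trans (zeta_le h N))
  rw [sum_image inj, prod_one_add]
  refine le_of_eq (sum_congr rfl fun t ht => ?_)
  have h1 : 0 < ∏ p ∈ t, p := prod_pos fun p hp => (hP p (mem_powerset.1 ht hp)).pos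
  rw [Nat.sub_add_cancel h1, Nat.cast_prod, finsetProd_rpow _ _ fun _ _ => by positivity]

theorem eq_prod {q : ℕ} (hq : q ≠ 0) {P : Finset ℕ} (h : q.primeFactors ⊆ P) :
    q = ∏ p ∈ P, p ^ q.factorization p := by
  conv_lhs => rw [← Nat.prod_factorization_pow_eq_self hq]
  exact Finsupp.prod_of_support_subset _ h _ fun _ _ => pow_zero _

theorem ker_eq {q r : ℕ} (hq : q ≠ 0) (hr : r ≠ 0) {P : Finset ℕ} (hP : ∀ p ∈ P, p.Prime)
    (h1 : q.primeFactors ⊆ P) (h2 : r.primeFactors ⊆ P) :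
    (q.gcd r : ℝ) / √(q * r) =
      ∏ p ∈ P, (√p)⁻¹ ^ Nat.dist (q.factorization p) (r.factorization p) := by
  have hg : q.gcd r ≠ 0 := Nat.gcd_ne_zero_left hq
  have h3 : (q.gcd r).primeFactors ⊆ P :=
    (Nat.primeFactors_mono (Nat.gcd_dvd_left q r) hq).trans h1
  have e : q * r = q.gcd r ^ 2 * ∏ p ∈ P, p ^ Nat.dist (q.factorization p) (r.factorization p) := by
    conv_lhs => rw [eq_prod hq h1, eq_prod hr h2]
    conv_rhs => rw [eq_prod hg h3]
    rw [← prod_pow, ← prod_mul_distrib, ← prod_mul_distrib]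
    refine prod_congr rfl fun p _ => ?_
    rw [← pow_add, ← pow_mul, ← pow_add, Nat.factorization_gcd hq hr, Finsupp.inf_apply]
    congr 1
    unfold Nat.dist; omega
  have e2 : √((q : ℝ) * r) =
      q.gcd r * ∏ p ∈ P, √p ^ Nat.dist (q.factorization p) (r.factorization p) := by
    rw [sqrt_eq_iff_eq_sq (by positivity) (by positivity), mul_pow, ← prod_pow, ← Nat.cast_mul, e]
    push_cast
    congr 1
    exact prod_congr rfl fun p _ => by rw [pow_right_comm, sq_sqrt (by positivity)]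
  have hpos : 0 < ∏ p ∈ P, √p ^ Nat.dist (q.factorization p) (r.factorization p) :=
    prod_pos fun p hp => pow_pos (sqrt_pos.2 (by exact_mod_cast (hP p hp).pos)) _
  simp only [inv_pow, prod_inv_distrib]
  rw [e2]
  field_simp

/-- the GCD sum inequality -/
theorem gcd_sum {ε : ℝ} (h0 : 0 < ε) (h1 : ε ≤ 1 / 4) (V W : Finset ℕ) (hV : 0 ∉ V) (hW : 0 ∉ W)
    {a b : ℕ → ℝ} (ha : ∀ i, 0 ≤ a i) (hb : ∀ i, 0 ≤ b i) :
    ∑ q ∈ V, ∑ r ∈ W, (q.gcd r : ℝ) / √(q * r) * (a q ^ (1 / 2 + ε) * b r ^ (1 / 2 + ε)) ≤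
      (1 + 1 / (2 * ε)) ^ (KK / ε) *
        ((∑ q ∈ V, a q) ^ (1 / 2 + ε) * (∑ r ∈ W, b r) ^ (1 / 2 + ε)) := by
  set P := (V ∪ W).biUnion Nat.primeFactors
  have hP : ∀ p ∈ P, p.Prime := fun p hp => by
    obtain ⟨q, -, h⟩ := mem_biUnion.1 hp
    exact Nat.prime_of_mem_primeFactors h
  have sub : ∀ q ∈ V ∪ W, q.primeFactors ⊆ P := fun q hq => subset_biUnion_of_mem _ hq
  have ne : ∀ q ∈ V ∪ W, q ≠ 0 := fun q hq e => by
    rcases mem_union.1 (e ▸ hq) with h | h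
    exacts [hV h, hW h]
  have inj : ∀ q ∈ V ∪ W, ∀ q' ∈ V ∪ W,
      (∀ p ∈ P, q.factorization p = q'.factorization p) → q = q' := fun q hq q' hq' h => by
    exact (eq_prod (ne q hq) (sub q hq)).trans ((prod_congr rfl fun p hp => by rw [h p hp]).trans
      (eq_prod (ne q' hq') (sub q' hq')).symm)
  have two : ∀ p ∈ P, (7 / 5 : ℝ) ≤ √p := fun p hp => by
    have : (2 : ℝ) ≤ p := by exact_mod_cast (hP p hp).two_le
    exact le_sqrt_of_sq_le (by linarith)
  have t := tensor h0 h1 (fun p => (√p)⁻¹) (fun q p => q.factorization p) ha hb P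
    (fun p hp => ⟨by positivity, (inv_anti₀ (by norm_num) (two p hp)).trans_eq (by norm_num)⟩) V W
    (fun q hq q' hq' => inj q (mem_union_left _ hq) q' (mem_union_left _ hq'))
    (fun q hq q' hq' => inj q (mem_union_right _ hq) q' (mem_union_right _ hq'))
  refine le_trans (le_of_eq (sum_congr rfl fun q hq => sum_congr rfl fun r hr => ?_))
    (t.trans (mul_le_mul_of_nonneg_right ?_ (mul_nonneg
      (rpow_nonneg (sum_nonneg fun i _ => ha i) _) (rpow_nonneg (sum_nonneg fun i _ => hb i) _))))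
  · rw [ker_eq (ne q (mem_union_left _ hq)) (ne r (mem_union_right _ hr)) hP
      (sub q (mem_union_left _ hq)) (sub r (mem_union_right _ hr))]
  · have e := euler_le (σ := 1 + 2 * ε) (by linarith) P hP
    rw [add_sub_cancel_left] at e
    refine le_trans ?_ (rpow_le_rpow (prod_nonneg fun _ _ => by positivity) e
      (div_nonneg (by linarith [KK_ge]) h0.le))
    rw [← finsetProd_rpow _ _ fun _ _ => by positivity]
    refine prod_le_prod (fun p _ => (cc_pos h0 (by positivity)).le) fun p hp => ?_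
    have hp0 : 0 < √p := by linarith [two p hp]
    refine (cc_le h0 h1 (inv_pos.2 hp0) (inv_le_one_of_one_le₀ (by linarith [two p hp]))).trans_eq ?_
    rw [sqrt_eq_rpow, ← rpow_neg (by positivity), ← rpow_mul (by positivity)]
    congr 3; ring

end Vale.Agent.P028.X
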