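import Vale.Agent.P028.VAr1
import Vale.Agent.P028.XGcd

/-! The mean value of the Rankin weight. -/

namespace Vale.Agent.P028.V

open Real Finset MeasureTheory Filter Metric

theorem VAr3_one {y p : ℕ} (h : y < p) : (y : ℝ) ^ sg * (p : ℝ) ^ (-sg) ≤ 1 := by
  have p0 : (0 : ℝ) < p := Nat.cast_pos.2 (by omega)
  rw [rpow_neg p0.le, ← div_eq_mul_inv, div_le_one (rpow_pos_of_pos p0 _)]
  exact rpow_le_rpow (by positivity) (Nat.cast_le.2 h.le) sg_pos.le

theorem Phi_mul {y g u : ℕ} (hy : 1 ≤ y) (hg : 0 < g) (hu : 0 < u) :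
    Phi y (g * u) ≤ 3 ^ g.primeFactors.card * Phi y u := by
  have h1 : LL (g * u) y ≤ LL g y + LL u y := by
    unfold LL
    rw [Nat.primeFactors_mul hg.ne' hu.ne', filter_union, ← sum_union_inter]
    exact le_add_of_nonneg_right (sum_nonneg fun _ _ => by positivity)
  have h2 : (y : ℝ) ^ sg * LL g y ≤ g.primeFactors.card := by
    unfold LL
    rw [mul_sum]
    refine (sum_le_card_nsmul _ _ 1 fun p hp => VAr3_one (mem_filter.1 hp).2).trans ?_
    rw [nsmul_eq_mul, mul_one]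
    exact Nat.cast_le.2 (card_filter_le _ _)
  have h3 : exp (g.primeFactors.card : ℝ) ≤ 3 ^ g.primeFactors.card := by
    rw [← exp_one_pow]
    exact pow_le_pow_left₀ (exp_pos _).le (by linarith [exp_one_lt_d9]) _
  unfold Phi
  refine le_trans ?_ (mul_le_mul_of_nonneg_right h3 (exp_pos _).le)
  rw [← exp_add]
  have : (0 : ℝ) ≤ (y : ℝ) ^ sg := by positivity
  exact exp_le_exp.2 (by nlinarith)

/-- the local weight -/
noncomputable def VAr3_f (y p : ℕ) : ℝ := if y < p then 2 * ((y : ℝ) ^ sg * (p : ℝ) ^ (-sg)) else 0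

theorem VAr3_f0 (y p : ℕ) : 0 ≤ VAr3_f y p := by
  unfold VAr3_f
  split_ifs <;> positivity

theorem VAr3_exp {x : ℝ} (h0 : 0 ≤ x) (h1 : x ≤ 1) : exp x ≤ 1 + 2 * x := by
  have := (abs_le.1 (abs_exp_sub_one_le (x := x) (by rwa [abs_of_nonneg h0]))).2
  rw [abs_of_nonneg h0] at this
  linarith

theorem VAr3_phi (y : ℕ) {u N : ℕ} (hu : u ∈ Finset.Icc 1 N) :
    Phi y u ≤ ∑ T ∈ ((Finset.Icc 1 N).filter Nat.Prime).powerset,
      if (∏ p ∈ T, p) ∣ u then ∏ p ∈ T, VAr3_f y p else 0 := by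
  obtain ⟨u1, uN⟩ := Finset.mem_Icc.1 hu
  have h1 : Phi y u ≤ ∏ p ∈ u.primeFactors, (1 + VAr3_f y p) := by
    unfold Phi LL
    rw [mul_sum, exp_sum, prod_filter]
    refine prod_le_prod (fun p _ => by split_ifs <;> positivity) fun p _ => ?_
    unfold VAr3_f
    split_ifs with h
    · exact VAr3_exp (by positivity) (VAr3_one h)
    · simp
  rw [prod_one_add] at h1
  rw [← sum_filter]
  refine h1.trans (sum_le_sum_of_subset_of_nonneg (fun T hT => ?_)
    fun T _ _ => prod_nonneg fun p _ => VAr3_f0 y p)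
  rw [mem_powerset] at hT
  refine mem_filter.2 ⟨mem_powerset.2 fun p hp => mem_filter.2 ⟨Finset.mem_Icc.2
    ⟨(Nat.prime_of_mem_primeFactors (hT hp)).one_le,
      (Nat.le_of_mem_primeFactors (hT hp)).trans uN⟩, Nat.prime_of_mem_primeFactors (hT hp)⟩, ?_⟩
  exact (prod_dvd_prod_of_subset _ _ (fun p => p) hT).trans (Nat.prod_primeFactors_dvd u)

theorem VAr3_mult {d : ℕ} (hd : 0 < d) (N : ℕ) :
    ∑ u ∈ (Finset.Icc 1 N).filter (d ∣ ·), (u : ℝ) ^ (-(1 - sg)) ≤ 16 * (N : ℝ) ^ sg / d := by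
  have d0 : (0 : ℝ) < d := Nat.cast_pos.2 hd
  have hs : (Finset.Icc 1 N).filter (d ∣ ·) ⊆ (Finset.Icc 1 (N / d)).image (d * ·) := by
    intro u hu
    obtain ⟨h1, k, rfl⟩ := mem_filter.1 hu
    obtain ⟨h1, h2⟩ := Finset.mem_Icc.1 h1
    refine mem_image.2 ⟨k, Finset.mem_Icc.2 ⟨Nat.pos_of_mul_pos_left h1, ?_⟩, rfl⟩
    exact (Nat.le_div_iff_mul_le hd).2 (by rwa [mul_comm])
  refine (sum_le_sum_of_subset_of_nonneg hs fun _ _ _ => by positivity).trans ?_
  rw [sum_image fun a _ b _ h => Nat.eq_of_mul_eq_mul_left hd h]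
  have e : ∀ k ∈ Finset.Icc 1 (N / d), ((d * k : ℕ) : ℝ) ^ (-(1 - sg)) =
      (d : ℝ) ^ (-(1 - sg)) * (k : ℝ) ^ (-(1 - sg)) := fun k _ => by
    rw [Nat.cast_mul, mul_rpow d0.le (by positivity)]
  rw [sum_congr rfl e, ← mul_sum]
  have p := powsum (a := 1 - sg) (by unfold sg; norm_num) (by linarith [sg_pos]) (N / d)
  rw [sub_sub_cancel] at p
  have q : ((N / d : ℕ) : ℝ) ^ sg ≤ (N : ℝ) ^ sg / (d : ℝ) ^ sg := by
    rw [← div_rpow (by positivity) d0.le]
    exact rpow_le_rpow (by positivity) Nat.cast_div_le sg_pos.le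
  have r : (d : ℝ) ^ (-(1 - sg)) = (d : ℝ) ^ sg / d := by
    rw [neg_sub, rpow_sub d0, rpow_one]
  have s0 : 0 < (d : ℝ) ^ sg := rpow_pos_of_pos d0 _
  have t : ((N / d : ℕ) : ℝ) ^ sg / sg = 16 * ((N / d : ℕ) : ℝ) ^ sg := by
    rw [div_eq_iff sg_pos.ne']
    generalize ((N / d : ℕ) : ℝ) ^ sg = z
    unfold sg
    ring
  rw [r]
  calc _ ≤ (d : ℝ) ^ sg / d * (16 * ((N : ℝ) ^ sg / (d : ℝ) ^ sg)) :=
        mul_le_mul_of_nonneg_left (by linarith) (by positivity)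
    _ = _ := by field_simp

theorem VAr3_zeta (N : ℕ) :
    ∑ p ∈ (Finset.Icc 1 N).filter Nat.Prime, (p : ℝ) ^ (-(1 + sg)) ≤ 17 := by
  have z := X.zeta_le (σ := 1 + sg) (by linarith [sg_pos]) N
  have e : 1 + 1 / (1 + sg - 1) = 17 := by unfold sg; norm_num
  rw [e, ← sum_image (s := range (N + 1)) (g := fun n => n + 1)
    (f := fun n : ℕ => (n : ℝ) ^ (-(1 + sg))) fun a _ b _ h => Nat.succ_injective h] at z
  refine (sum_le_sum_of_subset_of_nonneg (fun p hp => ?_) fun _ _ _ => by positivity).trans z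
  obtain ⟨h1, h2⟩ := Finset.mem_Icc.1 (mem_filter.1 hp).1
  exact mem_image.2 ⟨p - 1, mem_range.2 (by omega), by omega⟩

theorem mean_value {y : ℕ} (hy : 1 ≤ y) (N : ℕ) :
    ∑ u ∈ Finset.Icc 1 N, Phi y u * (u : ℝ) ^ (-(1 - sg)) ≤
      16 * (N : ℝ) ^ sg * exp (34 * (y : ℝ) ^ sg) := by
  set PP := (Finset.Icc 1 N).filter Nat.Prime with hPP
  have pp : ∀ p ∈ PP, 0 < p := fun p hp => (mem_filter.1 hp).2.pos
  have a : ∑ p ∈ PP, VAr3_f y p / p ≤ 34 * (y : ℝ) ^ sg := by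
    have b : ∀ p ∈ PP, VAr3_f y p / p ≤ 2 * (y : ℝ) ^ sg * (p : ℝ) ^ (-(1 + sg)) := fun p hp => by
      have p0 : (0 : ℝ) < p := Nat.cast_pos.2 (pp p hp)
      unfold VAr3_f
      split_ifs
      · rw [neg_add_rev, rpow_add p0, rpow_neg_one]
        exact le_of_eq (by ring)
      · rw [zero_div]
        positivity
    refine (sum_le_sum b).trans ?_
    rw [← mul_sum]
    have : (0 : ℝ) ≤ (y : ℝ) ^ sg := by positivity
    nlinarith [VAr3_zeta N]
  calc _ ≤ ∑ u ∈ Finset.Icc 1 N, ∑ T ∈ PP.powerset,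
        if (∏ p ∈ T, p) ∣ u then (∏ p ∈ T, VAr3_f y p) * (u : ℝ) ^ (-(1 - sg)) else 0 :=
        sum_le_sum fun u hu => by
          refine (mul_le_mul_of_nonneg_right (VAr3_phi y hu) (by positivity)).trans (le_of_eq ?_)
          rw [sum_mul]
          exact sum_congr rfl fun T _ => by split_ifs <;> simp
    _ ≤ ∑ T ∈ PP.powerset, 16 * (N : ℝ) ^ sg * ∏ p ∈ T, VAr3_f y p / p := by
        rw [sum_comm]
        refine sum_le_sum fun T hT => ?_
        rw [← sum_filter, ← mul_sum, prod_div_distrib, ← Nat.cast_prod]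
        refine (mul_le_mul_of_nonneg_left (VAr3_mult (prod_pos fun p hp =>
          pp p (mem_powerset.1 hT hp)) N) (prod_nonneg fun p _ => VAr3_f0 y p)).trans (le_of_eq ?_)
        ring
    _ ≤ _ := by
        rw [← mul_sum, ← prod_one_add]
        refine mul_le_mul_of_nonneg_left (le_trans ?_ (exp_le_exp.2 a)) (by positivity)
        rw [exp_sum]
        refine prod_le_prod (fun p _ => ?_) fun p _ => ?_
        · have := VAr3_f0 y p
          positivity
        · linarith [add_one_le_exp (VAr3_f y p / p)]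

end Vale.Agent.P028.V
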