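import Vale.Agent.P028.VDefs

/-! Counting aligned pairs. -/

namespace Vale.Agent.P028.V

open Real Finset MeasureTheory Filter Metric

theorem VCount_fib {B v : ℕ} (hB : 0 < B) {t Δ : ℝ} (ht : 0 ≤ t) (hΔ : 0 < Δ) (S : Finset ℕ)
    (h1 : ∀ u ∈ S, u < v)
    (h2 : ∀ u ∈ S, ∀ u' ∈ S, u ≤ u' → B ∣ u' - u ∧ ((u' : ℝ) - u) * t ≤ 4 * Δ * B) :
    (S.card : ℝ) * B ≤ v + B ∧ S.card * t ≤ 4 * Δ + t := by
  rcases S.eq_empty_or_nonempty with rfl | hS
  · simp only [card_empty, Nat.cast_zero, zero_mul]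
    exact ⟨by positivity, by positivity⟩
  have m0 := S.min'_mem hS
  have m1 := S.max'_mem hS
  have hle : S.min' hS ≤ S.max' hS := S.min'_le _ m1
  have hc : S.card ≤ (S.max' hS - S.min' hS) / B + 1 := by
    rw [← card_range (_ + 1)]
    refine card_le_card_of_injOn (fun u => (u - S.min' hS) / B) (fun u hu => ?_)
      fun u hu u' hu' h => ?_
    · exact mem_coe.2 (mem_range.2 (Nat.lt_succ_of_le
        (Nat.div_le_div_right (Nat.sub_le_sub_right (S.le_max' u hu) _))))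
    · have a1 := Nat.div_mul_cancel (h2 _ m0 u hu (S.min'_le u hu)).1
      have a2 := Nat.div_mul_cancel (h2 _ m0 u' hu' (S.min'_le u' hu')).1
      have a3 := S.min'_le u hu
      have a4 := S.min'_le u' hu'
      simp only at h
      rw [h] at a1
      omega
  have hk : (((S.max' hS - S.min' hS) / B : ℕ) : ℝ) * B ≤ (S.max' hS : ℝ) - S.min' hS := by
    rw [← Nat.cast_sub hle]
    exact_mod_cast Nat.div_mul_le_self _ _
  have hc' : (S.card : ℝ) ≤ ((S.max' hS - S.min' hS) / B : ℕ) + 1 := by exact_mod_cast hc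
  have hv : (S.max' hS : ℝ) ≤ v := by exact_mod_cast (h1 _ m1).le
  have h0 : (0 : ℝ) ≤ S.min' hS := Nat.cast_nonneg _
  have hB' : (0 : ℝ) < B := by exact_mod_cast hB
  have h3 := (h2 _ m0 _ m1 hle).2
  generalize (((S.max' hS - S.min' hS) / B : ℕ) : ℝ) = k at hk hc'
  refine ⟨by nlinarith, ?_⟩
  have h4 : k * t ≤ 4 * Δ := le_of_mul_le_mul_right (by nlinarith) hB'
  nlinarith

theorem count_Al {B v : ℕ} (hB : 0 < B) {A : ℤ} (hAB : IsCoprime A B) {γ η Δ : ℝ}
    (hη : |B * γ - A| ≤ η) (hΔ : 0 < Δ) (U : Finset ℕ)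
    (hU : ∀ u ∈ U, 0 < u ∧ u < v ∧ Al γ A B u v Δ) :
    (U.card : ℝ) ≤ 12 * v * Δ + 2 * v * η + 4 * Δ * B := by
  classical
  have hB' : (0 : ℝ) < B := by exact_mod_cast hB
  choose! m hm hm0 using fun u (hu : u ∈ U) => (hU u hu).2.2
  set n : ℕ → ℤ := fun u => m u * B + A * ((v : ℤ) - u) with hn
  set th : ℝ := A - B * γ with hth
  have ht : |th| ≤ η := by rwa [hth, abs_sub_comm]
  have k1 : ∀ u ∈ U, |(n u : ℝ) - ((v : ℝ) - u) * th| < 2 * Δ * B := fun u hu => by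
    have e : (n u : ℝ) - ((v : ℝ) - u) * th = (m u + γ * ((v : ℝ) - u)) * B := by
      simp only [hn, hth]
      push_cast
      ring
    rw [e, abs_mul, abs_of_pos hB']
    exact mul_lt_mul_of_pos_right (hm u hu) hB'
  set N0 : ℝ := 2 * Δ * B + v * |th| with hN
  have hN0 : 0 < N0 := by positivity
  have k2 : ∀ u ∈ U, n u ∈ (Icc (-(⌊N0⌋₊ : ℤ)) ⌊N0⌋₊).erase 0 := fun u hu => by
    refine mem_erase.2 ⟨hm0 u hu, mem_Icc.2 (abs_le.1 ?_)⟩
    have a1 : (u : ℝ) < v := by exact_mod_cast (hU u hu).2.1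
    have a2 : |((v : ℝ) - u) * th| ≤ v * |th| := by
      rw [abs_mul, abs_of_pos (by linarith)]
      exact mul_le_mul_of_nonneg_right (by linarith [Nat.cast_nonneg (α := ℝ) u]) (abs_nonneg _)
    have a3 : (((n u).natAbs : ℕ) : ℝ) ≤ N0 := by
      rw [Nat.cast_natAbs, Int.cast_abs]
      linarith [k1 u hu, abs_sub_abs_le_abs_sub (n u : ℝ) (((v : ℝ) - u) * th)]
    rw [Int.abs_eq_natAbs]
    exact_mod_cast Nat.le_floor a3
  have k3 : (((Icc (-(⌊N0⌋₊ : ℤ)) ⌊N0⌋₊).erase 0).card : ℝ) ≤ 2 * N0 := by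
    rw [card_erase_of_mem (by simp), Int.card_Icc,
      show ((⌊N0⌋₊ : ℤ) + 1 - -(⌊N0⌋₊ : ℤ)).toNat - 1 = 2 * ⌊N0⌋₊ by omega]
    push_cast
    linarith [Nat.floor_le hN0.le]
  have k4 : ∀ z : ℤ, ((U.filter fun u => n u = z).card : ℝ) * N0 ≤
      6 * v * Δ + v * η + 2 * Δ * B := fun z => by
    obtain ⟨a1, a2⟩ := VCount_fib (v := v) hB (abs_nonneg th) hΔ (U.filter fun u => n u = z)
      (fun u hu => (hU u (mem_filter.1 hu).1).2.1) fun u hu u' hu' hle => by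
        obtain ⟨b1, b2⟩ := mem_filter.1 hu
        obtain ⟨b3, b4⟩ := mem_filter.1 hu'
        have e := b2.trans b4.symm
        constructor
        · rw [← Int.natCast_dvd_natCast, Nat.cast_sub hle]
          refine hAB.symm.dvd_of_dvd_mul_left ⟨m u' - m u, ?_⟩
          simp only [hn] at e
          linear_combination e
        · have c1 := abs_lt.1 (k1 u b1)
          have c2 := abs_lt.1 (k1 u' b3)
          have c3 : (0 : ℝ) ≤ (u' : ℝ) - u := sub_nonneg.2 (by exact_mod_cast hle)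
          rw [← abs_of_nonneg c3, ← abs_mul, abs_le]
          rw [e] at c1
          constructor <;> nlinarith [c1.1, c1.2, c2.1, c2.2]
    have a3 : (0 : ℝ) ≤ v := Nat.cast_nonneg _
    have a4 := mul_le_mul_of_nonneg_left a2 a3
    have a5 := mul_le_mul_of_nonneg_left a1 (by positivity : 0 ≤ 2 * Δ)
    have a6 := mul_le_mul_of_nonneg_left ht a3
    rw [hN]
    nlinarith
  have hη0 : 0 ≤ η := (abs_nonneg _).trans ht
  have k5 : (U.card : ℝ) * N0 ≤ 2 * N0 * (6 * v * Δ + v * η + 2 * Δ * B) := by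
    rw [card_eq_sum_card_fiberwise (fun u hu => mem_coe.2 (k2 u (mem_coe.1 hu))), Nat.cast_sum,
      sum_mul]
    refine (sum_le_card_nsmul _ _ _ fun z _ => k4 z).trans ?_
    rw [nsmul_eq_mul]
    exact mul_le_mul_of_nonneg_right k3 (by positivity)
  refine le_of_mul_le_mul_right (k5.trans (le_of_eq ?_)) hN0
  ring

end Vale.Agent.P028.V
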