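import Vale.Agent.P028.XMeas

/-! Definitions for the Erdős–Vaaler range of the weak inhomogeneous conjecture. -/

namespace Vale.Agent.P028.V

open Real Finset MeasureTheory Filter Metric

/-- the exponent used to measure roughness -/
noncomputable def sg : ℝ := 1 / 16

/-- `φ(n) / n` -/
noncomputable def w (n : ℕ) : ℝ := ∏ p ∈ n.primeFactors, (1 - (p : ℝ)⁻¹)

/-- the part of `w` coming from primes `≤ t` -/
noncomputable def wt (n t : ℕ) : ℝ := ∏ p ∈ n.primeFactors.filter (· ≤ t), (1 - (p : ℝ)⁻¹)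

noncomputable def LL (n t : ℕ) : ℝ := ∑ p ∈ n.primeFactors.filter (t < ·), (p : ℝ) ^ (-sg)

def Good (n t : ℕ) : Prop := LL n t ≤ (t : ℝ) ^ (1 - sg)

/-- the roughness class -/
noncomputable def cl (n : ℕ) : ℕ := sInf {i | Good n (2 ^ i)}

noncomputable def Phi (y n : ℕ) : ℝ := exp ((y : ℝ) ^ sg * LL n y)

/-- number of integers in `[a, a + N)` outside the class `c p` modulo each `p ∈ P` -/
noncomputable def cnt (P : Finset ℕ) (c : ℕ → ℤ) (a : ℤ) (N : ℕ) : ℕ :=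
  ((Finset.Ico a (a + N)).filter fun b => ∀ p ∈ P, ¬(p : ℤ) ∣ b - c p).card

/-- the sieved approximation set -/
def FF (q : ℕ) (c : ℕ → ℤ) (γ ψ : ℝ) : Set ℝ :=
  {x | ∃ a : ℤ, (∀ p ∈ q.primeFactors, ¬(p : ℤ) ∣ a - c p) ∧ |q * x - γ - a| < ψ}

/-- alignment away from the centre `A / B` -/
def Al (γ : ℝ) (A : ℤ) (B u v : ℕ) (Δ : ℝ) : Prop :=
  ∃ m : ℤ, |m + γ * ((v : ℝ) - u)| < 2 * Δ ∧ m * B + A * ((v : ℤ) - u) ≠ 0

theorem sg_pos : 0 < sg := by unfold sg; norm_num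

theorem FF_subset (q : ℕ) (c : ℕ → ℤ) (γ ψ : ℝ) : FF q c γ ψ ⊆ X.EE q γ ψ :=
  fun _ ⟨a, _, h⟩ => ⟨a, h⟩

theorem isOpen_FF (q : ℕ) (c : ℕ → ℤ) (γ ψ : ℝ) : IsOpen (FF q c γ ψ) := by
  unfold FF
  rw [Set.ofPred_exists]
  refine isOpen_iUnion fun a => ?_
  by_cases h : ∀ p ∈ q.primeFactors, ¬(p : ℤ) ∣ a - c p
  · simp only [eq_true h, true_and]
    exact isOpen_lt (by fun_prop) continuous_const
  · simp only [eq_false h, false_and]
    exact isOpen_empty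

theorem fac_pos {p n : ℕ} (hp : p ∈ n.primeFactors) : (1 / 2 : ℝ) ≤ 1 - (p : ℝ)⁻¹ := by
  have h : (2 : ℝ) ≤ p := by exact_mod_cast (Nat.prime_of_mem_primeFactors hp).two_le
  have := inv_anti₀ two_pos h
  linarith

theorem w_pos (n : ℕ) : 0 < w n := prod_pos fun _ hp => lt_of_lt_of_le (by norm_num) (fac_pos hp)

theorem wt_pos (n t : ℕ) : 0 < wt n t :=
  prod_pos fun _ hp => lt_of_lt_of_le (by norm_num) (fac_pos (mem_filter.1 hp).1)

theorem LL_nonneg (n t : ℕ) : 0 ≤ LL n t := sum_nonneg fun _ _ => by positivity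

theorem one_le_Phi (y n : ℕ) : 1 ≤ Phi y n :=
  one_le_exp (mul_nonneg (by positivity) (LL_nonneg n y))

end Vale.Agent.P028.V
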