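import Vale.Agent.P028.VDefs

/-! Overlap of two sets: the unsieved bound and the exact coincidences. -/

namespace Vale.Agent.P028.V

open Real Finset MeasureTheory Filter Metric

theorem VKill_one {g u v : ℕ} (hg : 0 < g) (hu : 0 < u) (hv : 0 < v) (hc : Nat.Coprime u v)
    (γ γ' x : ℝ) {ψ ψ' : ℝ} (h0 : 0 < ψ) (h1 : ψ ≤ 1 / 2) (h0' : 0 < ψ') (h : ψ * v ≤ ψ' * u) :
    volume.real (X.EE (g * u) γ ψ ∩ X.EE (g * v) γ' ψ' ∩ Set.Icc (x - 1) (x + 2)) ≤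
      ψ * ψ' * (48 + 12 / (ψ' * u)) := by
  have hg' : (0 : ℝ) < g := by exact_mod_cast hg
  have hu' : (0 : ℝ) < u := by exact_mod_cast hu
  have hv' : (0 : ℝ) < v := by exact_mod_cast hv
  refine (X.ovl1 (Nat.mul_pos hg hu) (Nat.mul_pos hg hv) γ γ' x h0 h1 ?_).trans_eq ?_
  · push_cast
    rw [div_le_div_iff₀ (by positivity) (by positivity)]
    linarith [mul_le_mul_of_nonneg_left h hg'.le]
  · rw [Nat.gcd_mul_left, hc, mul_one]
    push_cast
    field_simp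

theorem ovl_D {g u v : ℕ} (hg : 0 < g) (hu : 0 < u) (hv : 0 < v) (hc : Nat.Coprime u v)
    (γ γ' x : ℝ) {ψ ψ' : ℝ} (h0 : 0 < ψ) (h1 : ψ ≤ 1 / 2) (h0' : 0 < ψ') (h1' : ψ' ≤ 1 / 2) :
    volume.real (X.EE (g * u) γ ψ ∩ X.EE (g * v) γ' ψ' ∩ Set.Icc (x - 1) (x + 2)) ≤
      ψ * ψ' * (48 + 12 / max (ψ * v) (ψ' * u)) := by
  rcases le_total (ψ * v) (ψ' * u) with h | h
  · rw [max_eq_right h]
    exact VKill_one hg hu hv hc γ γ' x h0 h1 h0' h
  · rw [max_eq_left h, Set.inter_comm (X.EE (g * u) γ ψ), mul_comm ψ ψ']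
    exact VKill_one hg hv hu hc.symm γ' γ x h0' h1' h0 h

theorem kill {g u v B : ℕ} (hg : 0 < g) (huv : u < v) (hc : Nat.Coprime u v) (hu : 0 < u) {A : ℤ}
    (hAB : IsCoprime A B) {c c' : ℕ → ℤ} (hc' : ∀ p : ℕ, p.Prime → ¬p ∣ B → (p : ℤ) ∣ B * c' p + A)
    {γ ψ ψ' x : ℝ} (hx : x ∈ FF (g * u) c γ ψ) (hx' : x ∈ FF (g * v) c' γ ψ') :
    Al γ A B u v (max (ψ * v) (ψ' * u)) := by
  obtain ⟨a, -, ha⟩ := hx
  obtain ⟨b, hb, hb'⟩ := hx'
  have hu' : (0 : ℝ) < u := by exact_mod_cast hu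
  have hv' : (0 : ℝ) < v := by exact_mod_cast hu.trans huv
  refine ⟨a * v - b * u, ?_, fun e => ?_⟩
  · push_cast at ha hb' ⊢
    rw [abs_lt] at ha hb' ⊢
    have b1 := mul_lt_mul_of_pos_right ha.1 hv'
    have b2 := mul_lt_mul_of_pos_right ha.2 hv'
    have b3 := mul_lt_mul_of_pos_right hb'.1 hu'
    have b4 := mul_lt_mul_of_pos_right hb'.2 hu'
    have m1 := le_max_left (ψ * v) (ψ' * u)
    have m2 := le_max_right (ψ * v) (ψ' * u)
    constructor <;> linarith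
  · obtain ⟨p, hp, hpv⟩ := Nat.exists_prime_and_dvd (n := v) (by omega)
    have hp' : Prime (p : ℤ) := Nat.prime_iff_prime_int.1 hp
    have hpu : ¬(p : ℤ) ∣ u := fun k =>
      hp.one_lt.ne' (Nat.eq_one_of_dvd_coprimes hc (Int.natCast_dvd_natCast.1 k) hpv)
    have hpv' : (p : ℤ) ∣ v := Int.natCast_dvd_natCast.2 hpv
    have k1 : (p : ℤ) ∣ b * B + A := by
      refine (hp'.dvd_or_dvd (a := u) ?_).resolve_left hpu
      rw [show (u : ℤ) * (b * B + A) = v * (a * B + A) by linear_combination -e]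
      exact hpv'.mul_right _
    by_cases hB : p ∣ B
    · have hB' : (p : ℤ) ∣ B := Int.natCast_dvd_natCast.2 hB
      exact hp'.not_isUnit (hAB.isUnit_of_dvd' ((dvd_add_right (hB'.mul_left b)).1 k1) hB')
    · have k2 : (p : ℤ) ∣ B * (b - c' p) := by
        rw [show (B : ℤ) * (b - c' p) = b * B + A - (B * c' p + A) by ring]
        exact dvd_sub k1 (hc' p hp hB)
      refine hb p (Nat.mem_primeFactors.2 ⟨hp, hpv.mul_left g, ?_⟩)
        ((hp'.dvd_or_dvd k2).resolve_left fun k => hB (Int.natCast_dvd_natCast.1 k))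
      exact (Nat.mul_pos hg (hu.trans huv)).ne'

end Vale.Agent.P028.V
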