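import Vale.Agent.P028.VAr1
import Vale.Agent.P028.VCount

/-! The low range. -/

namespace Vale.Agent.P028.V

open Real Finset MeasureTheory Filter Metric

theorem VLow_mono {γ : ℝ} {A : ℤ} {B u v : ℕ} {Δ Δ' : ℝ} (h : Al γ A B u v Δ) (hd : Δ ≤ Δ') :
    Al γ A B u v Δ' := by
  obtain ⟨m, h1, h2⟩ := h
  exact ⟨m, by linarith, h2⟩

theorem VLow_sq {k : ℕ} : (k : ℝ) ^ (-(1 / 2) : ℝ) = (√(k : ℝ))⁻¹ := by
  rw [Real.rpow_neg (Nat.cast_nonneg k), Real.sqrt_eq_rpow]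

theorem VLow_sum (v : ℕ) : ∑ k ∈ Finset.Icc 1 v, (√(k : ℝ))⁻¹ ≤ 2 * √(v : ℝ) := by
  have h := powsum (a := 1 / 2) (by norm_num) (by norm_num) v
  simp only [VLow_sq] at h
  have e : (v : ℝ) ^ (1 - 1 / 2 : ℝ) = √(v : ℝ) := by
    rw [Real.sqrt_eq_rpow]; norm_num
  rw [e] at h
  refine h.trans (le_of_eq ?_)
  ring

theorem VLow_a {a g u v T : ℝ} (ha : 0 ≤ a) (hu : 0 < u) (hv : 0 < v) (hT : 0 < T)
    (hgT : T ^ 3 * g = 1) (h1 : a * v ≤ 1) (h2 : a * (g * u * T) ≤ 1) :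
    a ≤ T * (√v)⁻¹ * (√u)⁻¹ := by
  have hg : 0 < g := by
    by_contra hn
    have : T ^ 3 * g ≤ 0 := mul_nonpos_of_nonneg_of_nonpos (by positivity) (not_lt.1 hn)
    linarith
  have hsu : 0 < √u := Real.sqrt_pos.2 hu
  have hsv : 0 < √v := Real.sqrt_pos.2 hv
  have h3 : (a * v) * (a * (g * u * T)) ≤ 1 :=
    mul_le_one₀ h1 (by positivity) h2
  have h4 : (a * (√v * √u)) ^ 2 ≤ T ^ 2 := by
    have e : (a * (√v * √u)) ^ 2 = a ^ 2 * (v * u) := by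
      rw [mul_pow, mul_pow, Real.sq_sqrt hv.le, Real.sq_sqrt hu.le]
    have e2 : a ^ 2 * (v * u) = T ^ 2 * ((a * v) * (a * (g * u * T))) := by
      have : T ^ 2 * ((a * v) * (a * (g * u * T))) = (T ^ 3 * g) * (a ^ 2 * (v * u)) := by ring
      rw [this, hgT, one_mul]
    rw [e, e2]
    exact mul_le_of_le_one_right (by positivity) h3
  have h5 : a * (√v * √u) ≤ T := (sq_le_sq₀ (by positivity) hT.le).1 h4
  have e3 : T * (√v)⁻¹ * (√u)⁻¹ = T / (√v * √u) := by field_simp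
  rw [e3, le_div_iff₀ (by positivity)]
  exact h5

theorem VLow_B {g v B : ℕ} (hg : 0 < g) (hv : 0 < v)
    (hB' : (B : ℝ) ≤ ((g * v : ℕ) : ℝ) ^ (1 / 8 : ℝ)) (hvB : (v : ℝ) < B) :
    (g : ℝ) ^ (-(1 / 3) : ℝ) * B ≤ ((g * v : ℕ) : ℝ) ^ (-(1 / 8) : ℝ) := by
  have hr1 : (1 : ℝ) ≤ ((g * v : ℕ) : ℝ) := by exact_mod_cast Nat.mul_pos hg hv
  set r : ℝ := ((g * v : ℕ) : ℝ) with hr
  have hr0 : 0 < r := by linarith
  have hg0 : (0 : ℝ) < g := by exact_mod_cast hg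
  have h1 : r ^ (7 / 8 : ℝ) ≤ g := by
    have e : r ^ (7 / 8 : ℝ) * r ^ (1 / 8 : ℝ) = r := by
      rw [← Real.rpow_add hr0]; norm_num
    have h2 : r ≤ g * r ^ (1 / 8 : ℝ) := by
      have : r = g * v := by rw [hr]; push_cast; ring
      calc r = g * v := this
        _ ≤ g * r ^ (1 / 8 : ℝ) := by gcongr; linarith
    have hp : 0 < r ^ (1 / 8 : ℝ) := by positivity
    exact le_of_mul_le_mul_right (by rw [e]; exact h2) hp
  have h3 : (g : ℝ) ^ (-(1 / 3) : ℝ) ≤ (r ^ (7 / 8 : ℝ)) ^ (-(1 / 3) : ℝ) :=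
    Real.rpow_le_rpow_of_nonpos (by positivity) h1 (by norm_num)
  calc (g : ℝ) ^ (-(1 / 3) : ℝ) * B ≤ (r ^ (7 / 8 : ℝ)) ^ (-(1 / 3) : ℝ) * r ^ (1 / 8 : ℝ) := by
        gcongr
    _ = r ^ (7 / 8 * -(1 / 3) + 1 / 8 : ℝ) := by
        rw [← Real.rpow_mul hr0.le, ← Real.rpow_add hr0]
    _ ≤ r ^ (-(1 / 8) : ℝ) := Real.rpow_le_rpow_of_exponent_le hr1 (by norm_num)

theorem VLow_D {g : ℕ} (hg : 0 < g) {Δ : ℝ} (hΔ : 0 < Δ) :
    min Δ ((g : ℝ) ^ (-(1 / 3) : ℝ)) ≤ √Δ * (g : ℝ) ^ (-sg) := by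
  have hg1 : (1 : ℝ) ≤ g := by exact_mod_cast hg
  have hg0 : (0 : ℝ) < g := by linarith
  have h1 : (g : ℝ) ^ (-(1 / 3) : ℝ) ≤ ((g : ℝ) ^ (-sg)) ^ 2 := by
    rw [← Real.rpow_natCast, ← Real.rpow_mul hg0.le]
    exact Real.rpow_le_rpow_of_exponent_le hg1 (by unfold sg; norm_num)
  have h0 : 0 ≤ min Δ ((g : ℝ) ^ (-(1 / 3) : ℝ)) := le_min hΔ.le (by positivity)
  refine (sq_le_sq₀ h0 (by positivity)).1 ?_
  rw [mul_pow, Real.sq_sqrt hΔ.le, sq]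
  exact mul_le_mul (min_le_left _ _) ((min_le_right _ _).trans h1) h0 hΔ.le

theorem VLow_eta {g v : ℕ} (hg : 0 < g) (hv : 0 < v) :
    ((g * v : ℕ) : ℝ) ^ (-(1 / 8) : ℝ) ≤ ((g * v : ℕ) : ℝ) ^ (-sg) * (g : ℝ) ^ (-sg) := by
  have hg0 : (0 : ℝ) < g := by exact_mod_cast hg
  have hr : (g : ℝ) ≤ ((g * v : ℕ) : ℝ) := by exact_mod_cast Nat.le_mul_of_pos_right g hv
  have hr0 : (0 : ℝ) < ((g * v : ℕ) : ℝ) := by linarith
  have e : (-(1 / 8) : ℝ) = -sg + -sg := by unfold sg; norm_num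
  rw [e, Real.rpow_add hr0]
  exact mul_le_mul_of_nonneg_left
    (Real.rpow_le_rpow_of_nonpos hg0 hr (by have := sg_pos; linarith)) (by positivity)

theorem low_sum {g v B : ℕ} (hg : 0 < g) (hv : 0 < v) (hB : 0 < B) {A : ℤ} (hAB : IsCoprime A B)
    {γ Δ ρ : ℝ} (hB' : (B : ℝ) ≤ ((g * v : ℕ) : ℝ) ^ (1 / 8 : ℝ))
    (hη : |B * γ - A| ≤ ((g * v : ℕ) : ℝ) ^ (-(1 / 8) : ℝ)) (hΔ : 0 < Δ) (ψ : ℕ → ℝ)
    (U : Finset ℕ) (hU : ∀ u ∈ U, 0 < u ∧ u < v ∧ 0 < ψ u ∧ ψ u ≤ 1 / (g * u) ∧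
      max (ψ u * v) (ρ * u) < Δ ∧ Al γ A B u v (max (ψ u * v) (ρ * u))) :
    ∑ u ∈ U, ψ u / max (ψ u * v) (ρ * u) ≤
      (18 * √Δ + 6 * ((g * v : ℕ) : ℝ) ^ (-sg)) * (g : ℝ) ^ (-sg) := by
  have hg0 : (0 : ℝ) < g := by exact_mod_cast hg
  have hv0 : (0 : ℝ) < v := by exact_mod_cast hv
  have hv1 : (1 : ℝ) ≤ v := by exact_mod_cast hv
  have hD := VLow_D hg hΔ
  have hE := VLow_eta hg hv
  have hBv := VLow_B hg hv hB'
  set T : ℝ := (g : ℝ) ^ (-(1 / 3) : ℝ) with hT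
  set η : ℝ := ((g * v : ℕ) : ℝ) ^ (-(1 / 8) : ℝ) with hηd
  have hη0 : 0 ≤ η := by positivity
  have hT0 : 0 < T := by positivity
  have hgT : T ^ 3 * g = 1 := by
    rw [hT, ← Real.rpow_natCast, ← Real.rpow_mul hg0.le]
    norm_num
    rw [Real.rpow_neg_one]
    field_simp
  set D1 : ℝ := min Δ T with hD1
  have hD10 : 0 < D1 := lt_min hΔ hT0
  have hpos : ∀ u ∈ U, 0 < max (ψ u * v) (ρ * u) := fun u hu =>
    lt_max_of_lt_left (mul_pos (hU u hu).2.2.1 hv0)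
  have hav : ∀ u ∈ U, ψ u / max (ψ u * v) (ρ * u) * v ≤ 1 := fun u hu => by
    rw [div_mul_eq_mul_div, div_le_one (hpos u hu)]
    exact le_max_left _ _
  rw [← Finset.sum_filter_add_sum_filter_not U fun u => max (ψ u * v) (ρ * u) ≤ D1]
  have h1 : ∑ u ∈ U with max (ψ u * v) (ρ * u) ≤ D1, ψ u / max (ψ u * v) (ρ * u) ≤
      12 * D1 + 2 * η + 4 * (D1 * B / v) := by
    have hc := count_Al (v := v) hB hAB hη hD10
      (U.filter fun u => max (ψ u * v) (ρ * u) ≤ D1) fun u hu =>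
        ⟨(hU u (mem_filter.1 hu).1).1, (hU u (mem_filter.1 hu).1).2.1,
          VLow_mono (hU u (mem_filter.1 hu).1).2.2.2.2.2 (mem_filter.1 hu).2⟩
    have hs := Finset.sum_le_card_nsmul (U.filter fun u => max (ψ u * v) (ρ * u) ≤ D1)
      (fun u => ψ u / max (ψ u * v) (ρ * u)) (1 / v) fun u hu => by
        rw [le_div_iff₀ hv0]
        exact hav u (mem_filter.1 hu).1
    rw [nsmul_eq_mul] at hs
    refine hs.trans ?_
    rw [mul_one_div, div_le_iff₀ hv0]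
    refine hc.trans (le_of_eq ?_)
    field_simp
  have h2 : ∑ u ∈ U with ¬max (ψ u * v) (ρ * u) ≤ D1, ψ u / max (ψ u * v) (ρ * u) ≤ 2 * D1 := by
    rcases le_total Δ T with hc | hc
    · rw [Finset.sum_eq_zero fun u hu => ?_]
      · positivity
      · exact absurd ((hU u (mem_filter.1 hu).1).2.2.2.2.1.le.trans (le_min le_rfl hc))
          (mem_filter.1 hu).2
    · have e : D1 = T := min_eq_right hc
      calc ∑ u ∈ U with ¬max (ψ u * v) (ρ * u) ≤ D1, ψ u / max (ψ u * v) (ρ * u)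
          ≤ ∑ u ∈ U with ¬max (ψ u * v) (ρ * u) ≤ D1, T * (√(v : ℝ))⁻¹ * (√(u : ℝ))⁻¹ := by
            refine Finset.sum_le_sum fun u hu => ?_
            obtain ⟨hu1, hu2⟩ := mem_filter.1 hu
            obtain ⟨hu0, -, hψ, hψ', -⟩ := hU u hu1
            have hu0' : (0 : ℝ) < u := by exact_mod_cast hu0
            refine VLow_a (div_pos hψ (hpos u hu1)).le hu0' hv0 hT0 hgT (hav u hu1) ?_
            rw [le_div_iff₀ (by positivity)] at hψ'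
            rw [div_mul_eq_mul_div, div_le_one (hpos u hu1), ← mul_assoc]
            rw [e, not_le] at hu2
            exact (mul_le_of_le_one_left hT0.le hψ').trans hu2.le
        _ ≤ ∑ u ∈ Finset.Icc 1 v, T * (√(v : ℝ))⁻¹ * (√(u : ℝ))⁻¹ := by
            refine Finset.sum_le_sum_of_subset_of_nonneg (fun u hu => ?_) fun _ _ _ => by positivity
            obtain ⟨hu0, hu1, -⟩ := hU u (mem_filter.1 hu).1
            exact mem_Icc.2 ⟨hu0, hu1.le⟩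
        _ ≤ T * (√(v : ℝ))⁻¹ * (2 * √(v : ℝ)) := by
            rw [← Finset.mul_sum]
            exact mul_le_mul_of_nonneg_left (VLow_sum v) (by positivity)
        _ = 2 * D1 := by
            have : 0 < √(v : ℝ) := Real.sqrt_pos.2 hv0
            rw [e]
            field_simp
  have h3 : D1 * B / v ≤ D1 + η := by
    rcases le_or_gt (B : ℝ) v with hc | hc
    · have : D1 * B / v ≤ D1 := by
        rw [div_le_iff₀ hv0]
        exact mul_le_mul_of_nonneg_left hc hD10.le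
      linarith
    · have h4 : D1 * B ≤ η :=
        (mul_le_mul_of_nonneg_right (min_le_right _ _) (Nat.cast_nonneg B)).trans (hBv hc)
      have : D1 * B / v ≤ D1 * B := div_le_self (by positivity) hv1
      linarith
  rw [add_mul, mul_assoc, mul_assoc]
  linarith

end Vale.Agent.P028.V
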