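import Vale.Agent.P028.VAr3

/-! The middle range. -/

namespace Vale.Agent.P028.V

open Real Finset MeasureTheory Filter Metric

theorem VMid_core {y : ℕ} (hy : 1 ≤ y) {X R : ℝ} (hR : 0 < R) (a : ℕ → ℝ) (U : Finset ℕ)
    (hU : ∀ u ∈ U, 0 < X ∧ 0 < u ∧ u ≤ X * R ∧ 0 ≤ a u ∧ a u ≤ (u : ℝ)⁻¹ ∧ a u ≤ X⁻¹) :
    ∑ u ∈ U, a u * Phi y u ≤ 16 * R ^ sg * exp (34 * (y : ℝ) ^ sg) := by
  rcases U.eq_empty_or_nonempty with rfl | ⟨u0, h0⟩
  · rw [sum_empty]; positivity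
  have hX := (hU u0 h0).1
  have s1 : 0 ≤ 1 - sg := by unfold sg; norm_num
  have hP : ∀ u, 0 ≤ Phi y u := fun u => zero_le_one.trans (one_le_Phi y u)
  calc ∑ u ∈ U, a u * Phi y u ≤ ∑ u ∈ U, X⁻¹ ^ sg * (Phi y u * (u : ℝ) ^ (-(1 - sg))) := by
        refine sum_le_sum fun u hu => ?_
        obtain ⟨-, h1, -, h2, h3, h4⟩ := hU u hu
        rw [mul_comm (Phi y u), ← mul_assoc, rpow_neg u.cast_nonneg, ← inv_rpow u.cast_nonneg]
        refine mul_le_mul_of_nonneg_right ?_ (hP u)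
        rw [← rpow_one (a u), ← add_sub_cancel sg 1, rpow_add_of_nonneg h2 sg_pos.le s1,
          add_sub_cancel]
        exact mul_le_mul (rpow_le_rpow h2 h4 sg_pos.le) (rpow_le_rpow h2 h3 s1) (by positivity)
          (by positivity)
    _ ≤ X⁻¹ ^ sg * (16 * (X * R) ^ sg * exp (34 * (y : ℝ) ^ sg)) := by
        rw [← mul_sum]
        refine mul_le_mul_of_nonneg_left ((sum_le_sum_of_subset_of_nonneg (fun u hu => mem_Icc.2
          ⟨(hU u hu).2.1, Nat.le_floor (hU u hu).2.2.1⟩) fun u _ _ => mul_nonneg (hP u)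
            (by positivity)).trans ((mean_value hy _).trans ?_)) (by positivity)
        gcongr
        · exact sg_pos.le
        · exact Nat.floor_le (by positivity)
    _ = _ := by
        have : 0 < X ^ sg := by positivity
        rw [mul_rpow hX.le hR.le, inv_rpow hX.le]
        field_simp

theorem mid_sum {y g v : ℕ} (hy : 1 ≤ y) (hg : 0 < g) (hv : 0 < v) {δ T ρ : ℝ} (hδ : 0 < δ)
    (hT : 0 < T) (ψ : ℕ → ℝ) (U : Finset ℕ)
    (hU : ∀ u ∈ U, 0 < u ∧ 0 ≤ ψ u ∧ ψ u ≤ 1 / (g * u) ∧ δ ≤ max (ψ u * v) (ρ * u) ∧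
      max (ψ u * v) (ρ * u) < T) :
    ∑ u ∈ U, ψ u * Phi y u ≤ 32 / g * (T / δ) ^ sg * exp (34 * (y : ℝ) ^ sg) := by
  have hg' : (0 : ℝ) < g := by exact_mod_cast hg
  have hv' : (0 : ℝ) < v := by exact_mod_cast hv
  have k : ∀ u ∈ U, (0 : ℝ) < u ∧ g * ψ u * u ≤ 1 := fun u hu => by
    obtain ⟨h1, -, h2, -⟩ := hU u hu
    have h1' : (0 : ℝ) < u := by exact_mod_cast h1
    rw [le_div_iff₀ (by positivity)] at h2
    exact ⟨h1', by linarith⟩
  have k' : ∀ u ∈ U, g * ψ u ≤ (u : ℝ)⁻¹ := fun u hu => by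
    rw [← one_div, le_div_iff₀ (k u hu).1]; exact (k u hu).2
  have a1 := VMid_core hy (X := δ / ρ) (div_pos hT hδ) (fun u => g * ψ u)
    (U.filter fun u => ψ u * v ≤ ρ * u) fun u hu => by
      obtain ⟨hu, e⟩ := mem_filter.1 hu
      obtain ⟨h1, h2, -, h3, h4⟩ := hU u hu
      rw [max_eq_right e] at h3 h4
      have hρ : 0 < ρ := (mul_pos_iff_of_pos_right (k u hu).1).1 (hδ.trans_le h3)
      refine ⟨by positivity, h1, ?_, by positivity, k' u hu, (k' u hu).trans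
        (inv_anti₀ (by positivity) ((div_le_iff₀' hρ).2 h3))⟩
      rw [show δ / ρ * (T / δ) = T / ρ by field_simp, le_div_iff₀' hρ]
      exact h4.le
  have a2 := VMid_core hy (X := v / (g * T)) (div_pos hT hδ) (fun u => g * ψ u)
    (U.filter fun u => ¬ ψ u * v ≤ ρ * u) fun u hu => by
      obtain ⟨hu, e⟩ := mem_filter.1 hu
      obtain ⟨h1, h2, -, h3, h4⟩ := hU u hu
      rw [max_eq_left (not_le.1 e).le] at h3 h4
      refine ⟨by positivity, h1, ?_, by positivity, k' u hu, ?_⟩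
      · rw [show v / (g * T) * (T / δ) = v / (g * δ) by field_simp, le_div_iff₀ (by positivity)]
        nlinarith [mul_le_mul_of_nonneg_left h3 (mul_pos hg' (k u hu).1).le,
          mul_le_mul_of_nonneg_left (k u hu).2 hv'.le]
      · rw [inv_div, le_div_iff₀ hv', mul_assoc]
        exact mul_le_mul_of_nonneg_left h4.le hg'.le
  have a3 := add_le_add a1 a2
  simp only [mul_assoc] at a3
  rw [sum_filter_add_sum_filter_not, ← mul_sum] at a3
  rw [mul_assoc, div_mul_eq_mul_div, le_div_iff₀' hg']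
  linarith

end Vale.Agent.P028.V
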