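import Vale.Agent.P028.VSieve
import Vale.Agent.P028.VKill

/-! Overlap of two sieved sets in the high range. -/

namespace Vale.Agent.P028.V

open Real Finset MeasureTheory Filter Metric

theorem VPair_cov {n : ℕ} (t : ℕ) (c : ℕ → ℤ) (γ ψ : ℝ) : ∃ (P n1 : ℕ) (R : Finset ℤ),
    0 < P ∧ n = P * n1 ∧ P ∣ primorial t ∧ (R.card : ℝ) = P * wt n t ∧
      FF n c γ ψ ⊆ ⋃ a ∈ R, X.EE n1 ((γ + a) / P) (ψ / P) := by
  obtain ⟨S, hS⟩ : ∃ S, S = n.primeFactors.filter (· ≤ t) := ⟨_, rfl⟩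
  have hm : ∀ p ∈ S, p ∈ n.primeFactors ∧ p ≤ t := fun p hp => by
    rwa [hS, mem_filter] at hp
  have hp : ∀ p ∈ S, p.Prime := fun p hp => Nat.prime_of_mem_primeFactors (hm p hp).1
  have p0 : 0 < ∏ p ∈ S, p := prod_pos fun p h => (hp p h).pos
  have d1 : ∏ p ∈ S, p ∣ n :=
    (prod_dvd_prod_of_subset _ _ _ fun p h => (hm p h).1).trans (Nat.prod_primeFactors_dvd n)
  have d2 : ∏ p ∈ S, p ∣ primorial t := prod_dvd_prod_of_subset _ _ _ fun p h =>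
    mem_filter.2 ⟨mem_range.2 (Nat.lt_succ_of_le (hm p h).2), hp p h⟩
  have d3 : ∀ p ∈ S, p ∣ ∏ p ∈ S, p := fun p h => dvd_prod_of_mem _ h
  generalize ∏ p ∈ S, p = P at p0 d1 d2 d3
  obtain ⟨n1, hn⟩ := d1
  refine ⟨P, n1, _, p0, hn, d2, (cnt_exact S hp c 0 P d3).trans (by rw [wt, hS]), ?_⟩
  rintro x ⟨a, a1, a2⟩
  have P0 : (0 : ℤ) < P := by exact_mod_cast p0
  have P1 : (0 : ℝ) < P := by exact_mod_cast p0
  have e := Int.emod_add_mul_ediv a P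
  refine Set.mem_biUnion (x := a % P) (mem_filter.2 ⟨mem_Ico.2 ⟨Int.emod_nonneg _ P0.ne',
    by rw [zero_add]; exact Int.emod_lt_of_pos _ P0⟩, fun p h h' => ?_⟩) ⟨a / P, ?_⟩
  · refine a1 p (hm p h).1 ?_
    rw [show a - c p = a % P - c p + P * (a / P) by linarith]
    exact dvd_add h' (Dvd.dvd.mul_right (Int.natCast_dvd_natCast.2 (d3 p h)) _)
  · have e' : ((a % P : ℤ) : ℝ) + P * ((a / P : ℤ) : ℝ) = a := by exact_mod_cast e
    have e2 : (n1 : ℝ) * x - (γ + (a % P : ℤ)) / P - (a / P : ℤ) = (n * x - γ - a) / P := by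
      rw [hn, ← e']
      push_cast
      field_simp
      ring
    rw [e2, abs_div, abs_of_pos P1]
    exact div_lt_div_of_pos_right a2 P1

theorem VPair_dvd {g u v M : ℕ} (hg : 0 < g) (hc : Nat.Coprime u v) (h1 : g * u ∣ M)
    (h2 : g * v ∣ M) : g * u * v ∣ M := by
  obtain ⟨k, rfl⟩ := h1
  rw [mul_assoc g u k] at h2
  exact Nat.mul_dvd_mul_left _
    (hc.symm.dvd_of_dvd_mul_left (Nat.dvd_of_mul_dvd_mul_left hg h2))

theorem VPair_ge {P v v1 t : ℕ} {ψ : ℝ} (hP : 0 < P) (hv : 0 < v) (h : P * v ≤ 4 ^ t * v1)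
    (h' : (4 : ℝ) ^ t ≤ ψ * v) : 1 ≤ ψ / P * v1 := by
  have P0 : (0 : ℝ) < P := by exact_mod_cast hP
  have v0 : (0 : ℝ) < v := by exact_mod_cast hv
  have h1 : (P : ℝ) * v ≤ 4 ^ t * v1 := by exact_mod_cast h
  have h2 := h1.trans (mul_le_mul_of_nonneg_right h' (Nat.cast_nonneg v1))
  rw [div_mul_eq_mul_div, le_div_iff₀ P0, one_mul]
  refine le_of_mul_le_mul_right (h2.trans (le_of_eq ?_)) v0
  ring

theorem VPair_one {g u v t P Q n r : ℕ} (hg : 0 < g) (hu : 0 < u) (hv : 0 < v)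
    (hc : Nat.Coprime u v) (hP : 0 < P) (hQ : 0 < Q) (e1 : g * u = P * n) (e2 : g * v = Q * r)
    (d1 : P ∣ primorial t) (d2 : Q ∣ primorial t) (γ γ' x : ℝ) {ψ ψ' : ℝ} (h0 : 0 < ψ)
    (h1 : ψ ≤ 1 / 2) (h0' : 0 < ψ') (h1' : ψ' ≤ 1 / 2)
    (hD : (4 : ℝ) ^ t ≤ max (ψ * v) (ψ' * u)) :
    volume.real (X.EE n γ (ψ / P) ∩ X.EE r γ' (ψ' / Q) ∩ Set.Icc (x - 1) (x + 2)) ≤
      ψ / P * (ψ' / Q) * 60 := by
  obtain ⟨u1, v1, hc1, a1, a2⟩ := Nat.exists_coprime n r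
  generalize Nat.gcd n r = g1 at a1 a2
  rw [mul_comm] at a1 a2
  subst a1 a2
  have n0 : 0 < g1 * u1 := Nat.pos_of_mul_pos_left (e1 ▸ Nat.mul_pos hg hu)
  have r0 : 0 < g1 * v1 := Nat.pos_of_mul_pos_left (e2 ▸ Nat.mul_pos hg hv)
  have u0 := Nat.pos_of_mul_pos_left n0
  have v0 := Nat.pos_of_mul_pos_left r0
  have g0 := Nat.pos_of_mul_pos_right n0
  have k : g * u * v ≤ 4 ^ t * (g1 * u1 * v1) := by
    refine (Nat.le_of_dvd (Nat.mul_pos (primorial_pos t) (Nat.mul_pos n0 v0))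
      (VPair_dvd hg hc ?_ ?_)).trans (Nat.mul_le_mul_right _ (primorial_le_four_pow t))
    · rw [e1]
      exact mul_dvd_mul d1 (dvd_mul_right _ _)
    · rw [e2, mul_right_comm g1]
      exact mul_dvd_mul d2 (dvd_mul_right _ _)
  have k1 : P * v ≤ 4 ^ t * v1 :=
    le_of_mul_le_mul_left (a := g1 * u1) (by rw [e1] at k; linarith) n0
  have k2 : Q * u ≤ 4 ^ t * u1 :=
    le_of_mul_le_mul_left (a := g1 * v1) (by rw [mul_right_comm g, e2] at k; linarith) r0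
  have m : 1 ≤ max (ψ / P * v1) (ψ' / Q * u1) := (le_max_iff.1 hD).elim
    (fun h => le_max_of_le_left (VPair_ge hP hv k1 h))
    fun h => le_max_of_le_right (VPair_ge hQ hu k2 h)
  have P1 : (1 : ℝ) ≤ P := by exact_mod_cast hP
  have Q1 : (1 : ℝ) ≤ Q := by exact_mod_cast hQ
  refine (ovl_D g0 u0 v0 hc1 γ γ' x (by positivity) ((div_le_self h0.le P1).trans h1)
    (by positivity) ((div_le_self h0'.le Q1).trans h1')).trans
    (mul_le_mul_of_nonneg_left ?_ (by positivity))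
  linarith [div_le_self (by norm_num : (0 : ℝ) ≤ 12) m]

theorem ovl_high {g u v t : ℕ} (hg : 0 < g) (hu : 0 < u) (hv : 0 < v) (hc : Nat.Coprime u v)
    (c c' : ℕ → ℤ) (γ x : ℝ) {ψ ψ' : ℝ} (h0 : 0 < ψ) (h1 : ψ ≤ 1 / 2) (h0' : 0 < ψ')
    (h1' : ψ' ≤ 1 / 2) (hD : (4 : ℝ) ^ t ≤ max (ψ * v) (ψ' * u)) :
    volume.real (FF (g * u) c γ ψ ∩ FF (g * v) c' γ ψ' ∩ Set.Icc (x - 1) (x + 2)) ≤
      60 * (ψ * ψ') * (wt (g * u) t * wt (g * v) t) := by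
  obtain ⟨P, n, R, hP, e1, d1, c1, s1⟩ := VPair_cov (n := g * u) t c γ ψ
  obtain ⟨Q, r, R', hQ, e2, d2, c2, s2⟩ := VPair_cov (n := g * v) t c' γ ψ'
  have s3 : FF (g * u) c γ ψ ∩ FF (g * v) c' γ ψ' ∩ Set.Icc (x - 1) (x + 2) ⊆
      ⋃ z ∈ R ×ˢ R', X.EE n ((γ + z.1) / P) (ψ / P) ∩ X.EE r ((γ + z.2) / Q) (ψ' / Q) ∩
        Set.Icc (x - 1) (x + 2) := by
    rintro y ⟨⟨y1, y2⟩, y3⟩
    obtain ⟨a, a1, a2⟩ := Set.mem_iUnion₂.1 (s1 y1)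
    obtain ⟨b, b1, b2⟩ := Set.mem_iUnion₂.1 (s2 y2)
    exact Set.mem_iUnion₂.2 ⟨(a, b), mem_product.2 ⟨a1, b1⟩, ⟨a2, b2⟩, y3⟩
  refine (measureReal_mono s3 (measure_ne_top_of_subset
    (Set.iUnion₂_subset fun _ _ => Set.inter_subset_right) measure_Icc_lt_top.ne)).trans
    ((measureReal_biUnion_finset_le _ _).trans ((sum_le_card_nsmul _ _ _ fun z _ =>
      VPair_one hg hu hv hc hP hQ e1 e2 d1 d2 _ _ x h0 h1 h0' h1' hD).trans (le_of_eq ?_)))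
  have P0 : (P : ℝ) ≠ 0 := by positivity
  have Q0 : (Q : ℝ) ≠ 0 := by positivity
  rw [nsmul_eq_mul, card_product, Nat.cast_mul, c1, c2]
  field_simp

end Vale.Agent.P028.V
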