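import Vale.Agent.P028.VAr2
import Vale.Agent.P028.VMid
import Vale.Agent.P028.VLoc
import Vale.Agent.P028.VFull
import Vale.Agent.P028.VPair
import Vale.Agent.P028.VLow

/-! The Erdős–Vaaler theorem for every shift. -/

namespace Vale.Agent.P028.V

open Real Finset MeasureTheory Filter Metric

theorem exists_centre (γ : ℝ) (r : ℕ) : ∃ (A : ℤ) (B : ℕ) (c : ℕ → ℤ), 0 < r →
    0 < B ∧ IsCoprime A B ∧ (B : ℝ) ≤ (r : ℝ) ^ (1 / 8 : ℝ) ∧
      |B * γ - A| ≤ (r : ℝ) ^ (-(1 / 8) : ℝ) ∧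
      ∀ p : ℕ, p.Prime → ¬p ∣ B → (p : ℤ) ∣ B * c p + A := by
  rcases Nat.eq_zero_or_pos r with rfl | hr
  · exact ⟨0, 0, 0, fun h => h.false.elim⟩
  have h1 : (1 : ℝ) ≤ (r : ℝ) ^ (1 / 8 : ℝ) := one_le_rpow (by exact_mod_cast hr) (by norm_num)
  obtain ⟨x, h2, h3⟩ := exists_rat_abs_sub_le_and_den_le γ (Nat.floor_pos.2 h1)
  have hc : ∀ p : ℕ, ∃ c : ℤ, p.Prime → ¬p ∣ x.den → (p : ℤ) ∣ x.den * c + x.num := fun p => by
    by_cases h : p.Prime ∧ ¬p ∣ x.den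
    · obtain ⟨a, b, e⟩ := Nat.isCoprime_iff_coprime.2 ((Nat.Prime.coprime_iff_not_dvd h.1).2 h.2)
      exact ⟨-(b * x.num), fun _ _ => ⟨a * x.num, by linear_combination (-x.num) * e⟩⟩
    · exact ⟨0, fun h1 h2 => (h ⟨h1, h2⟩).elim⟩
  choose c hc using hc
  have hd : (0 : ℝ) < x.den := by exact_mod_cast x.pos
  refine ⟨x.num, x.den, c, fun _ => ⟨x.pos, Int.isCoprime_iff_gcd_eq_one.2 x.reduced,
    (Nat.cast_le.2 h3).trans (Nat.floor_le (by linarith)), ?_, hc⟩⟩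
  have e : (x.den : ℝ) * γ - x.num = x.den * (γ - x) := by
    rw [Rat.cast_def]; field_simp
  rw [e, abs_mul, abs_of_pos hd, rpow_neg (by positivity)]
  refine (mul_le_mul_of_nonneg_left h2 hd.le).trans ?_
  rw [mul_one_div, div_mul_cancel_right₀ hd.ne']
  exact inv_anti₀ (by linarith) (Nat.lt_floor_add_one _).le

noncomputable def DD (ψ : ℕ → ℝ) (q r : ℕ) : ℝ :=
  max (ψ q * (r / q.gcd r : ℕ)) (ψ r * (q / q.gcd r : ℕ))

theorem DD_comm (ψ : ℕ → ℝ) (q r : ℕ) : DD ψ q r = DD ψ r q := by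
  rw [DD, DD, max_comm, Nat.gcd_comm]

theorem gcd_eq {g u v : ℕ} (hc : Nat.Coprime u v) : (g * u).gcd (g * v) = g := by
  rw [Nat.gcd_mul_left, hc.gcd_eq_one, mul_one]

theorem DD_eq (ψ : ℕ → ℝ) {g u v : ℕ} (hg : 0 < g) (hc : Nat.Coprime u v) :
    DD ψ (g * u) (g * v) = max (ψ (g * u) * v) (ψ (g * v) * u) := by
  rw [DD, gcd_eq hc, Nat.mul_div_cancel_left _ hg, Nat.mul_div_cancel_left _ hg]

noncomputable def dl (i : ℕ) : ℝ := exp (-(2 ^ i / 4))

theorem dl_anti {i j : ℕ} (h : i ≤ j) : dl j ≤ dl i := by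
  have : (2 : ℝ) ^ i ≤ 2 ^ j := pow_le_pow_right₀ one_le_two h
  exact exp_le_exp.2 (by linarith)

theorem dl_le (i : ℕ) : dl i ≤ 1 := exp_le_one_iff.2 (by
  have : (0 : ℝ) < 2 ^ i := by positivity
  linarith)

open Classical in
noncomputable def Mid (ψ : ℕ → ℝ) (q r : ℕ) : ℝ :=
  if cl r ≤ cl q ∧ dl (cl q) ≤ DD ψ q r ∧ DD ψ q r < 4 ^ 2 ^ cl q then
    60 * (ψ q * ψ r) / dl (cl q) else 0

open Classical in
noncomputable def Low (ψ : ℕ → ℝ) (γ : ℝ) (A : ℕ → ℤ) (B : ℕ → ℕ) (q r : ℕ) : ℝ :=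
  if q < r ∧ DD ψ q r < dl (cl r) ∧ Al γ (A r) (B r) (q / q.gcd r) (r / q.gcd r) (DD ψ q r) then
    60 * (ψ q * ψ r) / DD ψ q r else 0

/-- the common majorant of all error terms -/
noncomputable def tm (i : ℕ) : ℝ := (2 : ℝ) ^ i * exp (284 * ((2 : ℝ) ^ i) ^ (1 - sg) - 2 ^ i / 64)

theorem tm_le (s : Finset ℕ) : ∑ i ∈ s, tm i ≤ ∑' i, tm i :=
  (summable_cl 284).sum_le_tsum s fun i _ => by unfold tm; positivity

section

variable {ψ : ℕ → ℝ} {γ : ℝ} {A : ℕ → ℤ} {B : ℕ → ℕ} {c : ℕ → ℕ → ℤ}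

theorem Mid_nonneg (h0 : ∀ q, 0 ≤ ψ q) (q r : ℕ) : 0 ≤ Mid ψ q r := by
  have := h0 q
  have := h0 r
  unfold Mid dl
  split_ifs <;> positivity

theorem Low_nonneg (h0 : ∀ q, 0 ≤ ψ q) (q r : ℕ) : 0 ≤ Low ψ γ A B q r := by
  have := h0 q
  have := h0 r
  unfold Low DD
  split_ifs <;> positivity

theorem pair_lt (h0 : ∀ q, 0 ≤ ψ q) {q r : ℕ} (hqr : q < r) (hq : 0 < q) (a1 : 0 < ψ q)
    (a2 : ψ q ≤ 1 / 2) (b1 : 0 < ψ r) (b2 : ψ r ≤ 1 / 2) (hAB : IsCoprime (A r) (B r))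
    (hc : ∀ p : ℕ, p.Prime → ¬p ∣ B r → (p : ℤ) ∣ B r * c r p + A r) (x : ℝ) :
    volume.real (FF q (c q) γ (ψ q) ∩ FF r (c r) γ (ψ r) ∩ Set.Icc (x - 1) (x + 2)) ≤
      3840 * (w q * ψ q * (w r * ψ r)) + (Mid ψ q r + Mid ψ r q) + Low ψ γ A B q r := by
  have m1 := Mid_nonneg h0 q r
  have m2 := Mid_nonneg h0 r q
  have m3 := Low_nonneg (γ := γ) (A := A) (B := B) h0 q r
  have m4 : 0 ≤ 3840 * (w q * ψ q * (w r * ψ r)) := by
    have := w_pos q
    have := w_pos r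
    positivity
  obtain ⟨g, u, v, hg, hcop, rfl, rfl⟩ := Nat.exists_coprime' (Nat.gcd_pos_of_pos_left r hq)
  rw [mul_comm u g, mul_comm v g] at *
  have hu : 0 < u := Nat.pos_of_mul_pos_left hq
  have huv : u < v := Nat.lt_of_mul_lt_mul_left hqr
  have hv : 0 < v := hu.trans huv
  have hD := DD_eq ψ hg hcop
  have hD0 : 0 < DD ψ (g * u) (g * v) := by
    rw [hD]
    exact lt_max_of_lt_left (by positivity)
  have o := (measureReal_mono (Set.inter_subset_inter_left _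
    (Set.inter_subset_inter (FF_subset (g * u) (c (g * u)) γ (ψ (g * u)))
      (FF_subset (g * v) (c (g * v)) γ (ψ (g * v)))))
    ((measure_mono Set.inter_subset_right).trans_lt measure_Icc_lt_top).ne).trans
      (ovl_D hg hu hv hcop γ γ x a1 a2 b1 b2)
  rw [← hD] at o
  have o2 : ∀ δ : ℝ, 0 < δ → δ ≤ 1 → δ ≤ DD ψ (g * u) (g * v) →
      ψ (g * u) * ψ (g * v) * (48 + 12 / DD ψ (g * u) (g * v)) ≤
        60 * (ψ (g * u) * ψ (g * v)) / δ := fun δ d0 d1 d2 => by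
    have k1 : 12 / DD ψ (g * u) (g * v) ≤ 12 / δ := div_le_div_of_nonneg_left (by norm_num) d0 d2
    have k2 : (48 : ℝ) ≤ 48 / δ := by rw [le_div_iff₀ d0]; linarith
    refine (mul_le_mul_of_nonneg_left (add_le_add k2 k1) (by positivity)).trans_eq (by ring)
  set i := max (cl (g * u)) (cl (g * v)) with hi
  by_cases h1 : (4 : ℝ) ^ 2 ^ i ≤ DD ψ (g * u) (g * v)
  · have k := ovl_high (t := 2 ^ i) hg hu hv hcop (c (g * u)) (c (g * v)) γ x a1 a2 b1 b2 (hD ▸ h1)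
    have k1 := wt_le (good_of_le (le_max_left _ _ : cl (g * u) ≤ i)) Nat.one_le_two_pow
    have k2 := wt_le (good_of_le (le_max_right _ _ : cl (g * v) ≤ i)) Nat.one_le_two_pow
    have k3 := mul_le_mul_of_nonneg_left
      (mul_le_mul k1 k2 (wt_pos _ _).le (by linarith [w_pos (g * u)]))
      (show 0 ≤ 60 * (ψ (g * u) * ψ (g * v)) by positivity)
    linarith
  by_cases h2 : dl i ≤ DD ψ (g * u) (g * v)
  · have k := o.trans (o2 (dl i) (exp_pos _) (dl_le i) h2)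
    rcases le_total (cl (g * v)) (cl (g * u)) with h | h
    · rw [max_eq_left h] at hi
      have : Mid ψ (g * u) (g * v) = 60 * (ψ (g * u) * ψ (g * v)) / dl i := by
        rw [Mid, ← hi, if_pos ⟨hi ▸ h, h2, not_le.1 h1⟩]
      linarith
    · rw [max_eq_right h] at hi
      have : Mid ψ (g * v) (g * u) = 60 * (ψ (g * u) * ψ (g * v)) / dl i := by
        rw [Mid, ← hi, DD_comm, if_pos ⟨hi ▸ h, h2, not_le.1 h1⟩, mul_comm (ψ (g * v))]
      linarith
  rcases (FF (g * u) (c (g * u)) γ (ψ (g * u)) ∩ FF (g * v) (c (g * v)) γ (ψ (g * v)) ∩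
    Set.Icc (x - 1) (x + 2)).eq_empty_or_nonempty with e | ⟨y, ⟨y1, y2⟩, -⟩
  · rw [e, measureReal_empty]
    linarith
  have h3 := (not_le.1 h2).trans_le (dl_anti (le_max_right _ _))
  have : Low ψ γ A B (g * u) (g * v) = 60 * (ψ (g * u) * ψ (g * v)) / DD ψ (g * u) (g * v) := by
    refine if_pos ⟨hqr, h3, ?_⟩
    rw [gcd_eq hcop, Nat.mul_div_cancel_left _ hg, Nat.mul_div_cancel_left _ hg, hD]
    exact kill hg huv hcop hu hAB hc y1 y2
  linarith [o2 _ hD0 (h3.le.trans (dl_le _)) le_rfl]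

theorem Low_sum (h0 : ∀ q, 0 ≤ ψ q) {r : ℕ} (hr : 0 < r) (S : Finset ℕ)
    (hS : ∀ q ∈ S, 0 < q ∧ 0 < ψ q ∧ ψ q ≤ 1 / q) (hB : 0 < B r) (hAB : IsCoprime (A r) (B r))
    (hB' : (B r : ℝ) ≤ (r : ℝ) ^ (1 / 8 : ℝ)) (hη : |B r * γ - A r| ≤ (r : ℝ) ^ (-(1 / 8) : ℝ)) :
    ∑ q ∈ S, Low ψ γ A B q r ≤ 14400 * (∑' i, tm i) * (w r * ψ r) := by
  classical
  have hg := good_of_le (le_refl (cl r))
  have b0 := h0 r
  set E := exp (-(2 ^ cl r / 64) : ℝ) with hE
  have hE0 : 0 < E := exp_pos _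
  have k1 : 18 * √(dl (cl r)) + 6 * (r : ℝ) ^ (-sg) ≤ 30 * E := by
    have : √(dl (cl r)) ≤ E := by
      rw [dl, ← exp_half]
      have : (0 : ℝ) < 2 ^ cl r := by positivity
      exact exp_le_exp.2 (by linarith)
    linarith [big hr]
  refine (sum_le_div hr S (fun q hq => (hS q hq).1) _
    (fun g => 60 * ψ r * (30 * E) * (3 ^ g.primeFactors.card * (g : ℝ) ^ (-sg)))
    fun g v e U hU => ?_).trans ?_
  · subst e
    have g0 : 0 < g := Nat.pos_of_mul_pos_right hr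
    have v0 : 0 < v := Nat.pos_of_mul_pos_left hr
    set U' := U.filter fun u => g * u < g * v ∧ DD ψ (g * u) (g * v) < dl (cl (g * v)) ∧
      Al γ (A (g * v)) (B (g * v)) (g * u / (g * u).gcd (g * v)) (g * v / (g * u).gcd (g * v))
        (DD ψ (g * u) (g * v))
    have k := low_sum (ρ := ψ (g * v)) g0 v0 hB hAB hB' hη (exp_pos _ : 0 < dl (cl (g * v)))
      (fun u => ψ (g * u)) U' fun u hu => by
        obtain ⟨u1, u2, u3, u4⟩ := mem_filter.1 hu
        obtain ⟨u5, u6, u7⟩ := hU u u1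
        rw [gcd_eq u6, Nat.mul_div_cancel_left _ g0, Nat.mul_div_cancel_left _ g0] at u4
        rw [DD_eq ψ g0 u6] at u3 u4
        exact ⟨u5, Nat.lt_of_mul_lt_mul_left u2, (hS _ u7).2.1,
          by simpa only [Nat.cast_mul] using (hS _ u7).2.2, u3, u4⟩
    have e : ∑ u ∈ U, Low ψ γ A B (g * u) (g * v) = 60 * ψ (g * v) *
        ∑ u ∈ U', ψ (g * u) / max (ψ (g * u) * v) (ψ (g * v) * u) := by
      simp only [Low]
      rw [← sum_filter, mul_sum]
      refine sum_congr rfl fun u hu => ?_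
      rw [DD_eq ψ g0 (hU u (mem_filter.1 hu).1).2.1]
      ring
    rw [e, mul_assoc (60 * ψ (g * v))]
    refine mul_le_mul_of_nonneg_left (k.trans (mul_le_mul k1 ?_ (by positivity) (by positivity)))
      (by positivity)
    exact le_mul_of_one_le_left (by positivity) (one_le_pow₀ (by norm_num))
  · rw [← mul_sum]
    have k2 := Gsum hr hg Nat.one_le_two_pow
    have k3 := one_le_w hg Nat.one_le_two_pow
    have k4 := tm_le {cl r}
    rw [sum_singleton] at k4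
    push_cast at k2 k3
    have k5 : 2 ^ cl r * (E * exp (250 * ((2 : ℝ) ^ cl r) ^ (1 - sg))) ≤ tm (cl r) := by
      rw [tm, hE, ← exp_add]
      have : (0 : ℝ) ≤ ((2 : ℝ) ^ cl r) ^ (1 - sg) := by positivity
      exact mul_le_mul_of_nonneg_left (exp_le_exp.2 (by linarith)) (by positivity)
    have w0 := w_pos r
    calc _ ≤ 60 * ψ r * (30 * E) * exp (250 * ((2 : ℝ) ^ cl r) ^ (1 - sg)) * 1 := by
          rw [mul_one]
          exact mul_le_mul_of_nonneg_left k2 (by positivity)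
      _ ≤ 60 * ψ r * (30 * E) * exp (250 * ((2 : ℝ) ^ cl r) ^ (1 - sg)) * (8 * 2 ^ cl r * w r) :=
          mul_le_mul_of_nonneg_left k3 (by positivity)
      _ = 14400 * (2 ^ cl r * (E * exp (250 * ((2 : ℝ) ^ cl r) ^ (1 - sg)))) * (w r * ψ r) := by
          ring
      _ ≤ _ := by gcongr; exact k5.trans k4

theorem Mid_class (h0 : ∀ q, 0 ≤ ψ q) {r : ℕ} (hr : 0 < r) (i : ℕ) (S : Finset ℕ)
    (hS : ∀ q ∈ S, 0 < q ∧ ψ q ≤ 1 / q ∧ cl q = i) :
    ∑ q ∈ S, Mid ψ q r ≤ 46080 * tm i * (w r * ψ r) := by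
  classical
  have b0 := h0 r
  have w0 := w_pos r
  by_cases hi : cl r ≤ i
  swap
  · refine (sum_eq_zero fun q hq => ?_).trans_le (by unfold tm; positivity)
    rw [Mid, (hS q hq).2.2, if_neg fun h => hi h.1]
  have hg := good_of_le hi
  set t : ℝ := 2 ^ i with ht
  have t1 : 1 ≤ t := one_le_pow₀ one_le_two
  set F := 60 * ψ r / dl i * (3 * exp (-(t / 2))) *
    (32 * (4 ^ 2 ^ i / dl i) ^ sg * exp (34 * ((2 ^ (i - 1) : ℕ) : ℝ) ^ sg)) with hF
  have d0 : 0 < dl i := exp_pos _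
  have F0 : 0 ≤ F := by positivity
  refine (sum_le_div hr S (fun q hq => (hS q hq).1) _
    (fun g => F * (3 ^ g.primeFactors.card * (g : ℝ) ^ (-sg))) fun g v e U hU => ?_).trans ?_
  · subst e
    have g0 : 0 < g := Nat.pos_of_mul_pos_right hr
    have v0 : 0 < v := Nat.pos_of_mul_pos_left hr
    set U' := U.filter fun u => dl i ≤ DD ψ (g * u) (g * v) ∧ DD ψ (g * u) (g * v) < 4 ^ 2 ^ i
    have k := mid_sum (y := 2 ^ (i - 1)) (ρ := ψ (g * v)) Nat.one_le_two_pow g0 v0 d0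
      (show (0 : ℝ) < 4 ^ 2 ^ i by positivity) (fun u => ψ (g * u)) U' fun u hu => by
        obtain ⟨u1, u3, u4⟩ := mem_filter.1 hu
        obtain ⟨u5, u6, u7⟩ := hU u u1
        rw [DD_eq ψ g0 u6] at u3 u4
        exact ⟨u5, h0 _, by simpa only [Nat.cast_mul] using (hS _ u7).2.1, u3, u4⟩
    have e : ∑ u ∈ U, Mid ψ (g * u) (g * v) ≤ 60 * ψ (g * v) / dl i * (3 * exp (-(t / 2))) *
        3 ^ g.primeFactors.card * ∑ u ∈ U', ψ (g * u) * Phi (2 ^ (i - 1)) u := by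
      rw [mul_sum, sum_filter]
      refine sum_le_sum fun u hu => ?_
      obtain ⟨u5, u6, u7⟩ := hU u hu
      have a0 := h0 (g * u)
      rw [Mid, (hS _ u7).2.2]
      simp only [hi, true_and]
      split_ifs
      · have r1 := rankin (g * u)
        rw [(hS _ u7).2.2] at r1
        have r2 := r1.trans (mul_le_mul_of_nonneg_left
          (Phi_mul (y := 2 ^ (i - 1)) Nat.one_le_two_pow g0 u5) (by positivity))
        exact (le_mul_of_one_le_right (by positivity) r2).trans_eq (by ring)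
      · rfl
    have g1 : (1 : ℝ) ≤ g := by exact_mod_cast g0
    have g2 : 1 / (g : ℝ) ≤ (g : ℝ) ^ (-sg) := by
      rw [one_div, ← rpow_neg_one]
      exact rpow_le_rpow_of_exponent_le g1 (by unfold sg; norm_num)
    refine e.trans ((mul_le_mul_of_nonneg_left k (by positivity)).trans ?_)
    exact le_of_eq_of_le (b := F * (3 ^ g.primeFactors.card * (1 / g))) (by rw [hF]; ring)
      (by gcongr)
  · rw [← mul_sum]
    have k2 := Gsum hr hg Nat.one_le_two_pow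
    have k3 := one_le_w hg Nat.one_le_two_pow
    push_cast at k2 k3
    have k4 : ((2 ^ (i - 1) : ℕ) : ℝ) ^ sg ≤ t ^ (1 - sg) := by
      push_cast
      exact (rpow_le_rpow (by positivity) (pow_le_pow_right₀ one_le_two (Nat.sub_le i 1))
        sg_pos.le).trans (rpow_le_rpow_of_exponent_le t1 (by unfold sg; norm_num))
    have k5 : ((4 : ℝ) ^ 2 ^ i / dl i) ^ sg ≤ exp (t / 8) := by
      have h4 : (4 : ℝ) ≤ exp (7 / 4) := by
        have := quadratic_le_exp_of_nonneg (show (0 : ℝ) ≤ 7 / 4 by norm_num)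
        linarith
      have h5 : (4 : ℝ) ^ 2 ^ i / dl i ≤ exp (2 * t) := by
        rw [div_le_iff₀ d0, dl, ← exp_add]
        refine (pow_le_pow_left₀ (by norm_num) h4 _).trans ?_
        rw [← exp_nat_mul]
        push_cast
        exact exp_le_exp.2 (by linarith)
      refine (rpow_le_rpow (by positivity) h5 sg_pos.le).trans_eq ?_
      rw [← exp_mul, sg]
      congr 1
      ring
    have k6 : F ≤ 5760 * ψ r * exp (34 * t ^ (1 - sg) - t / 8) := by
      have e : exp (34 * t ^ (1 - sg) - t / 8) =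
          exp (-(t / 2)) / dl i * (exp (t / 8) * exp (34 * t ^ (1 - sg))) := by
        rw [dl, ← exp_sub, ← exp_add, ← exp_add]
        congr 1
        ring
      rw [e]
      refine le_of_le_of_eq (b := 60 * ψ r / dl i * (3 * exp (-(t / 2))) *
        (32 * exp (t / 8) * exp (34 * t ^ (1 - sg)))) ?_ (by ring)
      rw [hF]
      gcongr
    have k7 : t * (exp (34 * t ^ (1 - sg) - t / 8) * exp (250 * t ^ (1 - sg))) ≤ tm i := by
      rw [tm, ← exp_add]
      exact mul_le_mul_of_nonneg_left (exp_le_exp.2 (by linarith)) (by positivity)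
    calc _ ≤ 5760 * ψ r * exp (34 * t ^ (1 - sg) - t / 8) * exp (250 * t ^ (1 - sg)) * 1 := by
          rw [mul_one]
          exact mul_le_mul k6 k2 (sum_nonneg fun _ _ => by positivity) (by positivity)
      _ ≤ 5760 * ψ r * exp (34 * t ^ (1 - sg) - t / 8) * exp (250 * t ^ (1 - sg)) *
          (8 * t * w r) := mul_le_mul_of_nonneg_left k3 (by positivity)
      _ = 46080 * (t * (exp (34 * t ^ (1 - sg) - t / 8) * exp (250 * t ^ (1 - sg)))) *
          (w r * ψ r) := by ring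
      _ ≤ _ := by gcongr

theorem Mid_sum (h0 : ∀ q, 0 ≤ ψ q) {r : ℕ} (hr : 0 < r) (S : Finset ℕ)
    (hS : ∀ q ∈ S, 0 < q ∧ ψ q ≤ 1 / q) :
    ∑ q ∈ S, Mid ψ q r ≤ 46080 * (∑' i, tm i) * (w r * ψ r) := by
  rw [← sum_fiberwise_of_maps_to (g := cl) (t := S.image cl) fun q hq => mem_image_of_mem _ hq]
  refine (sum_le_sum fun i _ => Mid_class h0 hr i _ fun q hq =>
    ⟨(hS q (mem_filter.1 hq).1).1, (hS q (mem_filter.1 hq).1).2, (mem_filter.1 hq).2⟩).trans ?_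
  rw [← sum_mul, ← mul_sum]
  have := mul_nonneg (w_pos r).le (h0 r)
  gcongr
  exact tm_le _

end

theorem main (γ : ℝ) (ψ : ℕ → ℝ) (h0 : ∀ q, 0 ≤ ψ q) (h1 : ∀ q, ψ q ≤ 1 / q)
    (hdiv : ¬Summable fun q => w q * ψ q) : ∀ᵐ x : ℝ, ∃ᶠ q in atTop, x ∈ X.EE q γ (ψ q) := by
  classical
  choose A B c hc using exists_centre γ
  have hT : 0 ≤ ∑' i, tm i := by simpa using tm_le ∅
  have h2 : ∀ q, 2 ≤ q → ψ q ≤ 1 / 2 := fun q hq =>
    (h1 q).trans (one_div_le_one_div_of_le two_pos (by exact_mod_cast hq))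
  have m0 : ∀ q, 0 ≤ w q * ψ q := fun q => mul_nonneg (w_pos q).le (h0 q)
  refine (full' (fun q => FF q (c q) γ (ψ q)) (fun q => w q * ψ q) (fun q => isOpen_FF _ _ _ _)
    (C := 3860 + 120960 * ∑' i, tm i) (by positivity) (fun η hη => ?_) fun Q => ?_).mono
    fun x hx => hx.mono fun q hq => FF_subset _ _ _ _ hq
  · obtain ⟨Q, hQ⟩ := low_FF hη
    exact ⟨max Q 2, fun q hq x K hK =>
      hQ q (le_of_max_le_left hq) _ _ _ x K (h0 q) (h2 q (le_of_max_le_right hq)) hK⟩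
  obtain ⟨Q₀, hQ₀⟩ := diag_FF
  set Q' := max Q Q₀ + 2
  have ns : ¬Summable fun q => w (q + Q') * ψ (q + Q') := fun h =>
    hdiv ((summable_nat_add_iff (f := fun q => w q * ψ q) Q').1 h)
  obtain ⟨N, hN⟩ := (((not_summable_iff_tendsto_nat_atTop_of_nonneg fun q => m0 _).1
    ns).eventually_ge_atTop 1).exists
  set S := (Finset.Ico Q' (N + Q')).filter fun q => 0 < ψ q
  have hm : 1 ≤ ∑ q ∈ S, w q * ψ q := by
    have e := sum_Ico_add' (fun q => w q * ψ q) 0 N Q'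
    rw [zero_add, Nat.Ico_zero_eq_range] at e
    rw [sum_filter_of_ne fun q _ h => (h0 q).lt_of_ne' (right_ne_zero_of_mul h), ← e]
    exact hN
  have hS : ∀ q ∈ S, Q ≤ q ∧ Q₀ ≤ q ∧ 2 ≤ q ∧ 0 < ψ q := fun q hq => by
    obtain ⟨k1, k2⟩ := mem_filter.1 hq
    have k3 := (Finset.mem_Ico.1 k1).1
    exact ⟨by omega, by omega, by omega, k2⟩
  have hp : ∀ q ∈ S, 0 < q := fun q hq => by linarith [(hS q hq).2.2.1]
  refine ⟨S, fun q hq => (hS q hq).1, by linarith, fun x => ?_⟩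
  have s1 : ∑ r ∈ S, ∑ q ∈ S, Mid ψ q r ≤ 46080 * (∑' i, tm i) * ∑ r ∈ S, w r * ψ r := by
    rw [mul_sum]
    exact sum_le_sum fun r hr => Mid_sum h0 (hp r hr) S fun q hq => ⟨hp q hq, h1 q⟩
  have s2 : ∑ r ∈ S, ∑ q ∈ S, Low ψ γ A B q r ≤ 14400 * (∑' i, tm i) * ∑ r ∈ S, w r * ψ r := by
    rw [mul_sum]
    refine sum_le_sum fun r hr => ?_
    obtain ⟨k1, k2, k3, k4, -⟩ := hc r (hp r hr)
    exact Low_sum h0 (hp r hr) S (fun q hq => ⟨hp q hq, (hS q hq).2.2.2, h1 q⟩) k1 k2 k3 k4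
  have s3 : ∑ q ∈ S, ∑ r ∈ S, (if q = r then 20 * (w q * ψ q) else 0) =
      20 * ∑ q ∈ S, w q * ψ q := by
    rw [mul_sum]
    exact sum_congr rfl fun q hq => by rw [sum_ite_eq, if_pos hq]
  calc _ ≤ ∑ q ∈ S, ∑ r ∈ S, ((if q = r then 20 * (w q * ψ q) else 0) +
        3840 * (w q * ψ q * (w r * ψ r)) + (Mid ψ q r + Mid ψ r q) +
        (Low ψ γ A B q r + Low ψ γ A B r q)) := by
        refine sum_le_sum fun q hq => sum_le_sum fun r hr => ?_
        obtain ⟨-, a1, a2, a3⟩ := hS q hq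
        obtain ⟨-, b1, b2, b3⟩ := hS r hr
        have n1 := Low_nonneg (γ := γ) (A := A) (B := B) h0 q r
        have n2 := Low_nonneg (γ := γ) (A := A) (B := B) h0 r q
        rcases lt_trichotomy q r with h | rfl | h
        · have k := hc r (hp r hr)
          have := pair_lt (γ := γ) (c := c) h0 h (hp q hq) a3 (h2 q a2) b3 (h2 r b2) k.2.1
            k.2.2.2.2 x
          rw [if_neg h.ne]
          linarith
        · have := hQ₀ q a1 (c q) γ (ψ q) x (h0 q) (h2 q a2)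
          rw [Set.inter_self, if_pos rfl]
          linarith [Mid_nonneg h0 q q, mul_nonneg (m0 q) (m0 q)]
        · have k := hc q (hp q hq)
          have := pair_lt (γ := γ) (c := c) h0 h (hp r hr) b3 (h2 r b2) a3 (h2 q a2) k.2.1
            k.2.2.2.2 x
          rw [if_neg h.ne', Set.inter_comm (FF q _ _ _), mul_comm (w q * ψ q)]
          linarith
    _ ≤ _ := by
        simp only [sum_add_distrib]
        rw [s3, sum_comm (f := fun q r => Mid ψ q r), sum_comm (f := fun q r => Low ψ γ A B q r)]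
        simp only [← mul_sum, ← sum_mul]
        generalize ∑ q ∈ S, w q * ψ q = M at *
        have : M ≤ M ^ 2 := by nlinarith
        nlinarith [mul_le_mul_of_nonneg_left this hT]

end Vale.Agent.P028.V
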