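import Vale.Agent.P028.VDefs

/-! The sieve of Eratosthenes and Legendre with arbitrary classes. -/

namespace Vale.Agent.P028.V

open Real Finset MeasureTheory Filter Metric

theorem VSieve_class (c : ℕ → ℤ) {p : ℕ} (hp : p.Prime) (l : ℕ) : ∃ x : ℤ, l.Prime → l ≠ p →
    ∀ k : ℤ, ((l : ℤ) ∣ c p + p * k - c l ↔ (l : ℤ) ∣ k - x) := by
  by_cases h : l.Prime ∧ l ≠ p
  · have hc : IsCoprime (l : ℤ) (p : ℤ) :=
      Nat.isCoprime_iff_coprime.2 ((Nat.coprime_primes h.1 hp).2 h.2)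
    obtain ⟨t, s, e⟩ := id hc
    refine ⟨s * (c l - c p), fun _ _ k => ?_⟩
    have e1 : c p + p * k - c l = p * (k - s * (c l - c p)) - l * (t * (c l - c p)) := by
      linear_combination (c l - c p) * e
    rw [e1, dvd_sub_left (dvd_mul_right _ _)]
    exact ⟨hc.dvd_of_dvd_mul_left, fun h => h.mul_left _⟩
  · exact ⟨0, fun h1 h2 => absurd ⟨h1, h2⟩ h⟩

theorem VSieve_step {P : Finset ℕ} (hP : ∀ l ∈ P, l.Prime) {p : ℕ} (hp : p.Prime) (hpP : p ∉ P)
    (c : ℕ → ℤ) (a : ℤ) (N : ℕ) : ∃ (c2 : ℕ → ℤ) (a2 : ℤ) (N2 : ℕ),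
      cnt (insert p P) c a N + cnt P c2 a2 N2 = cnt P c a N ∧ |(N2 : ℝ) - N / p| ≤ 1 ∧
        (p ∣ N → N2 * p = N) := by
  choose c2 h2 using VSieve_class c hp
  have p0 : (0 : ℤ) < p := by exact_mod_cast hp.pos
  have key : ∀ x k : ℤ, -((c p - x) / p) ≤ k ↔ x ≤ c p + p * k := fun x k => by
    rw [neg_le, Int.le_ediv_iff_mul_le p0]
    constructor <;> intro h <;> linarith
  obtain ⟨N2, hN2⟩ := Int.le.dest (a := -((c p - a) / p)) (b := -((c p - (a + N)) / p))
    (neg_le_neg (Int.ediv_le_ediv p0 (by linarith [Int.natCast_nonneg N])))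
  have f1 := Int.mul_ediv_self_le (x := c p - a) p0.ne'
  have f2 := Int.lt_mul_ediv_self_add (x := c p - a) p0
  have f3 := Int.mul_ediv_self_le (x := c p - (a + N)) p0.ne'
  have f4 := Int.lt_mul_ediv_self_add (x := c p - (a + N)) p0
  have f5 : (p : ℤ) * N2 = p * ((c p - a) / p) - p * ((c p - (a + N)) / p) := by
    linear_combination (p : ℤ) * hN2
  have f6 : |(p : ℤ) * N2 - N| < p := abs_lt.2 ⟨by linarith, by linarith⟩
  refine ⟨c2, -((c p - a) / p), N2, ?_, ?_, fun h => ?_⟩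
  · unfold cnt
    rw [← card_filter_add_card_filter_not (fun b : ℤ => (p : ℤ) ∣ b - c p)
      (s := (Finset.Ico a (a + N)).filter fun b => ∀ p ∈ P, ¬(p : ℤ) ∣ b - c p), add_comm]
    congr 1
    · rw [hN2]
      refine card_nbij (fun k => c p + p * k) (fun k hk => ?_) (fun k _ j _ e => ?_) fun b hb => ?_
      · simp only [coe_filter, mem_filter, Finset.mem_Ico, Set.mem_setOf_eq] at hk ⊢
        refine ⟨⟨⟨(key _ _).1 hk.1.1, not_le.1 fun h => not_le.2 hk.1.2 ((key _ _).2 h)⟩,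
          fun l hl h => hk.2 l hl ((h2 l (hP l hl) (fun e => hpP (e ▸ hl)) k).1 h)⟩, ?_⟩
        rw [add_sub_cancel_left]
        exact dvd_mul_right _ _
      · exact mul_left_cancel₀ p0.ne' (add_left_cancel e)
      · simp only [coe_filter, mem_filter, Finset.mem_Ico, Set.mem_setOf_eq] at hb
        obtain ⟨⟨hb1, hb2⟩, k, hk⟩ := hb
        have e : b = c p + p * k := by linarith
        subst e
        refine ⟨k, ?_, rfl⟩
        simp only [coe_filter, Finset.mem_Ico, Set.mem_setOf_eq]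
        exact ⟨⟨(key _ _).2 hb1.1, not_le.1 fun h => not_le.2 hb1.2 ((key _ _).1 h)⟩,
          fun l hl h => hb2 l hl ((h2 l (hP l hl) (fun e => hpP (e ▸ hl)) k).2 h)⟩
    · rw [filter_filter]
      refine congrArg card (filter_congr fun b _ => ?_)
      rw [forall_mem_insert, and_comm]
  · have p1 : (0 : ℝ) < p := by exact_mod_cast hp.pos
    have f7 : |(p : ℝ) * N2 - N| < p := by exact_mod_cast f6
    have e : (N2 : ℝ) - N / p = ((p : ℝ) * N2 - N) / p := by field_simp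
    rw [e, abs_div, abs_of_pos p1, div_le_one p1]
    exact f7.le
  · have f8 := Int.eq_zero_of_abs_lt_dvd
      (dvd_sub (dvd_mul_right (p : ℤ) N2) (Int.natCast_dvd_natCast.2 h)) f6
    have f9 : (N2 : ℤ) * p = N := by linarith
    exact_mod_cast f9

theorem VSieve_empty (c : ℕ → ℤ) (a : ℤ) (N : ℕ) : cnt ∅ c a N = N := by
  simp [cnt]

theorem cnt_approx (P : Finset ℕ) (hP : ∀ p ∈ P, p.Prime) (c : ℕ → ℤ) (a : ℤ) (N : ℕ) :
    |(cnt P c a N : ℝ) - N * ∏ p ∈ P, (1 - (p : ℝ)⁻¹)| ≤ 2 ^ P.card := by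
  suffices h : |(cnt P c a N : ℝ) - N * ∏ p ∈ P, (1 - (p : ℝ)⁻¹)| ≤ 2 ^ P.card - 1 by linarith
  induction P using Finset.induction_on generalizing c a N with
  | empty => simp [VSieve_empty]
  | insert p P hpP ih =>
    have hP' : ∀ l ∈ P, l.Prime := fun l hl => hP l (mem_insert_of_mem hl)
    obtain ⟨c2, a2, N2, h1, h2, -⟩ := VSieve_step hP' (hP p (mem_insert_self _ _)) hpP c a N
    have h3 : (cnt (insert p P) c a N : ℝ) + cnt P c2 a2 N2 = cnt P c a N := by exact_mod_cast h1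
    have f : ∀ l ∈ P, 0 ≤ 1 - (l : ℝ)⁻¹ ∧ 1 - (l : ℝ)⁻¹ ≤ 1 := fun l hl =>
      ⟨sub_nonneg.2 (inv_le_one_of_one_le₀ (by exact_mod_cast (hP' l hl).one_le)),
        sub_le_self _ (by positivity)⟩
    have w0 := prod_nonneg fun l hl => (f l hl).1
    have w1 := prod_le_one (fun l hl => (f l hl).1) fun l hl => (f l hl).2
    have i1 := abs_le.1 (ih hP' c a N)
    have i2 := abs_le.1 (ih hP' c2 a2 N2)
    rw [prod_insert hpP, card_insert_of_notMem hpP, pow_succ]
    generalize ∏ p ∈ P, (1 - (p : ℝ)⁻¹) = W at *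
    have i3 : |((N2 : ℝ) - N / p) * W| ≤ 1 := by
      rw [abs_mul, abs_of_nonneg w0]
      exact mul_le_one₀ h2 w0 w1
    rw [div_eq_mul_inv] at i3
    have i4 := abs_le.1 i3
    exact abs_le.2 ⟨by linarith, by linarith⟩

theorem cnt_exact (P : Finset ℕ) (hP : ∀ p ∈ P, p.Prime) (c : ℕ → ℤ) (a : ℤ) (N : ℕ)
    (hN : ∀ p ∈ P, p ∣ N) : (cnt P c a N : ℝ) = N * ∏ p ∈ P, (1 - (p : ℝ)⁻¹) := by
  induction P using Finset.induction_on generalizing c a N with
  | empty => simp [VSieve_empty]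
  | insert p P hpP ih =>
    have hP' : ∀ l ∈ P, l.Prime := fun l hl => hP l (mem_insert_of_mem hl)
    have hp := hP p (mem_insert_self _ _)
    obtain ⟨c2, a2, N2, h1, -, h2⟩ := VSieve_step hP' hp hpP c a N
    have h3 : (cnt (insert p P) c a N : ℝ) + cnt P c2 a2 N2 = cnt P c a N := by exact_mod_cast h1
    have h4 := h2 (hN p (mem_insert_self _ _))
    have h5 : (N2 : ℝ) * p = N := by exact_mod_cast h4
    have p0 : (p : ℝ) ≠ 0 := by exact_mod_cast hp.ne_zero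
    have h6 : (N2 : ℝ) = N * (p : ℝ)⁻¹ := by rw [← h5, mul_inv_cancel_right₀ p0]
    rw [ih hP' c a N fun l hl => hN l (mem_insert_of_mem hl), ih hP' c2 a2 N2 fun l hl =>
      ((Nat.coprime_primes (hP' l hl) hp).2 fun e => hpP (e ▸ hl)).dvd_of_dvd_mul_right
        (h4 ▸ hN l (mem_insert_of_mem hl)), h6] at h3
    rw [prod_insert hpP]
    linarith

theorem VSieve_pow {q : ℕ} (hq : q ≠ 0) : 16 ^ q.primeFactors.card ≤ 16 ^ 16 * q := by
  have h1 : (q.primeFactors.filter (· < 16)).card ≤ 16 :=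
    (card_le_card fun p hp => mem_range.2 (mem_filter.1 hp).2).trans (card_range 16).le
  have h2 : 16 ^ (q.primeFactors.filter fun p => ¬p < 16).card ≤
      ∏ p ∈ q.primeFactors.filter fun p => ¬p < 16, p :=
    pow_card_le_prod _ _ _ fun p hp => not_lt.1 (mem_filter.1 hp).2
  have h3 : ∏ p ∈ q.primeFactors.filter fun p => ¬p < 16, p ≤ q := Nat.le_of_dvd hq.bot_lt
    ((prod_dvd_prod_of_subset _ _ _ (filter_subset _ _)).trans (Nat.prod_primeFactors_dvd q))
  rw [← card_filter_add_card_filter_not (fun p => p < 16), pow_add]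
  exact Nat.mul_le_mul (Nat.pow_le_pow_right (by norm_num) h1) (h2.trans h3)

theorem small_err {ε : ℝ} (hε : 0 < ε) :
    ∃ Q : ℕ, ∀ q ≥ Q, (2 : ℝ) ^ q.primeFactors.card ≤ ε * q * w q := by
  obtain ⟨Q, hQ⟩ := exists_nat_gt ((16 : ℝ) ^ 16 / ε ^ 2)
  refine ⟨Q, fun q hq => ?_⟩
  have h1 : (16 : ℝ) ^ 16 / ε ^ 2 < q := hQ.trans_le (by exact_mod_cast hq)
  have q0 : (0 : ℝ) < q := lt_trans (by positivity) h1
  have h2 : (16 : ℝ) ^ q.primeFactors.card ≤ 16 ^ 16 * q := by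
    exact_mod_cast VSieve_pow (q := q) (by exact_mod_cast q0.ne')
  rw [div_lt_iff₀ (by positivity)] at h1
  have h3 : (4 : ℝ) ^ q.primeFactors.card ≤ ε * q := by
    refine (pow_le_pow_iff_left₀ (by positivity) (by positivity) two_ne_zero).1 ?_
    rw [← pow_mul, mul_comm _ 2, pow_mul, show (4 : ℝ) ^ 2 = 16 by norm_num]
    refine h2.trans ((mul_le_mul_of_nonneg_right h1.le q0.le).trans (le_of_eq ?_))
    ring
  have h4 : (1 / 2 : ℝ) ^ q.primeFactors.card ≤ w q := by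
    rw [← prod_const]
    exact prod_le_prod (fun _ _ => by norm_num) fun _ hp => fac_pos hp
  refine le_trans (le_of_eq ?_) (mul_le_mul h3 h4 (by positivity) (by positivity))
  rw [← mul_pow]
  norm_num

end Vale.Agent.P028.V
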