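import Mathlib

/-! A tensorised inequality for GCD sums. -/

namespace Vale.Agent.P028.X

open Real Finset

theorem geo {κ : ℝ} (h0 : 0 ≤ κ) (h1 : κ ≤ 5 / 7) (s : Finset ℕ) (φ : ℕ → ℕ)
    (hφ : Set.InjOn φ s) : ∑ j ∈ s, κ ^ (φ j + 1) ≤ 7 / 2 * κ := by
  have h2 : HasSum (fun d : ℕ => κ ^ (d + 1)) (κ * (1 - κ)⁻¹) := by
    simpa only [pow_succ'] using (hasSum_geometric_of_lt_one h0 (by linarith)).mul_left κ
  rw [← sum_image (f := fun d => κ ^ (d + 1)) hφ]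
  refine (sum_le_hasSum _ (fun _ _ => by positivity) h2).trans ?_
  rw [mul_comm]
  refine mul_le_mul_of_nonneg_right ?_ h0
  rw [inv_le_comm₀ (by linarith) (by norm_num)]
  linarith

/-- the off-diagonal kernel -/
noncomputable def off (κ : ℝ) (i j : ℕ) : ℝ := if i = j then 0 else κ ^ Nat.dist i j

theorem off_nonneg {κ : ℝ} (h0 : 0 ≤ κ) (i j : ℕ) : 0 ≤ off κ i j := by
  unfold off; split_ifs <;> positivity

theorem off_comm (κ : ℝ) (i j : ℕ) : off κ i j = off κ j i := by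
  unfold off; simp only [Nat.dist_comm i j, eq_comm]

theorem row {κ : ℝ} (h0 : 0 ≤ κ) (h1 : κ ≤ 5 / 7) (s : Finset ℕ) (i : ℕ) :
    ∑ j ∈ s, off κ i j ≤ 7 * κ := by
  have a1 := geo h0 h1 (s.filter (· < i)) (fun j => i - j - 1) fun a ha b hb e => by
    simp only [coe_filter, Set.mem_ofPred_eq] at ha hb e; omega
  have a2 := geo h0 h1 (s.filter (i < ·)) (fun j => j - i - 1) fun a ha b hb e => by
    simp only [coe_filter, Set.mem_ofPred_eq] at ha hb e; omega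
  rw [sum_filter] at a1 a2
  refine le_trans (le_of_eq ?_) ((add_le_add a1 a2).trans_eq (by ring))
  rw [← sum_add_distrib]
  refine sum_congr rfl fun j _ => ?_
  unfold off
  rcases lt_trichotomy j i with h | h | h
  · rw [if_neg h.ne', if_pos h, if_neg h.not_gt, add_zero, Nat.dist_eq_sub_of_le_right h.le]
    congr 1; omega
  · simp [h]
  · rw [if_neg h.ne, if_neg h.not_gt, if_pos h, zero_add, Nat.dist_eq_sub_of_le h.le]
    congr 1; omega

theorem schur {κ : ℝ} (h0 : 0 ≤ κ) (h1 : κ ≤ 5 / 7) (s t : Finset ℕ) (x y : ℕ → ℝ) {X Y : ℝ}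
    (hX : 0 ≤ X) (hY : 0 ≤ Y) (hx : ∑ i ∈ s, x i ^ 2 ≤ X ^ 2) (hy : ∑ j ∈ t, y j ^ 2 ≤ Y ^ 2) :
    ∑ i ∈ s, ∑ j ∈ t, off κ i j * (x i * y j) ≤ 7 * κ * (X * Y) := by
  have h := sum_mul_sq_le_sq_mul_sq (s ×ˢ t) (fun z => √(off κ z.1 z.2) * x z.1)
    (fun z => √(off κ z.1 z.2) * y z.2)
  have e : ∀ i j, √(off κ i j) ^ 2 = off κ i j := fun i j => sq_sqrt (off_nonneg h0 i j)
  simp only [mul_pow, e, sum_product] at h
  have a1 : ∑ i ∈ s, ∑ j ∈ t, off κ i j * x i ^ 2 ≤ 7 * κ * X ^ 2 := by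
    refine le_trans (sum_le_sum fun i _ => ?_) ((mul_sum s _ _).symm.trans_le
      (mul_le_mul_of_nonneg_left hx (by positivity)))
    rw [← sum_mul]
    exact mul_le_mul_of_nonneg_right (row h0 h1 t i) (sq_nonneg _)
  have a2 : ∑ i ∈ s, ∑ j ∈ t, off κ i j * y j ^ 2 ≤ 7 * κ * Y ^ 2 := by
    rw [sum_comm]
    refine le_trans (sum_le_sum fun j _ => ?_) ((mul_sum t _ _).symm.trans_le
      (mul_le_mul_of_nonneg_left hy (by positivity)))
    rw [← sum_mul]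
    simp only [off_comm κ _ j]
    exact mul_le_mul_of_nonneg_right (row h0 h1 s j) (sq_nonneg _)
  have a3 : ∀ i j, √(off κ i j) * x i * (√(off κ i j) * y j) = off κ i j * (x i * y j) :=
    fun i j => by rw [mul_mul_mul_comm, ← sq, e]
  simp only [a3] at h
  refine abs_le_of_sq_le_sq' ?_ (by positivity) |>.2
  refine h.trans ((mul_le_mul a1 a2 (sum_nonneg fun i _ => sum_nonneg fun j _ =>
    mul_nonneg (off_nonneg h0 _ _) (sq_nonneg _)) (by positivity)).trans_eq (by ring))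

theorem sum_sq_le {θ : ℝ} (hθ : 1 / 2 ≤ θ) (s : Finset ℕ) {a : ℕ → ℝ} (ha : ∀ i, 0 ≤ a i) :
    ∑ i ∈ s, (a i ^ θ) ^ 2 ≤ ((∑ i ∈ s, a i) ^ θ) ^ 2 := by
  have hA : 0 ≤ ∑ i ∈ s, a i := sum_nonneg fun i _ => ha i
  have e : ∀ x : ℝ, 0 ≤ x → (x ^ θ) ^ 2 = x * x ^ (2 * θ - 1) := fun x hx => by
    rw [← rpow_natCast, ← rpow_mul hx, ← rpow_one_add' hx (by linarith)]
    congr 1; push_cast; ring
  rw [e _ hA, sum_mul]
  refine sum_le_sum fun i hi => ?_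
  rw [e _ (ha i)]
  exact mul_le_mul_of_nonneg_left
    (rpow_le_rpow (ha i) (single_le_sum (fun j _ => ha j) hi) (by linarith)) (ha i)

theorem young {t η θ α : ℝ} (ht : 0 ≤ t) (hη : 0 < η) (h0 : 0 < θ) (h1 : θ < 1) (hα : 0 ≤ α) :
    t * α ^ θ ≤ η * α + t * (t / η) ^ (θ / (1 - θ)) := by
  have h2 : 0 < 1 - θ := by linarith
  by_cases h : α ≤ (t / η) ^ (1 / (1 - θ))
  · have h3 := rpow_le_rpow hα h h0.le
    rw [← rpow_mul (by positivity), one_div_mul_eq_div] at h3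
    have := mul_le_mul_of_nonneg_left h3 ht
    have : 0 ≤ η * α := by positivity
    linarith
  · have h3 := rpow_le_rpow (by positivity) (not_le.1 h).le h2.le
    rw [← rpow_mul (by positivity), one_div_mul_cancel h2.ne', rpow_one, div_le_iff₀ hη] at h3
    have h4 : α ^ (1 - θ) * α ^ θ = α := by
      rw [← rpow_add' hα (by simp), sub_add_cancel, rpow_one]
    have h5 := mul_le_mul_of_nonneg_right h3 (rpow_nonneg hα θ)
    have : 0 ≤ t * (t / η) ^ (θ / (1 - θ)) := by positivity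
    rw [mul_right_comm, h4] at h5
    linarith

theorem diag {ε : ℝ} (h0 : 0 < ε) (h1 : ε ≤ 1 / 4) (s : Finset ℕ) {a b : ℕ → ℝ} (ha : ∀ i, 0 ≤ a i)
    (hb : ∀ i, 0 ≤ b i) (hA : ∑ i ∈ s, a i = 1) (hB : ∑ i ∈ s, b i = 1) {k : ℕ} (hk : k ∈ s)
    (hm : ∀ i ∈ s, a i * b i ≤ a k * b k) :
    ∑ i ∈ s, a i ^ (1 / 2 + ε) * b i ^ (1 / 2 + ε) ≤
      1 - 2 / 5 * ε * (∑ i ∈ s.erase k, a i + ∑ i ∈ s.erase k, b i) := by
  have e1 := add_sum_erase s a hk
  have e2 := add_sum_erase s b hk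
  have am : ∀ i, √(a i * b i) ≤ (a i + b i) / 2 := fun i => by
    rw [sqrt_le_left (by linarith [ha i, hb i])]; nlinarith [sq_nonneg (a i - b i)]
  have sp : ∀ i, a i ^ (1 / 2 + ε) * b i ^ (1 / 2 + ε) = √(a i * b i) * (a i * b i) ^ ε :=
    fun i => by
      rw [← mul_rpow (ha i) (hb i), rpow_add' (mul_nonneg (ha i) (hb i)) (by linarith),
        sqrt_eq_rpow]
  have n1 : 0 ≤ ∑ i ∈ s.erase k, a i := sum_nonneg fun i _ => ha i
  have n2 : 0 ≤ ∑ i ∈ s.erase k, b i := sum_nonneg fun i _ => hb i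
  have q4 : (4⁻¹ : ℝ) ^ ε ≤ 1 - 4 / 5 * ε := by
    have l4 : 1 ≤ log 4 := by
      rw [show (4 : ℝ) = 2 ^ 2 by norm_num, log_pow]; push_cast; linarith [log_two_gt_d9]
    have h2 : 1 + ε ≤ (4 : ℝ) ^ ε := by
      rw [rpow_def_of_pos (by norm_num)]
      nlinarith [add_one_le_exp (log 4 * ε)]
    rw [inv_rpow (by norm_num)]
    refine (inv_anti₀ (by positivity) h2).trans ?_
    rw [inv_le_iff_one_le_mul₀ (by positivity)]
    nlinarith
  have k1 : a k ^ (1 / 2 + ε) * b k ^ (1 / 2 + ε) ≤ (a k + b k) / 2 := by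
    rw [sp]
    refine (mul_le_of_le_one_right (sqrt_nonneg _) (rpow_le_one (mul_nonneg (ha k) (hb k))
      (mul_le_one₀ (by linarith) (hb k) (by linarith)) h0.le)).trans (am k)
  have k2 : ∀ i ∈ s.erase k, a i ^ (1 / 2 + ε) * b i ^ (1 / 2 + ε) ≤
      (a i + b i) / 2 * (1 - 4 / 5 * ε) := fun i hi => by
    rw [sp]
    have c1 := single_le_sum (fun j _ => ha j) hi
    have c2 := single_le_sum (fun j _ => hb j) hi
    have c3 := sqrt_le_sqrt (hm i (mem_of_mem_erase hi))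
    have c4 : √(a i * b i) ≤ 1 / 2 := by linarith [am i, am k]
    have c5 : a i * b i ≤ 4⁻¹ := by
      rw [sqrt_le_left (by norm_num)] at c4; linarith
    exact mul_le_mul (am i) ((rpow_le_rpow (mul_nonneg (ha i) (hb i)) c5 h0.le).trans q4)
      (rpow_nonneg (mul_nonneg (ha i) (hb i)) _) (by linarith [ha i, hb i])
  rw [← add_sum_erase s _ hk]
  have k3 := sum_le_sum k2
  rw [← sum_mul, ← sum_div, sum_add_distrib] at k3
  nlinarith

/-- the local constant -/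
noncomputable def cc (ε κ : ℝ) : ℝ :=
  1 + 2 * (7 * κ * (7 * κ / (2 / 5 * ε)) ^ ((1 / 2 + ε) / (1 - (1 / 2 + ε))))

theorem loc1 {ε κ : ℝ} (h0 : 0 < ε) (h1 : ε ≤ 1 / 4) (k0 : 0 ≤ κ) (k1 : κ ≤ 5 / 7) (s : Finset ℕ)
    {a b : ℕ → ℝ} (ha : ∀ i, 0 ≤ a i) (hb : ∀ i, 0 ≤ b i) (hA : ∑ i ∈ s, a i = 1)
    (hB : ∑ i ∈ s, b i = 1) :
    ∑ i ∈ s, ∑ j ∈ s, κ ^ Nat.dist i j * (a i ^ (1 / 2 + ε) * b j ^ (1 / 2 + ε)) ≤ cc ε κ := by
  have hs : s.Nonempty := by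
    by_contra h
    rw [not_nonempty_iff_eq_empty.1 h] at hA
    simp at hA
  obtain ⟨k, hk, hm⟩ := exists_max_image s (fun i => a i * b i) hs
  have d := diag h0 h1 s ha hb hA hB hk hm
  have hθ : 1 / 2 ≤ 1 / 2 + ε := by linarith
  have n1 : 0 ≤ ∑ i ∈ s.erase k, a i := sum_nonneg fun i _ => ha i
  have n2 : 0 ≤ ∑ i ∈ s.erase k, b i := sum_nonneg fun i _ => hb i
  have s1 := schur k0 k1 (s.erase k) s _ _ (rpow_nonneg n1 _) zero_le_one (sum_sq_le hθ _ ha)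
    ((sum_sq_le hθ s hb).trans_eq (by rw [hB, one_rpow]))
  have s2 := schur k0 k1 {k} (s.erase k) (fun i => a i ^ (1 / 2 + ε)) _ zero_le_one
    (rpow_nonneg n2 _) (le_trans (sum_le_sum_of_subset_of_nonneg (by simpa using hk)
      fun _ _ _ => sq_nonneg _) ((sum_sq_le hθ s ha).trans_eq (by rw [hA, one_rpow])))
    (sum_sq_le hθ _ hb)
  have y1 := young (t := 7 * κ) (η := 2 / 5 * ε) (θ := 1 / 2 + ε) (by positivity) (by positivity)
    (by linarith) (by linarith) n1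
  have y2 := young (t := 7 * κ) (η := 2 / 5 * ε) (θ := 1 / 2 + ε) (by positivity) (by positivity)
    (by linarith) (by linarith) n2
  have e : ∀ i ∈ s, ∑ j ∈ s, κ ^ Nat.dist i j * (a i ^ (1 / 2 + ε) * b j ^ (1 / 2 + ε)) =
      a i ^ (1 / 2 + ε) * b i ^ (1 / 2 + ε) +
        ∑ j ∈ s, off κ i j * (a i ^ (1 / 2 + ε) * b j ^ (1 / 2 + ε)) := fun i hi => by
    rw [← add_sum_erase s _ hi, ← add_sum_erase s _ hi, Nat.dist_self, pow_zero, one_mul, off,
      if_pos rfl, zero_mul, zero_add]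
    congr 1
    exact sum_congr rfl fun j hj => by rw [off, if_neg (ne_of_mem_erase hj).symm]
  rw [sum_congr rfl e, sum_add_distrib, ← add_sum_erase s (fun i => ∑ j ∈ s, _) hk,
    ← add_sum_erase s (fun j => off κ k j * _) hk, off, if_pos rfl]
  rw [sum_singleton] at s2
  unfold cc
  linarith

theorem cc_pos {ε κ : ℝ} (h0 : 0 < ε) (k0 : 0 ≤ κ) : 0 < cc ε κ := by unfold cc; positivity

theorem loc {ε κ : ℝ} (h0 : 0 < ε) (h1 : ε ≤ 1 / 4) (k0 : 0 ≤ κ) (k1 : κ ≤ 5 / 7) (s : Finset ℕ)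
    {a b : ℕ → ℝ} (ha : ∀ i, 0 ≤ a i) (hb : ∀ i, 0 ≤ b i) :
    ∑ i ∈ s, ∑ j ∈ s, κ ^ Nat.dist i j * (a i ^ (1 / 2 + ε) * b j ^ (1 / 2 + ε)) ≤
      cc ε κ * ((∑ i ∈ s, a i) ^ (1 / 2 + ε) * (∑ i ∈ s, b i) ^ (1 / 2 + ε)) := by
  have hθ : 1 / 2 + ε ≠ 0 := by positivity
  rcases (sum_nonneg fun i (_ : i ∈ s) => ha i).eq_or_lt with hA | hA
  · have := (sum_eq_zero_iff_of_nonneg fun i (_ : i ∈ s) => ha i).1 hA.symm
    rw [← hA, zero_rpow hθ, zero_mul, mul_zero]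
    exact (sum_eq_zero fun i hi => sum_eq_zero fun j _ => by
      rw [this i hi, zero_rpow hθ, zero_mul, mul_zero]).le
  rcases (sum_nonneg fun i (_ : i ∈ s) => hb i).eq_or_lt with hB | hB
  · have := (sum_eq_zero_iff_of_nonneg fun i (_ : i ∈ s) => hb i).1 hB.symm
    rw [← hB, zero_rpow hθ, mul_zero, mul_zero]
    exact (sum_eq_zero fun i _ => sum_eq_zero fun j hj => by
      rw [this j hj, zero_rpow hθ, mul_zero, mul_zero]).le
  have h := loc1 h0 h1 k0 k1 s (a := fun i => a i / ∑ i ∈ s, a i) (b := fun i => b i / ∑ i ∈ s, b i)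
    (fun i => div_nonneg (ha i) hA.le) (fun i => div_nonneg (hb i) hB.le)
    (by rw [← sum_div, div_self hA.ne']) (by rw [← sum_div, div_self hB.ne'])
  simp only [div_rpow (ha _) hA.le, div_rpow (hb _) hB.le, div_mul_div_comm] at h
  simp only [← mul_div_assoc, ← sum_div] at h
  rwa [div_le_iff₀ (by positivity)] at h

/-- tensorisation over a finite set of coordinates -/
theorem tensor {ι : Type} [DecidableEq ι] {ε : ℝ} (h0 : 0 < ε) (h1 : ε ≤ 1 / 4) (κ : ℕ → ℝ)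
    (v : ι → ℕ → ℕ) {a b : ι → ℝ} (ha : ∀ i, 0 ≤ a i) (hb : ∀ i, 0 ≤ b i) (P : Finset ℕ) :
    (∀ p ∈ P, 0 ≤ κ p ∧ κ p ≤ 5 / 7) → ∀ V W : Finset ι,
    (∀ q ∈ V, ∀ q' ∈ V, (∀ p ∈ P, v q p = v q' p) → q = q') →
    (∀ q ∈ W, ∀ q' ∈ W, (∀ p ∈ P, v q p = v q' p) → q = q') →
    ∑ q ∈ V, ∑ r ∈ W, (∏ p ∈ P, κ p ^ Nat.dist (v q p) (v r p)) *
      (a q ^ (1 / 2 + ε) * b r ^ (1 / 2 + ε)) ≤
    (∏ p ∈ P, cc ε (κ p)) * ((∑ q ∈ V, a q) ^ (1 / 2 + ε) * (∑ r ∈ W, b r) ^ (1 / 2 + ε)) := by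
  induction P using Finset.induction_on with
  | empty =>
    intro _ V W hV hW
    have one : ∀ (U : Finset ι) (c : ι → ℝ), (∀ i, 0 ≤ c i) →
        (∀ q ∈ U, ∀ q' ∈ U, (∀ p ∈ (∅ : Finset ℕ), v q p = v q' p) → q = q') →
        ∑ q ∈ U, c q ^ (1 / 2 + ε) ≤ (∑ q ∈ U, c q) ^ (1 / 2 + ε) := fun U c hc hU => by
      rcases U.eq_empty_or_nonempty with rfl | ⟨x, hx⟩
      · simp only [sum_empty]; positivity
      · rw [eq_singleton_iff_unique_mem.2 ⟨hx, fun y hy => hU y hy x hx (by simp)⟩]; simp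
    simp only [prod_empty, one_mul, ← sum_mul_sum]
    exact mul_le_mul (one V a ha hV) (one W b hb hW)
      (sum_nonneg fun i _ => rpow_nonneg (hb i) _) (rpow_nonneg (sum_nonneg fun i _ => ha i) _)
  | insert p P hp ih =>
    intro hκ V W hV hW
    have ih := ih fun x hx => hκ x (mem_insert_of_mem hx)
    obtain ⟨k0, k1⟩ := hκ p (mem_insert_self _ _)
    set s := V.image (fun q => v q p) ∪ W.image fun q => v q p
    have mV : ∀ q ∈ V, v q p ∈ s := fun q hq => mem_union_left _ (mem_image_of_mem _ hq)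
    have mW : ∀ q ∈ W, v q p ∈ s := fun q hq => mem_union_right _ (mem_image_of_mem _ hq)
    have inj : ∀ (U : Finset ι) (i : ℕ),
        (∀ q ∈ U, ∀ q' ∈ U, (∀ x ∈ insert p P, v q x = v q' x) → q = q') →
        ∀ q ∈ U.filter (fun q => v q p = i), ∀ q' ∈ U.filter (fun q => v q p = i),
          (∀ x ∈ P, v q x = v q' x) → q = q' := fun U i hU q hq q' hq' h => by
      rw [mem_filter] at hq hq'
      refine hU q hq.1 q' hq'.1 fun x hx => ?_
      rcases mem_insert.1 hx with rfl | hx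
      · rw [hq.2, hq'.2]
      · exact h x hx
    have l := loc h0 h1 k0 k1 s (a := fun i => ∑ q ∈ V with v q p = i, a q)
      (b := fun i => ∑ q ∈ W with v q p = i, b q) (fun i => sum_nonneg fun q _ => ha q)
      (fun i => sum_nonneg fun q _ => hb q)
    rw [sum_fiberwise_of_maps_to mV, sum_fiberwise_of_maps_to mW] at l
    have hC : 0 ≤ ∏ x ∈ P, cc ε (κ x) :=
      prod_nonneg fun x hx => (cc_pos h0 (hκ x (mem_insert_of_mem hx)).1).le
    rw [prod_insert hp, mul_comm (cc ε (κ p)), mul_assoc]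
    refine le_trans ?_ (mul_le_mul_of_nonneg_left l hC)
    rw [← sum_fiberwise_of_maps_to mV, mul_sum]
    refine sum_le_sum fun i _ => ?_
    simp only [← sum_fiberwise_of_maps_to mW (fun r => (∏ x ∈ insert p P, _) * _)]
    rw [sum_comm, mul_sum]
    refine sum_le_sum fun j _ => ?_
    rw [mul_left_comm]
    refine le_trans (le_of_eq ?_) (mul_le_mul_of_nonneg_left
      (ih _ _ (inj V i hV) (inj W j hW)) (pow_nonneg k0 _))
    rw [mul_sum]
    refine sum_congr rfl fun q hq => ?_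
    rw [mul_sum]
    refine sum_congr rfl fun r hr => ?_
    rw [prod_insert hp, (mem_filter.1 hq).2, (mem_filter.1 hr).2, mul_assoc]

end Vale.Agent.P028.X
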